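import Vale.Agent.P134.Defs

/-! # P134, module CUT: product cutoffs

`η x = ∏ i, χ ((x i - c i) / r i)` with
`χ t = Real.smoothTransition (2 - t) * Real.smoothTransition (2 + t)`, which is smooth, `= 1` on
`|t| ≤ 1`, `= 0` for `|t| ≥ 2`, with `|χ'| ≤ K` (continuous with compact support). -/

open MeasureTheory Set Filter Topology

namespace Vale.Agent.P134

/-- one-dimensional cutoff -/
noncomputable def cutχ (t : ℝ) : ℝ := Real.smoothTransition (2 - t) * Real.smoothTransition (2 + t)

theorem cutχ_smooth : ContDiff ℝ 1 cutχ := by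
  unfold cutχ
  exact (Real.smoothTransition.contDiff.comp (contDiff_const.sub contDiff_id)).mul
    (Real.smoothTransition.contDiff.comp (contDiff_const.add contDiff_id))

theorem cutχ_nonneg (t : ℝ) : 0 ≤ cutχ t :=
  mul_nonneg (Real.smoothTransition.nonneg _) (Real.smoothTransition.nonneg _)

theorem cutχ_le (t : ℝ) : cutχ t ≤ 1 :=
  mul_le_one₀ (Real.smoothTransition.le_one _) (Real.smoothTransition.nonneg _)
    (Real.smoothTransition.le_one _)

theorem cutχ_one {t : ℝ} (ht : |t| ≤ 1) : cutχ t = 1 := by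
  have h := abs_le.1 ht
  unfold cutχ
  rw [Real.smoothTransition.one_of_one_le (by linarith),
    Real.smoothTransition.one_of_one_le (by linarith), one_mul]

theorem cutχ_zero {t : ℝ} (ht : 2 ≤ |t|) : cutχ t = 0 := by
  unfold cutχ
  rcases le_abs.1 ht with h | h
  · rw [Real.smoothTransition.zero_of_nonpos (by linarith), zero_mul]
  · rw [Real.smoothTransition.zero_of_nonpos (x := 2 + t) (by linarith), mul_zero]

theorem cutχ_deriv_in {t : ℝ} (ht : |t| < 1) : deriv cutχ t = 0 := by
  have h : cutχ =ᶠ[𝓝 t] fun _ => (1 : ℝ) := by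
    have : ∀ᶠ s in 𝓝 t, |s| < 1 := (continuous_abs.tendsto t).eventually (gt_mem_nhds ht)
    exact this.mono fun s hs => cutχ_one hs.le
  rw [h.deriv_eq, deriv_const]

theorem cutχ_deriv_out {t : ℝ} (ht : 2 < |t|) : deriv cutχ t = 0 := by
  have h : cutχ =ᶠ[𝓝 t] fun _ => (0 : ℝ) := by
    have : ∀ᶠ s in 𝓝 t, 2 < |s| := (continuous_abs.tendsto t).eventually (lt_mem_nhds ht)
    exact this.mono fun s hs => cutχ_zero hs.le
  rw [h.deriv_eq, deriv_const]

theorem cutχ_bound : ∃ K : ℝ, 0 < K ∧ ∀ t, |deriv cutχ t| ≤ K := by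
  have hc : Continuous (deriv cutχ) := cutχ_smooth.continuous_deriv le_rfl
  have hs : HasCompactSupport (deriv cutχ) := by
    refine HasCompactSupport.intro (isCompact_Icc (a := (-2 : ℝ)) (b := 2)) fun t ht => ?_
    refine cutχ_deriv_out ?_
    by_contra hcon
    exact ht (abs_le.1 (not_lt.1 hcon))
  obtain ⟨C, hC⟩ := hc.bounded_above_of_compact_support hs
  exact ⟨max C 1, lt_max_of_lt_right one_pos, fun t => (hC t).trans (le_max_left _ _)⟩

theorem cut_box_compact {n : ℕ} (c : E n) (r : Fin n → ℝ) : IsCompact (box c r) := by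
  have h : box c r = (EuclideanSpace.equiv (Fin n) ℝ) ⁻¹'
      (Set.pi Set.univ fun i => Set.Icc (c i - r i) (c i + r i)) := by
    ext x
    simp only [box, Set.mem_setOf_eq, Set.mem_preimage, Set.mem_pi, Set.mem_univ, true_implies,
      Set.mem_Icc]
    refine forall_congr' fun i => ?_
    rw [abs_le]
    change _ ↔ c i - r i ≤ x i ∧ x i ≤ c i + r i
    constructor <;> intro h <;> constructor <;> linarith [h.1, h.2]
  rw [h]
  exact (EuclideanSpace.equiv (Fin n) ℝ).toHomeomorph.isCompact_preimage.2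
    (isCompact_univ_pi fun i => isCompact_Icc)

theorem cut : ∃ K : ℝ, 0 < K ∧ ∀ (n : ℕ) (c : E n) (r : Fin n → ℝ), (∀ i, 0 < r i) →
    ∃ η : E n → ℝ, ContDiff ℝ 1 η ∧ HasCompactSupport η ∧ (∀ x, 0 ≤ η x ∧ η x ≤ 1) ∧
      (∀ x ∈ box c r, η x = 1) ∧ (∀ x, x ∉ box c (fun i => 2 * r i) → η x = 0) ∧
      (∀ i x, |pd i η x| ≤ K / r i) ∧
      (∀ i x, x ∉ box c (fun i => 2 * r i) → pd i η x = 0) ∧
      (∀ i x, |x i - c i| < r i → pd i η x = 0) := by
  obtain ⟨K, hK, hKb⟩ := cutχ_bound
  refine ⟨K, hK, fun n c r hr => ?_⟩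
  set η : E n → ℝ := fun x => ∏ i, cutχ ((x i - c i) / r i) with hη
  have hηd : ContDiff ℝ 1 η := by
    refine contDiff_prod fun i _ => ?_
    refine cutχ_smooth.comp ?_
    exact (((EuclideanSpace.proj i : E n →L[ℝ] ℝ).contDiff).sub contDiff_const).div_const _
  have hout : ∀ x, x ∉ box c (fun i => 2 * r i) → ∃ j, 2 < |(x j - c j) / r j| := by
    intro x hx
    simp only [box, Set.mem_setOf_eq, not_forall, not_le] at hx
    obtain ⟨j, hj⟩ := hx
    refine ⟨j, ?_⟩
    rw [abs_div, abs_of_pos (hr j), lt_div_iff₀ (hr j)]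
    exact hj
  have hη0 : ∀ x, x ∉ box c (fun i => 2 * r i) → η x = 0 := by
    intro x hx
    obtain ⟨j, hj⟩ := hout x hx
    exact Finset.prod_eq_zero (Finset.mem_univ j) (cutχ_zero hj.le)
  have hpd : ∀ i x, pd i η x = (∏ k ∈ Finset.univ.erase i, cutχ ((x k - c k) / r k)) *
      (deriv cutχ ((x i - c i) / r i) / r i) := by
    intro i x
    have hdiff : DifferentiableAt ℝ η x := hηd.differentiable (by norm_num) x
    unfold pd
    rw [← hdiff.lineDeriv_eq_fderiv]
    unfold lineDeriv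
    have hfun : (fun t : ℝ => η (x + t • EuclideanSpace.single i (1 : ℝ))) = fun t =>
        (∏ k ∈ Finset.univ.erase i, cutχ ((x k - c k) / r k)) *
          cutχ ((x i + t - c i) / r i) := by
      funext t
      simp only [hη]
      rw [← Finset.prod_erase_mul _ _ (Finset.mem_univ i)]
      congr 1
      · refine Finset.prod_congr rfl fun k hk => ?_
        have hki : k ≠ i := Finset.ne_of_mem_erase hk
        simp [hki]
      · simp
    rw [hfun]
    have h1 : HasDerivAt (fun t : ℝ => (x i + t - c i) / r i) (1 / r i) 0 := by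
      have := (((hasDerivAt_id (0 : ℝ)).const_add (x i)).sub_const (c i)).div_const (r i)
      exact this
    have h2 : HasDerivAt cutχ (deriv cutχ ((x i + 0 - c i) / r i)) ((x i + 0 - c i) / r i) :=
      (cutχ_smooth.differentiable (by norm_num) _).hasDerivAt
    have h3 := (h2.comp (0 : ℝ) h1).const_mul
      (∏ k ∈ Finset.univ.erase i, cutχ ((x k - c k) / r k))
    have h4 := h3.deriv
    simp only [add_zero] at h4
    rw [show (fun t : ℝ => (∏ k ∈ Finset.univ.erase i, cutχ ((x k - c k) / r k)) *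
          cutχ ((x i + t - c i) / r i)) = fun y =>
      (∏ k ∈ Finset.univ.erase i, cutχ ((x k - c k) / r k)) *
        (cutχ ∘ fun t : ℝ => (x i + t - c i) / r i) y from rfl, h4, mul_one_div]
  refine ⟨η, hηd, HasCompactSupport.intro (cut_box_compact c _) hη0, fun x => ⟨?_, ?_⟩, ?_, hη0,
    ?_, ?_, ?_⟩
  · exact Finset.prod_nonneg fun i _ => cutχ_nonneg _
  · exact Finset.prod_le_one (fun i _ => cutχ_nonneg _) fun i _ => cutχ_le _
  · intro x hx
    refine Finset.prod_eq_one fun i _ => cutχ_one ?_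
    rw [abs_div, abs_of_pos (hr i), div_le_one (hr i)]
    exact hx i
  · intro i x
    rw [hpd, abs_mul, abs_div, abs_of_pos (hr i)]
    have h1 : |∏ k ∈ Finset.univ.erase i, cutχ ((x k - c k) / r k)| ≤ 1 := by
      rw [abs_of_nonneg (Finset.prod_nonneg fun i _ => cutχ_nonneg _)]
      exact Finset.prod_le_one (fun i _ => cutχ_nonneg _) fun i _ => cutχ_le _
    have h2 : |deriv cutχ ((x i - c i) / r i)| / r i ≤ K / r i :=
      div_le_div_of_nonneg_right (hKb _) (hr i).le
    have h3 : 0 ≤ |deriv cutχ ((x i - c i) / r i)| / r i :=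
      div_nonneg (abs_nonneg _) (hr i).le
    calc _ ≤ 1 * (|deriv cutχ ((x i - c i) / r i)| / r i) := mul_le_mul_of_nonneg_right h1 h3
      _ ≤ K / r i := by rw [one_mul]; exact h2
  · intro i x hx
    rw [hpd]
    obtain ⟨j, hj⟩ := hout x hx
    by_cases hji : j = i
    · subst hji
      rw [cutχ_deriv_out hj, zero_div, mul_zero]
    · rw [Finset.prod_eq_zero (Finset.mem_erase.2 ⟨hji, Finset.mem_univ j⟩) (cutχ_zero hj.le),
        zero_mul]
  · intro i x hx
    rw [hpd, cutχ_deriv_in, zero_div, mul_zero]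
    rw [abs_div, abs_of_pos (hr i), div_lt_one (hr i)]
    exact hx

end Vale.Agent.P134
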