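import Vale.Agent.P134.Defs

/-! # P134, module VOL: boxes

`box c r` is the preimage of a closed box of `Fin n → ℝ` under the measure preserving equivalence
(`EuclideanSpace.volume_preserving_measurableEquiv` or `volume_preserving_ofLp`), `Real.volume_Icc_pi`.
-/

open MeasureTheory Set Filter Topology

namespace Vale.Agent.P134

theorem VOL_eq {n : ℕ} (c : E n) (r : Fin n → ℝ) :
    box c r = (WithLp.ofLp : E n → (Fin n → ℝ)) ⁻¹'
      Icc (fun i => c i - r i) (fun i => c i + r i) := by
  ext x
  simp only [box, mem_ofPred_eq, mem_preimage, mem_Icc, Pi.le_def, abs_le]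
  constructor
  · intro h
    exact ⟨fun i => by linarith [(h i).1], fun i => by linarith [(h i).2]⟩
  · intro h i
    exact ⟨by linarith [h.1 i], by linarith [h.2 i]⟩

theorem box_compact {n : ℕ} (c : E n) (r : Fin n → ℝ) : IsCompact (box c r) := by
  have h : box c r = (EuclideanSpace.equiv (Fin n) ℝ).toHomeomorph ⁻¹'
      Icc (fun i => c i - r i) (fun i => c i + r i) := VOL_eq c r
  rw [h, Homeomorph.isCompact_preimage]
  exact isCompact_Icc

theorem box_vol {n : ℕ} (c : E n) {r : Fin n → ℝ} (hr : ∀ i, 0 ≤ r i) :
    (volume (box c r)).toReal = ∏ i, (2 * r i) := by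
  rw [VOL_eq, (PiLp.volume_preserving_ofLp (Fin n)).measure_preimage
    measurableSet_Icc.nullMeasurableSet, Real.volume_Icc_pi_toReal]
  · refine Finset.prod_congr rfl fun i _ => ?_
    ring
  · intro i
    have := hr i
    change c i - r i ≤ c i + r i
    linarith

theorem side_prod {n : ℕ} {p q : Fin n} (hpq : p ≠ q) (N R : ℝ) :
    ∏ i, side p q N R i = N ^ (n - 2) * R ^ 2 := by
  classical
  unfold side
  rw [Finset.prod_ite, Finset.prod_const, Finset.prod_const]
  have h1 : (Finset.univ.filter fun i : Fin n => i = p ∨ i = q) = {p, q} := by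
    ext i
    simp
  have h2 : (Finset.univ.filter fun i : Fin n => i = p ∨ i = q).card = 2 := by
    rw [h1, Finset.card_pair hpq]
  have h3 : (Finset.univ.filter fun i : Fin n => ¬ (i = p ∨ i = q)).card = n - 2 := by
    have h4 := Finset.card_filter_add_card_filter_not (s := (Finset.univ : Finset (Fin n)))
      (fun i => i = p ∨ i = q)
    rw [h2, Finset.card_univ, Fintype.card_fin] at h4
    omega
  rw [h2, h3, mul_comm]

end Vale.Agent.P134
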