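import Vale.Agent.P134.Vol

/-! # P134, module PER: a periodic function with small averages vanishes

Suppose `G x₀ = 2 δ > 0`; take `ρ ∈ (0, 1)` with `G ≥ δ` on the ball `B(x₀, ρ)`.  By linear
independence there is `κ > 0` with `‖∑ k j • v j‖ ≥ κ` for all nonzero integer vectors `k`
(the linear map `k ↦ ∑ k j • v j` on `Fin m → ℝ` is injective, hence antilipschitz:
`LinearMap.exists_antilipschitzWith`); shrink `ρ < κ / 2`.  For a natural number `M` the balls
`B(x₀ + ∑ k j • v j, ρ)`, `k ∈ {0, ..., M-1}^m`, are pairwise disjoint and contained in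
`box x₀ (side p q (A M) 1)` with `A = 1 + ∑ j ‖v j‖` (the coordinates `p, q` of `v j` vanish), and
the integral of `G` over each is that over `B(x₀, ρ)`, `≥ δ vol B(x₀, ρ) =: β > 0`.  So
`M^m β ≤ ε (A M)^m` for large `M`, for each `ε > 0`: contradiction.  (`m = n - 2`.) -/

open MeasureTheory Set Filter Topology

namespace Vale.Agent.P134

/-- integer combination of the periods -/
noncomputable def PER_W {n m : ℕ} (v : Fin m → E n) (k : Fin m → ℕ) : E n :=
  ∑ j, (k j : ℝ) • v j

theorem PER_period {n m : ℕ} {G : E n → ℝ} {v : Fin m → E n} (hper : ∀ j x, G (x + v j) = G x)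
    (k : Fin m → ℕ) (x : E n) : G (x + PER_W v k) = G x := by
  have h1 : ∀ (j : Fin m) (c : ℕ) (x : E n), G (x + (c : ℝ) • v j) = G x := by
    intro j c
    induction c with
    | zero => intro x; simp
    | succ c ih =>
      intro x
      have : x + ((c + 1 : ℕ) : ℝ) • v j = (x + (c : ℝ) • v j) + v j := by
        push_cast
        rw [add_smul, one_smul]
        abel
      rw [this, hper, ih]
  have h2 : ∀ s : Finset (Fin m), ∀ x : E n, G (x + ∑ j ∈ s, (k j : ℝ) • v j) = G x := by
    intro s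
    induction s using Finset.induction_on with
    | empty => intro x; simp
    | insert j s hj ih =>
      intro x
      rw [Finset.sum_insert hj, ← add_assoc, ih, h1]
  exact h2 Finset.univ x

theorem PER_sep {n m : ℕ} {v : Fin m → E n} (hv : LinearIndependent ℝ v) :
    ∃ κ > 0, ∀ k l : Fin m → ℕ, k ≠ l → κ ≤ dist (PER_W v k) (PER_W v l) := by
  obtain ⟨T, hT⟩ : ∃ T : (Fin m → ℝ) →ₗ[ℝ] E n, T = Fintype.linearCombination ℝ v := ⟨_, rfl⟩
  have hTa : ∀ c, T c = ∑ j, c j • v j := fun c => by
    rw [hT, Fintype.linearCombination_apply]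
  have hinj : LinearMap.ker T = ⊥ := by
    rw [LinearMap.ker_eq_bot']
    intro c hc
    rw [hTa] at hc
    funext j
    exact (Fintype.linearIndependent_iff.1 hv) c hc j
  obtain ⟨K, hK, hanti⟩ := T.exists_antilipschitzWith hinj
  refine ⟨(K : ℝ)⁻¹, by positivity, fun k l hkl => ?_⟩
  have h1 := hanti.le_mul_dist (fun j => (k j : ℝ)) (fun j => (l j : ℝ))
  rw [hTa, hTa] at h1
  have h2 : (1 : ℝ) ≤ dist (fun j => (k j : ℝ)) (fun j => (l j : ℝ)) := by
    obtain ⟨j, hj⟩ := Function.ne_iff.1 hkl
    refine le_trans ?_ (dist_le_pi_dist (fun j => (k j : ℝ)) (fun j => (l j : ℝ)) j)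
    rw [Real.dist_eq]
    have h3 : (1 : ℤ) ≤ |(k j : ℤ) - (l j : ℤ)| := by
      apply Int.one_le_abs
      intro h
      apply hj
      have : (k j : ℤ) = (l j : ℤ) := by linarith
      exact_mod_cast this
    exact_mod_cast h3
  have hK' : (0 : ℝ) < K := by exact_mod_cast hK
  rw [inv_le_iff_one_le_mul₀ hK', mul_comm]
  exact h2.trans h1

theorem per {n m : ℕ} (hm : m = n - 2) {p q : Fin n} {G : E n → ℝ} (hG : Continuous G)
    (hG0 : ∀ x, 0 ≤ G x) {v : Fin m → E n} (hv : LinearIndependent ℝ v)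
    (hvp : ∀ j, v j p = 0) (hvq : ∀ j, v j q = 0) (hper : ∀ j x, G (x + v j) = G x)
    (havg : ∀ ε : ℝ, 0 < ε → ∃ N₀ : ℝ, 1 ≤ N₀ ∧ ∀ N : ℝ, N₀ ≤ N → ∀ c : E n,
      ∫ x in box c (side p q N 1), G x ≤ ε * N ^ (n - 2)) :
    ∀ x, G x = 0 := by
  intro x0
  by_contra hne
  have hpos : 0 < G x0 := lt_of_le_of_ne (hG0 x0) (Ne.symm hne)
  obtain ⟨κ, hκ, hsep⟩ := PER_sep hv
  -- a small ball
  obtain ⟨ρ0, hρ0, hball⟩ := Metric.eventually_nhds_iff.1
    ((hG.tendsto x0).eventually (lt_mem_nhds (half_lt_self hpos)))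
  obtain ⟨ρ, hρ⟩ : ∃ ρ, ρ = min ρ0 (min 1 (κ / 2)) := ⟨_, rfl⟩
  have hρpos : 0 < ρ := by
    rw [hρ]
    exact lt_min hρ0 (lt_min one_pos (half_pos hκ))
  have hρ1 : ρ ≤ 1 := by rw [hρ]; exact (min_le_right _ _).trans (min_le_left _ _)
  have hρκ : ρ ≤ κ / 2 := by rw [hρ]; exact (min_le_right _ _).trans (min_le_right _ _)
  have hρρ : ρ ≤ ρ0 := by rw [hρ]; exact min_le_left _ _
  have hib : ∀ y : E n, IntegrableOn G (Metric.ball y ρ) := fun y =>
    (hG.continuousOn.integrableOn_compact (isCompact_closedBall y ρ)).mono_set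
      Metric.ball_subset_closedBall
  obtain ⟨β, hβ⟩ : ∃ β, β = ∫ x in Metric.ball x0 ρ, G x := ⟨_, rfl⟩
  have hβ0 : 0 < β := by
    have h1 : (volume.real (Metric.ball x0 ρ)) * (G x0 / 2) ≤ β := by
      rw [hβ]
      have h2 : ∫ _x in Metric.ball x0 ρ, (G x0 / 2) ≤ ∫ x in Metric.ball x0 ρ, G x := by
        refine setIntegral_mono_on ?_ (hib x0) measurableSet_ball ?_
        · exact integrableOn_const (Metric.isBounded_ball.measure_lt_top.ne)
        · intro x hx
          exact (hball (lt_of_lt_of_le (Metric.mem_ball.1 hx) hρρ)).le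
      rw [setIntegral_const, smul_eq_mul] at h2
      exact h2
    have h3 : 0 < volume.real (Metric.ball x0 ρ) := by
      rw [Measure.real, ENNReal.toReal_pos_iff]
      exact ⟨Metric.measure_ball_pos _ _ hρpos, Metric.isBounded_ball.measure_lt_top⟩
    have h4 : 0 < (volume.real (Metric.ball x0 ρ)) * (G x0 / 2) := by positivity
    linarith
  -- translated balls
  have htr : ∀ k, ∫ x in Metric.ball (x0 + PER_W v k) ρ, G x = β := by
    intro k
    have h := (measurePreserving_add_right (volume : Measure (E n)) (PER_W v k)).setIntegral_preimage_emb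
      (measurableEmbedding_addRight _) G (Metric.ball (x0 + PER_W v k) ρ)
    rw [← h, hβ]
    have h2 : (fun x : E n => x + PER_W v k) ⁻¹' Metric.ball (x0 + PER_W v k) ρ =
        Metric.ball x0 ρ := by
      ext x
      simp [Metric.mem_ball]
    rw [h2]
    refine setIntegral_congr_fun measurableSet_ball fun x _ => ?_
    exact PER_period hper k x
  obtain ⟨A, hA⟩ : ∃ A, A = 1 + ∑ j, ‖v j‖ := ⟨_, rfl⟩
  have hsv : 0 ≤ ∑ j, ‖v j‖ := Finset.sum_nonneg fun j _ => norm_nonneg _
  have hA1 : 1 ≤ A := by rw [hA]; linarith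
  -- count
  have hcount : ∀ M : ℕ, 1 ≤ M → (M : ℝ) ^ m * β ≤
      ∫ x in box x0 (side p q (A * M) 1), G x := by
    intro M hM
    have hM1 : (1 : ℝ) ≤ M := by exact_mod_cast hM
    obtain ⟨S, hS⟩ : ∃ S : Finset (Fin m → ℕ), S = Fintype.piFinset fun _ => Finset.range M :=
      ⟨_, rfl⟩
    have hcard : S.card = M ^ m := by rw [hS, Fintype.card_piFinset]; simp
    have hsum : ∫ x in ⋃ k ∈ S, Metric.ball (x0 + PER_W v k) ρ, G x = (M : ℝ) ^ m * β := by
      rw [integral_biUnion_finset S (fun k _ => measurableSet_ball) ?_ (fun k _ => hib _)]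
      · simp only [htr, Finset.sum_const, nsmul_eq_mul, hcard]
        push_cast
        rfl
      · intro k _ l _ hkl
        apply Metric.ball_disjoint_ball
        rw [dist_add_left]
        have := hsep k l hkl
        linarith
    rw [← hsum]
    refine setIntegral_mono_set ?_ (Eventually.of_forall fun x => hG0 x) ?_
    · exact hG.continuousOn.integrableOn_compact (box_compact _ _)
    · refine LE.le.eventuallyLE ?_
      refine iUnion₂_subset fun k hk => ?_
      intro x hx i
      have hkM : ∀ j, (k j : ℝ) ≤ M := by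
        intro j
        rw [hS, Fintype.mem_piFinset] at hk
        have := Finset.mem_range.1 (hk j)
        exact_mod_cast this.le
      have hd : |x i - (x0 + PER_W v k) i| ≤ ρ := by
        have h1 : ‖x - (x0 + PER_W v k)‖ < ρ := by
          rw [← dist_eq_norm]
          exact hx
        have h2 := PiLp.norm_apply_le (x - (x0 + PER_W v k)) i
        rw [Real.norm_eq_abs] at h2
        exact (h2.trans h1.le)
      have hWi : (PER_W v k) i = ∑ j, (k j : ℝ) * v j i := by
        simp [PER_W]
      have hsplit : x i - x0 i = (x i - (x0 + PER_W v k) i) + (PER_W v k) i := by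
        simp only [PiLp.add_apply]
        ring
      rw [hsplit]
      refine (abs_add_le _ _).trans ?_
      unfold side
      split_ifs with hi
      · have h0 : (PER_W v k) i = 0 := by
          rw [hWi]
          refine Finset.sum_eq_zero fun j _ => ?_
          rcases hi with hi | hi
          · rw [hi, hvp j, mul_zero]
          · rw [hi, hvq j, mul_zero]
        rw [h0, abs_zero, add_zero]
        linarith
      · have h3 : |(PER_W v k) i| ≤ M * ∑ j, ‖v j‖ := by
          rw [hWi, Finset.mul_sum]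
          refine (Finset.abs_sum_le_sum_abs _ _).trans (Finset.sum_le_sum fun j _ => ?_)
          rw [abs_mul, abs_of_nonneg (Nat.cast_nonneg (k j))]
          have h4 : |v j i| ≤ ‖v j‖ := by
            have := PiLp.norm_apply_le (v j) i
            rwa [Real.norm_eq_abs] at this
          exact mul_le_mul (hkM j) h4 (abs_nonneg _) (by linarith)
        have h5 : A * M = M + M * ∑ j, ‖v j‖ := by rw [hA]; ring
        rw [h5]
        linarith
  -- conclusion
  obtain ⟨N0, hN0, hN⟩ := havg (β / (2 * A ^ m)) (by positivity)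
  obtain ⟨M, hM⟩ := exists_nat_ge N0
  have hM1 : 1 ≤ M := by
    have : (1 : ℝ) ≤ M := hN0.trans hM
    exact_mod_cast this
  have hMr : (1 : ℝ) ≤ M := by exact_mod_cast hM1
  have h1 := hN (A * M) (by nlinarith) x0
  have h2 := hcount M hM1
  rw [← hm, mul_pow] at h1
  have h3 : β / (2 * A ^ m) * (A ^ m * (M : ℝ) ^ m) = (M : ℝ) ^ m * β / 2 := by
    have hA0 : A ^ m ≠ 0 := pow_ne_zero _ (by linarith)
    field_simp
  rw [h3] at h1
  have h4 : 0 < (M : ℝ) ^ m * β := by positivity
  linarith

end Vale.Agent.P134
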