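import Vale.Agent.P134.Defs2
import Vale.Agent.P134.Vol
import Vale.Agent.P134.Per

/-! # P134, module PERS: same as `per` (Per.lean) with a general set `S` of short coordinates -/

open MeasureTheory Set Filter Topology

namespace Vale.Agent.P134

theorem perS {n m : ℕ} {S : Finset (Fin n)} (hm : m = n - S.card) {G : E n → ℝ} (hG : Continuous G)
    (hG0 : ∀ x, 0 ≤ G x) {v : Fin m → E n} (hv : LinearIndependent ℝ v)
    (hvS : ∀ j, ∀ i ∈ S, v j i = 0) (hper : ∀ j x, G (x + v j) = G x)
    (havg : ∀ ε : ℝ, 0 < ε → ∃ N₀ : ℝ, 1 ≤ N₀ ∧ ∀ N : ℝ, N₀ ≤ N → ∀ c : E n,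
      ∫ x in box c (sideS S N 1), G x ≤ ε * N ^ (n - S.card)) :
    ∀ x, G x = 0 := by
  intro x0
  by_contra hne
  have hpos : 0 < G x0 := lt_of_le_of_ne (hG0 x0) (Ne.symm hne)
  obtain ⟨κ, hκ, hsep⟩ := PER_sep hv
  -- a small ball
  obtain ⟨ρ0, hρ0, hball⟩ := Metric.eventually_nhds_iff.1
    ((hG.tendsto x0).eventually (lt_mem_nhds (half_lt_self hpos)))
  obtain ⟨ρ, hρ⟩ : ∃ ρ, ρ = min ρ0 (min 1 (κ / 2)) := ⟨_, rfl⟩
  have hρpos : 0 < ρ := by
    rw [hρ]
    exact lt_min hρ0 (lt_min one_pos (half_pos hκ))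
  have hρ1 : ρ ≤ 1 := by rw [hρ]; exact (min_le_right _ _).trans (min_le_left _ _)
  have hρκ : ρ ≤ κ / 2 := by rw [hρ]; exact (min_le_right _ _).trans (min_le_right _ _)
  have hρρ : ρ ≤ ρ0 := by rw [hρ]; exact min_le_left _ _
  have hib : ∀ y : E n, IntegrableOn G (Metric.ball y ρ) := fun y =>
    (hG.continuousOn.integrableOn_compact (isCompact_closedBall y ρ)).mono_set
      Metric.ball_subset_closedBall
  obtain ⟨β, hβ⟩ : ∃ β, β = ∫ x in Metric.ball x0 ρ, G x := ⟨_, rfl⟩
  have hβ0 : 0 < β := by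
    have h1 : (volume.real (Metric.ball x0 ρ)) * (G x0 / 2) ≤ β := by
      rw [hβ]
      have h2 : ∫ _x in Metric.ball x0 ρ, (G x0 / 2) ≤ ∫ x in Metric.ball x0 ρ, G x := by
        refine setIntegral_mono_on ?_ (hib x0) measurableSet_ball ?_
        · exact integrableOn_const (Metric.isBounded_ball.measure_lt_top.ne)
        · intro x hx
          exact (hball (lt_of_lt_of_le (Metric.mem_ball.1 hx) hρρ)).le
      rw [setIntegral_const, smul_eq_mul] at h2
      exact h2
    have h3 : 0 < volume.real (Metric.ball x0 ρ) := by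
      rw [Measure.real, ENNReal.toReal_pos_iff]
      exact ⟨Metric.measure_ball_pos _ _ hρpos, Metric.isBounded_ball.measure_lt_top⟩
    have h4 : 0 < (volume.real (Metric.ball x0 ρ)) * (G x0 / 2) := by positivity
    linarith
  -- translated balls
  have htr : ∀ k, ∫ x in Metric.ball (x0 + PER_W v k) ρ, G x = β := by
    intro k
    have h := (measurePreserving_add_right (volume : Measure (E n)) (PER_W v k)).setIntegral_preimage_emb
      (measurableEmbedding_addRight _) G (Metric.ball (x0 + PER_W v k) ρ)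
    rw [← h, hβ]
    have h2 : (fun x : E n => x + PER_W v k) ⁻¹' Metric.ball (x0 + PER_W v k) ρ =
        Metric.ball x0 ρ := by
      ext x
      simp [Metric.mem_ball]
    rw [h2]
    refine setIntegral_congr_fun measurableSet_ball fun x _ => ?_
    exact PER_period hper k x
  obtain ⟨A, hA⟩ : ∃ A, A = 1 + ∑ j, ‖v j‖ := ⟨_, rfl⟩
  have hsv : 0 ≤ ∑ j, ‖v j‖ := Finset.sum_nonneg fun j _ => norm_nonneg _
  have hA1 : 1 ≤ A := by rw [hA]; linarith
  -- count
  have hcount : ∀ M : ℕ, 1 ≤ M → (M : ℝ) ^ m * β ≤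
      ∫ x in box x0 (sideS S (A * M) 1), G x := by
    intro M hM
    have hM1 : (1 : ℝ) ≤ M := by exact_mod_cast hM
    obtain ⟨T, hT⟩ : ∃ T : Finset (Fin m → ℕ), T = Fintype.piFinset fun _ => Finset.range M :=
      ⟨_, rfl⟩
    have hcard : T.card = M ^ m := by rw [hT, Fintype.card_piFinset]; simp
    have hsum : ∫ x in ⋃ k ∈ T, Metric.ball (x0 + PER_W v k) ρ, G x = (M : ℝ) ^ m * β := by
      rw [integral_biUnion_finset T (fun k _ => measurableSet_ball) ?_ (fun k _ => hib _)]
      · simp only [htr, Finset.sum_const, nsmul_eq_mul, hcard]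
        push_cast
        rfl
      · intro k _ l _ hkl
        apply Metric.ball_disjoint_ball
        rw [dist_add_left]
        have := hsep k l hkl
        linarith
    rw [← hsum]
    refine setIntegral_mono_set ?_ (Eventually.of_forall fun x => hG0 x) ?_
    · exact hG.continuousOn.integrableOn_compact (box_compact _ _)
    · refine LE.le.eventuallyLE ?_
      refine iUnion₂_subset fun k hk => ?_
      intro x hx i
      have hkM : ∀ j, (k j : ℝ) ≤ M := by
        intro j
        rw [hT, Fintype.mem_piFinset] at hk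
        have := Finset.mem_range.1 (hk j)
        exact_mod_cast this.le
      have hd : |x i - (x0 + PER_W v k) i| ≤ ρ := by
        have h1 : ‖x - (x0 + PER_W v k)‖ < ρ := by
          rw [← dist_eq_norm]
          exact hx
        have h2 := PiLp.norm_apply_le (x - (x0 + PER_W v k)) i
        rw [Real.norm_eq_abs] at h2
        exact (h2.trans h1.le)
      have hWi : (PER_W v k) i = ∑ j, (k j : ℝ) * v j i := by
        simp [PER_W]
      have hsplit : x i - x0 i = (x i - (x0 + PER_W v k) i) + (PER_W v k) i := by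
        simp only [PiLp.add_apply]
        ring
      rw [hsplit]
      refine (abs_add_le _ _).trans ?_
      unfold sideS
      split_ifs with hi
      · have h0 : (PER_W v k) i = 0 := by
          rw [hWi]
          refine Finset.sum_eq_zero fun j _ => ?_
          rw [hvS j i hi, mul_zero]
        rw [h0, abs_zero, add_zero]
        linarith
      · have h3 : |(PER_W v k) i| ≤ M * ∑ j, ‖v j‖ := by
          rw [hWi, Finset.mul_sum]
          refine (Finset.abs_sum_le_sum_abs _ _).trans (Finset.sum_le_sum fun j _ => ?_)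
          rw [abs_mul, abs_of_nonneg (Nat.cast_nonneg (k j))]
          have h4 : |v j i| ≤ ‖v j‖ := by
            have := PiLp.norm_apply_le (v j) i
            rwa [Real.norm_eq_abs] at this
          exact mul_le_mul (hkM j) h4 (abs_nonneg _) (by linarith)
        have h5 : A * M = M + M * ∑ j, ‖v j‖ := by rw [hA]; ring
        rw [h5]
        linarith
  -- conclusion
  obtain ⟨N0, hN0, hN⟩ := havg (β / (2 * A ^ m)) (by positivity)
  obtain ⟨M, hM⟩ := exists_nat_ge N0
  have hM1 : 1 ≤ M := by
    have : (1 : ℝ) ≤ M := hN0.trans hM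
    exact_mod_cast this
  have hMr : (1 : ℝ) ≤ M := by exact_mod_cast hM1
  have h1 := hN (A * M) (by nlinarith) x0
  have h2 := hcount M hM1
  rw [← hm, mul_pow] at h1
  have h3 : β / (2 * A ^ m) * (A ^ m * (M : ℝ) ^ m) = (M : ℝ) ^ m * β / 2 := by
    have hA0 : A ^ m ≠ 0 := pow_ne_zero _ (by linarith)
    field_simp
  rw [h3] at h1
  have h4 : 0 < (M : ℝ) ^ m * β := by positivity
  linarith


theorem sideS_prod {n : ℕ} (S : Finset (Fin n)) (N R : ℝ) :
    ∏ i, sideS S N R i = N ^ (n - S.card) * R ^ S.card := by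
  classical
  unfold sideS
  rw [Finset.prod_ite, Finset.prod_const, Finset.prod_const]
  have h1 : (Finset.univ.filter (fun i => i ∈ S)) = S := by
    ext i
    simp
  have h2 : (Finset.univ.filter (fun i => i ∉ S)) = Sᶜ := by
    ext i
    simp
  rw [h1, h2, Finset.card_compl, Fintype.card_fin, mul_comm]

end Vale.Agent.P134
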