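import Vale.Agent.P134.Defs

/-! # P134, module IBP: integration by parts

Mathlib has integration by parts for `fderiv` along a vector
(`integral_mul_fderiv_eq_neg_fderiv_mul_of_integrable` in
`Mathlib/Analysis/Calculus/LineDeriv/IntegrationByParts.lean`); all three integrability hypotheses
follow from `Continuous.integrable_of_hasCompactSupport`. -/

open MeasureTheory Set Filter Topology

namespace Vale.Agent.P134

theorem ibp {n : ℕ} {f g : E n → ℝ} (hf : ContDiff ℝ 1 f) (hg : ContDiff ℝ 1 g)
    (hs : HasCompactSupport g) (e : E n) :
    ∫ x, dd e f x * g x = - ∫ x, f x * dd e g x := by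
  have hfd : Continuous (fun x => fderiv ℝ f x e) :=
    (hf.continuous_fderiv one_ne_zero).clm_apply continuous_const
  have hgd : Continuous (fun x => fderiv ℝ g x e) :=
    (hg.continuous_fderiv one_ne_zero).clm_apply continuous_const
  have hgs : HasCompactSupport (fun x => fderiv ℝ g x e) := hs.fderiv_apply (𝕜 := ℝ) e
  have h := integral_mul_fderiv_eq_neg_fderiv_mul_of_integrable (μ := volume) (𝕜 := ℝ)
    (f := f) (g := g) (v := e)
    ((hfd.mul hg.continuous).integrable_of_hasCompactSupport hs.mul_left)
    ((hf.continuous.mul hgd).integrable_of_hasCompactSupport hgs.mul_left)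
    ((hf.continuous.mul hg.continuous).integrable_of_hasCompactSupport hs.mul_left)
    (fun x _ => (hf.differentiable one_ne_zero) x) (fun x _ => (hg.differentiable one_ne_zero) x)
  change ∫ x, fderiv ℝ f x e * g x = - ∫ x, f x * fderiv ℝ g x e
  rw [h, neg_neg]

end Vale.Agent.P134
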