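import Vale.Agent.P134.LapBasis

/-! # P134, module ROT: solutions are invariant under rotations

Chain rule: `pd i (u ∘ Q) x = dd (Q (single i 1)) u (Q x)`, twice; then `lap_basis` for the
orthonormal basis `Q (single i 1)`. -/

open MeasureTheory Set Filter Topology

namespace Vale.Agent.P134

theorem ROT_pd {n : ℕ} (f : E n → ℝ) (Q : E n ≃ₗᵢ[ℝ] E n) (i : Fin n) (x : E n) :
    pd i (fun x => f (Q x)) x = dd (Q (EuclideanSpace.single i 1)) f (Q x) := by
  unfold pd dd
  have h := Q.toContinuousLinearEquiv.comp_right_fderiv (f := f) (x := x)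
  have h2 : (fun x => f (Q x)) = f ∘ Q.toContinuousLinearEquiv := rfl
  rw [h2, h]
  rfl

theorem isSol_comp {n : ℕ} {u : E n → ℝ} (hu : IsSol u) (Q : E n ≃ₗᵢ[ℝ] E n) :
    IsSol (fun x => u (Q x)) := by
  obtain ⟨h1, h2, h3⟩ := hu
  refine ⟨h1.comp Q.contDiff, fun x => ?_, fun x => h3 _⟩
  have h4 := lap_basis h1 ((EuclideanSpace.basisFun (Fin n) ℝ).map Q) (Q x)
  have h5 : ∀ i, pd i (pd i fun x => u (Q x)) x =
      dd (((EuclideanSpace.basisFun (Fin n) ℝ).map Q) i)
        (dd (((EuclideanSpace.basisFun (Fin n) ℝ).map Q) i) u) (Q x) := by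
    intro i
    have e1 : (pd i fun x => u (Q x)) = fun x => dd (Q (EuclideanSpace.single i 1)) u (Q x) := by
      funext y
      exact ROT_pd u Q i y
    rw [e1, ROT_pd (dd (Q (EuclideanSpace.single i 1)) u) Q i x]
    simp
  rw [Finset.sum_congr rfl fun i _ => h5 i, h4, h2]

end Vale.Agent.P134
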