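import Vale.Agent.P134.Defs2

/-! # P134, module FRAMES: same as `frame` (Frame.lean) for `m < n` periods, with an optional
prescribed unit vector `f` orthogonal to the periods -/

open MeasureTheory Set Filter Topology
open scoped InnerProductSpace

namespace Vale.Agent.P134

theorem frameS {n m : ℕ} (hmn : m < n) {v : Fin m → E n} (hv : LinearIndependent ℝ v)
    {f : E n} (hf : ‖f‖ = 1) (hfv : ∀ j, ⟪f, v j⟫_ℝ = 0) :
    ∃ (S : Finset (Fin n)) (p : Fin n) (Q : E n ≃ₗᵢ[ℝ] E n), S.card = n - m ∧ p ∈ S ∧
      (∀ j, ∀ i ∈ S, (Q.symm (v j)) i = 0) ∧ Q (EuclideanSpace.single p 1) = f := by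
  have h1 : Module.finrank ℝ (Submodule.span ℝ (Set.range v)) = m := by
    rw [finrank_span_eq_card hv, Fintype.card_fin]
  have h2 := Submodule.finrank_add_finrank_orthogonal (Submodule.span ℝ (Set.range v))
  rw [h1, finrank_euclideanSpace, Fintype.card_fin] at h2
  have h3 : Module.finrank ℝ (Submodule.span ℝ (Set.range v))ᗮ = Fintype.card (Fin (n - m)) := by
    rw [Fintype.card_fin]
    omega
  have hfW : f ∈ (Submodule.span ℝ (Set.range v))ᗮ := by
    rw [Submodule.mem_orthogonal']
    intro u hu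
    induction hu using Submodule.span_induction with
    | mem x hx =>
      obtain ⟨j, rfl⟩ := hx
      exact hfv j
    | zero => exact inner_zero_right _
    | add x y _ _ hx hy => rw [inner_add_right, hx, hy, add_zero]
    | smul a x _ hx => rw [inner_smul_right, hx, mul_zero]
  have hpos : 0 < n - m := by omega
  have ho1 : Orthonormal ℝ (({⟨0, hpos⟩} : Set (Fin (n - m))).domRestrict
      (fun _ => (⟨f, hfW⟩ : (Submodule.span ℝ (Set.range v))ᗮ))) := by
    constructor
    · intro i
      exact hf
    · intro i j hij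
      exact absurd (Subsingleton.elim i j) hij
  obtain ⟨o, ho⟩ := ho1.exists_orthonormalBasis_extension_of_card_eq h3
  have ho0 : ((o ⟨0, hpos⟩ : (Submodule.span ℝ (Set.range v))ᗮ) : E n) = f := by
    rw [ho _ (by simp)]
  let g : Fin n → E n := fun i => if h : i.val < n - m then (o ⟨i.val, h⟩ : E n) else 0
  have hg : Orthonormal ℝ (({i | i.val < n - m} : Set (Fin n)).domRestrict g) := by
    have ho' := o.orthonormal
    rw [orthonormal_iff_ite] at ho' ⊢
    have key : ∀ a b : Fin (n - m), inner ℝ ((o a : E n)) ((o b : E n)) =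
        if a = b then (1 : ℝ) else 0 := fun a b => ho' a b
    have key2 : ∀ i j : Fin n, (hi : i.val < n - m) → (hj : j.val < n - m) →
        inner ℝ (g i) (g j) = if i = j then (1 : ℝ) else 0 := by
      intro i j hi hj
      have e1 : g i = (o ⟨i.val, hi⟩ : E n) := dif_pos hi
      have e2 : g j = (o ⟨j.val, hj⟩ : E n) := dif_pos hj
      rw [e1, e2, key]
      by_cases hij : i = j
      · have e3 : (⟨i.val, hi⟩ : Fin (n - m)) = ⟨j.val, hj⟩ :=
          Fin.ext (show i.val = j.val by rw [hij])
        rw [if_pos hij, if_pos e3]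
      · have e3 : (⟨i.val, hi⟩ : Fin (n - m)) ≠ ⟨j.val, hj⟩ :=
          fun h => hij (Fin.ext (Fin.mk.inj h))
        rw [if_neg hij, if_neg e3]
    rintro ⟨i, hi⟩ ⟨j, hj⟩
    have h4 := key2 i j hi hj
    by_cases hij : i = j
    · rw [if_pos hij] at h4
      rw [if_pos (Subtype.ext hij)]
      exact h4
    · rw [if_neg hij] at h4
      rw [if_neg (fun h => hij (congrArg Subtype.val h))]
      exact h4
  obtain ⟨b, hb⟩ := hg.exists_orthonormalBasis_extension_of_card_eq (by simp)
  have hb' : ∀ i : Fin n, (hi : i.val < n - m) → b i = (o ⟨i.val, hi⟩ : E n) := by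
    intro i hi
    rw [hb i hi]
    exact dif_pos hi
  have hn0 : 0 < n := by omega
  refine ⟨Finset.univ.filter (fun i : Fin n => i.val < n - m), ⟨0, hn0⟩, b.repr.symm, ?_, ?_, ?_,
    ?_⟩
  · have : (Finset.univ.filter (fun i : Fin n => i.val < n - m)) =
        (Finset.univ : Finset (Fin (n - m))).map
          ⟨fun i => (⟨i.val, by omega⟩ : Fin n), fun a b h => Fin.ext (Fin.mk.inj h)⟩ := by
      ext i
      simp only [Finset.mem_filter, Finset.mem_univ, true_and, Finset.mem_map]
      constructor
      · intro hi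
        exact ⟨⟨i.val, hi⟩, rfl⟩
      · rintro ⟨a, rfl⟩
        exact a.2
    rw [this, Finset.card_map, Finset.card_univ, Fintype.card_fin]
  · exact Finset.mem_filter.2 ⟨Finset.mem_univ _, hpos⟩
  · intro j i hi
    have hi' : i.val < n - m := (Finset.mem_filter.1 hi).2
    rw [LinearIsometryEquiv.symm_symm, OrthonormalBasis.repr_apply_apply, hb' i hi']
    exact (Submodule.mem_orthogonal' _ _).1 (o ⟨i.val, hi'⟩).2 _
      (Submodule.subset_span (Set.mem_range_self j))
  · rw [OrthonormalBasis.repr_symm_single, hb' _ hpos]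
    exact ho0

/-- there is always a unit vector orthogonal to fewer than `n` vectors -/
theorem frame_unit {n m : ℕ} (hmn : m < n) (v : Fin m → E n) :
    ∃ f : E n, ‖f‖ = 1 ∧ ∀ j, ⟪f, v j⟫_ℝ = 0 := by
  have h1 : Module.finrank ℝ (Submodule.span ℝ (Set.range v)) ≤ m := by
    have := finrank_range_le_card (R := ℝ) v
    rwa [Fintype.card_fin] at this
  have h2 := Submodule.finrank_add_finrank_orthogonal (Submodule.span ℝ (Set.range v))
  rw [finrank_euclideanSpace, Fintype.card_fin] at h2
  have h3 : 0 < Module.finrank ℝ (Submodule.span ℝ (Set.range v))ᗮ := by omega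
  let o := stdOrthonormalBasis ℝ (Submodule.span ℝ (Set.range v))ᗮ
  refine ⟨(o ⟨0, h3⟩ : E n), o.orthonormal.1 ⟨0, h3⟩, fun j => ?_⟩
  exact (Submodule.mem_orthogonal' _ _).1 (o ⟨0, h3⟩).2 _
    (Submodule.subset_span (Set.mem_range_self j))

end Vale.Agent.P134
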