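import Vale.Agent.P134.Defs2

/-! # P134, module BOX1: integral over a box of a function of one coordinate (Fubini)

Pull back to `Fin n → ℝ` (measure preserving), the box is `Set.pi univ (Icc (c i - r i) (c i + r i))`;
`MeasureTheory.volume_preserving_piFinSuccAbove` at `p`, or `integral_fin_nat_prod_eq_prod` for
the product of one-variable functions (indicators for `i ≠ p`, `indicator * φ` for `i = p`). -/

open MeasureTheory Set Filter Topology

namespace Vale.Agent.P134

theorem box_one {n : ℕ} (p : Fin n) {φ : ℝ → ℝ} (hφ : Continuous φ) (c : E n) {r : Fin n → ℝ}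
    (hr : ∀ i, 0 ≤ r i) :
    ∫ x in box c r, φ (x p) =
      (∏ i ∈ Finset.univ.erase p, (2 * r i)) * ∫ t in (c p - r p)..(c p + r p), φ t := by
  classical
  let S : Fin n → Set ℝ := fun i => Icc (c i - r i) (c i + r i)
  let g : Fin n → ℝ → ℝ := fun i => (S i).indicator (fun t => if i = p then φ t else 1)
  have hbox : box c r = (fun x : E n => (WithLp.ofLp x : Fin n → ℝ)) ⁻¹' (Set.pi univ S) := by
    ext x
    show (∀ i, |x i - c i| ≤ r i) ↔ ∀ i, i ∈ univ → x i ∈ S i
    refine forall_congr' fun i => ?_
    rw [abs_le]
    constructor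
    · rintro ⟨h1, h2⟩ _
      exact ⟨by linarith, by linarith⟩
    · intro h
      obtain ⟨h1, h2⟩ := h (mem_univ i)
      exact ⟨by linarith, by linarith⟩
  have h1 : ∫ x in box c r, φ (x p) = ∫ y in Set.pi univ S, φ (y p) := by
    rw [hbox]
    exact (EuclideanSpace.volume_preserving_symm_measurableEquiv_toLp (Fin n)).setIntegral_preimage_emb
      (MeasurableEquiv.measurableEmbedding _) (fun y : Fin n → ℝ => φ (y p)) (Set.pi univ S)
  have hm : MeasurableSet (Set.pi univ S) := MeasurableSet.univ_pi fun i => measurableSet_Icc
  have h2 : ∀ y : Fin n → ℝ, (Set.pi univ S).indicator (fun y => φ (y p)) y =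
      ∏ i, g i (y i) := by
    intro y
    by_cases hy : y ∈ Set.pi univ S
    · rw [indicator_of_mem hy]
      have h3 : ∀ i, g i (y i) = if i = p then φ (y i) else 1 := fun i =>
        indicator_of_mem (hy i (mem_univ i)) _
      rw [Finset.prod_congr rfl fun i _ => h3 i, Finset.prod_ite_eq' Finset.univ p,
        if_pos (Finset.mem_univ p)]
    · rw [indicator_of_notMem hy]
      have h3 : ∃ i, y i ∉ S i := by
        by_contra hcon
        push Not at hcon
        exact hy fun i _ => hcon i
      obtain ⟨i, hi⟩ := h3
      exact (Finset.prod_eq_zero (Finset.mem_univ i) (indicator_of_notMem hi _)).symm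
  rw [h1, ← integral_indicator hm, integral_congr_ae (Eventually.of_forall h2),
    MeasureTheory.integral_fintype_prod_volume_eq_prod,
    ← Finset.mul_prod_erase Finset.univ _ (Finset.mem_univ p), mul_comm]
  have hle : ∀ i, c i - r i ≤ c i + r i := fun i => by have := hr i; linarith
  congr 1
  · refine Finset.prod_congr rfl fun i hi => ?_
    have hip : i ≠ p := Finset.ne_of_mem_erase hi
    show ∫ t, (S i).indicator (fun t => if i = p then φ t else 1) t = 2 * r i
    simp only [if_neg hip]
    rw [integral_indicator measurableSet_Icc, setIntegral_const, smul_eq_mul, mul_one]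
    show (volume (Icc (c i - r i) (c i + r i))).toReal = 2 * r i
    rw [Real.volume_Icc, ENNReal.toReal_ofReal (by linarith [hle i])]
    ring
  · show ∫ t, (S p).indicator (fun t => if p = p then φ t else 1) t = _
    simp only [if_true]
    rw [integral_indicator measurableSet_Icc, intervalIntegral.integral_of_le (hle p),
      integral_Icc_eq_integral_Ioc]

end Vale.Agent.P134
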