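import Vale.Agent.P134.Defs2

/-! # P134, stage 3: definitions and plan (solutions invariant under `O(k)` in `ℝ^(k+2)`)

THEOREM: for `k = 2, 3, 4` a solution on `ℝ^(k+2)` which depends only on `|y|` and the other two
variables, `y` = the coordinates in `Y`, `card Y = k`, and is increasing in a coordinate `l ∉ Y`,
is one-dimensional.

PROOF.  `q2 = |∇_y u|²`, `rr = |y|²`.  Stability and the linearized equation give (RAD, AXIS)
`(k-1) ∫ q2 η² / (1 + rr) ≤ ∫ q2 |∇η|²`.  With `η = (1+rr)^(-α/2) φ`, `α² < k - 1` (WRAD)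
`∫ q2 wt φ² / (1 + rr) ≤ A ∫ q2 wt |∇φ|²`, `wt = (1+rr)^(-α)`.  For the limit profile `U` (invariant
along `l`) the trivial growth `∫_{box} wt ≤ B N R²` and LOGS, PERS (one period, along `l`) give
`q2 U = 0`, so `U` depends on one variable, and its energy is bounded (ODE, ONED, MONO).  Then the
sliding argument gives `∫ gr u ≤ B ρ^(k-1) R²` on boxes with sides `ρ` on `Y` and `R` on the other
two coordinates (ANISO), so `∫_{box R} gr u wt ≤ B R²` (DYAD, `2α > k-1`), and LOGS, PERS give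
`q2 u = 0`: `u` has `k = n - 2` periods and stage 1 applies. -/

open MeasureTheory Set Filter Topology

namespace Vale.Agent.P134

/-- `u` depends only on `∑ i ∈ Y, x i ^ 2` and the coordinates outside `Y` -/
def RadIn {n : ℕ} (Y : Finset (Fin n)) (u : E n → ℝ) : Prop :=
  ∀ x x' : E n, (∀ i, i ∉ Y → x i = x' i) → ∑ i ∈ Y, x i ^ 2 = ∑ i ∈ Y, x' i ^ 2 → u x = u x'

/-- squared length of the part of the gradient in the directions of `Y` -/
noncomputable def q2 {n : ℕ} (Y : Finset (Fin n)) (u : E n → ℝ) (x : E n) : ℝ :=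
  ∑ a ∈ Y, pd a u x ^ 2

/-- squared distance to the axis -/
noncomputable def rr {n : ℕ} (Y : Finset (Fin n)) (x : E n) : ℝ := ∑ i ∈ Y, x i ^ 2

/-- the weight -/
noncomputable def wt {n : ℕ} (Y : Finset (Fin n)) (α : ℝ) (x : E n) : ℝ := (1 + rr Y x) ^ (-α)

/-- the stability inequality -/
def Stable {n : ℕ} (u : E n → ℝ) : Prop :=
  ∀ ξ : E n → ℝ, ContDiff ℝ 1 ξ → HasCompactSupport ξ →
    0 ≤ ∫ x, (∑ i, pd i ξ x ^ 2 + (3 * u x ^ 2 - 1) * ξ x ^ 2)

/-- the weighted inequality of module AXIS -/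
def AxisIneq {n : ℕ} (Y : Finset (Fin n)) (u : E n → ℝ) : Prop :=
  ∀ η : E n → ℝ, ContDiff ℝ 1 η → HasCompactSupport η →
    ((Y.card : ℝ) - 1) * ∫ x, q2 Y u x * η x ^ 2 / (1 + rr Y x) ≤
      ∫ x, q2 Y u x * ∑ i, pd i η x ^ 2

end Vale.Agent.P134
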