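import Vale.Agent.P134.Slide
import Vale.Agent.P134.BoxOne
import Vale.Agent.P134.Cut
import Vale.Agent.P134.Vol
import Vale.Agent.P134.PerS

/-! # P134, module EN3: energy growth

`η` = cutoff of `cut` for `r = sideS S N R`, `card S = 3`, `p ∈ S`.  `∫ η en U ≤ ∫_{2 box} en U`
`= (∏_{i ≠ p} 4 r i) * ∫ φ ≤ 2 * 4^(n-1) N^(n-3) R^2` by `box_one` and `hφ2` (over the interval of
length `4R`), and `∑ |pd i η| ≤ n K / R` (as `R ≤ N`) on the double box of volume
`4^n N^(n-3) R^3`.  `gr u ≤ 2 en u`.  In the case `hU0` the energy of `U` is zero. -/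

open MeasureTheory Set Filter Topology

namespace Vale.Agent.P134

theorem EN3_pd_cont {n : ℕ} {f : E n → ℝ} (hf : ContDiff ℝ 1 f) (i : Fin n) :
    Continuous (pd i f) :=
  (hf.continuous_fderiv one_ne_zero).clm_apply continuous_const

theorem EN3_gr_cont {n : ℕ} {u : E n → ℝ} (hu : IsSol u) : Continuous (gr u) := by
  unfold gr
  exact continuous_finsetSum _ fun j _ => (EN3_pd_cont (hu.1.of_le (by norm_num)) j).pow 2

theorem EN3_en_cont {n : ℕ} {u : E n → ℝ} (hu : IsSol u) : Continuous (en u) := by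
  have h1 := EN3_gr_cont hu
  have h2 : Continuous u := hu.1.continuous
  unfold en
  exact (h1.div_const 2).add (((continuous_const.sub (h2.pow 2)).pow 2).div_const 4)

theorem EN3_gr_nonneg {n : ℕ} (u : E n → ℝ) (x : E n) : 0 ≤ gr u x :=
  Finset.sum_nonneg fun _ _ => sq_nonneg _

theorem EN3_en_nonneg {n : ℕ} (u : E n → ℝ) (x : E n) : 0 ≤ en u x := by
  have h := EN3_gr_nonneg u x
  unfold en
  positivity

theorem EN3_gr_le {n : ℕ} (u : E n → ℝ) (x : E n) : gr u x ≤ 2 * en u x := by
  unfold en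
  have : 0 ≤ (1 - u x ^ 2) ^ 2 := sq_nonneg _
  linarith

theorem en3 (n : ℕ) : ∃ B : ℝ, 0 < B ∧ ∀ (S : Finset (Fin n)) (p : Fin n), S.card = 3 → p ∈ S →
    ∀ (u U : E n → ℝ) (e : E n), IsSol u → (∀ x, 0 < dd e u x) → IsLim u e U →
    ∀ φ : ℝ → ℝ, Continuous φ → (∀ t, 0 ≤ φ t) → (∀ x, en U x = φ (x p)) →
    (∀ a b, a ≤ b → ∫ t in a..b, φ t ≤ 2) →
    ∀ (c : E n) (N R : ℝ), 1 ≤ R → R ≤ N →
    ∫ x in box c (sideS S N R), gr u x ≤ B * (N ^ (n - S.card) * R ^ 2) := by
  obtain ⟨K, hK, hcut⟩ := cut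
  refine ⟨2 * (2 * 4 ^ n + 2 * ((n : ℝ) + 1) * (n * K * 4 ^ n)), by positivity, ?_⟩
  intro S p hS hp u U e hu he hU φ hφ hφ0 hen hφ2 c N R hR hRN
  have hR0 : 0 < R := by linarith
  have hN0 : 0 < N := by linarith
  set r : Fin n → ℝ := sideS S N R with hr
  have hr0 : ∀ i, 0 < r i := by
    intro i
    simp only [hr, sideS]
    split_ifs <;> assumption
  have hrR : ∀ i, R ≤ r i := by
    intro i
    simp only [hr, sideS]
    split_ifs
    · exact le_rfl
    · exact hRN
  have hrp : r p = R := by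
    simp only [hr, sideS]
    rw [if_pos hp]
  obtain ⟨η, hη, hs, h01, h1, h0, hK1, hK2, -⟩ := hcut n c r hr0
  have hr2 : ∀ i, 0 ≤ 2 * r i := fun i => by have := hr0 i; linarith
  have hηc : Continuous η := hη.continuous
  have hbm : ∀ ρ : Fin n → ℝ, MeasurableSet (box c ρ) := fun ρ => (box_compact c ρ).isClosed.measurableSet
  -- products of the sides
  have hprod : ∏ i, r i = N ^ (n - S.card) * R ^ 3 := by
    rw [hr, sideS_prod, hS]
  have herase : ∏ i ∈ Finset.univ.erase p, r i = N ^ (n - S.card) * R ^ 2 := by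
    have h2 : (∏ i ∈ Finset.univ.erase p, r i) * r p = ∏ i, r i :=
      Finset.prod_erase_mul _ _ (Finset.mem_univ p)
    rw [hrp, hprod] at h2
    have h3 : (∏ i ∈ Finset.univ.erase p, r i) * R = (N ^ (n - S.card) * R ^ 2) * R := by
      rw [h2]; ring
    exact mul_right_cancel₀ hR0.ne' h3
  have hNR : 0 ≤ N ^ (n - S.card) * R ^ 2 := by positivity
  -- step 1
  have hint1 : Integrable (fun x => η x * en u x) := by
    refine (hηc.mul (EN3_en_cont hu)).integrable_of_hasCompactSupport ?_
    exact hs.mul_right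
  have s1 : ∫ x in box c r, gr u x ≤ 2 * ∫ x, η x * en u x := by
    have a1 : ∫ x in box c r, gr u x ≤ ∫ x in box c r, 2 * (η x * en u x) := by
      refine setIntegral_mono_on ((EN3_gr_cont hu).continuousOn.integrableOn_compact
        (box_compact c r)) ((hint1.const_mul 2).integrableOn) (hbm r) fun x hx => ?_
      rw [h1 x hx, one_mul]
      exact EN3_gr_le u x
    have a2 : ∫ x in box c r, 2 * (η x * en u x) ≤ ∫ x, 2 * (η x * en u x) := by
      refine setIntegral_le_integral (hint1.const_mul 2) (Filter.Eventually.of_forall fun x => ?_)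
      exact mul_nonneg zero_le_two (mul_nonneg (h01 x).1 (EN3_en_nonneg u x))
    have a3 : ∫ x, 2 * (η x * en u x) = 2 * ∫ x, η x * en u x := integral_const_mul _ _
    rw [a3] at a2
    exact a1.trans a2
  -- step 2
  have s2 := slide hu he hU hη hs
  -- step 3
  have hxp : Continuous fun x : E n => φ (x p) :=
    hφ.comp (EuclideanSpace.proj p : E n →L[ℝ] ℝ).continuous
  have s3 : ∫ x, η x * en U x ≤ 2 * 4 ^ n * (N ^ (n - S.card) * R ^ 2) := by
    have b1 : ∫ x, η x * en U x = ∫ x in box c (fun i => 2 * r i), η x * en U x := by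
      refine (setIntegral_eq_integral_of_forall_compl_eq_zero fun x hx => ?_).symm
      rw [h0 x hx, zero_mul]
    have hcon : Continuous fun x : E n => η x * en U x := by
      have : (fun x : E n => η x * en U x) = fun x => η x * φ (x p) := by
        funext x
        rw [hen x]
      rw [this]
      exact hηc.mul hxp
    have b2 : ∫ x in box c (fun i => 2 * r i), η x * en U x ≤
        ∫ x in box c (fun i => 2 * r i), φ (x p) := by
      refine setIntegral_mono_on (hcon.continuousOn.integrableOn_compact (box_compact c _))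
        (hxp.continuousOn.integrableOn_compact (box_compact c _)) (hbm _) fun x _ => ?_
      rw [hen x]
      calc η x * φ (x p) ≤ 1 * φ (x p) := mul_le_mul_of_nonneg_right (h01 x).2 (hφ0 _)
        _ = φ (x p) := one_mul _
    rw [box_one p hφ c hr2] at b2
    have b3 : ∏ i ∈ Finset.univ.erase p, (2 * (2 * r i)) =
        4 ^ (n - 1) * (N ^ (n - S.card) * R ^ 2) := by
      rw [← herase]
      have : ∀ i ∈ Finset.univ.erase p, 2 * (2 * r i) = 4 * r i := fun i _ => by ring
      rw [Finset.prod_congr rfl this, Finset.prod_mul_distrib, Finset.prod_const,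
        Finset.card_erase_of_mem (Finset.mem_univ p), Finset.card_univ, Fintype.card_fin]
    rw [b3] at b2
    have b4 : ∫ t in (c p - 2 * r p)..(c p + 2 * r p), φ t ≤ 2 :=
      hφ2 _ _ (by have := hr0 p; linarith)
    have b5 : (4 : ℝ) ^ (n - 1) ≤ 4 ^ n := pow_le_pow_right₀ (by norm_num) (Nat.sub_le n 1)
    have b6 : 0 ≤ (4 : ℝ) ^ (n - 1) * (N ^ (n - S.card) * R ^ 2) := by positivity
    calc ∫ x, η x * en U x = ∫ x in box c (fun i => 2 * r i), η x * en U x := b1
      _ ≤ 4 ^ (n - 1) * (N ^ (n - S.card) * R ^ 2) *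
          ∫ t in (c p - 2 * r p)..(c p + 2 * r p), φ t := b2
      _ ≤ 4 ^ (n - 1) * (N ^ (n - S.card) * R ^ 2) * 2 := mul_le_mul_of_nonneg_left b4 b6
      _ ≤ 4 ^ n * (N ^ (n - S.card) * R ^ 2) * 2 := by
          refine mul_le_mul_of_nonneg_right (mul_le_mul_of_nonneg_right b5 hNR) zero_le_two
      _ = 2 * 4 ^ n * (N ^ (n - S.card) * R ^ 2) := by ring
  -- step 4
  have s4 : ∫ x, ∑ i, |pd i η x| ≤ n * K * 4 ^ n * (N ^ (n - S.card) * R ^ 2) := by
    have c1 : ∫ x, ∑ i, |pd i η x| = ∫ x in box c (fun i => 2 * r i), ∑ i, |pd i η x| := by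
      refine (setIntegral_eq_integral_of_forall_compl_eq_zero fun x hx => ?_).symm
      refine Finset.sum_eq_zero fun i _ => ?_
      rw [hK2 i x hx, abs_zero]
    have c2 : ∫ x in box c (fun i => 2 * r i), ∑ i, |pd i η x| ≤
        ∫ _x in box c (fun i => 2 * r i), (n * K / R : ℝ) := by
      refine setIntegral_mono_on ?_ ?_ (hbm _) fun x _ => ?_
      · exact (continuous_finsetSum _ fun i _ => (EN3_pd_cont hη i).abs).continuousOn.integrableOn_compact
          (box_compact c _)
      · exact continuous_const.continuousOn.integrableOn_compact (box_compact c _)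
      · have : ∀ i ∈ (Finset.univ : Finset (Fin n)), |pd i η x| ≤ K / R := fun i _ =>
          (hK1 i x).trans (div_le_div_of_nonneg_left hK.le hR0 (hrR i))
        refine (Finset.sum_le_sum this).trans (le_of_eq ?_)
        rw [Finset.sum_const, Finset.card_univ, Fintype.card_fin, nsmul_eq_mul]
        ring
    have c3 : (volume (box c (fun i => 2 * r i))).toReal = 4 ^ n * (N ^ (n - S.card) * R ^ 3) := by
      rw [box_vol c hr2, ← hprod]
      have : ∀ i ∈ (Finset.univ : Finset (Fin n)), 2 * (2 * r i) = 4 * r i := fun i _ => by ring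
      rw [Finset.prod_congr rfl this, Finset.prod_mul_distrib, Finset.prod_const,
        Finset.card_univ, Fintype.card_fin]
    rw [setIntegral_const, smul_eq_mul, measureReal_def, c3] at c2
    have c4 : 4 ^ n * (N ^ (n - S.card) * R ^ 3) * (n * K / R) =
        n * K * 4 ^ n * (N ^ (n - S.card) * R ^ 2) := by
      field_simp
    rw [c1]
    linarith
  have hn1 : 0 ≤ 2 * ((n : ℝ) + 1) := by positivity
  have s5 := mul_le_mul_of_nonneg_left s4 hn1
  have : ∫ x in box c r, gr u x ≤ 2 * (2 * 4 ^ n * (N ^ (n - S.card) * R ^ 2) +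
      2 * ((n : ℝ) + 1) * (n * K * 4 ^ n * (N ^ (n - S.card) * R ^ 2))) := by linarith
  refine this.trans (le_of_eq ?_)
  ring

end Vale.Agent.P134
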