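import Vale.Agent.P134.LogS
import Vale.Agent.P134.PerS

/-! # P134, module ATC: versions of `logS_avg` and `perS` with constants depending on the centre

The proofs of `logS` and `perS` use boxes with one fixed centre only, so they can be repeated with
weaker hypotheses. -/

open MeasureTheory Set Filter Topology

namespace Vale.Agent.P134

private lemma ATC1_box_mono {n : ℕ} (c : E n) {r s : Fin n → ℝ} (h : ∀ i, r i ≤ s i) :
    box c r ⊆ box c s :=
  fun _ hx i => (hx i).trans (h i)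

private lemma ATC1_side_two {n : ℕ} (S : Finset (Fin n)) (N R : ℝ) :
    (fun i => 2 * sideS S N R i) = sideS S (2 * N) (2 * R) := by
  funext i
  unfold sideS
  split_ifs <;> rfl

private lemma ATC1_sq_sum {m : ℕ} (a : ℕ → ℝ) (h : ∀ j k, j ≠ k → a j * a k = 0) :
    (∑ j ∈ Finset.range m, a j) ^ 2 = ∑ j ∈ Finset.range m, a j ^ 2 := by
  rw [sq, Finset.sum_mul_sum]
  refine Finset.sum_congr rfl fun j hj => ?_
  rw [Finset.sum_eq_single_of_mem j hj fun k _ hk => h j k hk.symm, sq]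

private lemma ATC1_pd {n m : ℕ} (a : ℝ) {η : ℕ → E n → ℝ} (hη : ∀ j, ContDiff ℝ 1 (η j))
    (i : Fin n) (x : E n) :
    pd i (fun x => a * ∑ j ∈ Finset.range m, η j x) x =
      a * ∑ j ∈ Finset.range m, pd i (η j) x := by
  unfold pd
  have h : HasFDerivAt (fun x => a * ∑ j ∈ Finset.range m, η j x)
      (a • ∑ j ∈ Finset.range m, fderiv ℝ (η j) x) x :=
    (HasFDerivAt.fun_sum fun j _ =>
      ((hη j).differentiable (by norm_num) x).hasFDerivAt).const_mul a
  rw [h.fderiv]
  simp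

private theorem ATC1_log {n : ℕ} (S : Finset (Fin n)) {A B : ℝ} (hA : 0 < A) (hB : 0 < B) :
    ∃ C : ℝ, 0 < C ∧ ∀ G g : E n → ℝ, Continuous G → Continuous g → (∀ x, 0 ≤ G x) →
    (∀ x, 0 ≤ g x) →
    (∀ ζ : E n → ℝ, ContDiff ℝ 1 ζ → HasCompactSupport ζ →
      ∫ x, ζ x ^ 2 * G x ≤ A * ∫ x, g x * ∑ i, pd i ζ x ^ 2) →
    ∀ c : E n, (∀ (N R : ℝ), 1 ≤ R → R ≤ N →
      ∫ x in box c (sideS S N R), g x ≤ B * (N ^ (n - S.card) * R ^ 2)) →
    ∀ (m : ℕ) (N : ℝ), 1 ≤ m → 2 * 4 ^ m ≤ N →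
    ∫ x in box c (sideS S N 1), G x ≤
      C * N ^ (n - S.card) * (1 / (m : ℝ) + 16 ^ m / N ^ 2) := by
  obtain ⟨K, hK, hcut⟩ := cut
  refine ⟨A * ((n + 1) * (K ^ 2 * (B * (2 ^ (n - S.card) * 4)))), by positivity,
    fun G g hG hg hG0 hg0 hgeo c hen m N hm hN' => ?_⟩
  have hN : 1 ≤ N := by
    have : (1 : ℝ) ≤ 4 ^ m := one_le_pow₀ (by norm_num)
    linarith
  have hm' : (0 : ℝ) < m := by exact_mod_cast hm
  have hN0 : 0 < N := by linarith
  have h4 : ∀ j : ℕ, (1 : ℝ) ≤ 4 ^ j := fun j => one_le_pow₀ (by norm_num)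
  obtain ⟨r, hr⟩ : ∃ r : ℕ → Fin n → ℝ, ∀ j, r j = sideS S N (4 ^ (j + 1)) := ⟨_, fun _ => rfl⟩
  have hr1 : ∀ j i, 1 ≤ r j i := fun j i => by
    rw [hr]
    unfold sideS
    split_ifs
    · exact h4 _
    · exact hN
  choose η e1 e2 e3 e4 e5 e6 e7 e8 using fun j =>
    hcut n c (r j) fun i => lt_of_lt_of_le one_pos (hr1 j i)
  obtain ⟨ζ, hζ⟩ : ∃ ζ : E n → ℝ, ζ = fun x => (1 / (m : ℝ)) * ∑ j ∈ Finset.range m, η j x :=
    ⟨_, rfl⟩
  have hζ1 : ContDiff ℝ 1 ζ := by
    rw [hζ]
    exact contDiff_const.mul (ContDiff.sum fun j _ => e1 j)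
  -- ζ = 1 on the small box
  have hone : ∀ x ∈ box c (sideS S N 1), ζ x = 1 := by
    intro x hx
    have : ∀ j ∈ Finset.range m, η j x = 1 := fun j _ => by
      refine e4 j x (ATC1_box_mono c (fun i => ?_) hx)
      rw [hr]
      unfold sideS
      split_ifs
      · exact h4 _
      · exact le_rfl
    rw [hζ]
    simp only
    rw [Finset.sum_congr rfl this]
    simp
    field_simp
  -- compact support
  have hζs : HasCompactSupport ζ := by
    refine HasCompactSupport.intro (box_compact c (sideS S (2 * N) (2 * 4 ^ m))) fun x hx => ?_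
    have : ∀ j ∈ Finset.range m, η j x = 0 := fun j hj => by
      refine e5 j x fun hx' => hx ?_
      rw [hr, ATC1_side_two] at hx'
      refine ATC1_box_mono c (fun i => ?_) hx'
      unfold sideS
      split_ifs
      · have : (4 : ℝ) ^ (j + 1) ≤ 4 ^ m :=
          pow_le_pow_right₀ (by norm_num) (Finset.mem_range.1 hj)
        linarith
      · exact le_rfl
    rw [hζ]
    simp only
    rw [Finset.sum_congr rfl this]
    simp
  -- pointwise bound
  obtain ⟨AA, hAA⟩ : ∃ AA : ℕ → ℝ, ∀ j, AA j = K ^ 2 * (1 / (m ^ 2 * 16 ^ (j + 1)) + 1 / (m * N ^ 2)) :=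
    ⟨_, fun _ => rfl⟩
  have hAA0 : ∀ j, 0 ≤ AA j := fun j => by rw [hAA]; positivity
  obtain ⟨BB, hBB⟩ : ∃ BB : ℕ → Set (E n), ∀ j, BB j = box c (fun i => 2 * r j i) := ⟨_, fun _ => rfl⟩
  obtain ⟨ι, hι⟩ : ∃ ι : ℕ → E n → ℝ, ∀ j, ι j = (BB j).indicator fun _ => (1 : ℝ) :=
    ⟨_, fun _ => rfl⟩
  have hι0 : ∀ j x, 0 ≤ ι j x := fun j x => by
    rw [hι]; exact indicator_nonneg (fun _ _ => zero_le_one) _
  have hsq : ∀ i j x, pd i (η j) x ^ 2 ≤ (K / r j i) ^ 2 * ι j x := by
    intro i j x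
    by_cases hx : x ∈ BB j
    · rw [hι, indicator_of_mem hx, mul_one, ← sq_abs]
      exact pow_le_pow_left₀ (abs_nonneg _) (e6 j i x) 2
    · rw [hι, indicator_of_notMem hx, mul_zero, e7 j i x (by rwa [hBB] at hx)]
      norm_num
  have hpt : ∀ i x, pd i ζ x ^ 2 ≤ ∑ j ∈ Finset.range m, AA j * ι j x := by
    intro i x
    rw [hζ, ATC1_pd _ e1, mul_pow]
    by_cases hi : i ∈ S
    · have hri : ∀ j, r j i = 4 ^ (j + 1) := fun j => by rw [hr]; unfold sideS; rw [if_pos hi]
      have hlt : ∀ j k, j < k → pd i (η j) x * pd i (η k) x = 0 := by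
        intro j k hjk
        by_cases hx : x ∈ box c (fun i => 2 * r j i)
        · have h1 : |x i - c i| ≤ 2 * r j i := hx i
          have h2 : |x i - c i| < r k i := by
            rw [hri] at h1 ⊢
            have h3 : (4 : ℝ) ^ (j + 1 + 1) ≤ 4 ^ (k + 1) :=
              pow_le_pow_right₀ (by norm_num) (by omega)
            have h4' : (4 : ℝ) ^ (j + 1 + 1) = 4 * 4 ^ (j + 1) := by ring
            have h5 := h4 (j + 1)
            linarith
          rw [e8 k i x h2, mul_zero]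
        · rw [e7 j i x hx, zero_mul]
      have hz : ∀ j k, j ≠ k → pd i (η j) x * pd i (η k) x = 0 := by
        intro j k hjk
        rcases lt_or_gt_of_ne hjk with h | h
        · exact hlt j k h
        · rw [mul_comm]; exact hlt k j h
      rw [ATC1_sq_sum (fun j => pd i (η j) x) hz, Finset.mul_sum]
      refine Finset.sum_le_sum fun j _ => ?_
      have h1 := hsq i j x
      rw [hri] at h1
      have h2 : (1 / (m : ℝ)) ^ 2 * pd i (η j) x ^ 2 ≤
          (1 / (m : ℝ)) ^ 2 * ((K / 4 ^ (j + 1)) ^ 2 * ι j x) :=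
        mul_le_mul_of_nonneg_left h1 (by positivity)
      refine h2.trans ?_
      rw [← mul_assoc]
      refine mul_le_mul_of_nonneg_right ?_ (hι0 j x)
      have h3 : (1 / (m : ℝ)) ^ 2 * (K / 4 ^ (j + 1)) ^ 2 = K ^ 2 * (1 / (m ^ 2 * 16 ^ (j + 1))) := by
        have h4' : (16 : ℝ) ^ (j + 1) = (4 ^ (j + 1)) ^ 2 := by
          rw [← pow_mul, mul_comm, pow_mul]; norm_num
        rw [h4']
        field_simp
      rw [h3, hAA]
      refine mul_le_mul_of_nonneg_left ?_ (by positivity)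
      have : 0 ≤ 1 / ((m : ℝ) * N ^ 2) := by positivity
      linarith
    · have hri : ∀ j, r j i = N := fun j => by rw [hr]; unfold sideS; rw [if_neg hi]
      have hcs : (∑ j ∈ Finset.range m, pd i (η j) x) ^ 2 ≤
          m * ∑ j ∈ Finset.range m, pd i (η j) x ^ 2 := by
        have := sq_sum_le_card_mul_sum_sq (s := Finset.range m) (f := fun j => pd i (η j) x)
        rwa [Finset.card_range] at this
      have h1 : (1 / (m : ℝ)) ^ 2 * (∑ j ∈ Finset.range m, pd i (η j) x) ^ 2 ≤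
          (1 / (m : ℝ)) ^ 2 * (m * ∑ j ∈ Finset.range m, pd i (η j) x ^ 2) :=
        mul_le_mul_of_nonneg_left hcs (by positivity)
      refine h1.trans ?_
      rw [← mul_assoc, Finset.mul_sum]
      refine Finset.sum_le_sum fun j _ => ?_
      have h1 := hsq i j x
      rw [hri] at h1
      have h2 : (1 / (m : ℝ)) ^ 2 * m * pd i (η j) x ^ 2 ≤
          (1 / (m : ℝ)) ^ 2 * m * ((K / N) ^ 2 * ι j x) :=
        mul_le_mul_of_nonneg_left h1 (by positivity)
      refine h2.trans ?_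
      rw [← mul_assoc]
      refine mul_le_mul_of_nonneg_right ?_ (hι0 j x)
      have h3 : (1 / (m : ℝ)) ^ 2 * m * (K / N) ^ 2 = K ^ 2 * (1 / (m * N ^ 2)) := by
        field_simp
      rw [h3, hAA]
      refine mul_le_mul_of_nonneg_left ?_ (by positivity)
      have : 0 ≤ 1 / ((m : ℝ) ^ 2 * 16 ^ (j + 1)) := by positivity
      linarith
  -- measurability and integrability
  have hBBm : ∀ j, MeasurableSet (BB j) := fun j => by
    rw [hBB]; exact (box_compact c _).isClosed.measurableSet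
  have hBBi : ∀ j, IntegrableOn g (BB j) := fun j => by
    rw [hBB]; exact hg.continuousOn.integrableOn_compact (box_compact c _)
  have hge : ∫ x, g x * ∑ i, pd i ζ x ^ 2 ≤
      ∫ x, (n : ℝ) * ∑ j ∈ Finset.range m, AA j * (BB j).indicator g x := by
    refine integral_mono_of_nonneg (Eventually.of_forall fun x => ?_) ?_
      (Eventually.of_forall fun x => ?_)
    · exact mul_nonneg (hg0 x) (Finset.sum_nonneg fun _ _ => sq_nonneg _)
    · exact (integrable_finsetSum _ fun j _ =>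
        ((hBBi j).integrable_indicator (hBBm j)).const_mul (AA j)).const_mul _
    · have h1 : ∑ i, pd i ζ x ^ 2 ≤ n * ∑ j ∈ Finset.range m, AA j * ι j x := by
        calc ∑ i, pd i ζ x ^ 2 ≤ ∑ _i : Fin n, ∑ j ∈ Finset.range m, AA j * ι j x :=
              Finset.sum_le_sum fun i _ => hpt i x
          _ = n * ∑ j ∈ Finset.range m, AA j * ι j x := by
              rw [Finset.sum_const, Finset.card_univ, Fintype.card_fin, nsmul_eq_mul]
      refine (mul_le_mul_of_nonneg_left h1 (hg0 x)).trans (le_of_eq ?_)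
      rw [mul_left_comm, Finset.mul_sum]
      refine congrArg ((n : ℝ) * ·) (Finset.sum_congr rfl fun j _ => ?_)
      rw [hι]
      by_cases hx : x ∈ BB j
      · rw [indicator_of_mem hx, indicator_of_mem hx]; ring
      · rw [indicator_of_notMem hx, indicator_of_notMem hx]; ring
  have hint : ∫ x, (n : ℝ) * ∑ j ∈ Finset.range m, AA j * (BB j).indicator g x =
      n * ∑ j ∈ Finset.range m, AA j * ∫ x in BB j, g x := by
    rw [integral_const_mul, integral_finsetSum _ fun j _ =>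
      ((hBBi j).integrable_indicator (hBBm j)).const_mul (AA j)]
    refine congrArg ((n : ℝ) * ·) (Finset.sum_congr rfl fun j _ => ?_)
    rw [integral_const_mul, integral_indicator (hBBm j)]
  have hP : 0 ≤ N ^ (n - S.card) := by positivity
  have hsum : ∑ j ∈ Finset.range m, AA j * ∫ x in BB j, g x ≤
      K ^ 2 * (B * (2 ^ (n - S.card) * 4)) * N ^ (n - S.card) * (1 / (m : ℝ) + 16 ^ m / N ^ 2) := by
    have hj : ∀ j ∈ Finset.range m, AA j * ∫ x in BB j, g x ≤
        K ^ 2 * (B * (2 ^ (n - S.card) * 4)) * N ^ (n - S.card) *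
          (1 / (m : ℝ) ^ 2 + 16 ^ m / (m * N ^ 2)) := by
      intro j hj
      have h1 : ∫ x in BB j, g x ≤ B * ((2 * N) ^ (n - S.card) * (2 * 4 ^ (j + 1)) ^ 2) := by
        rw [hBB, hr, ATC1_side_two]
        have h5 := h4 (j + 1)
        have h6 : (4 : ℝ) ^ (j + 1) ≤ 4 ^ m :=
          pow_le_pow_right₀ (by norm_num) (Finset.mem_range.1 hj)
        exact hen (2 * N) (2 * 4 ^ (j + 1)) (by linarith) (by linarith)
      refine (mul_le_mul_of_nonneg_left h1 (hAA0 j)).trans ?_
      have h2 : AA j * (B * ((2 * N) ^ (n - S.card) * (2 * 4 ^ (j + 1)) ^ 2)) =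
          K ^ 2 * (B * (2 ^ (n - S.card) * 4)) * N ^ (n - S.card) *
            (1 / (m : ℝ) ^ 2 + 16 ^ (j + 1) / (m * N ^ 2)) := by
        have h4' : (16 : ℝ) ^ (j + 1) = (4 ^ (j + 1)) ^ 2 := by
          rw [← pow_mul, mul_comm, pow_mul]; norm_num
        rw [hAA, h4', mul_pow]
        field_simp
        try ring
      rw [h2]
      refine mul_le_mul_of_nonneg_left ?_ (by positivity)
      have h3 : (16 : ℝ) ^ (j + 1) ≤ 16 ^ m :=
        pow_le_pow_right₀ (by norm_num) (Finset.mem_range.1 hj)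
      have h5 : (16 : ℝ) ^ (j + 1) / (m * N ^ 2) ≤ 16 ^ m / (m * N ^ 2) :=
        div_le_div_of_nonneg_right h3 (by positivity)
      linarith
    refine (Finset.sum_le_sum hj).trans (le_of_eq ?_)
    rw [Finset.sum_const, Finset.card_range, nsmul_eq_mul]
    field_simp
  have hmain := hgeo ζ hζ1 hζs
  have hleft : ∫ x in box c (sideS S N 1), G x ≤ ∫ x, ζ x ^ 2 * G x := by
    have hbm : MeasurableSet (box c (sideS S N 1)) :=
      (box_compact c _).isClosed.measurableSet
    rw [← integral_indicator hbm]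
    have hi1 : Integrable (fun x => ζ x ^ 2 * G x) := by
      have hc : Continuous fun x => ζ x ^ 2 * G x := (hζ1.continuous.pow 2).mul hG
      refine hc.integrable_of_hasCompactSupport ?_
      refine hζs.mono fun x hx => ?_
      rw [Function.mem_support] at hx ⊢
      intro h0
      exact hx (by rw [h0]; ring)
    refine integral_mono_of_nonneg (Eventually.of_forall fun x => ?_) hi1
      (Eventually.of_forall fun x => ?_)
    · exact indicator_nonneg (fun x _ => hG0 x) x
    · by_cases hx : x ∈ box c (sideS S N 1)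
      · simp only
        rw [indicator_of_mem hx, hone x hx]
        simp
      · simp only
        rw [indicator_of_notMem hx]
        exact mul_nonneg (sq_nonneg _) (hG0 x)
  have hn1 : (n : ℝ) ≤ n + 1 := by linarith
  have hsum0 : 0 ≤ ∑ j ∈ Finset.range m, AA j * ∫ x in BB j, g x :=
    Finset.sum_nonneg fun j _ => mul_nonneg (hAA0 j) (integral_nonneg hg0)
  calc ∫ x in box c (sideS S N 1), G x ≤ ∫ x, ζ x ^ 2 * G x := hleft
    _ ≤ A * ∫ x, g x * ∑ i, pd i ζ x ^ 2 := hmain
    _ ≤ A * (n * ∑ j ∈ Finset.range m, AA j * ∫ x in BB j, g x) := by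
        rw [← hint]
        exact mul_le_mul_of_nonneg_left hge hA.le
    _ ≤ A * ((n + 1) * ∑ j ∈ Finset.range m, AA j * ∫ x in BB j, g x) :=
        mul_le_mul_of_nonneg_left (mul_le_mul_of_nonneg_right hn1 hsum0) hA.le
    _ ≤ A * ((n + 1) * (K ^ 2 * (B * (2 ^ (n - S.card) * 4)) * N ^ (n - S.card) *
          (1 / (m : ℝ) + 16 ^ m / N ^ 2))) :=
        mul_le_mul_of_nonneg_left (mul_le_mul_of_nonneg_left hsum (by positivity)) hA.le
    _ = A * ((n + 1) * (K ^ 2 * (B * (2 ^ (n - S.card) * 4)))) * N ^ (n - S.card) *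
          (1 / (m : ℝ) + 16 ^ m / N ^ 2) := by ring

theorem logS_at {n : ℕ} (S : Finset (Fin n)) {A B : ℝ} (hA : 0 < A) (hB : 0 < B)
    {G g : E n → ℝ} (hG : Continuous G) (hg : Continuous g) (hG0 : ∀ x, 0 ≤ G x)
    (hg0 : ∀ x, 0 ≤ g x)
    (hgeo : ∀ ζ : E n → ℝ, ContDiff ℝ 1 ζ → HasCompactSupport ζ →
      ∫ x, ζ x ^ 2 * G x ≤ A * ∫ x, g x * ∑ i, pd i ζ x ^ 2) (c : E n)
    (hen : ∀ (N R : ℝ), 1 ≤ R → R ≤ N →
      ∫ x in box c (sideS S N R), g x ≤ B * (N ^ (n - S.card) * R ^ 2)) {ε : ℝ} (hε : 0 < ε) :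
    ∃ N₀ : ℝ, 1 ≤ N₀ ∧ ∀ N : ℝ, N₀ ≤ N →
      ∫ x in box c (sideS S N 1), G x ≤ ε * N ^ (n - S.card) := by
  obtain ⟨C, hC, h⟩ := ATC1_log S hA hB
  obtain ⟨m, hm⟩ := exists_nat_gt (2 * C / ε)
  have hm0 : (0 : ℝ) < m := lt_trans (by positivity) hm
  have hm1 : 1 ≤ m := by exact_mod_cast hm0
  refine ⟨max (max 1 (2 * 4 ^ m)) (2 * C * 16 ^ m / ε),
    le_max_of_le_left (le_max_left _ _), fun N hN => ?_⟩
  have hN1 : 1 ≤ N := le_trans (le_max_of_le_left (le_max_left _ _)) hN
  have hN3 : 2 * 4 ^ m ≤ N := le_trans (le_max_of_le_left (le_max_right _ _)) hN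
  have hN2 : 2 * C * 16 ^ m / ε ≤ N := le_trans (le_max_right _ _) hN
  refine (h G g hG hg hG0 hg0 hgeo c hen m N hm1 hN3).trans ?_
  have h1 : C * (1 / (m : ℝ)) ≤ ε / 2 := by
    rw [div_lt_iff₀ hε] at hm
    rw [mul_one_div, div_le_iff₀ hm0]
    linarith
  have h2 : C * (16 ^ m / N ^ 2) ≤ ε / 2 := by
    rw [div_le_iff₀ hε] at hN2
    rw [← mul_div_assoc, div_le_iff₀ (by positivity)]
    have h3 : N ≤ N ^ 2 := by nlinarith
    have h4 : N * ε ≤ N ^ 2 * ε := mul_le_mul_of_nonneg_right h3 hε.le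
    linarith
  have h5 : 0 ≤ N ^ (n - S.card) := by positivity
  calc C * N ^ (n - S.card) * (1 / (m : ℝ) + 16 ^ m / N ^ 2)
      = (C * (1 / (m : ℝ)) + C * (16 ^ m / N ^ 2)) * N ^ (n - S.card) := by ring
    _ ≤ (ε / 2 + ε / 2) * N ^ (n - S.card) :=
        mul_le_mul_of_nonneg_right (add_le_add h1 h2) h5
    _ = ε * N ^ (n - S.card) := by ring

theorem perS_at {n m : ℕ} {S : Finset (Fin n)} (hm : m = n - S.card) {G : E n → ℝ}
    (hG : Continuous G) (hG0 : ∀ x, 0 ≤ G x) {v : Fin m → E n} (hv : LinearIndependent ℝ v)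
    (hvS : ∀ j, ∀ i ∈ S, v j i = 0) (hper : ∀ j x, G (x + v j) = G x)
    (havg : ∀ (c : E n) (ε : ℝ), 0 < ε → ∃ N₀ : ℝ, 1 ≤ N₀ ∧ ∀ N : ℝ, N₀ ≤ N →
      ∫ x in box c (sideS S N 1), G x ≤ ε * N ^ (n - S.card)) :
    ∀ x, G x = 0 := by
  intro x0
  by_contra hne
  have hpos : 0 < G x0 := lt_of_le_of_ne (hG0 x0) (Ne.symm hne)
  obtain ⟨κ, hκ, hsep⟩ := PER_sep hv
  -- a small ball
  obtain ⟨ρ0, hρ0, hball⟩ := Metric.eventually_nhds_iff.1
    ((hG.tendsto x0).eventually (lt_mem_nhds (half_lt_self hpos)))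
  obtain ⟨ρ, hρ⟩ : ∃ ρ, ρ = min ρ0 (min 1 (κ / 2)) := ⟨_, rfl⟩
  have hρpos : 0 < ρ := by
    rw [hρ]
    exact lt_min hρ0 (lt_min one_pos (half_pos hκ))
  have hρ1 : ρ ≤ 1 := by rw [hρ]; exact (min_le_right _ _).trans (min_le_left _ _)
  have hρκ : ρ ≤ κ / 2 := by rw [hρ]; exact (min_le_right _ _).trans (min_le_right _ _)
  have hρρ : ρ ≤ ρ0 := by rw [hρ]; exact min_le_left _ _
  have hib : ∀ y : E n, IntegrableOn G (Metric.ball y ρ) := fun y =>
    (hG.continuousOn.integrableOn_compact (isCompact_closedBall y ρ)).mono_set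
      Metric.ball_subset_closedBall
  obtain ⟨β, hβ⟩ : ∃ β, β = ∫ x in Metric.ball x0 ρ, G x := ⟨_, rfl⟩
  have hβ0 : 0 < β := by
    have h1 : (volume.real (Metric.ball x0 ρ)) * (G x0 / 2) ≤ β := by
      rw [hβ]
      have h2 : ∫ _x in Metric.ball x0 ρ, (G x0 / 2) ≤ ∫ x in Metric.ball x0 ρ, G x := by
        refine setIntegral_mono_on ?_ (hib x0) measurableSet_ball ?_
        · exact integrableOn_const (Metric.isBounded_ball.measure_lt_top.ne)
        · intro x hx
          exact (hball (lt_of_lt_of_le (Metric.mem_ball.1 hx) hρρ)).le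
      rw [setIntegral_const, smul_eq_mul] at h2
      exact h2
    have h3 : 0 < volume.real (Metric.ball x0 ρ) := by
      rw [Measure.real, ENNReal.toReal_pos_iff]
      exact ⟨Metric.measure_ball_pos _ _ hρpos, Metric.isBounded_ball.measure_lt_top⟩
    have h4 : 0 < (volume.real (Metric.ball x0 ρ)) * (G x0 / 2) := by positivity
    linarith
  -- translated balls
  have htr : ∀ k, ∫ x in Metric.ball (x0 + PER_W v k) ρ, G x = β := by
    intro k
    have h := (measurePreserving_add_right (volume : Measure (E n)) (PER_W v k)).setIntegral_preimage_emb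
      (measurableEmbedding_addRight _) G (Metric.ball (x0 + PER_W v k) ρ)
    rw [← h, hβ]
    have h2 : (fun x : E n => x + PER_W v k) ⁻¹' Metric.ball (x0 + PER_W v k) ρ =
        Metric.ball x0 ρ := by
      ext x
      simp [Metric.mem_ball]
    rw [h2]
    refine setIntegral_congr_fun measurableSet_ball fun x _ => ?_
    exact PER_period hper k x
  obtain ⟨A, hA⟩ : ∃ A, A = 1 + ∑ j, ‖v j‖ := ⟨_, rfl⟩
  have hsv : 0 ≤ ∑ j, ‖v j‖ := Finset.sum_nonneg fun j _ => norm_nonneg _
  have hA1 : 1 ≤ A := by rw [hA]; linarith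
  -- count
  have hcount : ∀ M : ℕ, 1 ≤ M → (M : ℝ) ^ m * β ≤
      ∫ x in box x0 (sideS S (A * M) 1), G x := by
    intro M hM
    have hM1 : (1 : ℝ) ≤ M := by exact_mod_cast hM
    obtain ⟨T, hT⟩ : ∃ T : Finset (Fin m → ℕ), T = Fintype.piFinset fun _ => Finset.range M :=
      ⟨_, rfl⟩
    have hcard : T.card = M ^ m := by rw [hT, Fintype.card_piFinset]; simp
    have hsum : ∫ x in ⋃ k ∈ T, Metric.ball (x0 + PER_W v k) ρ, G x = (M : ℝ) ^ m * β := by
      rw [integral_biUnion_finset T (fun k _ => measurableSet_ball) ?_ (fun k _ => hib _)]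
      · simp only [htr, Finset.sum_const, nsmul_eq_mul, hcard]
        push_cast
        rfl
      · intro k _ l _ hkl
        apply Metric.ball_disjoint_ball
        rw [dist_add_left]
        have := hsep k l hkl
        linarith
    rw [← hsum]
    refine setIntegral_mono_set ?_ (Eventually.of_forall fun x => hG0 x) ?_
    · exact hG.continuousOn.integrableOn_compact (box_compact _ _)
    · refine LE.le.eventuallyLE ?_
      refine iUnion₂_subset fun k hk => ?_
      intro x hx i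
      have hkM : ∀ j, (k j : ℝ) ≤ M := by
        intro j
        rw [hT, Fintype.mem_piFinset] at hk
        have := Finset.mem_range.1 (hk j)
        exact_mod_cast this.le
      have hd : |x i - (x0 + PER_W v k) i| ≤ ρ := by
        have h1 : ‖x - (x0 + PER_W v k)‖ < ρ := by
          rw [← dist_eq_norm]
          exact hx
        have h2 := PiLp.norm_apply_le (x - (x0 + PER_W v k)) i
        rw [Real.norm_eq_abs] at h2
        exact (h2.trans h1.le)
      have hWi : (PER_W v k) i = ∑ j, (k j : ℝ) * v j i := by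
        simp [PER_W]
      have hsplit : x i - x0 i = (x i - (x0 + PER_W v k) i) + (PER_W v k) i := by
        simp only [PiLp.add_apply]
        ring
      rw [hsplit]
      refine (abs_add_le _ _).trans ?_
      unfold sideS
      split_ifs with hi
      · have h0 : (PER_W v k) i = 0 := by
          rw [hWi]
          refine Finset.sum_eq_zero fun j _ => ?_
          rw [hvS j i hi, mul_zero]
        rw [h0, abs_zero, add_zero]
        linarith
      · have h3 : |(PER_W v k) i| ≤ M * ∑ j, ‖v j‖ := by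
          rw [hWi, Finset.mul_sum]
          refine (Finset.abs_sum_le_sum_abs _ _).trans (Finset.sum_le_sum fun j _ => ?_)
          rw [abs_mul, abs_of_nonneg (Nat.cast_nonneg (k j))]
          have h4 : |v j i| ≤ ‖v j‖ := by
            have := PiLp.norm_apply_le (v j) i
            rwa [Real.norm_eq_abs] at this
          exact mul_le_mul (hkM j) h4 (abs_nonneg _) (by linarith)
        have h5 : A * M = M + M * ∑ j, ‖v j‖ := by rw [hA]; ring
        rw [h5]
        linarith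
  -- conclusion
  obtain ⟨N0, hN0, hN⟩ := havg x0 (β / (2 * A ^ m)) (by positivity)
  obtain ⟨M, hM⟩ := exists_nat_ge N0
  have hM1 : 1 ≤ M := by
    have : (1 : ℝ) ≤ M := hN0.trans hM
    exact_mod_cast this
  have hMr : (1 : ℝ) ≤ M := by exact_mod_cast hM1
  have h1 := hN (A * M) (by nlinarith)
  have h2 := hcount M hM1
  rw [← hm, mul_pow] at h1
  have h3 : β / (2 * A ^ m) * (A ^ m * (M : ℝ) ^ m) = (M : ℝ) ^ m * β / 2 := by
    have hA0 : A ^ m ≠ 0 := pow_ne_zero _ (by linarith)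
    field_simp
  rw [h3] at h1
  have h4 : 0 < (M : ℝ) ^ m * β := by positivity
  linarith

end Vale.Agent.P134
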