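import Vale.Agent.P134.Rad

/-! # P134, module AXIS: the inequality for all test functions

Apply `rad` to `η κ_j`, `κ_j x = Real.smoothTransition (j * rr x - 1)` (zero for `rr ≤ 1/j`, one
for `rr ≥ 2/j`, `|∇κ_j| ≤ C √rr * j ≤ C' √j` on `{1/j ≤ rr ≤ 2/j}`), and let `j → ∞`.  By `qlip`
`q2 ≤ C rr ≤ 2C/j` there, so `∫ q2 (2 |η| |∇η| |∇κ_j| + η² |∇κ_j|²)` is at most
`C'' ∫_{rr ≤ 2/j} (|η| |∇η| + η²) → 0` (dominated convergence: the integrand tends to `0`
pointwise except on `{rr = 0}`, where `q2 = 0`; simplest: `q2 |∇κ_j|² ≤ C` everywhere and tends to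
`0` pointwise everywhere). -/

open MeasureTheory Set Filter Topology

namespace Vale.Agent.P134

theorem axis_st_bdd : ∃ M : ℝ, 0 ≤ M ∧ (∀ t, |deriv Real.smoothTransition t| ≤ M) ∧
    ∀ t, 1 < t → deriv Real.smoothTransition t = 0 := by
  have hst : ContDiff ℝ 2 Real.smoothTransition := Real.smoothTransition.contDiff
  have hdc : Continuous (deriv Real.smoothTransition) := hst.continuous_deriv (by norm_num)
  have h1 : ∀ t, 1 < t → deriv Real.smoothTransition t = 0 := by
    intro t ht
    have : Real.smoothTransition =ᶠ[𝓝 t] fun _ => (1 : ℝ) := by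
      filter_upwards [lt_mem_nhds ht] with s hs
      exact Real.smoothTransition.one_of_one_le hs.le
    rw [this.deriv_eq]
    simp
  have h0 : ∀ t, t < 0 → deriv Real.smoothTransition t = 0 := by
    intro t ht
    have : Real.smoothTransition =ᶠ[𝓝 t] fun _ => (0 : ℝ) := by
      filter_upwards [gt_mem_nhds ht] with s hs
      exact Real.smoothTransition.zero_of_nonpos hs.le
    rw [this.deriv_eq]
    simp
  obtain ⟨M, hM⟩ := isCompact_Icc.exists_bound_of_continuousOn (s := Icc (0 : ℝ) 1)
    hdc.continuousOn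
  refine ⟨max M 0, le_max_right _ _, ?_, h1⟩
  intro t
  by_cases ht0 : t < 0
  · rw [h0 t ht0]; simp
  by_cases ht1 : 1 < t
  · rw [h1 t ht1]; simp
  · push Not at ht0 ht1
    exact (hM t ⟨ht0, ht1⟩).trans (le_max_left _ _)

theorem axis_rr_fd {n : ℕ} (Y : Finset (Fin n)) (x : E n) :
    HasFDerivAt (rr Y : E n → ℝ)
      (∑ j ∈ Y, (2 * x j) • (EuclideanSpace.proj j : E n →L[ℝ] ℝ)) x := by
  have h : ∀ j ∈ Y, HasFDerivAt (fun y : E n => y j ^ 2)
      ((2 * x j) • (EuclideanSpace.proj j : E n →L[ℝ] ℝ)) x := by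
    intro j _
    have h1 : HasFDerivAt (fun y : E n => y j) (EuclideanSpace.proj j : E n →L[ℝ] ℝ) x :=
      (EuclideanSpace.proj j : E n →L[ℝ] ℝ).hasFDerivAt
    have h2 := h1.pow 2
    simpa using h2
  have h3 := HasFDerivAt.fun_sum h
  exact h3

theorem axis_pd_rr {n : ℕ} (Y : Finset (Fin n)) (x : E n) (i : Fin n) :
    pd i (rr Y) x = if i ∈ Y then 2 * x i else 0 := by
  unfold pd
  rw [(axis_rr_fd Y x).fderiv]
  simp [ContinuousLinearMap.sum_apply, Pi.single_apply]

theorem axis_sum_rr {n : ℕ} (Y : Finset (Fin n)) (x : E n) :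
    ∑ i, pd i (rr Y) x ^ 2 = 4 * rr Y x := by
  unfold rr
  have : ∀ i : Fin n, pd i (fun y : E n => ∑ i ∈ Y, y i ^ 2) x ^ 2
      = if i ∈ Y then 4 * x i ^ 2 else 0 := by
    intro i
    have h := axis_pd_rr Y x i
    unfold rr at h
    rw [h]
    split_ifs <;> ring
  rw [Finset.sum_congr rfl (fun i _ => this i), Finset.mul_sum]
  simp

theorem axis_pd_k {n : ℕ} (Y : Finset (Fin n)) (c : ℝ) (x : E n) (i : Fin n) :
    pd i (fun y : E n => Real.smoothTransition (c * rr Y y - 1)) x =
      deriv Real.smoothTransition (c * rr Y x - 1) * (c * pd i (rr Y) x) := by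
  have hst : ContDiff ℝ 2 Real.smoothTransition := Real.smoothTransition.contDiff
  have hd : HasDerivAt Real.smoothTransition
      (deriv Real.smoothTransition (c * rr Y x - 1)) (c * rr Y x - 1) :=
    (hst.differentiable (by norm_num)).differentiableAt.hasDerivAt
  have hr : HasFDerivAt (rr Y : E n → ℝ) (fderiv ℝ (rr Y) x) x :=
    (axis_rr_fd Y x).differentiableAt.hasFDerivAt
  have h2 : HasFDerivAt (fun y : E n => c * rr Y y - 1) (c • fderiv ℝ (rr Y) x) x :=
    (hr.const_mul c).sub_const 1
  have h3 := hd.comp_hasFDerivAt x h2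
  have h4 : HasFDerivAt (fun y : E n => Real.smoothTransition (c * rr Y y - 1))
      (deriv Real.smoothTransition (c * rr Y x - 1) • (c • fderiv ℝ (rr Y) x)) x := h3
  unfold pd
  rw [h4.fderiv]
  simp

theorem axis {n : ℕ} {Y : Finset (Fin n)} (hY : 1 ≤ Y.card) {u : E n → ℝ} (hu : IsSol u)
    (hR : RadIn Y u) (hst : Stable u) : AxisIneq Y u := by
  intro η hη hs
  obtain ⟨C, hC, hq⟩ := qlip n
  have hq' := hq Y u hu hR
  have hqc := q2_cont Y hu.1
  have hrs := rr_smooth (n := n) Y
  have hrc : Continuous (rr Y : E n → ℝ) := hrs.continuous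
  have hrn : ∀ x : E n, 0 ≤ rr Y x := fun x => rr_nonneg Y x
  have hqn : ∀ x : E n, 0 ≤ q2 Y u x := fun x => q2_nonneg Y u x
  obtain ⟨M, hM0, hM, hM1⟩ := axis_st_bdd
  have hS : ContDiff ℝ 2 Real.smoothTransition := Real.smoothTransition.contDiff
  set c : ℕ → ℝ := fun j => (j : ℝ) + 1 with hcdef
  have hc0 : ∀ j, 0 < c j := fun j => by simp only [hcdef]; positivity
  set k : ℕ → E n → ℝ := fun j y => Real.smoothTransition (c j * rr Y y - 1) with hkdef
  have hk2 : ∀ j, ContDiff ℝ 2 (k j) := fun j =>
    hS.comp ((contDiff_const.mul hrs).sub contDiff_const)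
  have hk0 : ∀ j y, 0 ≤ k j y := fun j y => Real.smoothTransition.nonneg _
  have hk1 : ∀ j y, k j y ≤ 1 := fun j y => Real.smoothTransition.le_one _
  have hηk : ∀ j, ContDiff ℝ 1 (fun y => η y * k j y) := fun j =>
    hη.mul ((hk2 j).of_le (by norm_num))
  have hsk : ∀ j, HasCompactSupport (fun y => η y * k j y) := fun j => hs.mul_right
  -- inequality for each j
  have hmain : ∀ j, ((Y.card : ℝ) - 1) *
      ∫ x, q2 Y u x * (η x * k j x) ^ 2 / (1 + rr Y x) ≤
      ∫ x, q2 Y u x * ∑ i, pd i (fun y => η y * k j y) x ^ 2 := by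
    intro j
    refine rad hY hu hR hst (hηk j) (hsk j) (δ := 1 / c j) (by have := hc0 j; positivity) ?_
    intro x hx
    have h1 : c j * rr Y x - 1 ≤ 0 := by
      have := hc0 j
      rw [lt_div_iff₀ this] at hx
      nlinarith
    have : k j x = 0 := Real.smoothTransition.zero_of_nonpos h1
    simp [this]
  -- eventually one
  have hev : ∀ x : E n, 0 < rr Y x → ∀ᶠ j : ℕ in atTop, 2 < c j * rr Y x := by
    intro x hx
    have h1 : Tendsto (fun j : ℕ => c j * rr Y x) atTop atTop := by
      refine Tendsto.atTop_mul_const hx ?_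
      exact tendsto_atTop_add_const_right _ _ tendsto_natCast_atTop_atTop
    exact h1.eventually_gt_atTop 2
  have hpd : ∀ j x i, pd i (fun y => η y * k j y) x =
      η x * (deriv Real.smoothTransition (c j * rr Y x - 1) * (c j * pd i (rr Y) x)) +
        k j x * pd i η x := by
    intro j x i
    have hkd : DifferentiableAt ℝ (k j) x := (hk2 j).differentiable (by norm_num) x
    have hηd : DifferentiableAt ℝ η x := hη.differentiable (by norm_num) x
    have h1 := fderiv_fun_mul hηd hkd
    have h2 := axis_pd_k Y (c j) x i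
    unfold pd at h2 ⊢
    rw [h1]
    simp only [ContinuousLinearMap.add_apply, ContinuousLinearMap.smul_apply, smul_eq_mul]
    rw [← h2]
  have hpdc : ∀ (f : E n → ℝ), ContDiff ℝ 1 f → ∀ i, Continuous (pd i f) := by
    intro f hf i
    have := hf.continuous_fderiv (by norm_num)
    exact this.clm_apply continuous_const
  have hsη : ∀ i, HasCompactSupport (pd i η) := by
    intro i
    have := hs.fderiv (𝕜 := ℝ)
    exact this.comp_left (g := fun L : E n →L[ℝ] ℝ => L (EuclideanSpace.single i 1)) rfl
  -- LHS limit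
  have hL : Tendsto (fun j => ∫ x, q2 Y u x * (η x * k j x) ^ 2 / (1 + rr Y x)) atTop
      (𝓝 (∫ x, q2 Y u x * η x ^ 2 / (1 + rr Y x))) := by
    refine tendsto_integral_of_dominated_convergence
      (fun x => q2 Y u x * η x ^ 2 / (1 + rr Y x)) ?_ ?_ ?_ ?_
    · intro j
      refine Continuous.aestronglyMeasurable ?_
      refine (hqc.mul ((hηk j).continuous.pow 2)).div (continuous_const.add hrc) ?_
      intro x; have := hrn x; positivity
    · refine Continuous.integrable_of_hasCompactSupport ?_ ?_
      · refine (hqc.mul (hη.continuous.pow 2)).div (continuous_const.add hrc) ?_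
        intro x; have := hrn x; positivity
      · refine hs.mono' ?_
        intro x hx
        refine subset_tsupport _ ?_
        intro h0
        apply hx
        simp [h0]
    · intro j
      refine ae_of_all _ fun x => ?_
      have h1 := hrn x
      have h2 := hqn x
      rw [Real.norm_of_nonneg (by positivity)]
      refine div_le_div_of_nonneg_right ?_ (by positivity)
      refine mul_le_mul_of_nonneg_left ?_ h2
      rw [mul_pow]
      have h3 : k j x ^ 2 ≤ 1 := pow_le_one₀ (hk0 j x) (hk1 j x)
      nlinarith [sq_nonneg (η x)]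
    · refine ae_of_all _ fun x => ?_
      rcases (hrn x).lt_or_eq with h | h
      · refine tendsto_const_nhds.congr' ?_
        filter_upwards [hev x h] with j hj
        have : k j x = 1 := Real.smoothTransition.one_of_one_le (by linarith)
        rw [this, mul_one]
      · have h4 : q2 Y u x = 0 := by
          have := hq' x
          rw [← h, mul_zero] at this
          exact le_antisymm this (hqn x)
        simp [h4]
  -- RHS limit
  have hRt : Tendsto (fun j => ∫ x, q2 Y u x * ∑ i, pd i (fun y => η y * k j y) x ^ 2) atTop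
      (𝓝 (∫ x, q2 Y u x * ∑ i, pd i η x ^ 2)) := by
    refine tendsto_integral_of_dominated_convergence
      (fun x => 2 * (q2 Y u x * ∑ i, pd i η x ^ 2) + 32 * C * M ^ 2 * η x ^ 2) ?_ ?_ ?_ ?_
    · intro j
      refine Continuous.aestronglyMeasurable ?_
      exact hqc.mul (continuous_finset_sum _ fun i _ => (hpdc _ (hηk j) i).pow 2)
    · refine Integrable.add ?_ ?_
      · refine Integrable.const_mul ?_ _
        refine Continuous.integrable_of_hasCompactSupport ?_ ?_
        · exact hqc.mul (continuous_finset_sum _ fun i _ => (hpdc _ hη i).pow 2)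
        · refine (hs.fderiv (𝕜 := ℝ)).mono' ?_
          intro x hx
          refine subset_tsupport _ ?_
          intro h0
          apply hx
          have : ∀ i, pd i η x = 0 := by
            intro i
            unfold pd
            rw [h0]; rfl
          simp [this]
      · refine Integrable.const_mul ?_ _
        refine Continuous.integrable_of_hasCompactSupport (hη.continuous.pow 2) ?_
        refine hs.mono' ?_
        intro x hx
        refine subset_tsupport _ ?_
        intro h0
        apply hx
        simp [h0]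
    · intro j
      refine ae_of_all _ fun x => ?_
      have h1 := hrn x
      have h2 := hqn x
      have hsn : 0 ≤ ∑ i, pd i (fun y => η y * k j y) x ^ 2 :=
        Finset.sum_nonneg fun i _ => sq_nonneg _
      rw [Real.norm_of_nonneg (mul_nonneg h2 hsn)]
      set S := deriv Real.smoothTransition (c j * rr Y x - 1) with hSdef
      have h3 : ∑ i, pd i (fun y => η y * k j y) x ^ 2 ≤
          2 * (η x ^ 2 * (S ^ 2 * (c j ^ 2 * (4 * rr Y x)))) + 2 * ∑ i, pd i η x ^ 2 := by
        rw [← axis_sum_rr, Finset.mul_sum, Finset.mul_sum, Finset.mul_sum, Finset.mul_sum,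
          Finset.mul_sum, ← Finset.sum_add_distrib]
        refine Finset.sum_le_sum fun i _ => ?_
        rw [hpd j x i]
        have h4 : k j x ^ 2 ≤ 1 := pow_le_one₀ (hk0 j x) (hk1 j x)
        have h5 : (k j x * pd i η x) ^ 2 ≤ pd i η x ^ 2 := by
          rw [mul_pow]; nlinarith [sq_nonneg (pd i η x)]
        have h6 : (η x * (S * (c j * pd i (rr Y) x)) + k j x * pd i η x) ^ 2 ≤
            2 * (η x * (S * (c j * pd i (rr Y) x))) ^ 2 + 2 * (k j x * pd i η x) ^ 2 := by
          nlinarith [sq_nonneg (η x * (S * (c j * pd i (rr Y) x)) - k j x * pd i η x)]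
        have h7 : (η x * (S * (c j * pd i (rr Y) x))) ^ 2 =
            η x ^ 2 * (S ^ 2 * (c j ^ 2 * pd i (rr Y) x ^ 2)) := by ring
        rw [← h7]
        linarith
      have h8 : q2 Y u x * (η x ^ 2 * (S ^ 2 * (c j ^ 2 * (4 * rr Y x)))) ≤
          16 * C * M ^ 2 * η x ^ 2 := by
        by_cases hgt : 1 < c j * rr Y x - 1
        · have : S = 0 := hM1 _ hgt
          rw [this]
          have : 0 ≤ 16 * C * M ^ 2 * η x ^ 2 := by positivity
          simpa using this
        · push Not at hgt
          have hcr : c j * rr Y x ≤ 2 := by linarith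
          have hcr0 : 0 ≤ c j * rr Y x := mul_nonneg (hc0 j).le h1
          have hcr2 : (c j * rr Y x) ^ 2 ≤ 4 := by nlinarith
          have hS2 : S ^ 2 ≤ M ^ 2 := by
            have := hM (c j * rr Y x - 1)
            rw [← hSdef] at this
            exact sq_le_sq' (by linarith [neg_abs_le S]) ((le_abs_self S).trans this)
          have h9 : q2 Y u x * (η x ^ 2 * (S ^ 2 * (c j ^ 2 * (4 * rr Y x)))) ≤
              (C * rr Y x) * (η x ^ 2 * (S ^ 2 * (c j ^ 2 * (4 * rr Y x)))) :=
            mul_le_mul_of_nonneg_right (hq' x) (by positivity)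
          have h10 : (C * rr Y x) * (η x ^ 2 * (S ^ 2 * (c j ^ 2 * (4 * rr Y x)))) =
              4 * C * η x ^ 2 * (S ^ 2 * (c j * rr Y x) ^ 2) := by ring
          have h11 : S ^ 2 * (c j * rr Y x) ^ 2 ≤ M ^ 2 * 4 :=
            mul_le_mul hS2 hcr2 (sq_nonneg _) (sq_nonneg _)
          have h12 : 4 * C * η x ^ 2 * (S ^ 2 * (c j * rr Y x) ^ 2) ≤
              4 * C * η x ^ 2 * (M ^ 2 * 4) :=
            mul_le_mul_of_nonneg_left h11 (by positivity)
          calc _ ≤ _ := h9
            _ = _ := h10
            _ ≤ _ := h12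
            _ = _ := by ring
      have h13 := mul_le_mul_of_nonneg_left h3 h2
      calc _ ≤ _ := h13
        _ = 2 * (q2 Y u x * (η x ^ 2 * (S ^ 2 * (c j ^ 2 * (4 * rr Y x))))) +
            2 * (q2 Y u x * ∑ i, pd i η x ^ 2) := by ring
        _ ≤ _ := by linarith
    · refine ae_of_all _ fun x => ?_
      rcases (hrn x).lt_or_eq with h | h
      · refine tendsto_const_nhds.congr' ?_
        filter_upwards [hev x h] with j hj
        have h1 : k j x = 1 := Real.smoothTransition.one_of_one_le (by linarith)
        have h2 : deriv Real.smoothTransition (c j * rr Y x - 1) = 0 := hM1 _ (by linarith)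
        have h3 : ∀ i, pd i (fun y => η y * k j y) x = pd i η x := by
          intro i
          rw [hpd, h1, h2]
          ring
        simp only [h3]
      · have h4 : q2 Y u x = 0 := by
          have := hq' x
          rw [← h, mul_zero] at this
          exact le_antisymm this (hqn x)
        simp [h4]
  exact le_of_tendsto_of_tendsto (hL.const_mul _) hRt (Eventually.of_forall hmain)

end Vale.Agent.P134
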