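import Vale.Agent.P134.Weak

/-! # P134, module CACC: Caccioppoli inequality

Test `weak` with `φ = u η²`: `∫ η² |∇u|² + 2 u η ∑ pd i u pd i η = ∫ (u² - u⁴) η² ≤ ∫ η²` and
`2 u η (pd i u) (pd i η) ≥ - η² (pd i u)² / 2 - 2 (pd i η)²` because `u² ≤ 1`. -/

open MeasureTheory Set Filter Topology

namespace Vale.Agent.P134

theorem CACC_pd_cont {n : ℕ} {f : E n → ℝ} (hf : ContDiff ℝ 1 f) (i : Fin n) :
    Continuous (pd i f) := by
  unfold pd
  exact (hf.continuous_fderiv one_ne_zero).clm_apply continuous_const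

theorem CACC_pd_supp {n : ℕ} {f : E n → ℝ} (hs : HasCompactSupport f) (i : Fin n) :
    HasCompactSupport (pd i f) := hs.fderiv_apply (𝕜 := ℝ) _

theorem CACC_pd_mul {n : ℕ} {u η : E n → ℝ} (hu : ContDiff ℝ 1 u) (hη : ContDiff ℝ 1 η)
    (i : Fin n) (x : E n) :
    pd i (fun x => u x * η x ^ 2) x = η x ^ 2 * pd i u x + 2 * (u x * η x) * pd i η x := by
  have hu1 := (hu.differentiable one_ne_zero) x
  have hη1 := (hη.differentiable one_ne_zero) x
  have h := (hu1.hasFDerivAt.mul (hη1.hasFDerivAt.pow 2))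
  unfold pd
  have e : (fun x => u x * η x ^ 2) = u * fun x => η x ^ 2 := rfl
  rw [e, h.fderiv]
  simp only [add_apply, smul_apply, smul_eq_mul]
  ring

theorem cacc {n : ℕ} {u η : E n → ℝ} (hu : IsSol u) (hη : ContDiff ℝ 1 η)
    (hs : HasCompactSupport η) :
    ∫ x, η x ^ 2 * gr u x ≤ 4 * (∫ x, ∑ i, pd i η x ^ 2) + 2 * ∫ x, η x ^ 2 := by
  have hu1 : ContDiff ℝ 1 u := hu.1.of_le (by norm_num)
  have hφ : ContDiff ℝ 1 (fun x => u x * η x ^ 2) := hu1.mul (hη.pow 2)
  have hsq : HasCompactSupport (fun x => η x ^ 2) := by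
    have : (fun x => η x ^ 2) = fun x => η x * η x := by funext x; ring
    rw [this]
    exact hs.mul_left (f := η)
  have hsφ : HasCompactSupport (fun x => u x * η x ^ 2) := hsq.mul_left (f := u)
  have hw := weak hu hφ hsφ
  -- integrability
  have cgr : Continuous (gr u) := by
    unfold gr
    exact continuous_finsetSum _ fun i _ => (CACC_pd_cont hu1 i).pow 2
  have i1 : Integrable fun x => η x ^ 2 * gr u x := by
    refine Continuous.integrable_of_hasCompactSupport ((hη.continuous.pow 2).mul cgr) ?_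
    exact hsq.mul_right (f' := gr u)
  have i2 : Integrable fun x => ∑ i, pd i η x ^ 2 := by
    refine integrable_finsetSum _ fun i _ => ?_
    have c := CACC_pd_cont hη i
    have : (fun x => pd i η x ^ 2) = fun x => pd i η x * pd i η x := by funext x; ring
    rw [this]
    exact (c.mul c).integrable_of_hasCompactSupport ((CACC_pd_supp hs i).mul_left (f := pd i η))
  have i3 : Integrable fun x => η x ^ 2 :=
    (hη.continuous.pow 2).integrable_of_hasCompactSupport hsq
  have i4 : Integrable fun x => ∑ i, pd i u x * pd i (fun x => u x * η x ^ 2) x := by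
    refine integrable_finsetSum _ fun i _ => ?_
    exact ((CACC_pd_cont hu1 i).mul (CACC_pd_cont hφ i)).integrable_of_hasCompactSupport
      ((CACC_pd_supp hsφ i).mul_left (f := pd i u))
  have i5 : Integrable fun x => (u x ^ 3 - u x) * (u x * η x ^ 2) := by
    refine Continuous.integrable_of_hasCompactSupport ?_ (hsφ.mul_left (f := fun x => u x ^ 3 - u x))
    exact ((hu1.continuous.pow 3).sub hu1.continuous).mul hφ.continuous
  -- pointwise inequalities
  have p1 : ∀ x, (1 / 2) * (η x ^ 2 * gr u x) - 2 * ∑ i, pd i η x ^ 2 ≤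
      ∑ i, pd i u x * pd i (fun x => u x * η x ^ 2) x := by
    intro x
    have hux : u x ^ 2 ≤ 1 := (sq_le_one_iff_abs_le_one _).2 (hu.2.2 x)
    unfold gr
    rw [Finset.mul_sum, Finset.mul_sum, Finset.mul_sum, ← Finset.sum_sub_distrib]
    refine Finset.sum_le_sum fun i _ => ?_
    rw [CACC_pd_mul hu1 hη]
    have h1 : u x ^ 2 * pd i η x ^ 2 ≤ pd i η x ^ 2 := by
      nlinarith [sq_nonneg (pd i η x)]
    nlinarith [sq_nonneg (η x * pd i u x + 2 * (u x * pd i η x))]
  have p2 : ∀ x, -(η x ^ 2) ≤ (u x ^ 3 - u x) * (u x * η x ^ 2) := by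
    intro x
    have h2 : -1 ≤ (u x ^ 3 - u x) * u x := by nlinarith [sq_nonneg (u x ^ 2 - 1 / 2)]
    have : (u x ^ 3 - u x) * (u x * η x ^ 2) = ((u x ^ 3 - u x) * u x) * η x ^ 2 := by ring
    rw [this]
    nlinarith [sq_nonneg (η x)]
  have q1 : (1 / 2) * (∫ x, η x ^ 2 * gr u x) - 2 * ∫ x, ∑ i, pd i η x ^ 2 ≤
      ∫ x, ∑ i, pd i u x * pd i (fun x => u x * η x ^ 2) x := by
    rw [← integral_const_mul, ← integral_const_mul, ← integral_sub (i1.const_mul _) (i2.const_mul _)]
    exact integral_mono ((i1.const_mul _).sub (i2.const_mul _)) i4 p1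
  have q2 : -(∫ x, η x ^ 2) ≤ ∫ x, (u x ^ 3 - u x) * (u x * η x ^ 2) := by
    rw [← integral_neg]
    exact integral_mono i3.neg i5 p2
  rw [hw] at q1
  linarith

end Vale.Agent.P134
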