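import Vale.Agent.P134.Defs

/-! # P134, module CALG: pointwise algebra for `curv`

Here `H i a = pd i (pd a u) x`, `v a = pd a u x`, `w = dd e u x = ∑ a, e a * v a > 0`, so
`gr u x > 0`.  With `b i = pd i w / w`, for each `i`
`∑ a, (H i a - v a * b i)² = ∑ a, (H i a)² - 2 b i ∑ a, H i a v a + (b i)² ∑ a, (v a)²
  ≥ ∑ a, (H i a)² - (∑ a, H i a v a)² / ∑ a, (v a)²`.
`curv_nonneg` is Cauchy-Schwarz.  `curv_cont`: all terms are continuous and `gr u x > 0`
(`pd i (pd j u)` is continuous since `u` is `C^2`). -/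

open MeasureTheory Set Filter Topology

namespace Vale.Agent.P134

theorem CALG_dd {n : ℕ} (e : E n) (f : E n → ℝ) (x : E n) : dd e f x = ∑ j, e j * pd j f x := by
  have h : e = ∑ j, e j • (EuclideanSpace.single j (1 : ℝ) : E n) := by
    ext i
    simp [Finset.sum_apply, Pi.single_apply]
  unfold dd pd
  conv_lhs => rw [h]
  rw [map_sum]
  refine Finset.sum_congr rfl fun j _ => ?_
  rw [map_smul, smul_eq_mul]

theorem gr_pos {n : ℕ} {u : E n → ℝ} {e x : E n} (he : 0 < dd e u x) :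
    0 < gr u x := by
  rw [CALG_dd] at he
  unfold gr
  by_contra h
  have h0 : ∑ j, pd j u x ^ 2 = 0 :=
    le_antisymm (not_lt.mp h) (Finset.sum_nonneg fun j _ => sq_nonneg _)
  rw [Finset.sum_eq_zero_iff_of_nonneg fun j _ => sq_nonneg _] at h0
  have h1 : ∑ j, e j * pd j u x = 0 := Finset.sum_eq_zero fun j hj => by
    rw [pow_eq_zero_iff two_ne_zero |>.mp (h0 j hj), mul_zero]
  rw [h1] at he
  exact lt_irrefl _ he

theorem CALG_row {n : ℕ} (H v : Fin n → ℝ) (b : ℝ) (hG : 0 < ∑ j, v j ^ 2) :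
    ∑ a, H a ^ 2 - (∑ a, H a * v a) ^ 2 / ∑ j, v j ^ 2 ≤ ∑ a, (H a - v a * b) ^ 2 := by
  have h1 : ∑ a, (H a - v a * b) ^ 2 =
      ∑ a, H a ^ 2 - 2 * b * ∑ a, H a * v a + b ^ 2 * ∑ a, v a ^ 2 := by
    rw [Finset.mul_sum, Finset.mul_sum, ← Finset.sum_sub_distrib, ← Finset.sum_add_distrib]
    exact Finset.sum_congr rfl fun a _ => by ring
  rw [h1]
  set G := ∑ a, v a ^ 2 with hGd
  set Bv := ∑ a, H a * v a
  have h2 : 0 ≤ (b * G - Bv) ^ 2 / G := div_nonneg (sq_nonneg _) hG.le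
  have h3 : (b * G - Bv) ^ 2 / G = b ^ 2 * G - 2 * b * Bv + Bv ^ 2 / G := by
    field_simp
    ring
  linarith

theorem curv_le {n : ℕ} {u : E n → ℝ} {e x : E n} (he : 0 < dd e u x) :
    curv u x ≤ ∑ a, ∑ i, (pd i (pd a u) x - pd a u x / dd e u x * pd i (dd e u) x) ^ 2 := by
  have hG : 0 < ∑ j, pd j u x ^ 2 := gr_pos he
  unfold curv gr
  rw [Finset.sum_comm (f := fun a i =>
    (pd i (pd a u) x - pd a u x / dd e u x * pd i (dd e u) x) ^ 2)]
  rw [Finset.sum_div, ← Finset.sum_sub_distrib]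
  refine Finset.sum_le_sum fun i _ => ?_
  have h := CALG_row (fun a => pd i (pd a u) x) (fun a => pd a u x)
    (pd i (dd e u) x / dd e u x) hG
  refine h.trans (le_of_eq ?_)
  refine Finset.sum_congr rfl fun a _ => ?_
  congr 1
  ring

end Vale.Agent.P134
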