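import Vale.Agent.P134.CurvAlg

/-! # P134, module CREG: `curv` is nonnegative, continuous, periodic if `u` is -/

open MeasureTheory Set Filter Topology

namespace Vale.Agent.P134

theorem curv_nonneg {n : ℕ} (u : E n → ℝ) (x : E n) : 0 ≤ curv u x := by
  unfold curv
  rw [sub_nonneg]
  have h1 : 0 ≤ gr u x := Finset.sum_nonneg fun j _ => sq_nonneg _
  have h2 : 0 ≤ ∑ i, ∑ j, pd i (pd j u) x ^ 2 :=
    Finset.sum_nonneg fun i _ => Finset.sum_nonneg fun j _ => sq_nonneg _
  refine div_le_of_le_mul₀ h1 h2 ?_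
  rw [Finset.sum_mul]
  refine Finset.sum_le_sum fun i _ => ?_
  exact Finset.sum_mul_sq_le_sq_mul_sq _ _ _

theorem CREG_pd_contDiff {n : ℕ} {u : E n → ℝ} (hu : ContDiff ℝ 2 u) (j : Fin n) :
    ContDiff ℝ 1 (pd j u) := by
  have h1 : ContDiff ℝ 1 (fderiv ℝ u) := hu.fderiv_right (by norm_num)
  exact h1.clm_apply contDiff_const

theorem CREG_pd_cont {n : ℕ} {u : E n → ℝ} (hu : ContDiff ℝ 1 u) (j : Fin n) :
    Continuous (pd j u) := by
  have h1 : Continuous (fderiv ℝ u) := hu.continuous_fderiv (by norm_num)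
  exact h1.clm_apply continuous_const

theorem curv_cont {n : ℕ} {u : E n → ℝ} (hu : ContDiff ℝ 2 u) {e : E n}
    (he : ∀ x, 0 < dd e u x) : Continuous (curv u) := by
  have h1 : ∀ j, Continuous (pd j u) := fun j => CREG_pd_cont (hu.of_le (by norm_num)) j
  have h2 : ∀ i j, Continuous (pd i (pd j u)) := fun i j => CREG_pd_cont (CREG_pd_contDiff hu j) i
  have h3 : Continuous (gr u) := continuous_finsetSum _ fun j _ => (h1 j).pow 2
  unfold curv
  refine Continuous.sub ?_ (Continuous.div ?_ h3 fun x => (gr_pos (he x)).ne')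
  · exact continuous_finsetSum _ fun i _ => continuous_finsetSum _ fun j _ => (h2 i j).pow 2
  · exact continuous_finsetSum _ fun i _ =>
      (continuous_finsetSum _ fun j _ => (h2 i j).mul (h1 j)).pow 2

theorem CREG_pd_per {n : ℕ} {u : E n → ℝ} {v : E n} (h : ∀ x, u (x + v) = u x) (i : Fin n)
    (x : E n) : pd i u (x + v) = pd i u x := by
  unfold pd
  rw [← fderiv_comp_add_right]
  rw [show (fun x => u (x + v)) = u from funext h]

/-- periodicity passes to `curv` -/
theorem curv_per {n : ℕ} {u : E n → ℝ} {v : E n} (h : ∀ x, u (x + v) = u x) (x : E n) :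
    curv u (x + v) = curv u x := by
  have h1 : ∀ j y, pd j u (y + v) = pd j u y := fun j y => CREG_pd_per h j y
  have h2 : ∀ i j, pd i (pd j u) (x + v) = pd i (pd j u) x := fun i j => CREG_pd_per (h1 j) i x
  unfold curv gr
  simp only [h1, h2]

end Vale.Agent.P134
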