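import Mathlib

/-!
# P134, definitions

Entire solutions of the Allen-Cahn equation on `ℝ^n`.
-/

open MeasureTheory Set Filter Topology

namespace Vale.Agent.P134

/-- Euclidean space of dimension `n` -/
abbrev E (n : ℕ) := EuclideanSpace ℝ (Fin n)

/-- the `i`-th partial derivative of `f` -/
noncomputable def pd {n : ℕ} (i : Fin n) (f : E n → ℝ) (x : E n) : ℝ :=
  fderiv ℝ f x (EuclideanSpace.single i 1)

/-- the derivative of `f` in the direction `e` -/
noncomputable def dd {n : ℕ} (e : E n) (f : E n → ℝ) (x : E n) : ℝ := fderiv ℝ f x e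

/-- `u` is a `C^2` solution of `Δu = u^3 - u` on the whole space, with `|u| ≤ 1` -/
def IsSol {n : ℕ} (u : E n → ℝ) : Prop :=
  ContDiff ℝ 2 u ∧ (∀ x, ∑ i, pd i (pd i u) x = u x ^ 3 - u x) ∧ ∀ x, |u x| ≤ 1

/-- `|∇u|²` -/
noncomputable def gr {n : ℕ} (u : E n → ℝ) (x : E n) : ℝ := ∑ j, pd j u x ^ 2

/-- `|D²u|² - |∇|∇u||²`, where `|∇|∇u||² = |D²u ∇u|² / |∇u|²`.  At a point where `∇u ≠ 0` this is
`|∇u|² |A|² + |∇_T |∇u||²`, with `A` the second fundamental form of the level set of `u` and `∇_T`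
the tangential gradient along the level set. -/
noncomputable def curv {n : ℕ} (u : E n → ℝ) (x : E n) : ℝ :=
  ∑ i, ∑ j, pd i (pd j u) x ^ 2 - (∑ i, (∑ j, pd i (pd j u) x * pd j u x) ^ 2) / gr u x

/-- the box with centre `c` and half sides `r i` -/
def box {n : ℕ} (c : E n) (r : Fin n → ℝ) : Set (E n) := {x | ∀ i, |x i - c i| ≤ r i}

/-- half sides: `N` in all directions except `p` and `q`, where it is `R` -/
noncomputable def side {n : ℕ} (p q : Fin n) (N R : ℝ) : Fin n → ℝ :=
  fun i => if i = p ∨ i = q then R else N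

end Vale.Agent.P134
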