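import Vale.Agent.P134.Defs

/-! # P134, stage 2: definitions and plan (`n - 3` periods)

THEOREM: a solution `u` on `ℝ^n` with `∂_e u > 0` which is periodic in `n - 3` independent
directions `v j` (with `e` not in their span) is one-dimensional.

PROOF.  Let `U x = lim_{t → ∞} u (x + t e)`.  Uniform `C^{2,1}` bounds (REG) give that `U` is a
solution and that first and second derivatives converge (LIM).  `U` is invariant along `e` and
periodic along `v j` : `n - 2` independent periods, so (LOGS, PERS, GEOU) `gc U = 0`, and `U` is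
one-dimensional (RIG): `U x = h (f · x)`.  `U` is stable (STABU), so `h' ^ 2 = (1 - h ^ 2) ^ 2 / 2`
(ONED), so `h` is `1`, `-1` or strictly monotone (MONO) with energy `∫ h' ^ 2 ≤ 2`.  If it is
monotone then `f` is orthogonal to all `v j`.  By the sliding argument (SLIDE) the energy of `u` in
`box c (sideS S N R)`, `card S = 3`, is `≤ C N^(n-3) R^2` in a frame adapted to the `v j` and `f`;
LOGS and PERS for `u` finish. -/

open MeasureTheory Set Filter Topology

namespace Vale.Agent.P134

/-- half sides: `R` in the directions of `S`, `N` in the others -/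
noncomputable def sideS {n : ℕ} (S : Finset (Fin n)) (N R : ℝ) : Fin n → ℝ :=
  fun i => if i ∈ S then R else N

/-- `|∇u|² * curv u`, polynomial in the derivatives -/
noncomputable def gc {n : ℕ} (u : E n → ℝ) (x : E n) : ℝ :=
  gr u x * ∑ i, ∑ j, pd i (pd j u) x ^ 2 - ∑ i, (∑ j, pd i (pd j u) x * pd j u x) ^ 2

/-- energy density -/
noncomputable def en {n : ℕ} (u : E n → ℝ) (x : E n) : ℝ :=
  gr u x / 2 + (1 - u x ^ 2) ^ 2 / 4

/-- `U` is the limit of the translates of `u` along `e` -/
def IsLim {n : ℕ} (u : E n → ℝ) (e : E n) (U : E n → ℝ) : Prop :=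
  ∀ x, Tendsto (fun t : ℝ => u (x + t • e)) atTop (𝓝 (U x))

end Vale.Agent.P134
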