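import Vale.Agent.P134.Defs3
import Vale.Agent.P134.Vol

/-! # P134, module DYAD: dyadic summation

Fix `c`; `c0` = `c` with the coordinates of `Y` replaced by `0`.  For `R ≥ 1` let `J` be least with
`2^J ≥ R + ‖c‖`; `box c (fun _ => R) ⊆ box c0 (sideS Y (2^J) (2^J))`, `2^J ≤ 2 (1 + ‖c‖) R`.  On the
latter `wt ≤ ∑ j ≤ J, 4^α * 4^(-j α) * 1_{|x i| ≤ 2^j for i ∈ Y}` (take the least `j` with
`|x i| ≤ 2^j` for all `i ∈ Y`: if `j ≥ 1` then `rr ≥ 4^(j-1)`).  So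
`∫ g wt ≤ ∑ j, 4^α 4^(-j α) B0 2^(j (k-1)) 4^J ≤ C 4^J` since `k - 1 < 2 α`. -/

open MeasureTheory Set Filter Topology

namespace Vale.Agent.P134

theorem DYAD_rr_cont {n : ℕ} (Y : Finset (Fin n)) : Continuous (rr Y) := by
  unfold rr
  fun_prop

theorem DYAD_rr_nonneg {n : ℕ} (Y : Finset (Fin n)) (x : E n) : 0 ≤ rr Y x :=
  Finset.sum_nonneg fun _ _ => sq_nonneg _

theorem DYAD_wt_cont {n : ℕ} (Y : Finset (Fin n)) (α : ℝ) : Continuous (wt Y α) := by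
  unfold wt
  refine Continuous.rpow_const (continuous_const.add (DYAD_rr_cont Y)) fun x => Or.inl ?_
  have := DYAD_rr_nonneg Y x
  positivity

theorem DYAD_wt_nonneg {n : ℕ} (Y : Finset (Fin n)) (α : ℝ) (x : E n) : 0 ≤ wt Y α x := by
  unfold wt
  have := DYAD_rr_nonneg Y x
  positivity

theorem DYAD_wt_le_one {n : ℕ} (Y : Finset (Fin n)) {α : ℝ} (hα : 0 ≤ α) (x : E n) :
    wt Y α x ≤ 1 := by
  unfold wt
  have := DYAD_rr_nonneg Y x
  exact Real.rpow_le_one_of_one_le_of_nonpos (by linarith) (by linarith)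

theorem DYAD_wt_le {n : ℕ} (Y : Finset (Fin n)) {α : ℝ} (hα : 0 ≤ α) {x : E n} {i : Fin n}
    (hi : i ∈ Y) {s : ℝ} (hs : 0 < s) (h : s < |x i|) : wt Y α x ≤ (s ^ 2) ^ (-α) := by
  unfold wt
  have h1 : s ^ 2 ≤ 1 + rr Y x := by
    have h2 : x i ^ 2 ≤ rr Y x :=
      Finset.single_le_sum (f := fun i => x i ^ 2) (fun _ _ => sq_nonneg _) hi
    have h3 : s ^ 2 ≤ x i ^ 2 := by
      rw [← sq_abs (x i)]
      gcongr
    linarith
  exact Real.rpow_le_rpow_of_nonpos (by positivity) h1 (by linarith)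

theorem DYAD_ind {n k : ℕ} {Y : Finset (Fin n)} {α : ℝ} (hα0 : 0 ≤ α)
    {g : E n → ℝ} (hg : Continuous g) (hg0 : ∀ x, 0 ≤ g x) {B0 : ℝ} (hB0 : 0 < B0)
    (hen : ∀ (c : E n) (ρ R : ℝ), 1 ≤ ρ → ρ ≤ R →
      ∫ x in box c (sideS Y R ρ), g x ≤ B0 * (ρ ^ (k - 1) * R ^ 2)) (c0 : E n)
    (hc0 : ∀ i ∈ Y, c0 i = 0) (T : ℝ) (j : ℕ) (hj : (2 : ℝ) ^ j ≤ T) :
    ∫ x in box c0 (sideS Y T (2 ^ j)), g x * wt Y α x ≤
      B0 * T ^ 2 * ((4 : ℝ) ^ α * ∑ i ∈ Finset.range (j + 1),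
        (((2 : ℝ) ^ (k - 1)) * (4 : ℝ) ^ (-α)) ^ i) := by
  have hint : ∀ r : Fin n → ℝ, IntegrableOn (fun x => g x * wt Y α x) (box c0 r) := fun r =>
    (hg.mul (DYAD_wt_cont Y α)).continuousOn.integrableOn_compact (box_compact c0 r)
  have hint2 : ∀ r : Fin n → ℝ, IntegrableOn g (box c0 r) := fun r =>
    hg.continuousOn.integrableOn_compact (box_compact c0 r)
  have hms : ∀ r : Fin n → ℝ, MeasurableSet (box c0 r) := fun r =>
    (box_compact c0 r).measurableSet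
  have h4 : (1 : ℝ) ≤ (4 : ℝ) ^ α := Real.one_le_rpow (by norm_num) hα0
  induction j with
  | zero =>
    have hT : (1 : ℝ) ≤ T := by simpa using hj
    have h1 : ∫ x in box c0 (sideS Y T (2 ^ 0)), g x * wt Y α x ≤
        ∫ x in box c0 (sideS Y T (2 ^ 0)), g x := by
      refine setIntegral_mono_on (hint _) (hint2 _) (hms _) fun x _ => ?_
      exact mul_le_of_le_one_right (hg0 x) (DYAD_wt_le_one Y hα0 x)
    refine h1.trans ((hen c0 (2 ^ 0) T (by norm_num) (by simpa using hT)).trans ?_)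
    rw [pow_zero, one_pow, one_mul, zero_add, Finset.sum_range_one, pow_zero, mul_one]
    have : 0 ≤ B0 * T ^ 2 := by positivity
    nlinarith
  | succ j ih =>
    have hT0 : (2 : ℝ) ^ j ≤ T := le_trans (by
      have : (0 : ℝ) < 2 ^ j := by positivity
      rw [pow_succ]; linarith) hj
    have hsub : box c0 (sideS Y T (2 ^ j)) ⊆ box c0 (sideS Y T (2 ^ (j + 1))) := by
      intro x hx i
      have h5 := hx i
      unfold sideS at h5 ⊢
      by_cases hi : i ∈ Y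
      · rw [if_pos hi] at h5 ⊢
        refine h5.trans ?_
        have : (0 : ℝ) < 2 ^ j := by positivity
        rw [pow_succ]; linarith
      · rw [if_neg hi] at h5 ⊢
        exact h5
    have hsplit := integral_inter_add_diff (μ := volume) (f := fun x => g x * wt Y α x)
      (hms (sideS Y T (2 ^ j))) (hint (sideS Y T (2 ^ (j + 1))))
    rw [inter_eq_self_of_subset_right hsub] at hsplit
    rw [← hsplit]
    have hA0 : (0 : ℝ) ≤ (((2 : ℝ) ^ j) ^ 2) ^ (-α) := by positivity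
    have hdiff : ∫ x in box c0 (sideS Y T (2 ^ (j + 1))) \ box c0 (sideS Y T (2 ^ j)),
        g x * wt Y α x ≤ (((2 : ℝ) ^ j) ^ 2) ^ (-α) *
          (B0 * ((2 ^ (j + 1)) ^ (k - 1) * T ^ 2)) := by
      have h6 : ∫ x in box c0 (sideS Y T (2 ^ (j + 1))) \ box c0 (sideS Y T (2 ^ j)),
          g x * wt Y α x ≤
          ∫ x in box c0 (sideS Y T (2 ^ (j + 1))) \ box c0 (sideS Y T (2 ^ j)),
            (((2 : ℝ) ^ j) ^ 2) ^ (-α) * g x := by
        refine setIntegral_mono_on ((hint _).mono_set diff_subset)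
          (((hint2 _).mono_set diff_subset).const_mul _) ((hms _).diff (hms _)) fun x hx => ?_
        rw [mul_comm]
        refine mul_le_mul_of_nonneg_right ?_ (hg0 x)
        have h7 : ¬ ∀ i, |x i - c0 i| ≤ sideS Y T (2 ^ j) i := hx.2
        push Not at h7
        obtain ⟨i, hi⟩ := h7
        have h8 := hx.1 i
        unfold sideS at hi h8
        by_cases hiY : i ∈ Y
        · rw [if_pos hiY, hc0 i hiY, sub_zero] at hi
          exact DYAD_wt_le Y hα0 hiY (by positivity) hi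
        · rw [if_neg hiY] at hi h8
          exact absurd h8 (not_le.2 hi)
      refine h6.trans ?_
      have h9 : ∫ x in box c0 (sideS Y T (2 ^ (j + 1))) \ box c0 (sideS Y T (2 ^ j)),
            (((2 : ℝ) ^ j) ^ 2) ^ (-α) * g x ≤
          ∫ x in box c0 (sideS Y T (2 ^ (j + 1))), (((2 : ℝ) ^ j) ^ 2) ^ (-α) * g x := by
        refine setIntegral_mono_set ((hint2 _).const_mul _) ?_ (HasSubset.Subset.eventuallyLE
          diff_subset)
        exact Filter.Eventually.of_forall fun x => mul_nonneg hA0 (hg0 x)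
      refine h9.trans ?_
      rw [integral_const_mul]
      refine mul_le_mul_of_nonneg_left ?_ hA0
      exact hen c0 (2 ^ (j + 1)) T (one_le_pow₀ (by norm_num)) hj
    have h10 := ih hT0
    rw [Finset.sum_range_succ]
    have h11 : (((2 : ℝ) ^ j) ^ 2) ^ (-α) * (B0 * ((2 ^ (j + 1)) ^ (k - 1) * T ^ 2)) =
        B0 * T ^ 2 * ((4 : ℝ) ^ α * (((2 : ℝ) ^ (k - 1)) * (4 : ℝ) ^ (-α)) ^ (j + 1)) := by
      have e1 : (((2 : ℝ) ^ j) ^ 2) = (4 : ℝ) ^ j := by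
        rw [← pow_mul, mul_comm j 2, pow_mul]; norm_num
      have e2 : ((4 : ℝ) ^ j) ^ (-α) = ((4 : ℝ) ^ (-α)) ^ j := by
        rw [← Real.rpow_natCast, ← Real.rpow_mul (by norm_num), mul_comm, Real.rpow_mul (by norm_num),
          Real.rpow_natCast]
      have e3 : (4 : ℝ) ^ α * (4 : ℝ) ^ (-α) = 1 := by
        rw [← Real.rpow_add (by norm_num), add_neg_cancel, Real.rpow_zero]
      have e4 : ((2 : ℝ) ^ (j + 1)) ^ (k - 1) = ((2 : ℝ) ^ (k - 1)) ^ (j + 1) := by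
        rw [← pow_mul, ← pow_mul, mul_comm]
      rw [e1, e2, e4, mul_pow, pow_succ ((4 : ℝ) ^ (-α)) j]
      linear_combination (- (B0 * T ^ 2 * ((2 : ℝ) ^ (k - 1)) ^ (j + 1) * ((4 : ℝ) ^ (-α)) ^ j)) * e3
    rw [h11] at hdiff
    rw [mul_add ((4 : ℝ) ^ α), mul_add (B0 * T ^ 2)]
    exact add_le_add h10 hdiff

theorem dyad {n k : ℕ} {Y : Finset (Fin n)} {α : ℝ} (hα : (k : ℝ) - 1 < 2 * α) (hk : 1 ≤ k)
    {g : E n → ℝ} (hg : Continuous g) (hg0 : ∀ x, 0 ≤ g x) {B0 : ℝ} (hB0 : 0 < B0)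
    (hen : ∀ (c : E n) (ρ R : ℝ), 1 ≤ ρ → ρ ≤ R →
      ∫ x in box c (sideS Y R ρ), g x ≤ B0 * (ρ ^ (k - 1) * R ^ 2)) (c : E n) :
    ∃ B : ℝ, 0 < B ∧ ∀ R : ℝ, 1 ≤ R →
      ∫ x in box c (fun _ => R), g x * wt Y α x ≤ B * R ^ 2 := by
  classical
  have hk1 : (1 : ℝ) ≤ k := by exact_mod_cast hk
  have hα0 : 0 < α := by linarith
  set q : ℝ := ((2 : ℝ) ^ (k - 1)) * (4 : ℝ) ^ (-α) with hq
  have hq0 : 0 ≤ q := by positivity
  have hq1 : q < 1 := by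
    have e1 : ((2 : ℝ) ^ (k - 1)) = (2 : ℝ) ^ ((k : ℝ) - 1) := by
      rw [← Real.rpow_natCast, Nat.cast_sub hk, Nat.cast_one]
    have e2 : (4 : ℝ) ^ (-α) = (2 : ℝ) ^ (-(2 * α)) := by
      rw [show (4 : ℝ) = (2 : ℝ) ^ (2 : ℝ) by norm_num, ← Real.rpow_mul (by norm_num)]
      congr 1
      ring
    rw [hq, e1, e2, ← Real.rpow_add (by norm_num)]
    exact Real.rpow_lt_one_of_one_lt_of_neg (by norm_num) (by linarith)
  let c0 : E n := WithLp.toLp 2 fun i => if i ∈ Y then 0 else c i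
  have hc0 : ∀ i ∈ Y, c0 i = 0 := fun i hi => if_pos hi
  have hc1 : ∀ i, i ∉ Y → c0 i = c i := fun i hi => if_neg hi
  have h4 : (0 : ℝ) < (4 : ℝ) ^ α := by positivity
  have hq2 : 0 < 1 - q := by linarith
  refine ⟨B0 * (4 * (1 + ‖c‖) ^ 2) * ((4 : ℝ) ^ α * (1 - q)⁻¹), by positivity, fun R hR => ?_⟩
  obtain ⟨J, hJ1, hJ2⟩ := exists_nat_pow_near (show 1 ≤ R + ‖c‖ by linarith [norm_nonneg c])
    (show (1 : ℝ) < 2 by norm_num)
  have hJ3 : (2 : ℝ) ^ (J + 1) ≤ 2 * (1 + ‖c‖) * R := by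
    rw [pow_succ]
    nlinarith [norm_nonneg c]
  have hsub : box c (fun _ => R) ⊆ box c0 (sideS Y (2 ^ (J + 1)) (2 ^ (J + 1))) := by
    intro x hx i
    have h5 : |x i - c i| ≤ R := hx i
    have h6 : sideS Y ((2 : ℝ) ^ (J + 1)) (2 ^ (J + 1)) i = 2 ^ (J + 1) := by
      unfold sideS
      split_ifs <;> rfl
    rw [h6]
    have h7 : |c i| ≤ ‖c‖ := PiLp.norm_apply_le c i
    by_cases hi : i ∈ Y
    · rw [hc0 i hi, sub_zero]
      have h8 : |x i| ≤ |x i - c i| + |c i| := by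
        have := abs_add_le (x i - c i) (c i)
        rwa [sub_add_cancel] at this
      linarith
    · rw [hc1 i hi]
      linarith [norm_nonneg c]
  have hcont : Continuous fun x => g x * wt Y α x := hg.mul (DYAD_wt_cont Y α)
  have h1 : ∫ x in box c (fun _ => R), g x * wt Y α x ≤
      ∫ x in box c0 (sideS Y (2 ^ (J + 1)) (2 ^ (J + 1))), g x * wt Y α x := by
    refine setIntegral_mono_set (hcont.continuousOn.integrableOn_compact (box_compact _ _)) ?_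
      (HasSubset.Subset.eventuallyLE hsub)
    exact Filter.Eventually.of_forall fun x => mul_nonneg (hg0 x) (DYAD_wt_nonneg Y α x)
  refine h1.trans ((DYAD_ind hα0.le hg hg0 hB0 hen c0 hc0 (2 ^ (J + 1)) (J + 1) le_rfl).trans ?_)
  rw [← hq]
  have h9 : ∑ i ∈ Finset.range (J + 1 + 1), q ^ i ≤ (1 - q)⁻¹ := by
    rw [← tsum_geometric_of_lt_one hq0 hq1]
    exact (summable_geometric_of_lt_one hq0 hq1).sum_le_tsum _ fun i _ => by positivity
  have h10 : ((2 : ℝ) ^ (J + 1)) ^ 2 ≤ (4 * (1 + ‖c‖) ^ 2) * R ^ 2 := by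
    have h11 : ((2 : ℝ) ^ (J + 1)) ^ 2 ≤ (2 * (1 + ‖c‖) * R) ^ 2 := by gcongr
    refine h11.trans (le_of_eq ?_)
    ring
  calc B0 * ((2 : ℝ) ^ (J + 1)) ^ 2 * ((4 : ℝ) ^ α * ∑ i ∈ Finset.range (J + 1 + 1), q ^ i)
      ≤ B0 * ((4 * (1 + ‖c‖) ^ 2) * R ^ 2) * ((4 : ℝ) ^ α * (1 - q)⁻¹) := by gcongr
    _ = B0 * (4 * (1 + ‖c‖) ^ 2) * ((4 : ℝ) ^ α * (1 - q)⁻¹) * R ^ 2 := by ring

end Vale.Agent.P134
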