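import Vale.Agent.P134.Energy
import Vale.Agent.P134.PerS

/-! # P134, module EN2: `energy` for `r = sideS S N R`, `card S = 2` (`sideS_prod`) -/

open MeasureTheory Set Filter Topology

namespace Vale.Agent.P134

theorem en2 (n : ℕ) : ∃ B : ℝ, 0 < B ∧ ∀ (S : Finset (Fin n)), S.card = 2 →
    ∀ u : E n → ℝ, IsSol u → ∀ (c : E n) (N R : ℝ), 1 ≤ R → R ≤ N →
    ∫ x in box c (sideS S N R), gr u x ≤ B * (N ^ (n - S.card) * R ^ 2) := by
  obtain ⟨C, hC, h⟩ := energy n
  refine ⟨C, hC, fun S hS u hu c N R hR hRN => ?_⟩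
  have h1 := h u hu c (sideS S N R) (fun i => by
    unfold sideS
    split_ifs
    · exact hR
    · exact hR.trans hRN)
  rw [sideS_prod] at h1
  have h2 : R ^ S.card = R ^ 2 := by rw [hS]
  rw [h2] at h1
  exact h1

end Vale.Agent.P134
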