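import Vale.Agent.P134.Cacc
import Vale.Agent.P134.Cut
import Vale.Agent.P134.Vol

/-! # P134, module ENERGY: `∫_{box} |∇u|² ≤ C ∏ r i` for `r i ≥ 1`

`cacc` with the cutoff of `cut`: `∑ i (pd i η)² ≤ n K²` and `η² ≤ 1`, both supported in the double
box, of volume `4^n ∏ r i`.  `C = (4 n K² + 2) 4^n`. -/

open MeasureTheory Set Filter Topology

namespace Vale.Agent.P134

theorem ENERGY_bound {n : ℕ} {f : E n → ℝ} {c : E n} {s : Fin n → ℝ} (hs : ∀ i, 0 ≤ s i)
    {M : ℝ} (h0 : ∀ x, 0 ≤ f x) (hM : ∀ x, f x ≤ M) (hout : ∀ x, x ∉ box c s → f x = 0) :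
    ∫ x, f x ≤ M * ∏ i, (2 * s i) := by
  have hmeas : MeasurableSet (box c s) := (box_compact c s).measurableSet
  have hfin : (volume (box c s)) ≠ ⊤ := (box_compact c s).measure_lt_top.ne
  have hint : Integrable ((box c s).indicator fun _ => M) (volume : Measure (E n)) :=
    (integrable_indicator_iff hmeas).2 (integrableOn_const hfin)
  have h1 : ∫ x, f x ≤ ∫ x, (box c s).indicator (fun _ => M) x := by
    refine integral_mono_of_nonneg (ae_of_all _ h0) hint (ae_of_all _ fun x => ?_)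
    by_cases hx : x ∈ box c s
    · rw [indicator_of_mem hx]; exact hM x
    · rw [indicator_of_notMem hx, hout x hx]
  rw [integral_indicator hmeas, setIntegral_const, measureReal_def, box_vol c hs, smul_eq_mul,
    mul_comm] at h1
  exact h1

theorem ENERGY_gr_cont {n : ℕ} {u : E n → ℝ} (hu : ContDiff ℝ 2 u) : Continuous (gr u) := by
  unfold gr pd
  refine continuous_finsetSum _ fun j _ => ?_
  have h1 : Continuous (fderiv ℝ u) := hu.continuous_fderiv (by norm_num)
  exact (h1.clm_apply continuous_const).pow 2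

theorem energy (n : ℕ) : ∃ C : ℝ, 0 < C ∧ ∀ u : E n → ℝ, IsSol u → ∀ (c : E n) (r : Fin n → ℝ),
    (∀ i, 1 ≤ r i) → ∫ x in box c r, gr u x ≤ C * ∏ i, r i := by
  obtain ⟨K, hK, hcut⟩ := cut
  refine ⟨(4 * (n * K ^ 2) + 2) * 4 ^ n, by positivity, fun u hu c r hr => ?_⟩
  obtain ⟨η, hη1, hηc, hη01, hηb, hηo, hpd, hpdo, -⟩ :=
    hcut n c r (fun i => lt_of_lt_of_le one_pos (hr i))
  have hgr0 : ∀ x, 0 ≤ gr u x := fun x => Finset.sum_nonneg fun j _ => sq_nonneg _
  have hcont : Continuous fun x => η x ^ 2 * gr u x :=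
    (hη1.continuous.pow 2).mul (ENERGY_gr_cont hu.1)
  have hcomp : HasCompactSupport fun x => η x ^ 2 * gr u x := by
    refine HasCompactSupport.mul_right ?_
    have := hηc.comp_left (g := fun t : ℝ => t ^ 2) (by norm_num)
    exact this
  have hint : Integrable fun x => η x ^ 2 * gr u x := hcont.integrable_of_hasCompactSupport hcomp
  have h1 : ∫ x in box c r, gr u x ≤ ∫ x, η x ^ 2 * gr u x := by
    have h2 : ∫ x in box c r, gr u x = ∫ x in box c r, η x ^ 2 * gr u x := by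
      refine setIntegral_congr_fun (box_compact c r).measurableSet fun x hx => ?_
      simp only [hηb x hx, one_pow, one_mul]
    rw [h2]
    exact setIntegral_le_integral hint (ae_of_all _ fun x => mul_nonneg (sq_nonneg _) (hgr0 x))
  have h3 := cacc hu hη1 hηc
  have h2r : ∀ i, 0 ≤ 2 * r i := fun i => by have := hr i; linarith
  have h4 : ∫ x, ∑ i, pd i η x ^ 2 ≤ (n * K ^ 2) * ∏ i, (2 * (2 * r i)) := by
    refine ENERGY_bound (c := c) (s := fun i => 2 * r i) h2r
      (fun x => Finset.sum_nonneg fun i _ => sq_nonneg _) (fun x => ?_) (fun x hx => ?_)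
    · have h5 : ∀ i ∈ Finset.univ, pd i η x ^ 2 ≤ K ^ 2 := by
        intro i _
        have h6 : |pd i η x| ≤ K := (hpd i x).trans (div_le_self hK.le (hr i))
        exact sq_le_sq' (by linarith [(abs_le.1 h6).1]) (abs_le.1 h6).2
      calc ∑ i, pd i η x ^ 2 ≤ ∑ _i : Fin n, K ^ 2 := Finset.sum_le_sum h5
        _ = n * K ^ 2 := by simp
    · refine Finset.sum_eq_zero fun i _ => ?_
      rw [hpdo i x hx]; norm_num
  have h7 : ∫ x, η x ^ 2 ≤ 1 * ∏ i, (2 * (2 * r i)) := by
    refine ENERGY_bound (c := c) (s := fun i => 2 * r i) h2r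
      (fun x => sq_nonneg _) (fun x => ?_) (fun x hx => ?_)
    · have := hη01 x
      nlinarith
    · rw [hηo x hx]; norm_num
  have hprod : ∏ i, (2 * (2 * r i)) = 4 ^ n * ∏ i, r i := by
    have : ∀ i, 2 * (2 * r i) = 4 * r i := fun i => by ring
    simp only [this, Finset.prod_mul_distrib, Finset.prod_const, Finset.card_univ, Fintype.card_fin]
  rw [hprod] at h4 h7
  calc ∫ x in box c r, gr u x ≤ ∫ x, η x ^ 2 * gr u x := h1
    _ ≤ 4 * (∫ x, ∑ i, pd i η x ^ 2) + 2 * ∫ x, η x ^ 2 := h3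
    _ ≤ 4 * ((n * K ^ 2) * (4 ^ n * ∏ i, r i)) + 2 * (1 * (4 ^ n * ∏ i, r i)) := by gcongr
    _ = (4 * (n * K ^ 2) + 2) * 4 ^ n * ∏ i, r i := by ring

end Vale.Agent.P134
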