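import Vale.Agent.P134.CurvReg

/-! # P134, module FIN1: `curv = 0` implies one-dimensional

`H i a = pd i (pd a u) x`, `v a = pd a u x`, `w = dd e u x = ∑ a, e a * v a > 0`.  `curv u x = 0`
and Cauchy-Schwarz (for each `i`, `(∑ a, H i a v a)² ≤ ∑ a, (H i a)² * gr`) give equality for each
`i`, so `H i a = l i * v a` for all `a` with `l i = (∑ a, H i a v a) / gr`; hence
`pd i w = ∑ a, e a * H i a = l i * w` and `pd i (v a / w) = (H i a w - v a pd i w) / w² = 0`.
So `v a / w` has zero derivative and is a constant `k a`: `pd a u = k a * dd e u`.  With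
`k = (k a)`: `fderiv u x y = w(x) * ⟪k, y⟫`; `k ≠ 0` as `w > 0`.  So `u` is constant along
directions orthogonal to `k`, and `u x = h ⟪k / ‖k‖, x⟫` with `h t = u (t • k / ‖k‖)`. -/

open MeasureTheory Set Filter Topology
open scoped InnerProductSpace

namespace Vale.Agent.P134

theorem FIN1_map {n : ℕ} (L : E n →L[ℝ] ℝ) (y : E n) :
    L y = ∑ a, y a * L (EuclideanSpace.single a 1) := by
  conv_lhs => rw [← (EuclideanSpace.basisFun (Fin n) ℝ).sum_repr y]
  rw [map_sum]
  refine Finset.sum_congr rfl fun a _ => ?_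
  rw [map_smul, smul_eq_mul]
  simp

theorem FIN1_prop {n : ℕ} {u : E n → ℝ} {x : E n} (hg : 0 < gr u x) (hc : curv u x = 0)
    (i a : Fin n) :
    pd i (pd a u) x = (∑ b, pd i (pd b u) x * pd b u x) / gr u x * pd a u x := by
  have key : ∀ i, ∑ a, (pd i (pd a u) x -
      (∑ b, pd i (pd b u) x * pd b u x) / gr u x * pd a u x) ^ 2 =
      ∑ a, pd i (pd a u) x ^ 2 - (∑ b, pd i (pd b u) x * pd b u x) ^ 2 / gr u x := by
    intro i
    set l := (∑ b, pd i (pd b u) x * pd b u x) / gr u x with hl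
    have h1 : ∑ a, (pd i (pd a u) x - l * pd a u x) ^ 2 =
        ∑ a, pd i (pd a u) x ^ 2 - 2 * l * ∑ a, pd i (pd a u) x * pd a u x + l ^ 2 * gr u x := by
      unfold gr
      rw [Finset.mul_sum, Finset.mul_sum, ← Finset.sum_sub_distrib, ← Finset.sum_add_distrib]
      exact Finset.sum_congr rfl fun a _ => by ring
    have h2 : ∑ a, pd i (pd a u) x * pd a u x = l * gr u x := by
      rw [hl]
      field_simp
    rw [h1, h2]
    field_simp
    ring
  have h3 : ∑ i, ∑ a, (pd i (pd a u) x -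
      (∑ b, pd i (pd b u) x * pd b u x) / gr u x * pd a u x) ^ 2 = 0 := by
    rw [Finset.sum_congr rfl fun i _ => key i, Finset.sum_sub_distrib, ← Finset.sum_div]
    exact hc
  have h4 := (Finset.sum_eq_zero_iff_of_nonneg (fun i _ =>
    Finset.sum_nonneg fun a _ => sq_nonneg _)).1 h3 i (Finset.mem_univ _)
  have h5 := (Finset.sum_eq_zero_iff_of_nonneg (fun a _ => sq_nonneg _)).1 h4 a (Finset.mem_univ _)
  exact sub_eq_zero.1 (pow_eq_zero_iff (two_ne_zero) |>.1 h5)

theorem FIN1_const {n : ℕ} {u : E n → ℝ} (hu : ContDiff ℝ 2 u) {e : E n}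
    (he : ∀ x, 0 < dd e u x) (hc : ∀ x, curv u x = 0) (a : Fin n) (x : E n) :
    pd a u x = pd a u 0 / dd e u 0 * dd e u x := by
  have hd : ∀ b, Differentiable ℝ (pd b u) := fun b =>
    (CREG_pd_contDiff hu b).differentiable (by norm_num)
  have hw : dd e u = fun x => ∑ b, e b * pd b u x := by
    funext x
    exact FIN1_map (fderiv ℝ u x) e
  have hwd : Differentiable ℝ (dd e u) := by
    rw [hw]
    exact Differentiable.fun_sum fun b _ => (hd b).const_mul _
  -- the derivative of `pd b u` is `pd b u` times a fixed functional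
  have hF : ∀ y, ∃ L : E n →L[ℝ] ℝ, ∀ b, fderiv ℝ (pd b u) y = pd b u y • L := by
    intro y
    refine ⟨(gr u y)⁻¹ • ∑ b, pd b u y • fderiv ℝ (pd b u) y, fun b => ?_⟩
    refine ContinuousLinearMap.ext fun z => ?_
    rw [FIN1_map (fderiv ℝ (pd b u) y) z, FIN1_map (pd b u y • _) z]
    refine Finset.sum_congr rfl fun i _ => ?_
    have h1 := FIN1_prop (gr_pos (he y)) (hc y) i b
    have h2 : fderiv ℝ (pd b u) y (EuclideanSpace.single i 1) = pd i (pd b u) y := rfl
    rw [h2, h1]
    simp only [_root_.smul_apply, _root_.sum_apply, smul_eq_mul]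
    have h3 : ∑ c, pd c u y * (fderiv ℝ (pd c u) y) (EuclideanSpace.single i 1) =
        ∑ c, pd i (pd c u) y * pd c u y :=
      Finset.sum_congr rfl fun c _ => mul_comm _ _
    rw [h3]
    ring
  have hwF : ∀ y (L : E n →L[ℝ] ℝ), (∀ b, fderiv ℝ (pd b u) y = pd b u y • L) →
      fderiv ℝ (dd e u) y = dd e u y • L := by
    intro y L hL
    rw [hw]
    have h1 : HasFDerivAt (fun x => ∑ b, e b * pd b u x) (∑ b, e b • (pd b u y • L)) y := by
      refine HasFDerivAt.fun_sum fun b _ => ?_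
      have h2 := (hd b y).hasFDerivAt.const_mul (e b)
      rwa [hL b] at h2
    rw [h1.fderiv]
    rw [Finset.sum_smul]
    exact Finset.sum_congr rfl fun b _ => by rw [smul_smul]
  have hq : ∀ y, HasFDerivAt (fun x => pd a u x * (dd e u x)⁻¹) (0 : E n →L[ℝ] ℝ) y := by
    intro y
    obtain ⟨L, hL⟩ := hF y
    have h0 := (hasDerivAt_inv (he y).ne').comp_hasFDerivAt y (hwd y).hasFDerivAt
    have h1 := (hd a y).hasFDerivAt.mul h0
    rw [hwF y L hL, hL a] at h1
    have h2 : (pd a u y • (-(dd e u y ^ 2)⁻¹ • dd e u y • L) +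
        (dd e u y)⁻¹ • pd a u y • L : E n →L[ℝ] ℝ) = 0 := by
      rw [smul_smul, smul_smul, smul_smul, ← add_smul]
      have h3 : pd a u y * -(dd e u y ^ 2)⁻¹ * dd e u y + (dd e u y)⁻¹ * pd a u y = 0 := by
        have := (he y).ne'
        field_simp
        ring
      rw [h3, zero_smul]
    rw [← h2]
    exact h1
  have hconst := is_const_of_fderiv_eq_zero (𝕜 := ℝ) (f := fun x => pd a u x * (dd e u x)⁻¹)
    (fun y => (hq y).differentiableAt) (fun y => (hq y).fderiv) x 0
  have h1 : pd a u x / dd e u x = pd a u 0 / dd e u 0 := hconst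
  rw [← h1, div_mul_cancel₀ _ (he x).ne']

theorem one_dim {n : ℕ} {u : E n → ℝ} (hu : ContDiff ℝ 2 u) {e : E n}
    (he : ∀ x, 0 < dd e u x) (hc : ∀ x, curv u x = 0) :
    ∃ (f : E n) (h : ℝ → ℝ), ‖f‖ = 1 ∧ ∀ x, u x = h ⟪f, x⟫_ℝ := by
  have hk := FIN1_const hu he hc
  set K : E n := WithLp.toLp 2 (fun a => pd a u 0 / dd e u 0) with hK
  have hD : ∀ x y, fderiv ℝ u x y = dd e u x * ⟪K, y⟫_ℝ := by
    intro x y
    rw [FIN1_map, PiLp.inner_apply, Finset.mul_sum]
    refine Finset.sum_congr rfl fun a _ => ?_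
    have h1 : fderiv ℝ u x (EuclideanSpace.single a 1) = pd a u x := rfl
    rw [h1, hk a x, hK]
    simp
    ring
  have hKe : K ≠ 0 := by
    intro h0
    have h1 := hD 0 e
    rw [h0, inner_zero_left, mul_zero] at h1
    exact (he 0).ne' h1
  have hKn : 0 < ‖K‖ := norm_pos_iff.2 hKe
  set f : E n := ‖K‖⁻¹ • K with hf
  have hfn : ‖f‖ = 1 := by
    rw [hf, norm_smul, norm_inv, norm_norm, inv_mul_cancel₀ hKn.ne']
  refine ⟨f, fun t => u (t • f), hfn, fun x => ?_⟩
  have hKf : K = ‖K‖ • f := by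
    rw [hf, smul_smul, mul_inv_cancel₀ hKn.ne', one_smul]
  set p : E n := ⟪f, x⟫_ℝ • f with hp
  have hort : ⟪K, x - p⟫_ℝ = 0 := by
    rw [hKf, inner_smul_left, inner_sub_right, hp, inner_smul_right, real_inner_self_eq_norm_sq, hfn]
    simp
  have hdu : Differentiable ℝ u := hu.differentiable (by norm_num)
  have hg : ∀ s : ℝ, HasDerivAt (fun s : ℝ => u (p + s • (x - p))) 0 s := by
    intro s
    have h1 : HasDerivAt (fun s : ℝ => p + s • (x - p)) (x - p) s := by
      have h2 := ((hasDerivAt_id s).smul_const (x - p)).const_add p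
      simpa using h2
    have h2 := (hdu (p + s • (x - p))).hasFDerivAt.comp_hasDerivAt s h1
    rw [hD, hort, mul_zero] at h2
    exact h2
  have hcon := is_const_of_deriv_eq_zero (f := fun s : ℝ => u (p + s • (x - p)))
    (fun s => (hg s).differentiableAt) (fun s => (hg s).deriv) 1 0
  simp only [one_smul, zero_smul, add_zero, add_sub_cancel] at hcon
  exact hcon

end Vale.Agent.P134
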