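import Vale.Agent.P134.Defs

/-! # P134, module FRAME: a frame adapted to the periods

Take an orthonormal pair in the orthogonal complement of the span of the `v j` (which has
dimension 2, `Submodule.finrank_add_finrank_orthogonal`, `stdOrthonormalBasis`), extend it by
`Orthonormal.exists_orthonormalBasis_extension_of_card_eq` to an orthonormal basis `b` with
`b p, b q` this pair, and let `Q` be the linear isometry with `Q (single i 1) = b i`
(`b.repr.symm`). Then `(Q.symm (v j)) p = ⟪b p, v j⟫ = 0`. -/

open MeasureTheory Set Filter Topology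

namespace Vale.Agent.P134

theorem frame {n m : ℕ} (hn : 2 ≤ n) (hm : m = n - 2) {v : Fin m → E n}
    (hv : LinearIndependent ℝ v) :
    ∃ (p q : Fin n) (Q : E n ≃ₗᵢ[ℝ] E n), p ≠ q ∧ (∀ j, (Q.symm (v j)) p = 0) ∧
      ∀ j, (Q.symm (v j)) q = 0 := by
  have h1 : Module.finrank ℝ (Submodule.span ℝ (Set.range v)) = m := by
    rw [finrank_span_eq_card hv, Fintype.card_fin]
  have h2 := Submodule.finrank_add_finrank_orthogonal (Submodule.span ℝ (Set.range v))
  rw [h1, finrank_euclideanSpace, Fintype.card_fin] at h2
  have h3 : Module.finrank ℝ (Submodule.span ℝ (Set.range v))ᗮ = 2 := by omega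
  let o : OrthonormalBasis (Fin 2) ℝ (Submodule.span ℝ (Set.range v))ᗮ :=
    (stdOrthonormalBasis ℝ (Submodule.span ℝ (Set.range v))ᗮ).reindex (finCongr h3)
  let p : Fin n := ⟨0, by omega⟩
  let q : Fin n := ⟨1, by omega⟩
  have hpq : p ≠ q := by
    intro h
    have := congrArg Fin.val h
    exact absurd this (by norm_num)
  let f : Fin n → E n := fun i => if i = p then (o 0 : E n) else (o 1 : E n)
  have hf : Orthonormal ℝ (({p, q} : Set (Fin n)).domRestrict f) := by
    have hfp : f p = (o 0 : E n) := if_pos rfl
    have hfq : f q = (o 1 : E n) := if_neg hpq.symm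
    have ho := o.orthonormal
    rw [orthonormal_iff_ite] at ho ⊢
    have key : ∀ a b : Fin 2, inner ℝ ((o a : E n)) ((o b : E n)) = if a = b then (1 : ℝ) else 0 :=
      fun a b => ho a b
    have key2 : ∀ i j : Fin n, (i = p ∨ i = q) → (j = p ∨ j = q) →
        inner ℝ (f i) (f j) = if i = j then (1 : ℝ) else 0 := by
      intro i j hi hj
      rcases hi with rfl | rfl <;> rcases hj with rfl | rfl
      · rw [hfp, key]
        simp
      · rw [hfp, hfq, key, if_neg hpq]
        simp
      · rw [hfp, hfq, key, if_neg hpq.symm]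
        simp
      · rw [hfq, key]
        simp
    rintro ⟨i, hi⟩ ⟨j, hj⟩
    have h4 := key2 i j hi hj
    by_cases hij : i = j
    · rw [if_pos hij] at h4
      rw [if_pos (Subtype.ext hij)]
      exact h4
    · rw [if_neg hij] at h4
      rw [if_neg (fun h => hij (congrArg Subtype.val h))]
      exact h4
  obtain ⟨b, hb⟩ := hf.exists_orthonormalBasis_extension_of_card_eq (by simp)
  have hbp : b p = (o 0 : E n) := by
    rw [hb p (by simp)]
    exact if_pos rfl
  have hbq : b q = (o 1 : E n) := by
    rw [hb q (by simp)]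
    exact if_neg hpq.symm
  have horth : ∀ (a : Fin 2) (j : Fin m), inner ℝ ((o a : E n)) (v j) = 0 := by
    intro a j
    exact (Submodule.mem_orthogonal' _ _).1 (o a).2 _
      (Submodule.subset_span (Set.mem_range_self j))
  refine ⟨p, q, b.repr.symm, hpq, fun j => ?_, fun j => ?_⟩
  · rw [LinearIsometryEquiv.symm_symm, OrthonormalBasis.repr_apply_apply, hbp]
    exact horth 0 j
  · rw [LinearIsometryEquiv.symm_symm, OrthonormalBasis.repr_apply_apply, hbq]
    exact horth 1 j

end Vale.Agent.P134
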