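import Vale.Agent.P134.Geo
import Vale.Agent.P134.Energy

/-! # P134, module LOG: multi-scale cutoff

For `j = 1, ..., m` let `ζ j` be the cutoff of `cut` with centre `c` and half sides
`side p q N (4^j)`, and `ζ = (1/m) ∑ j, ζ j` (`= 1` on `box c (side p q N 1)`).
* For `i ≠ p, q`: `|pd i ζ| ≤ K / N`, supported in `box c (side p q (2N) (2 * 4^m))`, so by `energy`
  `∫ gr u (pd i ζ)² ≤ K²/N² * C (2N)^(n-2) (2 * 4^m)² `.
* For `i = p` or `q`: `pd i (ζ j) x ≠ 0` implies `4^j ≤ |x i - c i| ≤ 2 * 4^j`, so at each point at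
  most one `j` contributes and `(pd i ζ)² = (1/m²) ∑ j (pd i (ζ j))²` with
  `(pd i (ζ j))² ≤ K² / 16^j` supported in `box c (side p q (2N) (2*4^j))`, whose energy is
  `≤ C (2N)^(n-2) * 4 * 16^j`.  Total `≤ (1/m²) * m * 4 K² C 2^(n-2) N^(n-2)`.
Use `side_prod`. -/

open MeasureTheory Set Filter Topology

namespace Vale.Agent.P134

private lemma LOG_box_mono {n : ℕ} (c : E n) {r s : Fin n → ℝ} (h : ∀ i, r i ≤ s i) :
    box c r ⊆ box c s :=
  fun _ hx i => (hx i).trans (h i)

private lemma LOG_side_two {n : ℕ} (p q : Fin n) (N R : ℝ) :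
    (fun i => 2 * side p q N R i) = side p q (2 * N) (2 * R) := by
  funext i
  unfold side
  split_ifs <;> rfl

private lemma LOG_sq_sum {m : ℕ} (a : ℕ → ℝ) (h : ∀ j k, j ≠ k → a j * a k = 0) :
    (∑ j ∈ Finset.range m, a j) ^ 2 = ∑ j ∈ Finset.range m, a j ^ 2 := by
  rw [sq, Finset.sum_mul_sum]
  refine Finset.sum_congr rfl fun j hj => ?_
  rw [Finset.sum_eq_single_of_mem j hj fun k _ hk => h j k hk.symm, sq]

private lemma LOG_pd {n m : ℕ} (a : ℝ) {η : ℕ → E n → ℝ} (hη : ∀ j, ContDiff ℝ 1 (η j))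
    (i : Fin n) (x : E n) :
    pd i (fun x => a * ∑ j ∈ Finset.range m, η j x) x =
      a * ∑ j ∈ Finset.range m, pd i (η j) x := by
  unfold pd
  have h : HasFDerivAt (fun x => a * ∑ j ∈ Finset.range m, η j x)
      (a • ∑ j ∈ Finset.range m, fderiv ℝ (η j) x) x :=
    (HasFDerivAt.fun_sum fun j _ =>
      ((hη j).differentiable (by norm_num) x).hasFDerivAt).const_mul a
  rw [h.fderiv]
  simp

private lemma LOG_gr_cont {n : ℕ} {u : E n → ℝ} (hu : ContDiff ℝ 2 u) : Continuous (gr u) := by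
  unfold gr pd
  have h := hu.continuous_fderiv (by norm_num)
  exact continuous_finsetSum _ fun j _ => (h.clm_apply continuous_const).pow 2

private lemma LOG_gr_nonneg {n : ℕ} (u : E n → ℝ) (x : E n) : 0 ≤ gr u x :=
  Finset.sum_nonneg fun _ _ => sq_nonneg _

theorem log_cut {n : ℕ} {p q : Fin n} (hpq : p ≠ q) : ∃ C : ℝ, 0 < C ∧ ∀ u : E n → ℝ, IsSol u →
    ∀ e : E n, (∀ x, 0 < dd e u x) → ∀ (c : E n) (m : ℕ) (N : ℝ), 1 ≤ m → 1 ≤ N →
    ∫ x in box c (side p q N 1), curv u x ≤
      C * N ^ (n - 2) * (1 / (m : ℝ) + 16 ^ m / N ^ 2) := by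
  obtain ⟨K, hK, hcut⟩ := cut
  obtain ⟨C0, hC0, hen⟩ := energy n
  have hn : (0 : ℝ) < n := by exact_mod_cast p.pos
  refine ⟨4 * (n * (K ^ 2 * (C0 * (2 ^ (n - 2) * 4)))), by positivity,
    fun u hu e he c m N hm hN => ?_⟩
  have hm' : (0 : ℝ) < m := by exact_mod_cast hm
  have hN0 : 0 < N := by linarith
  have h4 : ∀ j : ℕ, (1 : ℝ) ≤ 4 ^ j := fun j => one_le_pow₀ (by norm_num)
  obtain ⟨r, hr⟩ : ∃ r : ℕ → Fin n → ℝ, ∀ j, r j = side p q N (4 ^ (j + 1)) := ⟨_, fun _ => rfl⟩
  have hr1 : ∀ j i, 1 ≤ r j i := fun j i => by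
    rw [hr]
    unfold side
    split_ifs
    · exact h4 _
    · exact hN
  choose η e1 e2 e3 e4 e5 e6 e7 e8 using fun j =>
    hcut n c (r j) fun i => lt_of_lt_of_le one_pos (hr1 j i)
  obtain ⟨ζ, hζ⟩ : ∃ ζ : E n → ℝ, ζ = fun x => (1 / (m : ℝ)) * ∑ j ∈ Finset.range m, η j x :=
    ⟨_, rfl⟩
  have hζ1 : ContDiff ℝ 1 ζ := by
    rw [hζ]
    exact contDiff_const.mul (ContDiff.sum fun j _ => e1 j)
  -- ζ = 1 on the small box
  have hone : ∀ x ∈ box c (side p q N 1), ζ x = 1 := by
    intro x hx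
    have : ∀ j ∈ Finset.range m, η j x = 1 := fun j _ => by
      refine e4 j x (LOG_box_mono c (fun i => ?_) hx)
      rw [hr]
      unfold side
      split_ifs
      · exact h4 _
      · exact le_rfl
    rw [hζ]
    simp only
    rw [Finset.sum_congr rfl this]
    simp
    field_simp
  -- compact support
  have hζs : HasCompactSupport ζ := by
    refine HasCompactSupport.intro (box_compact c (side p q (2 * N) (2 * 4 ^ m))) fun x hx => ?_
    have : ∀ j ∈ Finset.range m, η j x = 0 := fun j hj => by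
      refine e5 j x fun hx' => hx ?_
      rw [hr, LOG_side_two] at hx'
      refine LOG_box_mono c (fun i => ?_) hx'
      unfold side
      split_ifs
      · have : (4 : ℝ) ^ (j + 1) ≤ 4 ^ m :=
          pow_le_pow_right₀ (by norm_num) (Finset.mem_range.1 hj)
        linarith
      · exact le_rfl
    rw [hζ]
    simp only
    rw [Finset.sum_congr rfl this]
    simp
  -- pointwise bound
  obtain ⟨A, hA⟩ : ∃ A : ℕ → ℝ, ∀ j, A j = K ^ 2 * (1 / (m ^ 2 * 16 ^ (j + 1)) + 1 / (m * N ^ 2)) :=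
    ⟨_, fun _ => rfl⟩
  have hA0 : ∀ j, 0 ≤ A j := fun j => by rw [hA]; positivity
  obtain ⟨B, hB⟩ : ∃ B : ℕ → Set (E n), ∀ j, B j = box c (fun i => 2 * r j i) := ⟨_, fun _ => rfl⟩
  obtain ⟨ι, hι⟩ : ∃ ι : ℕ → E n → ℝ, ∀ j, ι j = (B j).indicator fun _ => (1 : ℝ) :=
    ⟨_, fun _ => rfl⟩
  have hι0 : ∀ j x, 0 ≤ ι j x := fun j x => by
    rw [hι]; exact indicator_nonneg (fun _ _ => zero_le_one) _
  have hsq : ∀ i j x, pd i (η j) x ^ 2 ≤ (K / r j i) ^ 2 * ι j x := by
    intro i j x
    by_cases hx : x ∈ B j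
    · rw [hι, indicator_of_mem hx, mul_one, ← sq_abs]
      exact pow_le_pow_left₀ (abs_nonneg _) (e6 j i x) 2
    · rw [hι, indicator_of_notMem hx, mul_zero, e7 j i x (by rwa [hB] at hx)]
      norm_num
  have hpt : ∀ i x, pd i ζ x ^ 2 ≤ ∑ j ∈ Finset.range m, A j * ι j x := by
    intro i x
    rw [hζ, LOG_pd _ e1, mul_pow]
    by_cases hi : i = p ∨ i = q
    · have hri : ∀ j, r j i = 4 ^ (j + 1) := fun j => by rw [hr]; unfold side; rw [if_pos hi]
      have hlt : ∀ j k, j < k → pd i (η j) x * pd i (η k) x = 0 := by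
        intro j k hjk
        by_cases hx : x ∈ box c (fun i => 2 * r j i)
        · have h1 : |x i - c i| ≤ 2 * r j i := hx i
          have h2 : |x i - c i| < r k i := by
            rw [hri] at h1 ⊢
            have h3 : (4 : ℝ) ^ (j + 1 + 1) ≤ 4 ^ (k + 1) :=
              pow_le_pow_right₀ (by norm_num) (by omega)
            have h4' : (4 : ℝ) ^ (j + 1 + 1) = 4 * 4 ^ (j + 1) := by ring
            have h5 := h4 (j + 1)
            linarith
          rw [e8 k i x h2, mul_zero]
        · rw [e7 j i x hx, zero_mul]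
      have hz : ∀ j k, j ≠ k → pd i (η j) x * pd i (η k) x = 0 := by
        intro j k hjk
        rcases lt_or_gt_of_ne hjk with h | h
        · exact hlt j k h
        · rw [mul_comm]; exact hlt k j h
      rw [LOG_sq_sum (fun j => pd i (η j) x) hz, Finset.mul_sum]
      refine Finset.sum_le_sum fun j _ => ?_
      have h1 := hsq i j x
      rw [hri] at h1
      have h2 : (1 / (m : ℝ)) ^ 2 * pd i (η j) x ^ 2 ≤
          (1 / (m : ℝ)) ^ 2 * ((K / 4 ^ (j + 1)) ^ 2 * ι j x) :=
        mul_le_mul_of_nonneg_left h1 (by positivity)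
      refine h2.trans ?_
      rw [← mul_assoc]
      refine mul_le_mul_of_nonneg_right ?_ (hι0 j x)
      have h3 : (1 / (m : ℝ)) ^ 2 * (K / 4 ^ (j + 1)) ^ 2 = K ^ 2 * (1 / (m ^ 2 * 16 ^ (j + 1))) := by
        have h4' : (16 : ℝ) ^ (j + 1) = (4 ^ (j + 1)) ^ 2 := by
          rw [← pow_mul, mul_comm, pow_mul]; norm_num
        rw [h4']
        field_simp
      rw [h3, hA]
      refine mul_le_mul_of_nonneg_left ?_ (by positivity)
      have : 0 ≤ 1 / ((m : ℝ) * N ^ 2) := by positivity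
      linarith
    · have hri : ∀ j, r j i = N := fun j => by rw [hr]; unfold side; rw [if_neg hi]
      have hcs : (∑ j ∈ Finset.range m, pd i (η j) x) ^ 2 ≤
          m * ∑ j ∈ Finset.range m, pd i (η j) x ^ 2 := by
        have := sq_sum_le_card_mul_sum_sq (s := Finset.range m) (f := fun j => pd i (η j) x)
        rwa [Finset.card_range] at this
      have h1 : (1 / (m : ℝ)) ^ 2 * (∑ j ∈ Finset.range m, pd i (η j) x) ^ 2 ≤
          (1 / (m : ℝ)) ^ 2 * (m * ∑ j ∈ Finset.range m, pd i (η j) x ^ 2) :=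
        mul_le_mul_of_nonneg_left hcs (by positivity)
      refine h1.trans ?_
      rw [← mul_assoc, Finset.mul_sum]
      refine Finset.sum_le_sum fun j _ => ?_
      have h1 := hsq i j x
      rw [hri] at h1
      have h2 : (1 / (m : ℝ)) ^ 2 * m * pd i (η j) x ^ 2 ≤
          (1 / (m : ℝ)) ^ 2 * m * ((K / N) ^ 2 * ι j x) :=
        mul_le_mul_of_nonneg_left h1 (by positivity)
      refine h2.trans ?_
      rw [← mul_assoc]
      refine mul_le_mul_of_nonneg_right ?_ (hι0 j x)
      have h3 : (1 / (m : ℝ)) ^ 2 * m * (K / N) ^ 2 = K ^ 2 * (1 / (m * N ^ 2)) := by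
        field_simp
      rw [h3, hA]
      refine mul_le_mul_of_nonneg_left ?_ (by positivity)
      have : 0 ≤ 1 / ((m : ℝ) ^ 2 * 16 ^ (j + 1)) := by positivity
      linarith
  -- measurability and integrability
  have hgc := LOG_gr_cont hu.1
  have hBm : ∀ j, MeasurableSet (B j) := fun j => by
    rw [hB]; exact (box_compact c _).isClosed.measurableSet
  have hBi : ∀ j, IntegrableOn (gr u) (B j) := fun j => by
    rw [hB]; exact hgc.continuousOn.integrableOn_compact (box_compact c _)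
  have hge : ∫ x, gr u x * ∑ i, pd i ζ x ^ 2 ≤
      ∫ x, (n : ℝ) * ∑ j ∈ Finset.range m, A j * (B j).indicator (gr u) x := by
    refine integral_mono_of_nonneg (Eventually.of_forall fun x => ?_) ?_
      (Eventually.of_forall fun x => ?_)
    · exact mul_nonneg (LOG_gr_nonneg u x) (Finset.sum_nonneg fun _ _ => sq_nonneg _)
    · exact (integrable_finsetSum _ fun j _ =>
        ((hBi j).integrable_indicator (hBm j)).const_mul (A j)).const_mul _
    · have h1 : ∑ i, pd i ζ x ^ 2 ≤ n * ∑ j ∈ Finset.range m, A j * ι j x := by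
        calc ∑ i, pd i ζ x ^ 2 ≤ ∑ _i : Fin n, ∑ j ∈ Finset.range m, A j * ι j x :=
              Finset.sum_le_sum fun i _ => hpt i x
          _ = n * ∑ j ∈ Finset.range m, A j * ι j x := by
              rw [Finset.sum_const, Finset.card_univ, Fintype.card_fin, nsmul_eq_mul]
      refine (mul_le_mul_of_nonneg_left h1 (LOG_gr_nonneg u x)).trans (le_of_eq ?_)
      rw [mul_left_comm, Finset.mul_sum]
      refine congrArg ((n : ℝ) * ·) (Finset.sum_congr rfl fun j _ => ?_)
      rw [hι]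
      by_cases hx : x ∈ B j
      · rw [indicator_of_mem hx, indicator_of_mem hx]; ring
      · rw [indicator_of_notMem hx, indicator_of_notMem hx]; ring
  have hint : ∫ x, (n : ℝ) * ∑ j ∈ Finset.range m, A j * (B j).indicator (gr u) x =
      n * ∑ j ∈ Finset.range m, A j * ∫ x in B j, gr u x := by
    rw [integral_const_mul, integral_finsetSum _ fun j _ =>
      ((hBi j).integrable_indicator (hBm j)).const_mul (A j)]
    refine congrArg ((n : ℝ) * ·) (Finset.sum_congr rfl fun j _ => ?_)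
    rw [integral_const_mul, integral_indicator (hBm j)]
  have hP : 0 ≤ N ^ (n - 2) := by positivity
  have hsum : ∑ j ∈ Finset.range m, A j * ∫ x in B j, gr u x ≤
      K ^ 2 * (C0 * (2 ^ (n - 2) * 4)) * N ^ (n - 2) * (1 / (m : ℝ) + 16 ^ m / N ^ 2) := by
    have hj : ∀ j ∈ Finset.range m, A j * ∫ x in B j, gr u x ≤
        K ^ 2 * (C0 * (2 ^ (n - 2) * 4)) * N ^ (n - 2) *
          (1 / (m : ℝ) ^ 2 + 16 ^ m / (m * N ^ 2)) := by
      intro j hj
      have h1 : ∫ x in B j, gr u x ≤ C0 * ((2 * N) ^ (n - 2) * (2 * 4 ^ (j + 1)) ^ 2) := by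
        have := hen u hu c (fun i => 2 * r j i) fun i => by
          have := hr1 j i
          linarith
        rw [← hB] at this
        refine this.trans (le_of_eq ?_)
        rw [hr, LOG_side_two, side_prod hpq]
      refine (mul_le_mul_of_nonneg_left h1 (hA0 j)).trans ?_
      have h2 : A j * (C0 * ((2 * N) ^ (n - 2) * (2 * 4 ^ (j + 1)) ^ 2)) =
          K ^ 2 * (C0 * (2 ^ (n - 2) * 4)) * N ^ (n - 2) *
            (1 / (m : ℝ) ^ 2 + 16 ^ (j + 1) / (m * N ^ 2)) := by
        have h4' : (16 : ℝ) ^ (j + 1) = (4 ^ (j + 1)) ^ 2 := by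
          rw [← pow_mul, mul_comm, pow_mul]; norm_num
        rw [hA, h4', mul_pow]
        field_simp
        try ring
      rw [h2]
      refine mul_le_mul_of_nonneg_left ?_ (by positivity)
      have h3 : (16 : ℝ) ^ (j + 1) ≤ 16 ^ m :=
        pow_le_pow_right₀ (by norm_num) (Finset.mem_range.1 hj)
      have h5 : (16 : ℝ) ^ (j + 1) / (m * N ^ 2) ≤ 16 ^ m / (m * N ^ 2) :=
        div_le_div_of_nonneg_right h3 (by positivity)
      linarith
    refine (Finset.sum_le_sum hj).trans (le_of_eq ?_)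
    rw [Finset.sum_const, Finset.card_range, nsmul_eq_mul]
    field_simp
  have hcurv0 := curv_nonneg u
  have hcc := curv_cont hu.1 he
  have hmain := geo hu he hζ1 hζs
  have hleft : ∫ x in box c (side p q N 1), curv u x ≤ ∫ x, ζ x ^ 2 * curv u x := by
    have hbm : MeasurableSet (box c (side p q N 1)) :=
      (box_compact c _).isClosed.measurableSet
    rw [← integral_indicator hbm]
    have hi1 : Integrable (fun x => ζ x ^ 2 * curv u x) := by
      have hc : Continuous fun x => ζ x ^ 2 * curv u x := (hζ1.continuous.pow 2).mul hcc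
      refine hc.integrable_of_hasCompactSupport ?_
      refine hζs.mono fun x hx => ?_
      rw [Function.mem_support] at hx ⊢
      intro h0
      exact hx (by rw [h0]; ring)
    refine integral_mono_of_nonneg (Eventually.of_forall fun x => ?_) hi1
      (Eventually.of_forall fun x => ?_)
    · exact indicator_nonneg (fun x _ => hcurv0 x) x
    · by_cases hx : x ∈ box c (side p q N 1)
      · simp only
        rw [indicator_of_mem hx, hone x hx]
        simp
      · simp only
        rw [indicator_of_notMem hx]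
        exact mul_nonneg (sq_nonneg _) (hcurv0 x)
  calc ∫ x in box c (side p q N 1), curv u x ≤ ∫ x, ζ x ^ 2 * curv u x := hleft
    _ ≤ 4 * ∫ x, gr u x * ∑ i, pd i ζ x ^ 2 := hmain
    _ ≤ 4 * (n * ∑ j ∈ Finset.range m, A j * ∫ x in B j, gr u x) := by
        rw [← hint]
        exact mul_le_mul_of_nonneg_left hge (by norm_num)
    _ ≤ 4 * (n * (K ^ 2 * (C0 * (2 ^ (n - 2) * 4)) * N ^ (n - 2) *
          (1 / (m : ℝ) + 16 ^ m / N ^ 2))) :=
        mul_le_mul_of_nonneg_left (mul_le_mul_of_nonneg_left hsum hn.le) (by norm_num)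
    _ = 4 * (n * (K ^ 2 * (C0 * (2 ^ (n - 2) * 4)))) * N ^ (n - 2) *
          (1 / (m : ℝ) + 16 ^ m / N ^ 2) := by ring

end Vale.Agent.P134
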