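import Vale.Agent.P134.Iso
import Vale.Agent.P134.Log
import Vale.Agent.P134.Per
import Vale.Agent.P134.Rot
import Vale.Agent.P134.Frame
import Vale.Agent.P134.Fin1

/-! # P134, assembly -/

open MeasureTheory Set Filter Topology
open scoped InnerProductSpace

namespace Vale.Agent.P134

theorem average {n : ℕ} {p q : Fin n} (hpq : p ≠ q) {ε : ℝ} (hε : 0 < ε) :
    ∃ N₀ : ℝ, 1 ≤ N₀ ∧ ∀ N : ℝ, N₀ ≤ N → ∀ u : E n → ℝ, IsSol u →
      ∀ e : E n, (∀ x, 0 < dd e u x) → ∀ c : E n,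
      ∫ x in box c (side p q N 1), curv u x ≤ ε * N ^ (n - 2) := by
  obtain ⟨C, hC, h⟩ := log_cut hpq
  obtain ⟨m, hm⟩ := exists_nat_gt (2 * C / ε)
  have hm0 : (0 : ℝ) < m := lt_trans (by positivity) hm
  have hm1 : 1 ≤ m := by exact_mod_cast hm0
  refine ⟨max 1 (2 * C * 16 ^ m / ε), le_max_left _ _, fun N hN u hu e he c => ?_⟩
  have hN1 : 1 ≤ N := le_trans (le_max_left _ _) hN
  have hN2 : 2 * C * 16 ^ m / ε ≤ N := le_trans (le_max_right _ _) hN
  refine (h u hu e he c m N hm1 hN1).trans ?_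
  have h1 : C * (1 / (m : ℝ)) ≤ ε / 2 := by
    rw [div_lt_iff₀ hε] at hm
    rw [mul_one_div, div_le_iff₀ hm0]
    linarith
  have h2 : C * (16 ^ m / N ^ 2) ≤ ε / 2 := by
    rw [div_le_iff₀ hε] at hN2
    rw [← mul_div_assoc, div_le_iff₀ (by positivity)]
    have h3 : N ≤ N ^ 2 := by nlinarith
    have h4 : N * ε ≤ N ^ 2 * ε := mul_le_mul_of_nonneg_right h3 hε.le
    linarith
  have h5 : 0 ≤ N ^ (n - 2) := by positivity
  calc C * N ^ (n - 2) * (1 / (m : ℝ) + 16 ^ m / N ^ 2)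
      = (C * (1 / (m : ℝ)) + C * (16 ^ m / N ^ 2)) * N ^ (n - 2) := by ring
    _ ≤ (ε / 2 + ε / 2) * N ^ (n - 2) :=
        mul_le_mul_of_nonneg_right (add_le_add h1 h2) h5
    _ = ε * N ^ (n - 2) := by ring

theorem periodic {n : ℕ} (hn : 2 ≤ n) {u : E n → ℝ} (hu : IsSol u) {e : E n}
    (he : ∀ x, 0 < dd e u x) {v : Fin (n - 2) → E n} (hv : LinearIndependent ℝ v)
    (hper : ∀ j x, u (x + v j) = u x) :
    ∃ (f : E n) (h : ℝ → ℝ), ‖f‖ = 1 ∧ ∀ x, u x = h ⟪f, x⟫_ℝ := by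
  obtain ⟨p, q, Q, hpq, hp, hq⟩ := frame hn rfl hv
  have hw : IsSol (fun x => u (Q x)) := isSol_comp hu Q
  have hdd : ∀ (a x : E n), dd a (fun x => u (Q x)) x = dd (Q a) u (Q x) := by
    intro a x
    unfold dd
    have h1 : HasFDerivAt u (fderiv ℝ u (Q x)) (Q x) :=
      (hu.1.differentiable (by norm_num)).differentiableAt.hasFDerivAt
    have h2 : HasFDerivAt (fun x => Q x) (Q.toContinuousLinearEquiv : E n →L[ℝ] E n) x :=
      Q.toContinuousLinearEquiv.hasFDerivAt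
    have h3 : fderiv ℝ (fun x => u (Q x)) x =
        (fderiv ℝ u (Q x)).comp (Q.toContinuousLinearEquiv : E n →L[ℝ] E n) :=
      (h1.comp x h2).fderiv
    rw [h3]
    rfl
  have he' : ∀ x, 0 < dd (Q.symm e) (fun x => u (Q x)) x := by
    intro x
    rw [hdd, Q.apply_symm_apply]
    exact he _
  have hzero : ∀ x, curv (fun x => u (Q x)) x = 0 := by
    apply per (m := n - 2) (v := fun j => Q.symm (v j)) rfl (curv_cont hw.1 he')
      (curv_nonneg _) _ hp hq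
    · intro j x
      apply curv_per
      intro y
      show u (Q (y + Q.symm (v j))) = u (Q y)
      rw [map_add, Q.apply_symm_apply]
      exact hper j _
    · intro ε hε
      obtain ⟨N₀, h1, h2⟩ := average hpq hε
      exact ⟨N₀, h1, fun N hN c => h2 N hN _ hw _ he' c⟩
    · exact hv.map' Q.symm.toLinearEquiv.toLinearMap Q.symm.toLinearEquiv.ker
  obtain ⟨f, h, hf, hh⟩ := one_dim hw.1 he' hzero
  refine ⟨Q f, h, by rw [Q.norm_map, hf], fun x => ?_⟩
  have h1 := hh (Q.symm x)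
  rw [Q.apply_symm_apply] at h1
  rw [h1]
  congr 1
  rw [← Q.inner_map_map, Q.apply_symm_apply]

end Vale.Agent.P134
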