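import Vale.Agent.P134.Reg12

/-! # P134, module REG3: uniform Lipschitz bound for second derivatives

For `a = y - x` apply `grad_est` to `w z = D z+a - D z` where `D z = (u (z + h e_j) - u z) / h`.
`|w| ≤ C ‖a‖` because `|pd i D| ≤ C` by `reg2`; `Δw z = (L (z + a) - L z)` with
`L z = (F (u (z + h e_j)) - F (u z)) / h`, `F s = s³ - s`; `F ∘ u` is `C^2` with second derivatives
bounded (by `reg1`, `reg2`), so `|Δw| ≤ C ‖a‖`.  Let `h → 0` in
`pd i w z = pd i D (z + a) - pd i D z → pd j (pd i u) (z + a) - pd j (pd i u) z`. -/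

open MeasureTheory Set Filter Topology

namespace Vale.Agent.P134

/-- scaled difference -/
noncomputable def reg3Q {n : ℕ} (c : ℝ) (b : E n) (f : E n → ℝ) : E n → ℝ :=
  fun z => c * (f (z + b) - f z)

theorem reg3_pd_contDiff {n : ℕ} {f : E n → ℝ} {k m : WithTop ℕ∞} (hf : ContDiff ℝ k f)
    (hmk : m + 1 ≤ k) (i : Fin n) : ContDiff ℝ m (pd i f) := by
  unfold pd
  exact (hf.fderiv_right hmk).clm_apply contDiff_const

theorem reg3Q_contDiff {n : ℕ} {c : ℝ} {b : E n} {f : E n → ℝ} {k : WithTop ℕ∞}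
    (hf : ContDiff ℝ k f) : ContDiff ℝ k (reg3Q c b f) := by
  unfold reg3Q
  have h1 : ContDiff ℝ k (fun z : E n => f (z + b)) :=
    hf.comp (contDiff_id.add contDiff_const)
  exact contDiff_const.mul (h1.sub hf)

theorem reg3Q_pd {n : ℕ} {c : ℝ} {b : E n} {f : E n → ℝ} (hf : Differentiable ℝ f)
    (i : Fin n) : pd i (reg3Q c b f) = reg3Q c b (pd i f) := by
  funext z
  unfold pd reg3Q
  have h1 : HasFDerivAt (fun z : E n => f (z + b)) (fderiv ℝ f (z + b)) z := by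
    have h2 : HasFDerivAt f (fderiv ℝ f (z + b)) (z + b) := (hf (z + b)).hasFDerivAt
    have h3 : HasFDerivAt (fun z : E n => z + b) (ContinuousLinearMap.id ℝ (E n)) z :=
      (hasFDerivAt_id z).add_const b
    have h4 := h2.comp z h3
    rw [ContinuousLinearMap.comp_id] at h4
    exact h4
  have h5 : HasFDerivAt f (fderiv ℝ f z) z := (hf z).hasFDerivAt
  have h6 := (h1.sub h5).const_mul c
  have h7 : fderiv ℝ (fun z : E n => c * (f (z + b) - f z)) z
      = c • (fderiv ℝ f (z + b) - fderiv ℝ f z) := h6.fderiv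
  rw [h7]
  simp

theorem reg3Q_bound {n : ℕ} {g : E n → ℝ} (hg : ContDiff ℝ 2 g) {B : ℝ}
    (hB : ∀ m k x, |pd m (pd k g) x| ≤ B) (a : E n) (j : Fin n) {h : ℝ} (hh : h ≠ 0) (z : E n) :
    |reg3Q 1 a (reg3Q h⁻¹ (h • EuclideanSpace.single j (1 : ℝ)) g) z| ≤ n * (n * B) * ‖a‖ := by
  have hg1 : ContDiff ℝ 1 g := hg.of_le (by norm_num)
  have hd : Differentiable ℝ g := hg1.differentiable (by norm_num)
  have hnorm : ‖h • (EuclideanSpace.single j (1 : ℝ) : E n)‖ = |h| := by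
    rw [norm_smul, EuclideanSpace.norm_single, norm_one, mul_one, Real.norm_eq_abs]
  have h1 : ∀ k x, |pd k (reg3Q h⁻¹ (h • EuclideanSpace.single j (1 : ℝ)) g) x| ≤ n * B := by
    intro k x
    rw [reg3Q_pd hd]
    have h2 : ContDiff ℝ 1 (pd k g) := reg3_pd_contDiff hg (by norm_num) k
    have h3 := lip_of_pd h2 (B := B) (fun i x => hB i k x)
      (x + h • EuclideanSpace.single j (1 : ℝ)) x
    have h4 : x + h • (EuclideanSpace.single j (1 : ℝ) : E n) - x
        = h • EuclideanSpace.single j (1 : ℝ) := by abel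
    rw [h4, hnorm] at h3
    unfold reg3Q
    rw [abs_mul, abs_inv]
    have h5 : 0 < |h| := abs_pos.2 hh
    calc |h|⁻¹ * |pd k g (x + h • EuclideanSpace.single j (1 : ℝ)) - pd k g x|
        ≤ |h|⁻¹ * (n * B * |h|) := mul_le_mul_of_nonneg_left h3 (by positivity)
      _ = n * B := by field_simp
  have h6 : ContDiff ℝ 1 (reg3Q h⁻¹ (h • EuclideanSpace.single j (1 : ℝ)) g) :=
    reg3Q_contDiff hg1
  have h7 := lip_of_pd h6 h1 (z + a) z
  have h8 : z + a - z = a := by abel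
  rw [h8] at h7
  have h9 : reg3Q 1 a (reg3Q h⁻¹ (h • EuclideanSpace.single j (1 : ℝ)) g) z
      = reg3Q h⁻¹ (h • EuclideanSpace.single j (1 : ℝ)) g (z + a)
        - reg3Q h⁻¹ (h • EuclideanSpace.single j (1 : ℝ)) g z := by
    show (1 : ℝ) * _ = _
    rw [one_mul]
  rw [h9]
  exact h7

theorem reg3Q_sum {n : ℕ} {c : ℝ} {b : E n} (f : Fin n → E n → ℝ) (z : E n) :
    ∑ i, reg3Q c b (f i) z = reg3Q c b (fun x => ∑ i, f i x) z := by
  unfold reg3Q
  rw [← Finset.mul_sum, Finset.sum_sub_distrib]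

theorem reg3_v {n : ℕ} {u : E n → ℝ} (hu : ContDiff ℝ 2 u) (hu1 : ∀ x, |u x| ≤ 1) {K A : ℝ}
    (hA : ∀ i x, |pd i u x| ≤ A) (hK : ∀ i j x, |pd i (pd j u) x| ≤ K) (m k : Fin n) (x : E n) :
    |pd m (pd k (fun y => u y ^ 3 - u y)) x| ≤ 6 * (A * A) + 2 * K := by
  have hu' : Differentiable ℝ u := hu.differentiable (by norm_num)
  have e1 : pd k (fun y => u y ^ 3 - u y) = fun y => (3 * u y ^ 2 - 1) * pd k u y := by
    funext y
    unfold pd
    have h1 : HasFDerivAt u (fderiv ℝ u y) y := (hu' y).hasFDerivAt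
    have h2 := (h1.pow 3).sub h1
    have h3 : fderiv ℝ (fun y => u y ^ 3 - u y) y = _ := h2.fderiv
    rw [h3]
    simp
    ring
  have hk : ContDiff ℝ 1 (pd k u) := reg3_pd_contDiff hu (by norm_num) k
  have hk' : Differentiable ℝ (pd k u) := hk.differentiable (by norm_num)
  have e2 : pd m (fun y => (3 * u y ^ 2 - 1) * pd k u y) x
      = 6 * u x * (pd m u x * pd k u x) + (3 * u x ^ 2 - 1) * pd m (pd k u) x := by
    have h1 : HasFDerivAt u (fderiv ℝ u x) x := (hu' x).hasFDerivAt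
    have h2 : HasFDerivAt (pd k u) (fderiv ℝ (pd k u) x) x := (hk' x).hasFDerivAt
    have h3 := (((h1.pow 2).const_mul 3).sub_const 1).mul h2
    have h4 : fderiv ℝ (fun y => (3 * u y ^ 2 - 1) * pd k u y) x = _ := h3.fderiv
    show fderiv ℝ (fun y => (3 * u y ^ 2 - 1) * pd k u y) x (EuclideanSpace.single m 1) = _
    rw [h4]
    simp [pd]
    ring
  rw [e1, e2]
  have h5 : |6 * u x * (pd m u x * pd k u x)| ≤ 6 * (A * A) := by
    rw [abs_mul, abs_mul, abs_mul]
    have h6 : |(6 : ℝ)| * |u x| ≤ 6 := by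
      rw [abs_of_pos (by norm_num : (0 : ℝ) < 6)]
      nlinarith [hu1 x, abs_nonneg (u x)]
    have h7 : |pd m u x| * |pd k u x| ≤ A * A :=
      mul_le_mul (hA m x) (hA k x) (abs_nonneg _) (le_trans (abs_nonneg _) (hA m x))
    exact mul_le_mul h6 h7 (mul_nonneg (abs_nonneg _) (abs_nonneg _)) (by norm_num)
  have h8 : |(3 * u x ^ 2 - 1) * pd m (pd k u) x| ≤ 2 * K := by
    rw [abs_mul]
    have h9 : |3 * u x ^ 2 - 1| ≤ 2 := by
      have h10 : u x ^ 2 ≤ 1 := by
        rw [← sq_abs]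
        exact pow_le_one₀ (abs_nonneg _) (hu1 x)
      rw [abs_le]
      constructor <;> nlinarith [sq_nonneg (u x)]
    exact mul_le_mul h9 (hK m k x) (abs_nonneg _) (by norm_num)
  exact le_trans (abs_add_le _ _) (add_le_add h5 h8)

theorem reg3 (n : ℕ) : ∃ K : ℝ, 0 < K ∧ ∀ u : E n → ℝ, IsSol u → ∀ i j x y,
    |pd i (pd j u) x - pd i (pd j u) y| ≤ K * ‖x - y‖ := by
  obtain ⟨K₂, hK₂, hK⟩ := reg2 n
  set K₃ : ℝ := 6 * (((n : ℝ) + 1) * (n + 1)) + 2 * K₂ with hK₃
  have hK₃0 : 0 < K₃ := by positivity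
  refine ⟨n * (n * (n * K₂)) + (n * (n * K₃)) / 2 + 1, by positivity, ?_⟩
  intro u hu j i x y
  set a : E n := x - y with ha
  have hC2 : ContDiff ℝ 2 u := hu.1
  have hC1 : Differentiable ℝ u := hC2.differentiable (by norm_num)
  have hCi : ∀ k, ContDiff ℝ 1 (pd k u) := fun k => reg3_pd_contDiff hC2 (by norm_num) k
  have hCi1 : ∀ k, Differentiable ℝ (pd k u) := fun k => (hCi k).differentiable (by norm_num)
  have hv : ContDiff ℝ 2 (fun y => u y ^ 3 - u y) := (hC2.pow 3).sub hC2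
  have main : ∀ h : ℝ, h ≠ 0 →
      |h⁻¹ • (pd i u (x + h • EuclideanSpace.single j (1 : ℝ)) - pd i u x)
        - h⁻¹ • (pd i u (y + h • EuclideanSpace.single j (1 : ℝ)) - pd i u y)|
        ≤ n * (n * (n * K₂) * ‖a‖) + (n * (n * K₃) * ‖a‖) / 2 := by
    intro h hh
    set w : E n → ℝ := reg3Q 1 a (reg3Q h⁻¹ (h • EuclideanSpace.single j (1 : ℝ)) u) with hw
    have hwC : ContDiff ℝ 2 w := reg3Q_contDiff (reg3Q_contDiff hC2)
    have hwM : ∀ z, |w z| ≤ n * (n * K₂) * ‖a‖ := fun z =>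
      reg3Q_bound hC2 (fun m k x => hK u hu m k x) a j hh z
    have hpd : ∀ k, pd k w
        = reg3Q 1 a (reg3Q h⁻¹ (h • EuclideanSpace.single j (1 : ℝ)) (pd k u)) := by
      intro k
      rw [hw, reg3Q_pd ((reg3Q_contDiff hC2).differentiable (by norm_num)), reg3Q_pd hC1]
    have hpd2 : ∀ k, pd k (pd k w)
        = reg3Q 1 a (reg3Q h⁻¹ (h • EuclideanSpace.single j (1 : ℝ)) (pd k (pd k u))) := by
      intro k
      rw [hpd, reg3Q_pd ((reg3Q_contDiff (hCi k)).differentiable (by norm_num)),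
        reg3Q_pd (hCi1 k)]
    have hlap : ∀ z, ∑ k, pd k (pd k w) z
        = reg3Q 1 a (reg3Q h⁻¹ (h • EuclideanSpace.single j (1 : ℝ))
            (fun y => u y ^ 3 - u y)) z := by
      intro z
      have h1 : ∑ k, pd k (pd k w) z = ∑ k, reg3Q 1 a
          (reg3Q h⁻¹ (h • EuclideanSpace.single j (1 : ℝ)) (pd k (pd k u))) z := by
        refine Finset.sum_congr rfl ?_
        intro k _
        rw [hpd2]
      rw [h1, reg3Q_sum]
      have h2 : (fun x => ∑ k, reg3Q h⁻¹ (h • EuclideanSpace.single j (1 : ℝ))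
          (pd k (pd k u)) x) = reg3Q h⁻¹ (h • EuclideanSpace.single j (1 : ℝ))
            (fun y => u y ^ 3 - u y) := by
        funext x
        rw [reg3Q_sum]
        have h3 : (fun x => ∑ k, pd k (pd k u) x) = fun y => u y ^ 3 - u y := by
          funext x
          exact hu.2.1 x
        rw [h3]
      rw [h2]
    have hwF : ∀ z, |∑ k, pd k (pd k w) z| ≤ n * (n * K₃) * ‖a‖ := by
      intro z
      rw [hlap]
      exact reg3Q_bound hv (fun m k x => reg3_v hC2 hu.2.2 (reg1 n hu) (hK u hu) m k x) a j hh z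
    have h4 := grad_est hwC hwM hwF i y
    rw [hpd] at h4
    have h5 : reg3Q 1 a (reg3Q h⁻¹ (h • EuclideanSpace.single j (1 : ℝ)) (pd i u)) y
        = h⁻¹ • (pd i u (x + h • EuclideanSpace.single j (1 : ℝ)) - pd i u x)
        - h⁻¹ • (pd i u (y + h • EuclideanSpace.single j (1 : ℝ)) - pd i u y) := by
      have h6 : y + a = x := by rw [ha]; abel
      show (1 : ℝ) * (h⁻¹ * (pd i u (y + a + h • EuclideanSpace.single j (1 : ℝ))
        - pd i u (y + a)) - h⁻¹ * (pd i u (y + h • EuclideanSpace.single j (1 : ℝ))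
        - pd i u y)) = _
      rw [h6, one_mul, smul_eq_mul, smul_eq_mul]
    rw [h5] at h4
    exact h4
  have hlim : ∀ z, Tendsto (fun h : ℝ =>
      h⁻¹ • (pd i u (z + h • EuclideanSpace.single j (1 : ℝ)) - pd i u z))
      (𝓝[≠] 0) (𝓝 (pd j (pd i u) z)) := by
    intro z
    have h1 : HasFDerivAt (pd i u) (fderiv ℝ (pd i u) z) z := (hCi1 i z).hasFDerivAt
    have h2 := h1.hasLineDerivAt (EuclideanSpace.single j (1 : ℝ))
    exact h2.tendsto_slope_zero
  have hlim2 := ((hlim x).sub (hlim y)).abs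
  have h3 : |pd j (pd i u) x - pd j (pd i u) y|
      ≤ n * (n * (n * K₂) * ‖a‖) + (n * (n * K₃) * ‖a‖) / 2 := by
    refine le_of_tendsto hlim2 ?_
    filter_upwards [self_mem_nhdsWithin] with h hh
    exact main h hh
  have h4 : 0 ≤ ‖a‖ := norm_nonneg _
  nlinarith [h3, h4]

end Vale.Agent.P134
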