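import Vale.Agent.P134.LimD
import Vale.Agent.P134.Reg3

/-! # P134, module LIM: the limit of the translates

`isSol_shift`: chain rule with a translation.  `lim_exists`: `t ↦ u (x + t e)` is increasing and
bounded.  `lim_reg`: apply `lim_deriv` to `f t x = u (x + t e)`, then to
`f t x = pd j u (x + t e)` whose limit is `pd j U` (bounds: `reg1`, `reg2`, `reg3`, `lip_of_pd`);
`U` is `C^2` because all `pd j U` are `C^1`; the equation passes to the limit. -/

open MeasureTheory Set Filter Topology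

namespace Vale.Agent.P134

theorem pd_shift {n : ℕ} (u : E n → ℝ) (a : E n) (i : Fin n) (x : E n) :
    pd i (fun y => u (y + a)) x = pd i u (x + a) := by
  unfold pd
  rw [fderiv_comp_add_right]

theorem isSol_shift {n : ℕ} {u : E n → ℝ} (hu : IsSol u) (a : E n) :
    IsSol (fun x => u (x + a)) := by
  have h1 : ∀ (v : E n → ℝ) (i : Fin n), pd i (fun y => v (y + a)) = fun x => pd i v (x + a) :=
    fun v i => funext (pd_shift v a i)
  refine ⟨hu.1.comp (contDiff_id.add contDiff_const), fun x => ?_, fun x => hu.2.2 _⟩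
  rw [← hu.2.1]
  refine Finset.sum_congr rfl fun i _ => ?_
  rw [h1, h1]

theorem lim_exists {n : ℕ} {u : E n → ℝ} (hu : IsSol u) {e : E n} (he : ∀ x, 0 < dd e u x) :
    ∃ U : E n → ℝ, IsLim u e U := by
  have h : ∀ x : E n, ∃ y : ℝ, Tendsto (fun t : ℝ => u (x + t • e)) atTop (𝓝 y) := by
    intro x
    have hd : ∀ t : ℝ, HasDerivAt (fun t : ℝ => u (x + t • e)) (dd e u (x + t • e)) t := by
      intro t
      have h1 : HasDerivAt (fun t : ℝ => x + t • e) e t := by
        have := ((hasDerivAt_id t).smul_const e).const_add x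
        simpa using this
      exact ((hu.1.differentiable (by norm_num) _).hasFDerivAt).comp_hasDerivAt t h1
    have hm : Monotone fun t : ℝ => u (x + t • e) :=
      monotone_of_deriv_nonneg (fun t => (hd t).differentiableAt) fun t => by
        rw [(hd t).deriv]
        exact (he _).le
    refine ⟨_, tendsto_atTop_ciSup hm ⟨1, ?_⟩⟩
    rintro _ ⟨t, rfl⟩
    exact (abs_le.1 (hu.2.2 _)).2
  choose U hU using h
  exact ⟨U, hU⟩

private theorem LIM_pd_fun {n : ℕ} (u : E n → ℝ) (a : E n) (i : Fin n) :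
    pd i (fun y => u (y + a)) = fun x => pd i u (x + a) := funext (pd_shift u a i)

private theorem LIM_c1 {n : ℕ} {u : E n → ℝ} (hu : ContDiff ℝ 2 u) (j : Fin n) :
    ContDiff ℝ 1 (pd j u) := by
  unfold pd
  exact (hu.fderiv_right (m := 1) (by norm_num)).clm_apply contDiff_const

private theorem LIM_c2 {n : ℕ} {U : E n → ℝ} (hU : ContDiff ℝ 1 U)
    (h : ∀ j, ContDiff ℝ 1 (pd j U)) : ContDiff ℝ 2 U := by
  have hd : Differentiable ℝ U := hU.differentiable (by norm_num)
  have hf : fderiv ℝ U = fun x => ∑ j, pd j U x • (EuclideanSpace.proj j : E n →L[ℝ] ℝ) := by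
    funext x
    ext v
    have hv := (EuclideanSpace.basisFun (Fin n) ℝ).sum_repr v
    conv_lhs => rw [← hv]
    rw [map_sum, ContinuousLinearMap.sum_apply]
    refine Finset.sum_congr rfl fun j _ => ?_
    rw [map_smul, EuclideanSpace.basisFun_apply, EuclideanSpace.basisFun_repr]
    simp [pd, mul_comm]
  rw [show (2 : WithTop ℕ∞) = 1 + 1 from one_add_one_eq_two.symm, contDiff_succ_iff_fderiv]
  refine ⟨hd, by simp, ?_⟩
  rw [hf]
  exact ContDiff.sum fun j _ => (h j).smul contDiff_const

theorem lim_reg {n : ℕ} {u U : E n → ℝ} (hu : IsSol u) {e : E n} (hU : IsLim u e U) :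
    IsSol U ∧ (∀ i x, Tendsto (fun t : ℝ => pd i u (x + t • e)) atTop (𝓝 (pd i U x))) ∧
      ∀ i j x, Tendsto (fun t : ℝ => pd i (pd j u) (x + t • e)) atTop
        (𝓝 (pd i (pd j U) x)) := by
  obtain ⟨K2, hK2, h2⟩ := reg2 n
  obtain ⟨K3, hK3, h3⟩ := reg3 n
  have h1 := reg1 n hu
  have hn : (0 : ℝ) ≤ n := Nat.cast_nonneg n
  have hsh : ∀ (v : E n → ℝ) (hv : ContDiff ℝ 1 v) (a : E n), ContDiff ℝ 1 fun x => v (x + a) :=
    fun v hv a => hv.comp (contDiff_id.add contDiff_const)
  have hu1 : ContDiff ℝ 1 u := hu.1.of_le (by norm_num)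
  have hL1 := lim_deriv (f := fun t x => u (x + t • e)) (F := U) (K := (n + 1) + n * K2)
    (by positivity) (fun t => hsh u hu1 (t • e)) (fun t i x => by
      rw [LIM_pd_fun]
      refine (h1 i _).trans ?_
      have : 0 ≤ n * K2 := by positivity
      linarith) (fun t i x y => by
      rw [LIM_pd_fun]
      refine (lip_of_pd (LIM_c1 hu.1 i) (fun j z => h2 u hu j i z) _ _).trans ?_
      rw [add_sub_add_right_eq_sub]
      refine mul_le_mul_of_nonneg_right ?_ (norm_nonneg _)
      linarith) hU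
  simp only [LIM_pd_fun] at hL1
  have hL2 : ∀ j, ContDiff ℝ 1 (pd j U) ∧ ∀ i x,
      Tendsto (fun t : ℝ => pd i (pd j u) (x + t • e)) atTop (𝓝 (pd i (pd j U) x)) := by
    intro j
    have h := lim_deriv (f := fun t x => pd j u (x + t • e)) (F := pd j U) (K := K2 + K3)
      (by positivity) (fun t => hsh (pd j u) (LIM_c1 hu.1 j) (t • e)) (fun t i x => by
        rw [LIM_pd_fun (pd j u)]
        refine (h2 u hu i j _).trans ?_
        linarith) (fun t i x y => by
        rw [LIM_pd_fun (pd j u)]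
        refine (h3 u hu i j _ _).trans ?_
        rw [add_sub_add_right_eq_sub]
        refine mul_le_mul_of_nonneg_right ?_ (norm_nonneg _)
        linarith) (hL1.2 j)
    simp only [LIM_pd_fun] at h
    exact h
  refine ⟨⟨LIM_c2 hL1.1 fun j => (hL2 j).1, fun x => ?_, fun x => ?_⟩, hL1.2, fun i j x =>
    (hL2 j).2 i x⟩
  · have ha : Tendsto (fun t : ℝ => ∑ i, pd i (pd i u) (x + t • e)) atTop
        (𝓝 (∑ i, pd i (pd i U) x)) := tendsto_finsetSum _ fun i _ => (hL2 i).2 i x
    have hb : Tendsto (fun t : ℝ => u (x + t • e) ^ 3 - u (x + t • e)) atTop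
        (𝓝 (U x ^ 3 - U x)) := ((hU x).pow 3).sub (hU x)
    have hc : (fun t : ℝ => ∑ i, pd i (pd i u) (x + t • e)) =
        fun t : ℝ => u (x + t • e) ^ 3 - u (x + t • e) := funext fun t => hu.2.1 _
    rw [hc] at ha
    exact tendsto_nhds_unique ha hb
  · exact le_of_tendsto (hU x).abs (Filter.Eventually.of_forall fun t => hu.2.2 _)

end Vale.Agent.P134
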