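import Vale.Agent.P134.Geo
import Vale.Agent.P134.LimReg

/-! # P134, module GEOU: the geometric inequality for the limit

`gc u = gr u * curv u ≤ n (n+1)² curv u` (by `reg1`, `gr_pos`).  Apply `geo` to the translates
`u (· + t e)` and let `t → ∞`: `gc (u (· + t e)) → gc U` and `gr → gr U` pointwise (`lim_reg`),
uniformly bounded (`reg1`, `reg2`), `ζ` has compact support: dominated convergence. -/

open MeasureTheory Set Filter Topology

namespace Vale.Agent.P134

theorem gc_nonneg {n : ℕ} (u : E n → ℝ) (x : E n) : 0 ≤ gc u x := by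
  unfold gc
  rw [sub_nonneg, mul_comm, Finset.sum_mul]
  refine Finset.sum_le_sum fun i _ => ?_
  exact Finset.sum_mul_sq_le_sq_mul_sq _ _ _

theorem gc_cont {n : ℕ} {u : E n → ℝ} (hu : ContDiff ℝ 2 u) : Continuous (gc u) := by
  have h1 : ∀ j, Continuous (pd j u) := fun j => CREG_pd_cont (hu.of_le (by norm_num)) j
  have h2 : ∀ i j, Continuous (pd i (pd j u)) := fun i j => CREG_pd_cont (CREG_pd_contDiff hu j) i
  have h3 : Continuous (gr u) := continuous_finsetSum _ fun j _ => (h1 j).pow 2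
  unfold gc
  refine Continuous.sub (h3.mul ?_) ?_
  · exact continuous_finsetSum _ fun i _ => continuous_finsetSum _ fun j _ => (h2 i j).pow 2
  · exact continuous_finsetSum _ fun i _ =>
      (continuous_finsetSum _ fun j _ => (h2 i j).mul (h1 j)).pow 2

theorem gc_per {n : ℕ} {u : E n → ℝ} {v : E n} (h : ∀ x, u (x + v) = u x) (x : E n) :
    gc u (x + v) = gc u x := by
  have h1 : ∀ j y, pd j u (y + v) = pd j u y := fun j y => CREG_pd_per h j y
  have h2 : ∀ i j, pd i (pd j u) (x + v) = pd i (pd j u) x := fun i j => CREG_pd_per (h1 j) i x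
  unfold gc gr
  simp only [h1, h2]

theorem GEOU_gr_le {n : ℕ} {u : E n → ℝ} (hu : IsSol u) (x : E n) :
    gr u x ≤ n * ((n : ℝ) + 1) ^ 2 := by
  unfold gr
  have h : ∀ j ∈ (Finset.univ : Finset (Fin n)), pd j u x ^ 2 ≤ ((n : ℝ) + 1) ^ 2 := fun j _ => by
    rw [← sq_abs (pd j u x)]
    exact pow_le_pow_left₀ (abs_nonneg _) (reg1 n hu j x) 2
  have := Finset.sum_le_card_nsmul _ _ _ h
  simpa [nsmul_eq_mul] using this

theorem GEOU_gr_nonneg {n : ℕ} (u : E n → ℝ) (x : E n) : 0 ≤ gr u x :=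
  Finset.sum_nonneg fun _ _ => sq_nonneg _

theorem GEOU_gc_eq {n : ℕ} {u : E n → ℝ} {x : E n} (h : 0 < gr u x) :
    gc u x = gr u x * curv u x := by
  unfold gc curv
  rw [mul_sub, mul_div_cancel₀ _ h.ne']

theorem GEOU_gc_le {n : ℕ} {u : E n → ℝ} (hu : IsSol u) {x : E n} (h : 0 < gr u x) :
    gc u x ≤ (n * ((n : ℝ) + 1) ^ 2 + 1) * curv u x := by
  rw [GEOU_gc_eq h]
  exact mul_le_mul_of_nonneg_right ((GEOU_gr_le hu x).trans (by linarith)) (curv_nonneg u x)

theorem GEOU_gc_bd {n : ℕ} {u : E n → ℝ} (hu : IsSol u) {K : ℝ}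
    (hK : ∀ i j x, |pd i (pd j u) x| ≤ K) (x : E n) :
    gc u x ≤ n * ((n : ℝ) + 1) ^ 2 * (n * (n * K ^ 2)) := by
  have h0 : 0 ≤ ∑ i, (∑ j, pd i (pd j u) x * pd j u x) ^ 2 :=
    Finset.sum_nonneg fun i _ => sq_nonneg _
  have h1 : ∑ i, ∑ j, pd i (pd j u) x ^ 2 ≤ n * (n * K ^ 2) := by
    have h : ∀ i ∈ (Finset.univ : Finset (Fin n)), ∑ j, pd i (pd j u) x ^ 2 ≤ n * K ^ 2 := by
      intro i _
      have h : ∀ j ∈ (Finset.univ : Finset (Fin n)), pd i (pd j u) x ^ 2 ≤ K ^ 2 := fun j _ => by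
        rw [← sq_abs (pd i (pd j u) x)]
        exact pow_le_pow_left₀ (abs_nonneg _) (hK i j x) 2
      have := Finset.sum_le_card_nsmul _ _ _ h
      simpa [nsmul_eq_mul] using this
    have := Finset.sum_le_card_nsmul _ _ _ h
    simpa [nsmul_eq_mul] using this
  have h2 : 0 ≤ ∑ i, ∑ j, pd i (pd j u) x ^ 2 :=
    Finset.sum_nonneg fun i _ => Finset.sum_nonneg fun j _ => sq_nonneg _
  have h3 : gr u x * ∑ i, ∑ j, pd i (pd j u) x ^ 2 ≤
      n * ((n : ℝ) + 1) ^ 2 * (n * (n * K ^ 2)) :=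
    mul_le_mul (GEOU_gr_le hu x) h1 h2 (by positivity)
  unfold gc
  linarith

theorem GEOU_shift {n : ℕ} {u : E n → ℝ} (hu : IsSol u) {e : E n} (he : ∀ x, 0 < dd e u x)
    {ζ : E n → ℝ} (hζ : ContDiff ℝ 1 ζ) (hs : HasCompactSupport ζ) :
    ∫ x, ζ x ^ 2 * gc u x ≤
      (4 * (n * ((n : ℝ) + 1) ^ 2 + 1)) * ∫ x, gr u x * ∑ i, pd i ζ x ^ 2 := by
  have hg := geo hu he hζ hs
  have hcs : HasCompactSupport fun x => ζ x ^ 2 := by
    refine hs.mono fun x hx => ?_
    rw [Function.mem_support] at hx ⊢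
    intro h
    exact hx (by simp [h])
  have hi : Integrable fun x => (n * ((n : ℝ) + 1) ^ 2 + 1) * (ζ x ^ 2 * curv u x) :=
    ((((hζ.continuous.pow 2).mul (curv_cont hu.1 he)).integrable_of_hasCompactSupport
      hcs.mul_right)).const_mul _
  have h1 : ∫ x, ζ x ^ 2 * gc u x ≤
      ∫ x, (n * ((n : ℝ) + 1) ^ 2 + 1) * (ζ x ^ 2 * curv u x) := by
    refine integral_mono_of_nonneg (Filter.Eventually.of_forall fun x =>
      mul_nonneg (sq_nonneg _) (gc_nonneg u x)) hi (Filter.Eventually.of_forall fun x => ?_)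
    have := mul_le_mul_of_nonneg_left (GEOU_gc_le hu (gr_pos (he x))) (sq_nonneg (ζ x))
    calc ζ x ^ 2 * gc u x ≤ ζ x ^ 2 * ((n * ((n : ℝ) + 1) ^ 2 + 1) * curv u x) := this
      _ = _ := by ring
  rw [integral_const_mul] at h1
  have h2 : (0 : ℝ) ≤ n * ((n : ℝ) + 1) ^ 2 + 1 := by positivity
  calc ∫ x, ζ x ^ 2 * gc u x ≤ _ := h1
    _ ≤ (n * ((n : ℝ) + 1) ^ 2 + 1) * (4 * ∫ x, gr u x * ∑ i, pd i ζ x ^ 2) :=
        mul_le_mul_of_nonneg_left hg h2
    _ = _ := by ring

theorem geoU {n : ℕ} {u U : E n → ℝ} (hu : IsSol u) {e : E n} (he : ∀ x, 0 < dd e u x)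
    (hU : IsLim u e U) {ζ : E n → ℝ} (hζ : ContDiff ℝ 1 ζ) (hs : HasCompactSupport ζ) :
    ∫ x, ζ x ^ 2 * gc U x ≤
      (4 * (n * ((n : ℝ) + 1) ^ 2 + 1)) * ∫ x, gr U x * ∑ i, pd i ζ x ^ 2 := by
  obtain ⟨K, hK, hK2⟩ := reg2 n
  obtain ⟨hUs, hp, hpp⟩ := lim_reg hu hU
  have hsol : ∀ t : ℝ, IsSol fun x => u (x + t • e) := fun t => isSol_shift hu _
  have hpd : ∀ (t : ℝ) i x, pd i (fun y => u (y + t • e)) x = pd i u (x + t • e) :=
    fun t i x => pd_shift u _ i x
  have hpd2 : ∀ (t : ℝ) i j x, pd i (pd j (fun y => u (y + t • e))) x =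
      pd i (pd j u) (x + t • e) := by
    intro t i j x
    have h : pd j (fun y => u (y + t • e)) = fun y => pd j u (y + t • e) := by
      funext y
      exact hpd t j y
    rw [h]
    exact pd_shift (pd j u) _ i x
  have hgc : ∀ (t : ℝ) x, gc (fun y => u (y + t • e)) x = gc u (x + t • e) := by
    intro t x
    unfold gc gr
    simp only [hpd, hpd2]
  have hgr : ∀ (t : ℝ) x, gr (fun y => u (y + t • e)) x = gr u (x + t • e) := by
    intro t x
    unfold gr
    simp only [hpd]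
  have hdd : ∀ (t : ℝ) x, 0 < dd e (fun y => u (y + t • e)) x := by
    intro t x
    unfold dd
    rw [fderiv_comp_add_right]
    exact he _
  have hlgr : ∀ x, Tendsto (fun t : ℝ => gr u (x + t • e)) atTop (𝓝 (gr U x)) := by
    intro x
    unfold gr
    exact tendsto_finsetSum _ fun j _ => (hp j x).pow 2
  have hlgc : ∀ x, Tendsto (fun t : ℝ => gc u (x + t • e)) atTop (𝓝 (gc U x)) := by
    intro x
    unfold gc
    refine Tendsto.sub ((hlgr x).mul ?_) ?_
    · exact tendsto_finsetSum _ fun i _ => tendsto_finsetSum _ fun j _ => (hpp i j x).pow 2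
    · exact tendsto_finsetSum _ fun i _ =>
        (tendsto_finsetSum _ fun j _ => (hpp i j x).mul (hp j x)).pow 2
  have hcs : HasCompactSupport fun x => ζ x ^ 2 := by
    refine hs.mono fun x hx => ?_
    rw [Function.mem_support] at hx ⊢
    intro h
    exact hx (by simp [h])
  have hcs2 : HasCompactSupport fun x => ∑ i, pd i ζ x ^ 2 := by
    refine (hs.fderiv (𝕜 := ℝ)).mono fun x hx => ?_
    rw [Function.mem_support] at hx ⊢
    intro h
    apply hx
    unfold pd
    rw [h]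
    simp
  have hc2 : Continuous fun x => ∑ i, pd i ζ x ^ 2 :=
    continuous_finsetSum _ fun i _ => (CREG_pd_cont hζ i).pow 2
  have hcsh : ∀ t : ℝ, Continuous fun x : E n => x + t • e := fun t => by fun_prop
  have hcgc : ∀ t : ℝ, Continuous fun x : E n => gc u (x + t • e) := fun t =>
    (gc_cont hu.1).comp (hcsh t)
  have hcgr0 : Continuous (gr u) := continuous_finsetSum _ fun j _ =>
    (CREG_pd_cont (hu.1.of_le (by norm_num)) j).pow 2
  have hcgr : ∀ t : ℝ, Continuous fun x : E n => gr u (x + t • e) := fun t =>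
    hcgr0.comp (hcsh t)
  have hL : Tendsto (fun t : ℝ => ∫ x, ζ x ^ 2 * gc u (x + t • e)) atTop
      (𝓝 (∫ x, ζ x ^ 2 * gc U x)) := by
    refine tendsto_integral_filter_of_dominated_convergence
      (fun x => ζ x ^ 2 * (n * ((n : ℝ) + 1) ^ 2 * (n * (n * K ^ 2)))) ?_ ?_ ?_ ?_
    · exact Eventually.of_forall fun t =>
        ((hζ.continuous.pow 2).mul (hcgc t)).aestronglyMeasurable
    · refine Eventually.of_forall fun t => Eventually.of_forall fun x => ?_
      rw [Real.norm_eq_abs, abs_of_nonneg (mul_nonneg (sq_nonneg _) (gc_nonneg _ _))]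
      exact mul_le_mul_of_nonneg_left
        (GEOU_gc_bd hu (fun i j y => hK2 u hu i j y) (x + t • e)) (sq_nonneg _)
    · exact ((hζ.continuous.pow 2).integrable_of_hasCompactSupport hcs).mul_const _
    · exact Eventually.of_forall fun x => (hlgc x).const_mul _
  have hR : Tendsto (fun t : ℝ => ∫ x, gr u (x + t • e) * ∑ i, pd i ζ x ^ 2) atTop
      (𝓝 (∫ x, gr U x * ∑ i, pd i ζ x ^ 2)) := by
    refine tendsto_integral_filter_of_dominated_convergence
      (fun x => n * ((n : ℝ) + 1) ^ 2 * ∑ i, pd i ζ x ^ 2) ?_ ?_ ?_ ?_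
    · exact Eventually.of_forall fun t => ((hcgr t).mul hc2).aestronglyMeasurable
    · refine Eventually.of_forall fun t => Eventually.of_forall fun x => ?_
      have h0 : 0 ≤ ∑ i, pd i ζ x ^ 2 := Finset.sum_nonneg fun i _ => sq_nonneg _
      rw [Real.norm_eq_abs, abs_of_nonneg (mul_nonneg (GEOU_gr_nonneg _ _) h0)]
      exact mul_le_mul_of_nonneg_right (GEOU_gr_le hu _) h0
    · exact (hc2.integrable_of_hasCompactSupport hcs2).const_mul _
    · exact Eventually.of_forall fun x => (hlgr x).mul_const _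
  refine le_of_tendsto_of_tendsto' hL (hR.const_mul _) fun t => ?_
  have h := GEOU_shift (hsol t) (hdd t) hζ hs
  simp only [hgc, hgr] at h
  exact h

end Vale.Agent.P134
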