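import Vale.Agent.P134.Defs2

/-! # P134, module LIMINV: trivial properties of the limit -/

open MeasureTheory Set Filter Topology

namespace Vale.Agent.P134

theorem lim_inv {n : ℕ} {u U : E n → ℝ} {e : E n} (hU : IsLim u e U) (x : E n) (s : ℝ) :
    U (x + s • e) = U x := by
  have h1 := hU (x + s • e)
  have h2 := (hU x).comp (tendsto_atTop_add_const_left atTop s (tendsto_id (α := ℝ)))
  refine tendsto_nhds_unique h1 (h2.congr fun t => ?_)
  simp only [Function.comp_apply, id]
  rw [add_smul, add_assoc]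

theorem lim_per {n : ℕ} {u U : E n → ℝ} {e v : E n} (hU : IsLim u e U)
    (hv : ∀ x, u (x + v) = u x) (x : E n) : U (x + v) = U x := by
  refine tendsto_nhds_unique (hU (x + v)) ((hU x).congr fun t => ?_)
  rw [← hv (x + t • e)]
  congr 1
  abel

theorem lim_comp {n : ℕ} {u U : E n → ℝ} {e : E n} (hU : IsLim u e U) (Q : E n ≃ₗᵢ[ℝ] E n) :
    IsLim (fun x => u (Q x)) (Q.symm e) (fun x => U (Q x)) := by
  intro x
  refine (hU (Q x)).congr fun t => ?_
  simp

end Vale.Agent.P134
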