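import Mathlib

/-! # P134, module MONO: `h'^2 = (1 - h^2)^2 / 2`

If `h t0 = 1` for some `t0`: `g = 1 - h ≥ 0` satisfies `|g'| = g (1 + h) / √2 ≤ √2 g` and
`g t0 = 0`, so `g = 0` by Gronwall (`h = 1` everywhere); same for `-1`.  Otherwise `h' ≠ 0`
everywhere, so by continuity `h'` has constant sign.
`mono_energy`: `(1 - h²)²/4 = h'²/2`, so the energy density is `h'² ≤ |h'|` and
`∫_a^b |h'| = |h b - h a| ≤ 2`. -/

open MeasureTheory Set Filter Topology

namespace Vale.Agent.P134

theorem MONO_zero {g : ℝ → ℝ} (hg : Differentiable ℝ g) (h0 : ∀ t, 0 ≤ g t)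
    (hd : ∀ t, |deriv g t| ≤ 2 * g t) {t0 : ℝ} (ht : g t0 = 0) (t : ℝ) : g t = 0 := by
  refine le_antisymm ?_ (h0 t)
  rcases le_total t0 t with h | h
  · have hdF : ∀ s, HasDerivAt (fun s => g s * Real.exp (-2 * s))
        (deriv g s * Real.exp (-2 * s) + g s * (Real.exp (-2 * s) * (-2))) s := by
      intro s
      have h1 : HasDerivAt (fun s : ℝ => -2 * s) (-2) s := by
        simpa using (hasDerivAt_id s).const_mul (-2 : ℝ)
      exact (hg s).hasDerivAt.mul h1.exp
    have hanti : Antitone (fun s => g s * Real.exp (-2 * s)) := by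
      refine antitone_of_deriv_nonpos (fun s => (hdF s).differentiableAt) fun s => ?_
      rw [(hdF s).deriv]
      have h2 := (abs_le.1 (hd s)).2
      have h3 : deriv g s * Real.exp (-2 * s) + g s * (Real.exp (-2 * s) * (-2)) =
          (deriv g s - 2 * g s) * Real.exp (-2 * s) := by ring
      rw [h3]
      exact mul_nonpos_of_nonpos_of_nonneg (by linarith) (Real.exp_pos _).le
    have h4 := hanti h
    simp only [ht, zero_mul] at h4
    by_contra hc
    rw [not_le] at hc
    exact absurd h4 (not_le.2 (mul_pos hc (Real.exp_pos _)))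
  · have hdF : ∀ s, HasDerivAt (fun s => g s * Real.exp (2 * s))
        (deriv g s * Real.exp (2 * s) + g s * (Real.exp (2 * s) * 2)) s := by
      intro s
      have h1 : HasDerivAt (fun s : ℝ => 2 * s) 2 s := by
        simpa using (hasDerivAt_id s).const_mul (2 : ℝ)
      exact (hg s).hasDerivAt.mul h1.exp
    have hmono : Monotone (fun s => g s * Real.exp (2 * s)) := by
      refine monotone_of_deriv_nonneg (fun s => (hdF s).differentiableAt) fun s => ?_
      rw [(hdF s).deriv]
      have h2 := (abs_le.1 (hd s)).1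
      have h3 : deriv g s * Real.exp (2 * s) + g s * (Real.exp (2 * s) * 2) =
          (deriv g s + 2 * g s) * Real.exp (2 * s) := by ring
      rw [h3]
      exact mul_nonneg (by linarith) (Real.exp_pos _).le
    have h4 := hmono h
    simp only [ht, zero_mul] at h4
    by_contra hc
    rw [not_le] at hc
    exact absurd h4 (not_le.2 (mul_pos hc (Real.exp_pos _)))

theorem mono {h : ℝ → ℝ} (hh : ContDiff ℝ 2 h) (hb : ∀ t, |h t| ≤ 1)
    (h2 : ∀ t, deriv h t ^ 2 = (1 - h t ^ 2) ^ 2 / 2) :
    (∀ t, h t = 1) ∨ (∀ t, h t = -1) ∨ (∀ t, 0 < deriv h t) ∨ ∀ t, deriv h t < 0 := by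
  have hdiff : Differentiable ℝ h := hh.differentiable (by norm_num)
  have hb1 : ∀ t, -1 ≤ h t ∧ h t ≤ 1 := fun t => abs_le.1 (hb t)
  by_cases c1 : ∃ t, h t = 1
  · left
    obtain ⟨t0, ht0⟩ := c1
    intro t
    have hz := MONO_zero (g := fun s => 1 - h s) ((differentiable_const _).sub hdiff)
      (fun s => by linarith [(hb1 s).2]) (fun s => ?_) (t0 := t0) (by simp [ht0]) t
    · linarith
    · have e : deriv (fun s => 1 - h s) s = -deriv h s := by
        rw [deriv_const_sub]
      rw [e, abs_neg]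
      refine abs_le_of_sq_le_sq ?_ (by linarith [(hb1 s).2])
      rw [h2]
      have k1 := hb1 s
      have k2 : (1 + h s) ^ 2 ≤ 4 := by nlinarith
      have k3 : (1 - h s ^ 2) ^ 2 = (1 - h s) ^ 2 * (1 + h s) ^ 2 := by ring
      rw [k3]
      nlinarith [sq_nonneg (1 - h s), mul_le_mul_of_nonneg_left k2 (sq_nonneg (1 - h s))]
  · by_cases c2 : ∃ t, h t = -1
    · right
      left
      obtain ⟨t0, ht0⟩ := c2
      intro t
      have hz := MONO_zero (g := fun s => 1 + h s) ((differentiable_const _).add hdiff)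
        (fun s => by linarith [(hb1 s).1]) (fun s => ?_) (t0 := t0) (by simp [ht0]) t
      · linarith
      · have e : deriv (fun s => 1 + h s) s = deriv h s := by
          rw [deriv_const_add]
        rw [e]
        refine abs_le_of_sq_le_sq ?_ (by linarith [(hb1 s).1])
        rw [h2]
        have k1 := hb1 s
        have k2 : (1 - h s) ^ 2 ≤ 4 := by nlinarith
        have k3 : (1 - h s ^ 2) ^ 2 = (1 + h s) ^ 2 * (1 - h s) ^ 2 := by ring
        rw [k3]
        nlinarith [sq_nonneg (1 + h s), mul_le_mul_of_nonneg_left k2 (sq_nonneg (1 + h s))]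
    · right
      right
      have hne : ∀ t, deriv h t ≠ 0 := by
        intro t h0
        have k1 := h2 t
        rw [h0] at k1
        have k2 : (1 - h t ^ 2) ^ 2 = 0 := by linarith
        have k3 : 1 - h t ^ 2 = 0 := by
          exact pow_eq_zero_iff (two_ne_zero) |>.1 k2
        have k4 : (h t - 1) * (h t + 1) = 0 := by nlinarith
        rcases mul_eq_zero.1 k4 with k5 | k5
        · exact c1 ⟨t, by linarith⟩
        · exact c2 ⟨t, by linarith⟩
      have hc : Continuous (deriv h) := hh.continuous_deriv (by norm_num)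
      by_cases hp : ∀ t, 0 < deriv h t
      · exact Or.inl hp
      · right
        rw [not_forall] at hp
        obtain ⟨a, ha⟩ := hp
        rw [not_lt] at ha
        intro t
        by_contra ht
        rw [not_lt] at ht
        obtain ⟨s, hs⟩ := mem_range_of_exists_le_of_exists_ge hc ⟨a, ha⟩ ⟨t, ht⟩
        exact hne s hs

theorem mono_energy {h : ℝ → ℝ} (hh : ContDiff ℝ 2 h) (hb : ∀ t, |h t| ≤ 1)
    (h2 : ∀ t, deriv h t ^ 2 = (1 - h t ^ 2) ^ 2 / 2) {a b : ℝ} (hab : a ≤ b) :
    ∫ t in a..b, (deriv h t ^ 2 / 2 + (1 - h t ^ 2) ^ 2 / 4) ≤ 2 := by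
  have hdiff : Differentiable ℝ h := hh.differentiable (by norm_num)
  have hc : Continuous (deriv h) := hh.continuous_deriv (by norm_num)
  have hb1 : ∀ t, -1 ≤ h t ∧ h t ≤ 1 := fun t => abs_le.1 (hb t)
  have e1 : (fun t => deriv h t ^ 2 / 2 + (1 - h t ^ 2) ^ 2 / 4) = fun t => deriv h t ^ 2 := by
    funext t
    have := h2 t
    linarith
  rw [e1]
  have hd1 : ∀ t, deriv h t ^ 2 ≤ 1 := by
    intro t
    rw [h2]
    have k1 : 0 ≤ 1 - h t ^ 2 := by nlinarith [hb1 t]
    have k2 : 1 - h t ^ 2 ≤ 1 := by nlinarith [sq_nonneg (h t)]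
    nlinarith
  have hd2 : ∀ t, |deriv h t| ≤ 1 := by
    intro t
    refine abs_le_of_sq_le_sq ?_ (by norm_num)
    rw [one_pow]
    exact hd1 t
  have hint : ∫ t in a..b, deriv h t = h b - h a :=
    intervalIntegral.integral_deriv_eq_sub (fun t _ => hdiff t) (hc.intervalIntegrable _ _)
  have hs : ∀ t, deriv h t ^ 2 ≤ |deriv h t| := by
    intro t
    rw [← sq_abs]
    nlinarith [hd2 t, abs_nonneg (deriv h t)]
  have key : ∀ σ : ℝ, |σ| ≤ 1 → (∀ t, |deriv h t| ≤ σ * deriv h t) →
      ∫ t in a..b, deriv h t ^ 2 ≤ 2 := by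
    intro σ hσ hk
    have h3 : ∫ t in a..b, deriv h t ^ 2 ≤ ∫ t in a..b, σ * deriv h t := by
      refine intervalIntegral.integral_mono_on hab ((hc.pow 2).intervalIntegrable _ _)
        ((continuous_const.mul hc).intervalIntegrable _ _) fun t _ => (hs t).trans (hk t)
    rw [intervalIntegral.integral_const_mul, hint] at h3
    refine h3.trans ?_
    have h4 : |σ * (h b - h a)| ≤ 1 * 2 := by
      rw [abs_mul]
      refine mul_le_mul hσ ?_ (abs_nonneg _) (by norm_num)
      rw [abs_le]
      constructor <;> linarith [hb1 a, hb1 b, (hb1 a).1, (hb1 a).2, (hb1 b).1, (hb1 b).2]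
    linarith [le_abs_self (σ * (h b - h a))]
  rcases mono hh hb h2 with c | c | c | c
  · refine key 0 (by simp) fun t => ?_
    have : h = fun _ => 1 := funext c
    rw [this]
    simp
  · refine key 0 (by simp) fun t => ?_
    have : h = fun _ => -1 := funext c
    rw [this]
    simp
  · refine key 1 (by simp) fun t => ?_
    rw [one_mul, abs_of_pos (c t)]
  · refine key (-1) (by simp) fun t => ?_
    rw [abs_of_neg (c t)]
    linarith

end Vale.Agent.P134
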