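import Vale.Agent.P134.Cut
import Vale.Agent.P134.Vol
import Vale.Agent.P134.Defs2
import Vale.Agent.P134.Ibp

/-! # P134, module ONED: a stable one-dimensional solution satisfies `h' ^ 2 = (1 - h ^ 2) ^ 2 / 2`

`ode`: if `U x = h ⟪f, x⟫` solves the equation then `h` is `C^2`, `h'' = h³ - h`
(`h t = U (t • f)`; `∑ i, pd i (pd i U) = (∑ (f i)²) h''`), `gr U x = h' ⟪f,x⟫ ^ 2`.
`oned`: `k = (1 - h²)²/4 - h'²/2` is constant.  If `k < 0` then `h'² ≥ -2k > 0`, so `|h'| ≥ c > 0`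
with constant sign, `h` unbounded: contradiction.  If `k > 0`: `g = 1 - U²` satisfies
`g² ≥ 4k`, so `g ≥ 2√k`, and (as `Δg = -2|∇U|² + 2U²g`) testing `hstab` with `ξ = g ζ`:
`∑ i (pd i (gζ))² = g² ∑ (pd i ζ)² + ∑ pd i g * pd i (g ζ²)`, integrate the last term by parts;
`0 ≤ ∫ g² |∇ζ|² + ∫ ζ² g (2 |∇U|² - g²)`, and `g² - 2|∇U|² = 4k`:
`4 k ∫ ζ² g ≤ ∫ g² |∇ζ|²`.  With the cutoff of `cut` for `r i = R`, `c = 0`:
`4 k * 2√k * (2R)^n ≤ n K²/R² * (4R)^n`; let `R → ∞`: contradiction.  So `k = 0`. -/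

open MeasureTheory Set Filter Topology
open scoped InnerProductSpace

namespace Vale.Agent.P134

theorem ODE_pd {n : ℕ} (f : E n) {k : ℝ → ℝ} (hk : Differentiable ℝ k) (c : ℝ) (i : Fin n)
    (x : E n) : pd i (fun y => c * k ⟪f, y⟫_ℝ) x = c * (f i * deriv k ⟪f, x⟫_ℝ) := by
  have h1 : HasFDerivAt (fun y : E n => ⟪f, y⟫_ℝ) (innerSL ℝ f) x := (innerSL ℝ f).hasFDerivAt
  have h2 : HasFDerivAt (fun y : E n => k ⟪f, y⟫_ℝ) (deriv k ⟪f, x⟫_ℝ • innerSL ℝ f) x :=
    (hk ⟪f, x⟫_ℝ).hasDerivAt.comp_hasFDerivAt x h1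
  have h3 : HasFDerivAt (fun y : E n => c * k ⟪f, y⟫_ℝ)
      (c • (deriv k ⟪f, x⟫_ℝ • innerSL ℝ f)) x := h2.const_mul c
  unfold pd
  rw [h3.fderiv]
  have h4 : (c • (deriv k ⟪f, x⟫_ℝ • innerSL ℝ f)) (EuclideanSpace.single i (1 : ℝ)) =
      c * (deriv k ⟪f, x⟫_ℝ * ⟪f, EuclideanSpace.single i (1 : ℝ)⟫_ℝ) := rfl
  have h5 : ⟪f, EuclideanSpace.single i (1 : ℝ)⟫_ℝ = f i := by
    rw [EuclideanSpace.inner_single_right]
    simp
  rw [h4, h5]
  ring

theorem ode {n : ℕ} {U : E n → ℝ} (hU : IsSol U) {f : E n} (hf : ‖f‖ = 1) {h : ℝ → ℝ}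
    (hh : ∀ x, U x = h ⟪f, x⟫_ℝ) :
    ContDiff ℝ 2 h ∧ (∀ t, deriv (deriv h) t = h t ^ 3 - h t) ∧ (∀ t, |h t| ≤ 1) ∧
      (∀ x, gr U x = deriv h ⟪f, x⟫_ℝ ^ 2) ∧ ∀ i x, pd i U x = f i * deriv h ⟪f, x⟫_ℝ := by
  obtain ⟨hU1, hU2, hU3⟩ := hU
  have hin : ∀ t : ℝ, ⟪f, t • f⟫_ℝ = t := by
    intro t
    rw [real_inner_smul_right, real_inner_self_eq_norm_sq, hf, one_pow, mul_one]
  have hh2 : ∀ t, h t = U (t • f) := by
    intro t
    rw [hh, hin]
  have hc : ContDiff ℝ 2 h := by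
    have e : h = fun t => U (t • f) := funext hh2
    rw [e]
    exact hU1.comp (contDiff_id.smul contDiff_const)
  have hd1 : Differentiable ℝ h := hc.differentiable (by norm_num)
  have hc1 : ContDiff ℝ 1 (deriv h) := by
    have h3 : ContDiff ℝ (1 + 1) h := by
      rw [one_add_one_eq_two]
      exact hc
    exact ((contDiff_succ_iff_deriv).1 h3).2.2
  have hd2 : Differentiable ℝ (deriv h) := hc1.differentiable (by norm_num)
  have hpd : ∀ i x, pd i U x = f i * deriv h ⟪f, x⟫_ℝ := by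
    intro i x
    have e : U = fun y => 1 * h ⟪f, y⟫_ℝ := by
      funext y
      rw [one_mul, hh]
    rw [e, ODE_pd f hd1, one_mul]
  have hpd2 : ∀ i x, pd i (pd i U) x = f i * (f i * deriv (deriv h) ⟪f, x⟫_ℝ) := by
    intro i x
    have e : pd i U = fun y => f i * deriv h ⟪f, y⟫_ℝ := funext (hpd i)
    rw [e, ODE_pd f hd2]
  have hsum : ∑ i, f i ^ 2 = 1 := by
    have h4 := EuclideanSpace.real_norm_sq_eq f
    rw [hf, one_pow] at h4
    exact h4.symm
  refine ⟨hc, ?_, ?_, ?_, hpd⟩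
  · intro t
    have h5 := hU2 (t • f)
    rw [← hh2, Finset.sum_congr rfl fun i _ => hpd2 i (t • f), hin] at h5
    rw [← h5]
    have h6 : ∑ i, f i * (f i * deriv (deriv h) t) = (∑ i, f i ^ 2) * deriv (deriv h) t := by
      rw [Finset.sum_mul]
      refine Finset.sum_congr rfl fun i _ => ?_
      ring
    rw [h6, hsum, one_mul]
  · intro t
    rw [hh2]
    exact hU3 _
  · intro x
    unfold gr
    rw [Finset.sum_congr rfl fun i _ => by rw [hpd i x, mul_pow], ← Finset.sum_mul, hsum, one_mul]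

private theorem ONED_fd {n : ℕ} {f : E n} {φ : ℝ → ℝ} (hφ : Differentiable ℝ φ) (e x : E n) :
    dd e (fun y => φ ⟪f, y⟫_ℝ) x = deriv φ ⟪f, x⟫_ℝ * ⟪f, e⟫_ℝ := by
  have h1 : HasFDerivAt (fun y : E n => ⟪f, y⟫_ℝ) (innerSL ℝ f) x := (innerSL ℝ f).hasFDerivAt
  have h2 := (hφ ⟪f, x⟫_ℝ).hasDerivAt.comp_hasFDerivAt x h1
  unfold dd
  rw [show (fun y : E n => φ ⟪f, y⟫_ℝ) = φ ∘ (fun y => ⟪f, y⟫_ℝ) from rfl, h2.fderiv]
  simp

private theorem ONED_sum {n : ℕ} (f : E n) : ∑ i, f i • EuclideanSpace.single i (1 : ℝ) = f := by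
  have := (EuclideanSpace.basisFun (Fin n) ℝ).sum_repr f
  simpa using this

private theorem ONED_dd {n : ℕ} (f : E n) (F : E n → ℝ) (x : E n) :
    dd f F x = ∑ i, f i * pd i F x := by
  unfold dd pd
  conv_lhs => rw [← ONED_sum f]
  rw [map_sum]
  simp only [map_smul, smul_eq_mul]

private theorem ONED_neg {h : ℝ → ℝ} (hd : Differentiable ℝ h) (hc : Continuous (deriv h))
    (hb : ∀ t, |h t| ≤ 1) {k : ℝ} (hk : ∀ t, (1 - h t ^ 2) ^ 2 / 4 - deriv h t ^ 2 / 2 = k)
    (hneg : k < 0) : False := by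
  set c : ℝ := √(-2 * k) with hcdef
  have hcpos : 0 < c := Real.sqrt_pos.2 (by linarith)
  have hge : ∀ t, c ≤ |deriv h t| := by
    intro t
    rw [← Real.sqrt_sq_eq_abs]
    refine Real.sqrt_le_sqrt ?_
    have := hk t
    nlinarith [sq_nonneg (1 - h t ^ 2)]
  have hne : ∀ t, deriv h t ≠ 0 := fun t h0 => by
    have := hge t
    rw [h0, abs_zero] at this
    linarith
  have h3 : c * (3 / c - 0) = 3 := by
    rw [sub_zero]
    field_simp
  have hpos3 : (0 : ℝ) ≤ 3 / c := by positivity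
  have hb1 := abs_le.1 (hb (3 / c))
  have hb0 := abs_le.1 (hb 0)
  by_cases hex : ∃ a, deriv h a ≤ 0
  · by_cases hex2 : ∃ b, 0 ≤ deriv h b
    · obtain ⟨t, ht⟩ := mem_range_of_exists_le_of_exists_ge hc hex hex2
      exact hne t ht
    · push Not at hex2
      have := image_sub_le_mul_sub_of_deriv_le (C := -c) hd (fun x => by
        have h1 := hge x
        rw [abs_of_neg (hex2 x)] at h1
        linarith) hpos3
      have h4 : -c * (3 / c - 0) = -3 := by rw [neg_mul, h3]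
      rw [h4] at this
      linarith [hb1.1, hb1.2, hb0.1, hb0.2]
  · push Not at hex
    have := mul_sub_le_image_sub_of_le_deriv (C := c) hd (fun x => by
      have h1 := hge x
      rwa [abs_of_pos (hex x)] at h1) hpos3
    rw [h3] at this
    linarith [hb1.1, hb1.2, hb0.1, hb0.2]

private theorem ONED_int {n : ℕ} {F : E n → ℝ} (hF : Continuous F) (hs : HasCompactSupport F) :
    Integrable F volume := hF.integrable_of_hasCompactSupport hs

private theorem ONED_pos {n : ℕ} (hn : 0 < n) {U : E n → ℝ} {f : E n} (hf : ‖f‖ = 1)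
    {h : ℝ → ℝ} (hh : ∀ x, U x = h ⟪f, x⟫_ℝ)
    (hstab : ∀ ξ : E n → ℝ, ContDiff ℝ 1 ξ → HasCompactSupport ξ →
      0 ≤ ∫ x, (∑ i, pd i ξ x ^ 2 + (3 * U x ^ 2 - 1) * ξ x ^ 2))
    (hc : ContDiff ℝ 2 h) (hc1 : ContDiff ℝ 1 (deriv h)) (hb : ∀ t, |h t| ≤ 1)
    (hd2 : ∀ t, HasDerivAt (deriv h) (h t ^ 3 - h t) t) {k : ℝ}
    (hk : ∀ t, (1 - h t ^ 2) ^ 2 / 4 - deriv h t ^ 2 / 2 = k) (hpos : 0 < k) : False := by
  have hd : ∀ t, HasDerivAt h (deriv h t) t := fun t =>
    (hc.differentiable (by norm_num) t).hasDerivAt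
  have hL : ContDiff ℝ 1 (fun x : E n => ⟪f, x⟫_ℝ) := (innerSL ℝ f).contDiff
  set q : ℝ → ℝ := fun t => 1 - h t ^ 2 with hq
  set q1 : ℝ → ℝ := fun t => -(2 * h t * deriv h t) with hq1
  have hqd : ∀ t, HasDerivAt q (q1 t) t := fun t => by
    have h1 := ((hd t).pow 2).const_sub 1
    refine h1.congr_deriv ?_
    simp only [hq1]
    push_cast
    ring
  have hq1d : ∀ t, HasDerivAt q1 (-(2 * (deriv h t ^ 2 + h t * (h t ^ 3 - h t)))) t := fun t => by
    have h1 := (((hd t).const_mul 2).mul (hd2 t)).neg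
    refine h1.congr_deriv ?_
    ring
  have hh1 : ContDiff ℝ 1 h := hc.of_le (by norm_num)
  have hqC : ContDiff ℝ 1 q := contDiff_const.sub (hh1.pow 2)
  have hq1C : ContDiff ℝ 1 q1 := ((contDiff_const.mul hh1).mul hc1).neg
  have hqnn : ∀ t, 0 ≤ q t := fun t => by
    have := abs_le.1 (hb t)
    simp only [hq]
    nlinarith
  have hqle : ∀ t, q t ≤ 1 := fun t => by
    simp only [hq]
    nlinarith [sq_nonneg (h t)]
  have hqge : ∀ t, 2 * √k ≤ q t := fun t => by
    refine abs_le_of_sq_le_sq' ?_ (hqnn t) |>.2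
    have h1 := Real.sq_sqrt hpos.le
    have h2 := hk t
    simp only [hq]
    nlinarith [sq_nonneg (deriv h t)]
  set G : E n → ℝ := fun x => q ⟪f, x⟫_ℝ with hG
  have hGC : ContDiff ℝ 1 G := hqC.comp hL
  obtain ⟨K, hK, hcut⟩ := cut
  -- main estimate for each `R`
  have main : ∀ R : ℝ, 0 < R →
      4 * k * (2 * √k * (2 * R) ^ n) ≤ n * (K / R) ^ 2 * (4 * R) ^ n := by
    intro R hR
    obtain ⟨ζ, hζC, hζs, hζ01, hζ1, hζ0, hζK, hζd0, -⟩ := hcut n 0 (fun _ => R) fun _ => hR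
    have hff : ⟪f, f⟫_ℝ = 1 := by rw [real_inner_self_eq_norm_sq, hf, one_pow]
    have hfsum : ∑ i, f i ^ 2 = 1 := by
      have := EuclideanSpace.norm_sq_eq f
      rw [hf] at this
      simpa using this.symm
    have hpdG : ∀ i x, pd i G x = f i * q1 ⟪f, x⟫_ℝ := fun i x => by
      have h1 := ONED_fd (f := f) (φ := q) (hqC.differentiable (by norm_num))
        (EuclideanSpace.single i 1) x
      have h2 : pd i G x = deriv q ⟪f, x⟫_ℝ * ⟪f, EuclideanSpace.single i (1 : ℝ)⟫_ℝ := h1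
      have h3 : ⟪f, EuclideanSpace.single i (1 : ℝ)⟫_ℝ = f i := by
        rw [EuclideanSpace.inner_single_right]
        simp
      rw [h2, (hqd _).deriv, h3, mul_comm]
    have hξC : ContDiff ℝ 1 (fun x => G x * ζ x) := hGC.mul hζC
    have hξs : HasCompactSupport (fun x => G x * ζ x) := hζs.mul_left
    have hst := hstab _ hξC hξs
    have hGd : ∀ x, DifferentiableAt ℝ G x := fun x => hGC.differentiable (by norm_num) x
    have hζd : ∀ x, DifferentiableAt ℝ ζ x := fun x => hζC.differentiable (by norm_num) x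
    have hpdξ : ∀ i x, pd i (fun x => G x * ζ x) x = G x * pd i ζ x + f i * q1 ⟪f, x⟫_ℝ * ζ x := by
      intro i x
      rw [← hpdG]
      unfold pd
      rw [fderiv_fun_mul (hGd x) (hζd x)]
      simp [mul_comm]
    -- the function for integration by parts
    set W : E n → ℝ := fun x => G x * ζ x ^ 2 with hW
    have hWC : ContDiff ℝ 1 W := hGC.mul (hζC.pow 2)
    have hWs : HasCompactSupport W := by
      have h1 : HasCompactSupport (fun x => G x * ζ x * ζ x) := hζs.mul_left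
      have h2 : W = fun x => G x * ζ x * ζ x := by
        funext x
        simp only [hW]
        ring
      rw [h2]
      exact h1
    have hddW : ∀ x, dd f W x = q1 ⟪f, x⟫_ℝ * ζ x ^ 2 + 2 * G x * ζ x * dd f ζ x := by
      intro x
      have h1 : dd f G x = q1 ⟪f, x⟫_ℝ := by
        have h1 := ONED_fd (f := f) (φ := q) (hqC.differentiable (by norm_num)) f x
        rw [hff, mul_one, (hqd _).deriv] at h1
        exact h1
      rw [← h1]
      unfold dd
      have h2 : fderiv ℝ W x = G x • fderiv ℝ (fun y => ζ y ^ 2) x + ζ x ^ 2 • fderiv ℝ G x :=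
        fderiv_fun_mul (hGd x) ((hζd x).pow 2)
      have h3 : fderiv ℝ (fun y => ζ y ^ 2) x = (2 * ζ x) • fderiv ℝ ζ x := by
        have := ((hζd x).hasFDerivAt.pow 2).fderiv
        simpa using this
      rw [h2, h3]
      simp
      ring
    have hibp := ibp (hq1C.comp hL) hWC hWs f
    have hdq1 : ∀ x, dd f (q1 ∘ fun x : E n => ⟪f, x⟫_ℝ) x =
        -(2 * (deriv h ⟪f, x⟫_ℝ ^ 2 + h ⟪f, x⟫_ℝ * (h ⟪f, x⟫_ℝ ^ 3 - h ⟪f, x⟫_ℝ))) := by
      intro x
      have h1 := ONED_fd (f := f) (φ := q1) (hq1C.differentiable (by norm_num)) f x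
      rw [hff, mul_one, (hq1d _).deriv] at h1
      exact h1
    simp only [hdq1] at hibp
    -- continuity facts
    have hcont_pd : ∀ i, Continuous (fun x => pd i ζ x) := fun i =>
      (hζC.continuous_fderiv one_ne_zero).clm_apply continuous_const
    have hcont_dd : Continuous (fun x => dd f W x) :=
      (hWC.continuous_fderiv one_ne_zero).clm_apply continuous_const
    have hcs_pd : ∀ i, HasCompactSupport (fun x => pd i ζ x) := fun i =>
      hζs.fderiv_apply (𝕜 := ℝ) (EuclideanSpace.single i 1)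
    have hcs_dd : HasCompactSupport (fun x => dd f W x) := hWs.fderiv_apply (𝕜 := ℝ) f
    have hLc : Continuous (fun x : E n => ⟪f, x⟫_ℝ) := hL.continuous
    have hhc : Continuous (fun x : E n => h ⟪f, x⟫_ℝ) := hh1.continuous.comp hLc
    have hh'c : Continuous (fun x : E n => deriv h ⟪f, x⟫_ℝ) := hc1.continuous.comp hLc
    have hq1c : Continuous (fun x : E n => q1 ⟪f, x⟫_ℝ) := hq1C.continuous.comp hLc
    set A : E n → ℝ := fun x => G x ^ 2 * ∑ i, pd i ζ x ^ 2 with hA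
    set B : E n → ℝ := fun x => q1 ⟪f, x⟫_ℝ * dd f W x with hB
    set C : E n → ℝ := fun x => (3 * h ⟪f, x⟫_ℝ ^ 2 - 1) * (G x * W x) with hC
    have hAc : Continuous A :=
      (hGC.continuous.pow 2).mul (continuous_finsetSum _ fun i _ => (hcont_pd i).pow 2)
    have hζz : ∀ x, x ∉ box (0 : E n) (fun _ => 2 * R) → A x = 0 := fun x hx => by
      simp only [hA]
      rw [Finset.sum_eq_zero fun i _ => by rw [hζd0 i x hx]; norm_num, mul_zero]
    have hAs : HasCompactSupport A := HasCompactSupport.intro (cut_box_compact _ _) hζz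
    have hAi := ONED_int hAc hAs
    have hBi : Integrable B volume :=
      ONED_int (hq1c.mul hcont_dd) hcs_dd.mul_left
    have hCi : Integrable C volume :=
      ONED_int (((continuous_const.mul (hhc.pow 2)).sub continuous_const).mul
        (hGC.continuous.mul hWC.continuous)) (hWs.mul_left.mul_left)
    have hDi : Integrable (fun x : E n =>
        -(2 * (deriv h ⟪f, x⟫_ℝ ^ 2 + h ⟪f, x⟫_ℝ * (h ⟪f, x⟫_ℝ ^ 3 - h ⟪f, x⟫_ℝ))) * W x) volume :=
      ONED_int (((continuous_const.mul ((hh'c.pow 2).add (hhc.mul ((hhc.pow 3).sub hhc)))).neg).mul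
        hWC.continuous) hWs.mul_left
    have hWi : Integrable W volume := ONED_int hWC.continuous hWs
    have hpt : ∀ x, (∑ i, pd i (fun x => G x * ζ x) x ^ 2 +
        (3 * U x ^ 2 - 1) * (G x * ζ x) ^ 2) = A x + B x + C x := by
      intro x
      have h1 : ∑ i, pd i (fun x => G x * ζ x) x ^ 2 =
          G x ^ 2 * ∑ i, pd i ζ x ^ 2 + 2 * G x * ζ x * q1 ⟪f, x⟫_ℝ * ∑ i, f i * pd i ζ x +
            q1 ⟪f, x⟫_ℝ ^ 2 * ζ x ^ 2 * ∑ i, f i ^ 2 := by
        rw [Finset.mul_sum, Finset.mul_sum, Finset.mul_sum, ← Finset.sum_add_distrib,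
          ← Finset.sum_add_distrib]
        refine Finset.sum_congr rfl fun i _ => ?_
        rw [hpdξ]
        ring
      rw [h1, hfsum, ← ONED_dd, hh]
      simp only [hA, hB, hC]
      rw [hddW]
      simp only [hW]
      ring
    have e1 : ∫ x, (∑ i, pd i (fun x => G x * ζ x) x ^ 2 +
        (3 * U x ^ 2 - 1) * (G x * ζ x) ^ 2) = (∫ x, A x) + (∫ x, B x) + (∫ x, C x) := by
      rw [integral_congr_ae (Filter.Eventually.of_forall hpt)]
      rw [← integral_add hAi hBi]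
      exact integral_add (hAi.add hBi) hCi
    rw [e1] at hst
    have e2 : ∫ x, B x = - ∫ x, -(2 * (deriv h ⟪f, x⟫_ℝ ^ 2 +
        h ⟪f, x⟫_ℝ * (h ⟪f, x⟫_ℝ ^ 3 - h ⟪f, x⟫_ℝ))) * W x := by
      rw [hibp, neg_neg]
      rfl
    have e3 : (∫ x, B x) + (∫ x, C x) = - (4 * k) * (∫ x, W x) := by
      rw [e2, ← integral_neg]
      refine (integral_add hDi.neg hCi).symm.trans ?_
      rw [← integral_const_mul]
      refine integral_congr_ae (Filter.Eventually.of_forall fun x => ?_)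
      have h2 := hk ⟪f, x⟫_ℝ
      simp only [hC, hW, hG, hq, Pi.neg_apply]
      have h3 : deriv h ⟪f, x⟫_ℝ ^ 2 = (1 - h ⟪f, x⟫_ℝ ^ 2) ^ 2 / 2 - 2 * k := by linarith
      rw [h3]
      ring
    have hAle : ∫ x, A x ≤ n * (K / R) ^ 2 * (4 * R) ^ n := by
      have h1 : ∀ x, A x ≤ (box (0 : E n) (fun _ => 2 * R)).indicator
          (fun _ => (n : ℝ) * (K / R) ^ 2) x := by
        intro x
        by_cases hx : x ∈ box (0 : E n) (fun _ => 2 * R)
        · rw [indicator_of_mem hx]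
          have h2 : G x ^ 2 ≤ 1 := by
            have := hqnn ⟪f, x⟫_ℝ
            have := hqle ⟪f, x⟫_ℝ
            simp only [hG]
            nlinarith
          have h3 : ∑ i, pd i ζ x ^ 2 ≤ n * (K / R) ^ 2 := by
            calc ∑ i, pd i ζ x ^ 2 ≤ ∑ _i : Fin n, (K / R) ^ 2 :=
                  Finset.sum_le_sum fun i _ => by
                    rw [← sq_abs]
                    exact pow_le_pow_left₀ (abs_nonneg _) (hζK i x) 2
              _ = n * (K / R) ^ 2 := by simp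
          have h4 : 0 ≤ ∑ i, pd i ζ x ^ 2 := Finset.sum_nonneg fun i _ => sq_nonneg _
          calc A x ≤ 1 * ∑ i, pd i ζ x ^ 2 := mul_le_mul_of_nonneg_right h2 h4
            _ ≤ _ := by rw [one_mul]; exact h3
        · rw [indicator_of_notMem hx, hζz x hx]
      have hm : MeasurableSet (box (0 : E n) (fun _ => 2 * R)) :=
        (cut_box_compact _ _).isClosed.measurableSet
      have hfin : volume (box (0 : E n) (fun _ => 2 * R)) ≠ ⊤ :=
        (cut_box_compact _ _).measure_lt_top.ne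
      have h5 := integral_mono hAi ((integrable_indicator_iff hm).2
        (integrableOn_const hfin)) h1
      refine h5.trans (le_of_eq ?_)
      rw [integral_indicator_const _ hm, smul_eq_mul, mul_comm]
      congr 1
      have h6 : volume.real (box (0 : E n) (fun _ => 2 * R)) = _ :=
        box_vol (0 : E n) (r := fun _ => 2 * R) (fun _ => by positivity)
      rw [h6]
      simp
      ring
    have hWge : 2 * √k * (2 * R) ^ n ≤ ∫ x, W x := by
      have h1 : ∀ x, (box (0 : E n) (fun _ => R)).indicator (fun _ => 2 * √k) x ≤ W x := by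
        intro x
        by_cases hx : x ∈ box (0 : E n) (fun _ => R)
        · rw [indicator_of_mem hx]
          simp only [hW, hζ1 x hx]
          have := hqge ⟪f, x⟫_ℝ
          simpa using this
        · rw [indicator_of_notMem hx]
          exact mul_nonneg (hqnn _) (sq_nonneg _)
      have hm : MeasurableSet (box (0 : E n) (fun _ => R)) :=
        (cut_box_compact _ _).isClosed.measurableSet
      have hfin : volume (box (0 : E n) (fun _ => R)) ≠ ⊤ :=
        (cut_box_compact _ _).measure_lt_top.ne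
      have h5 := integral_mono ((integrable_indicator_iff hm).2
        (integrableOn_const hfin)) hWi h1
      refine (le_of_eq ?_).trans h5
      rw [integral_indicator_const _ hm, smul_eq_mul, mul_comm]
      congr 1
      have h6 : volume.real (box (0 : E n) (fun _ => R)) = _ :=
        box_vol (0 : E n) (r := fun _ => R) (fun _ => hR.le)
      rw [h6]
      simp
    have h7 : 0 ≤ (∫ x, A x) + -(4 * k) * (∫ x, W x) := by
      rw [← e3]
      linarith
    have h8 : 4 * k * (2 * √k * (2 * R) ^ n) ≤ 4 * k * (∫ x, W x) :=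
      mul_le_mul_of_nonneg_left hWge (by linarith)
    linarith
  -- conclusion: let `R` be large
  have hsk : 0 < √k := Real.sqrt_pos.2 hpos
  set M : ℝ := n * K ^ 2 * 2 ^ n / (8 * k * √k) with hM
  have hM0 : 0 ≤ M := by positivity
  have hR1 : (0 : ℝ) < M + 1 := by linarith
  have h1 := main (M + 1) hR1
  have h2 : (4 * (M + 1)) ^ n = 2 ^ n * (2 * (M + 1)) ^ n := by
    rw [← mul_pow]
    ring
  rw [h2, div_pow] at h1
  have hp : 0 < (2 * (M + 1)) ^ n := by positivity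
  have h3 : 4 * k * (2 * √k) ≤ n * (K ^ 2 / (M + 1) ^ 2) * 2 ^ n := by
    by_contra hcon
    push Not at hcon
    have := mul_lt_mul_of_pos_right hcon hp
    nlinarith
  have h4 : 8 * k * √k * (M + 1) ^ 2 ≤ n * K ^ 2 * 2 ^ n := by
    have h5 : 0 < (M + 1) ^ 2 := by positivity
    have h6 := mul_le_mul_of_nonneg_right h3 h5.le
    have h7 : n * (K ^ 2 / (M + 1) ^ 2) * 2 ^ n * (M + 1) ^ 2 = n * K ^ 2 * 2 ^ n := by
      field_simp
    rw [h7] at h6
    linarith
  have h8 : n * K ^ 2 * 2 ^ n = M * (8 * k * √k) := by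
    rw [hM]
    field_simp
  rw [h8] at h4
  have h9 : 0 < 8 * k * √k := by positivity
  have h10 : (M + 1) ^ 2 ≤ M := by
    by_contra hcon
    push Not at hcon
    have := mul_lt_mul_of_pos_left hcon h9
    nlinarith
  nlinarith

theorem oned {n : ℕ} (hn : 0 < n) {U : E n → ℝ} (hU : IsSol U) {f : E n} (hf : ‖f‖ = 1)
    {h : ℝ → ℝ} (hh : ∀ x, U x = h ⟪f, x⟫_ℝ)
    (hstab : ∀ ξ : E n → ℝ, ContDiff ℝ 1 ξ → HasCompactSupport ξ →
      0 ≤ ∫ x, (∑ i, pd i ξ x ^ 2 + (3 * U x ^ 2 - 1) * ξ x ^ 2)) :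
    ∀ t, deriv h t ^ 2 = (1 - h t ^ 2) ^ 2 / 2 := by
  obtain ⟨hc, hode, hb, -, -⟩ := ode hU hf hh
  have hd : ∀ t, HasDerivAt h (deriv h t) t := fun t =>
    (hc.differentiable (by norm_num) t).hasDerivAt
  have hc1 : ContDiff ℝ 1 (deriv h) := by
    have h1 : ContDiff ℝ (1 + 1) h := by
      rw [one_add_one_eq_two]
      exact hc
    exact (contDiff_succ_iff_deriv.1 h1).2.2
  have hd2 : ∀ t, HasDerivAt (deriv h) (h t ^ 3 - h t) t := fun t => by
    rw [← hode t]
    exact (hc1.differentiable (by norm_num) t).hasDerivAt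
  have hconst : ∃ k : ℝ, ∀ t, (1 - h t ^ 2) ^ 2 / 4 - deriv h t ^ 2 / 2 = k := by
    refine ⟨(1 - h 0 ^ 2) ^ 2 / 4 - deriv h 0 ^ 2 / 2, fun t => ?_⟩
    have hE : ∀ t, HasDerivAt (fun t => (1 - h t ^ 2) ^ 2 / 4 - deriv h t ^ 2 / 2) 0 t := by
      intro t
      have h1 := ((((hd t).pow 2).const_sub 1).pow 2).div_const 4
      have h2 := ((hd2 t).pow 2).div_const 2
      refine (h1.sub h2).congr_deriv ?_
      push_cast
      simp only [Pi.pow_apply, pow_one]
      ring
    exact is_const_of_deriv_eq_zero (fun t => (hE t).differentiableAt)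
      (fun t => (hE t).deriv) t 0
  obtain ⟨k, hk⟩ := hconst
  have hk0 : k = 0 := by
    rcases lt_trichotomy k 0 with hneg | h0 | hpos
    · exact (ONED_neg (fun t => (hd t).differentiableAt) hc1.continuous hb hk hneg).elim
    · exact h0
    · exact (ONED_pos hn hf hh hstab hc hc1 hb hd2 hk hpos).elim
  intro t
  have := hk t
  rw [hk0] at this
  linarith

end Vale.Agent.P134
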