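import Vale.Agent.P134.Weak

/-! # P134, module LIN: proofs -/

open MeasureTheory Set Filter Topology

namespace Vale.Agent.P134.LinPf

theorem fderiv_apply_fderiv {n : ℕ} {u : E n → ℝ} (hu : ContDiff ℝ 2 u) (v w x : E n) :
    fderiv ℝ (fun y => fderiv ℝ u y v) x w = fderiv ℝ (fderiv ℝ u) x w v := by
  have h1 : ContDiff ℝ 1 (fderiv ℝ u) := hu.fderiv_right (by norm_num)
  have h2 : DifferentiableAt ℝ (fderiv ℝ u) x := (h1.differentiable (by norm_num)) x
  have h3 : HasFDerivAt (fun y => fderiv ℝ u y v)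
      ((ContinuousLinearMap.apply ℝ ℝ v).comp (fderiv ℝ (fderiv ℝ u) x)) x :=
    (ContinuousLinearMap.apply ℝ ℝ v).hasFDerivAt.comp x h2.hasFDerivAt
  rw [h3.fderiv]
  rfl

theorem dd_pd {n : ℕ} {u : E n → ℝ} (hu : ContDiff ℝ 2 u) (e : E n) (i : Fin n) (x : E n) :
    dd e (pd i u) x = pd i (dd e u) x := by
  unfold dd pd
  rw [fderiv_apply_fderiv hu, fderiv_apply_fderiv hu]
  have hs : IsSymmSndFDerivAt ℝ u x := (hu.contDiffAt).isSymmSndFDerivAt (by simp)
  exact hs e _

theorem cont_dd {n : ℕ} {g : E n → ℝ} (hg : ContDiff ℝ 1 g) (e : E n) :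
    Continuous (dd e g) :=
  (hg.continuous_fderiv (by norm_num)).clm_apply continuous_const

theorem hasDeriv_line {n : ℕ} {g : E n → ℝ} (hg : ContDiff ℝ 1 g) (e x : E n) (h : ℝ) :
    HasDerivAt (fun h : ℝ => g (x + h • e)) (dd e g (x + h • e)) h := by
  have h1 : HasFDerivAt g (fderiv ℝ g (x + h • e)) (x + h • e) :=
    ((hg.differentiable (by norm_num)) _).hasFDerivAt
  have h2 : HasDerivAt (fun h : ℝ => x + h • e) e h := by
    have := ((hasDerivAt_id h).smul_const e).const_add x
    simpa using this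
  exact h1.comp_hasDerivAt h h2

/-- derivative of a translated integral -/
theorem di {n : ℕ} {g ψ : E n → ℝ} (hg : ContDiff ℝ 1 g) (hψ : Continuous ψ)
    (hs : HasCompactSupport ψ) (e : E n) :
    HasDerivAt (fun h : ℝ => ∫ x, g (x + h • e) * ψ x) (∫ x, dd e g x * ψ x) 0 := by
  have hK : IsCompact (Metric.closedBall (0 : ℝ) 1 ×ˢ tsupport ψ) :=
    (isCompact_closedBall 0 1).prod hs
  have hc : Continuous (fun p : ℝ × E n => dd e g (p.2 + p.1 • e)) :=
    (cont_dd hg e).comp (continuous_snd.add (continuous_fst.smul continuous_const))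
  obtain ⟨M, hM⟩ := hK.exists_bound_of_continuousOn hc.continuousOn
  have hint : ∀ h : ℝ, Continuous (fun x : E n => g (x + h • e) * ψ x) := fun h =>
    (hg.continuous.comp (continuous_id.add continuous_const)).mul hψ
  have key := hasDerivAt_integral_of_dominated_loc_of_deriv_le (μ := (volume : Measure (E n)))
    (F := fun (h : ℝ) (x : E n) => g (x + h • e) * ψ x)
    (F' := fun (h : ℝ) (x : E n) => dd e g (x + h • e) * ψ x)
    (bound := fun x => M * ‖ψ x‖) (s := Metric.closedBall (0 : ℝ) 1) (x₀ := 0)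
    (Metric.closedBall_mem_nhds _ one_pos)
    (Eventually.of_forall fun h => (hint h).aestronglyMeasurable)
    ((hint 0).integrable_of_hasCompactSupport hs.mul_left)
    (((cont_dd hg e).comp (continuous_id.add continuous_const)).mul hψ).aestronglyMeasurable
    (Eventually.of_forall fun x h hh => by
      rw [norm_mul]
      by_cases hx : x ∈ tsupport ψ
      · exact mul_le_mul_of_nonneg_right (hM (h, x) ⟨hh, hx⟩) (norm_nonneg _)
      · rw [image_eq_zero_of_notMem_tsupport hx]
        simp)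
    ((continuous_const.mul hψ.norm).integrable_of_hasCompactSupport hs.norm.mul_left)
    (Eventually.of_forall fun x h _ => (hasDeriv_line hg e x h).mul_const (ψ x))
  simpa using key.2

theorem pd_trans {n : ℕ} (u : E n → ℝ) (a : E n) (i : Fin n) (x : E n) :
    pd i (fun x => u (x + a)) x = pd i u (x + a) := by
  unfold pd
  rw [fderiv_comp_add_right]

theorem sol_trans {n : ℕ} {u : E n → ℝ} (hu : IsSol u) (a : E n) :
    IsSol (fun x => u (x + a)) := by
  refine ⟨hu.1.comp (contDiff_id.add contDiff_const), fun x => ?_, fun x => hu.2.2 _⟩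
  have h : ∀ i, pd i (fun x => u (x + a)) = fun x => pd i u (x + a) := fun i =>
    funext fun x => pd_trans u a i x
  simp only [h]
  rw [← hu.2.1 (x + a)]
  exact Finset.sum_congr rfl fun i _ => pd_trans (pd i u) a i x

theorem contDiff_pd {n : ℕ} {u : E n → ℝ} (hu : ContDiff ℝ 2 u) (i : Fin n) :
    ContDiff ℝ 1 (pd i u) :=
  (hu.fderiv_right (by norm_num)).clm_apply contDiff_const

theorem dd_cub {n : ℕ} {u : E n → ℝ} (hu : ContDiff ℝ 2 u) (e x : E n) :
    dd e (fun x => u x ^ 3 - u x) x = (3 * u x ^ 2 - 1) * dd e u x := by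
  have h1 : HasFDerivAt u (fderiv ℝ u x) x := ((hu.differentiable (by norm_num)) x).hasFDerivAt
  have h2 : HasFDerivAt (fun x => u x ^ 3 - u x) ((3 * u x ^ 2) • fderiv ℝ u x - fderiv ℝ u x) x := by
    have h3 : HasFDerivAt (fun x => u x ^ 3) _ x := h1.pow 3
    have := h3.fun_sub h1
    simpa using this
  unfold dd
  rw [h2.fderiv]
  simp only [_root_.sub_apply, _root_.smul_apply, smul_eq_mul]
  ring

theorem lin {n : ℕ} {u φ : E n → ℝ} (hu : IsSol u) (e : E n) (hφ : ContDiff ℝ 1 φ)
    (hs : HasCompactSupport φ) :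
    ∫ x, ∑ i, pd i (dd e u) x * pd i φ x = - ∫ x, (3 * u x ^ 2 - 1) * dd e u x * φ x := by
  have hpc : ∀ i, Continuous (pd i φ) := fun i => cont_dd hφ _
  have hps : ∀ i, HasCompactSupport (pd i φ) := fun i => hs.fderiv_apply ℝ _
  have hw : ∀ h : ℝ, ∑ i, ∫ x, pd i u (x + h • e) * pd i φ x =
      - ∫ x, (u (x + h • e) ^ 3 - u (x + h • e)) * φ x := by
    intro h
    have h1 := weak (sol_trans hu (h • e)) hφ hs
    rw [← h1, ← integral_finsetSum]
    · simp only [pd_trans]
    · intro i _
      exact (((contDiff_pd hu.1 i).continuous.comp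
        (continuous_id.add continuous_const)).mul (hpc i)).integrable_of_hasCompactSupport
          (hps i).mul_left
  have hL : HasDerivAt (fun h : ℝ => ∑ i, ∫ x, pd i u (x + h • e) * pd i φ x)
      (∑ i, ∫ x, dd e (pd i u) x * pd i φ x) 0 := by
    have := HasDerivAt.fun_sum (u := Finset.univ) (fun (i : Fin n) _ =>
      di (contDiff_pd hu.1 i) (hpc i) (hps i) e)
    exact this
  have hR : HasDerivAt (fun h : ℝ => - ∫ x, (u (x + h • e) ^ 3 - u (x + h • e)) * φ x)
      (- ∫ x, dd e (fun x => u x ^ 3 - u x) x * φ x) 0 := by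
    have hc : ContDiff ℝ 1 (fun x => u x ^ 3 - u x) :=
      ((hu.1.of_le (by norm_num)).pow 3).sub (hu.1.of_le (by norm_num))
    exact (di hc hφ.continuous hs e).neg
  have hE : (fun h : ℝ => ∑ i, ∫ x, pd i u (x + h • e) * pd i φ x) =
      fun h : ℝ => - ∫ x, (u (x + h • e) ^ 3 - u (x + h • e)) * φ x := funext hw
  rw [hE] at hL
  have h := hL.unique hR
  simp only [dd_cub hu.1] at h
  rw [← h, integral_finsetSum]
  · simp only [dd_pd hu.1]
  · intro i _
    have hc : Continuous (pd i (dd e u)) := by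
      have : pd i (dd e u) = dd e (pd i u) := funext fun x => (dd_pd hu.1 e i x).symm
      rw [this]
      exact cont_dd (contDiff_pd hu.1 i) e
    exact (hc.mul (hpc i)).integrable_of_hasCompactSupport (hps i).mul_left

end Vale.Agent.P134.LinPf
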