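import Vale.Agent.P134.Weak
import Vale.Agent.P134.LinPf

/-! # P134, module LIN: the linearized equation in weak form

`u (· + h e)` is again a solution (`IsSol`), so by `weak`, for every real `h`,
`∫ ∑ i, pd i u (x + h e) * pd i φ x = - ∫ (u^3 - u)(x + h e) * φ x`.  Differentiate both sides with
respect to `h` at `h = 0` (`hasDerivAt_integral_of_dominated_loc_of_deriv_le`; everything is
continuous and the support of `φ` is compact, so on `|h| ≤ 1` the derivative is bounded by a
constant times the indicator of `tsupport φ`).  The derivative of `pd i u (x + h e)` at `h = 0` is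
`dd e (pd i u) x`, which is `pd i (dd e u) x` by symmetry of the second derivative
(`ContDiffAt.isSymmSndFDerivAt`). -/

open MeasureTheory Set Filter Topology

namespace Vale.Agent.P134

/-- symmetry of second derivatives -/
theorem dd_pd {n : ℕ} {u : E n → ℝ} (hu : ContDiff ℝ 2 u) (e : E n) (i : Fin n) (x : E n) :
    dd e (pd i u) x = pd i (dd e u) x := by
  exact LinPf.dd_pd hu e i x

theorem lin {n : ℕ} {u φ : E n → ℝ} (hu : IsSol u) (e : E n) (hφ : ContDiff ℝ 1 φ)
    (hs : HasCompactSupport φ) :
    ∫ x, ∑ i, pd i (dd e u) x * pd i φ x = - ∫ x, (3 * u x ^ 2 - 1) * dd e u x * φ x := by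
  exact LinPf.lin hu e hφ hs

end Vale.Agent.P134
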