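import Vale.Agent.P134.Defs2
import Vale.Agent.P134.Lin
import Vale.Agent.P134.CurvAlg

/-! # P134, module RIG: `gc = 0` implies one-dimensional, also with critical points

Notation `y(x) = ∇U(x)`, `H = D²U` (symmetric, bounded by `K`).  `gc U = 0` and Cauchy-Schwarz in
each row give, where `y ≠ 0`, `H i j = l i * y j`; by symmetry `l i = μ y i`, `H = μ y yᵀ`,
`|μ| |y|² ≤ C K`.
Let `y(x0) ≠ 0`, `a ⟂ y(x0)`; put `Y(t) = y(x0 + t a)`, so `Y' = H a = μ (Y·a) Y`.  The set
`{t | Y(t) = Y(0)}` is closed; it is open because near a point `t1` of it `|Y| ≥ |Y(0)|/2` and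
`|(Y·a)'| ≤ C |Y·a|` with `Y(t1)·a = 0`, so `Y·a = 0` (Gronwall) and `Y' = 0` nearby.  Hence `∇U` is
constant on the hyperplane through `x0` orthogonal to `y(x0)`.  If `y(x1) ≠ 0` is not parallel to
`y(x0)` the two hyperplanes intersect, contradiction.  So all `∇U(x)` are multiples of one unit
vector `f` (any `f` if `∇U = 0`), and `U x = h ⟪f, x⟫` with `h t = U (t • f)`. -/

open MeasureTheory Set Filter Topology
open scoped InnerProductSpace

namespace Vale.Agent.P134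

theorem RIG1_symm {n : ℕ} {U : E n → ℝ} (hU : ContDiff ℝ 2 U) (i j : Fin n) (x : E n) :
    pd i (pd j U) x = pd j (pd i U) x := by
  have h := dd_pd hU (EuclideanSpace.single i (1 : ℝ)) j x
  exact h

theorem RIG1_c1 {n : ℕ} {U : E n → ℝ} (hU : ContDiff ℝ 2 U) (j : Fin n) :
    ContDiff ℝ 1 (pd j U) := by
  unfold pd
  exact (hU.fderiv_right (m := 1) (by norm_num)).clm_apply contDiff_const

/-- algebra: `|v|² H i j = B i * v j` -/
theorem RIG1_alg {n : ℕ} (H : Fin n → Fin n → ℝ) (v : Fin n → ℝ)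
    (h : (∑ j, v j ^ 2) * ∑ i, ∑ j, H i j ^ 2 - ∑ i, (∑ j, H i j * v j) ^ 2 = 0) (i j : Fin n) :
    (∑ k, v k ^ 2) * H i j = (∑ k, H i k * v k) * v j := by
  obtain ⟨G, hG⟩ : ∃ G, G = ∑ j, v j ^ 2 := ⟨_, rfl⟩
  have hG0 : 0 ≤ G := by rw [hG]; exact Finset.sum_nonneg fun j _ => sq_nonneg _
  rw [← hG] at h ⊢
  -- Lagrange identity for each row
  have hrow : ∀ i, ∑ j, (G * H i j - (∑ k, H i k * v k) * v j) ^ 2 =
      G * (G * ∑ j, H i j ^ 2 - (∑ k, H i k * v k) ^ 2) := by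
    intro i
    obtain ⟨B, hB⟩ : ∃ B, B = ∑ k, H i k * v k := ⟨_, rfl⟩
    rw [← hB]
    have e : ∀ j, (G * H i j - B * v j) ^ 2 =
        G ^ 2 * H i j ^ 2 - 2 * G * B * (H i j * v j) + B ^ 2 * v j ^ 2 := fun j => by ring
    simp only [e, Finset.sum_add_distrib, Finset.sum_sub_distrib, ← Finset.mul_sum]
    rw [← hB, ← hG]
    ring
  have hnn : ∀ i, 0 ≤ G * ∑ j, H i j ^ 2 - (∑ k, H i k * v k) ^ 2 := by
    intro i
    have := Finset.sum_mul_sq_le_sq_mul_sq Finset.univ (fun j => H i j) v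
    rw [← hG] at this
    linarith
  have hsum : ∑ i, (G * ∑ j, H i j ^ 2 - (∑ k, H i k * v k) ^ 2) = 0 := by
    rw [Finset.sum_sub_distrib, ← Finset.mul_sum]
    exact h
  rw [Finset.sum_eq_zero_iff_of_nonneg fun i _ => hnn i] at hsum
  have h1 := hrow i
  rw [hsum i (Finset.mem_univ _), mul_zero,
    Finset.sum_eq_zero_iff_of_nonneg fun j _ => sq_nonneg _] at h1
  have h2 := h1 j (Finset.mem_univ _)
  have h3 := pow_eq_zero_iff (two_ne_zero) |>.1 h2
  linarith

/-- `∇U` is constant on the hyperplane through `x` orthogonal to `∇U x` -/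
theorem rig1 {n : ℕ} {U : E n → ℝ} (hU : ContDiff ℝ 2 U) {K : ℝ}
    (hK : ∀ i j x, |pd i (pd j U) x| ≤ K) (hc : ∀ x, gc U x = 0) {x a : E n}
    (hx : gr U x ≠ 0) (ha : ∑ i, a i * pd i U x = 0) : ∀ i, pd i U (x + a) = pd i U x := by
  have hgr0 : ∀ y, 0 ≤ gr U y := fun y => Finset.sum_nonneg fun j _ => sq_nonneg _
  have hG0 : 0 < gr U x := lt_of_le_of_ne (hgr0 x) (Ne.symm hx)
  let γ : ℝ → E n := fun t => x + t • a
  have hγ : Continuous γ := by fun_prop
  have hγd : ∀ t, HasDerivAt γ a t := by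
    intro t
    have h := ((hasDerivAt_id t).smul_const a).const_add x
    rw [one_smul] at h
    exact h
  have hv : ∀ j, Continuous fun y => pd j U y := fun j => (RIG1_c1 hU j).continuous
  have hH : ∀ i j, Continuous fun y => pd i (pd j U) y := by
    intro i j
    unfold pd
    exact ((RIG1_c1 hU j).continuous_fderiv (by norm_num)).clm_apply continuous_const
  have hd : ∀ j t, HasDerivAt (fun t => pd j U (γ t))
      (∑ i, a i * pd i (pd j U) (γ t)) t := by
    intro j t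
    have h1 : HasFDerivAt (pd j U) (fderiv ℝ (pd j U) (γ t)) (γ t) :=
      ((RIG1_c1 hU j).differentiable (by norm_num) (γ t)).hasFDerivAt
    have h2 := h1.comp_hasDerivAt t (hγd t)
    have h3 : fderiv ℝ (pd j U) (γ t) a = ∑ i, a i * pd i (pd j U) (γ t) :=
      CALG_dd a (pd j U) (γ t)
    rw [← h3]
    exact h2
  let Bf : Fin n → ℝ → ℝ := fun j t => ∑ k, pd j (pd k U) (γ t) * pd k U (γ t)
  have hBc : ∀ j, Continuous (Bf j) := fun j =>
    continuous_finsetSum _ fun k _ => ((hH j k).comp hγ).mul ((hv k).comp hγ)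
  let s : ℝ → ℝ := fun t => ∑ i, a i * pd i U (γ t)
  have hGc : Continuous fun t => gr U (γ t) := by
    unfold gr
    exact continuous_finsetSum _ fun k _ => ((hv k).comp hγ).pow 2
  have hY : ∀ j t, gr U (γ t) ≠ 0 →
      ∑ i, a i * pd i (pd j U) (γ t) = Bf j t / gr U (γ t) * s t := by
    intro j t ht
    have h1 : ∀ i, gr U (γ t) * pd i (pd j U) (γ t) = Bf j t * pd i U (γ t) := by
      intro i
      rw [RIG1_symm hU i j]
      exact RIG1_alg (fun i j => pd i (pd j U) (γ t)) (fun j => pd j U (γ t)) (hc (γ t)) j i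
    rw [div_mul_eq_mul_div, eq_div_iff ht, Finset.sum_mul]
    change _ = Bf j t * ∑ i, a i * pd i U (γ t)
    rw [Finset.mul_sum]
    refine Finset.sum_congr rfl fun i _ => ?_
    have := h1 i
    calc a i * pd i (pd j U) (γ t) * gr U (γ t) = a i * (gr U (γ t) * pd i (pd j U) (γ t)) := by ring
      _ = a i * (Bf j t * pd i U (γ t)) := by rw [this]
      _ = Bf j t * (a i * pd i U (γ t)) := by ring
  let ρ : ℝ → ℝ := fun t => (∑ j, a j * Bf j t) / gr U (γ t)
  have hsd : ∀ t, gr U (γ t) ≠ 0 → HasDerivAt s (ρ t * s t) t := by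
    intro t ht
    have h1 : HasDerivAt s (∑ j, a j * ∑ i, a i * pd i (pd j U) (γ t)) t := by
      have := HasDerivAt.fun_sum (u := Finset.univ) fun j (_ : j ∈ Finset.univ) =>
        (hd j t).const_mul (a j)
      exact this
    have h2 : ∑ j, a j * ∑ i, a i * pd i (pd j U) (γ t) = ρ t * s t := by
      simp only [hY _ t ht]
      change _ = (∑ j, a j * Bf j t) / gr U (γ t) * s t
      rw [div_mul_eq_mul_div, Finset.sum_mul, Finset.sum_div]
      refine Finset.sum_congr rfl fun j _ => ?_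
      ring
    rw [h2] at h1
    exact h1
  -- the set where the gradient is the one at `x`
  let S : Set ℝ := {t | ∀ j, pd j U (γ t) = pd j U x}
  have hScl : IsClosed S := by
    have : S = ⋂ j, {t | pd j U (γ t) = pd j U x} := by
      ext t; simp [S]
    rw [this]
    exact isClosed_iInter fun j => isClosed_eq ((hv j).comp hγ) continuous_const
  have hγ0 : γ 0 = x := by simp [γ]
  have hS0 : (0 : ℝ) ∈ S := fun j => by rw [hγ0]
  have hSop : IsOpen S := by
    rw [isOpen_iff_mem_nhds]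
    intro t1 ht1
    have hG1 : gr U (γ t1) = gr U x := by
      unfold gr
      exact Finset.sum_congr rfl fun j _ => by rw [ht1 j]
    have hG1' : 0 < gr U (γ t1) := by rw [hG1]; exact hG0
    have hs1 : s t1 = 0 := by
      change ∑ i, a i * pd i U (γ t1) = 0
      rw [← ha]
      exact Finset.sum_congr rfl fun j _ => by rw [ht1 j]
    have hρc : ContinuousAt ρ t1 := by
      refine ContinuousAt.div ?_ hGc.continuousAt hG1'.ne'
      exact (continuous_finsetSum _ fun j _ => continuous_const.mul (hBc j)).continuousAt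
    have hev : ∀ᶠ t in 𝓝 t1, 0 < gr U (γ t) ∧ |ρ t| < |ρ t1| + 1 := by
      refine (hGc.continuousAt.eventually (lt_mem_nhds hG1')).and ?_
      exact hρc.abs.eventually (gt_mem_nhds (lt_add_one _))
    obtain ⟨δ0, hδ0, hb⟩ := Metric.eventually_nhds_iff.1 hev
    obtain ⟨C, hC⟩ : ∃ C, C = |ρ t1| + 1 := ⟨_, rfl⟩
    have hC1 : 0 < C := by rw [hC]; positivity
    obtain ⟨δ, hδ⟩ : ∃ δ, δ = min (δ0 / 2) (1 / (2 * C)) := ⟨_, rfl⟩
    have hδp : 0 < δ := by rw [hδ]; exact lt_min (by positivity) (by positivity)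
    have hδ1 : δ < δ0 := by
      have : δ ≤ δ0 / 2 := by rw [hδ]; exact min_le_left _ _
      linarith
    have hδ2 : C * δ ≤ 1 / 2 := by
      have : δ ≤ 1 / (2 * C) := by rw [hδ]; exact min_le_right _ _
      calc C * δ ≤ C * (1 / (2 * C)) := mul_le_mul_of_nonneg_left this hC1.le
        _ = 1 / 2 := by field_simp
    let I : Set ℝ := Icc (t1 - δ) (t1 + δ)
    have hI : ∀ t ∈ I, |t - t1| ≤ δ := fun t ht => abs_le.2 ⟨by linarith [ht.1], by linarith [ht.2]⟩
    have hI' : ∀ t ∈ I, 0 < gr U (γ t) ∧ |ρ t| < C := by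
      intro t ht
      rw [hC]
      apply hb
      rw [Real.dist_eq]
      exact (hI t ht).trans_lt hδ1
    have ht1I : t1 ∈ I := ⟨by linarith, by linarith⟩
    have hsc : ContinuousOn s I := fun t ht =>
      (hsd t (hI' t ht).1.ne').continuousAt.continuousWithinAt
    obtain ⟨ts, htsI, hts⟩ := isCompact_Icc.exists_isMaxOn (s := I) ⟨t1, ht1I⟩ hsc.abs
    have hmax : ∀ t ∈ I, |s t| ≤ |s ts| := fun t ht => hts ht
    have hbd : ‖s ts - s t1‖ ≤ (C * |s ts|) * ‖ts - t1‖ := by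
      refine Convex.norm_image_sub_le_of_norm_hasDerivWithin_le (s := I) (f := s)
        (f' := fun t => ρ t * s t) (fun t ht => (hsd t (hI' t ht).1.ne').hasDerivWithinAt)
        (fun t ht => ?_) (convex_Icc _ _) ht1I htsI
      rw [Real.norm_eq_abs, abs_mul]
      exact mul_le_mul (hI' t ht).2.le (hmax t ht) (abs_nonneg _) hC1.le
    rw [hs1, sub_zero, Real.norm_eq_abs, Real.norm_eq_abs] at hbd
    have hz : |s ts| = 0 := by
      have h1 : C * |s ts| * |ts - t1| ≤ C * |s ts| * δ :=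
        mul_le_mul_of_nonneg_left (hI ts htsI) (by positivity)
      have h2 : C * |s ts| * δ = (C * δ) * |s ts| := by ring
      have h3 : (C * δ) * |s ts| ≤ 1 / 2 * |s ts| := mul_le_mul_of_nonneg_right hδ2 (abs_nonneg _)
      have h4 := abs_nonneg (s ts)
      linarith
    have hs0 : ∀ t ∈ I, s t = 0 := by
      intro t ht
      have := hmax t ht
      rw [hz] at this
      exact abs_nonpos_iff.1 this
    have hIn : I ∈ 𝓝 t1 := Icc_mem_nhds (by linarith) (by linarith)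
    refine Filter.mem_of_superset hIn fun t ht j => ?_
    have h5 : ‖pd j U (γ t) - pd j U (γ t1)‖ ≤ 0 * ‖t - t1‖ := by
      refine Convex.norm_image_sub_le_of_norm_hasDerivWithin_le (s := I)
        (f := fun t => pd j U (γ t)) (f' := fun t => ∑ i, a i * pd i (pd j U) (γ t))
        (fun t ht => (hd j t).hasDerivWithinAt) (fun t ht => ?_) (convex_Icc _ _) ht1I ht
      rw [hY j t (hI' t ht).1.ne', hs0 t ht, mul_zero, norm_zero]
    rw [zero_mul] at h5
    have h6 := sub_eq_zero.1 (norm_le_zero_iff.1 h5)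
    rw [h6]
    exact ht1 j
  have hSu : S = univ := IsClopen.eq_univ ⟨hScl, hSop⟩ ⟨0, hS0⟩
  have h1 : (1 : ℝ) ∈ S := by rw [hSu]; exact mem_univ _
  intro i
  have h2 := h1 i
  have h3 : γ 1 = x + a := by simp [γ]
  rw [h3] at h2
  exact h2

theorem RIG_inner {n : ℕ} (a b : E n) : ⟪a, b⟫_ℝ = ∑ i, a i * b i := by
  rw [PiLp.inner_apply]
  refine Finset.sum_congr rfl fun i _ => ?_
  simp [mul_comm]

theorem RIG_fderiv {n : ℕ} (U : E n → ℝ) (x v : E n) :
    fderiv ℝ U x v = ∑ i, v i * pd i U x := by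
  have h1 : v = ∑ i, v i • EuclideanSpace.single i (1 : ℝ) := by
    ext j
    simp [Pi.single_apply]
  conv_lhs => rw [h1]
  rw [map_sum]
  refine Finset.sum_congr rfl fun i _ => ?_
  rw [map_smul, smul_eq_mul]
  rfl

theorem RIG_par {n : ℕ} {U : E n → ℝ} (hU : ContDiff ℝ 2 U) {K : ℝ}
    (hK : ∀ i j x, |pd i (pd j U) x| ≤ K) (hc : ∀ x, gc U x = 0) {x0 : E n}
    (h0 : gr U x0 ≠ 0) (x1 : E n) : ∃ c : ℝ, ∀ i, pd i U x1 = c * pd i U x0 := by
  by_cases h1 : gr U x1 = 0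
  · refine ⟨0, fun i => ?_⟩
    rw [zero_mul]
    unfold gr at h1
    have h2 := (Finset.sum_eq_zero_iff_of_nonneg (fun j _ => sq_nonneg (pd j U x1))).1 h1 i
      (Finset.mem_univ i)
    exact pow_eq_zero_iff (two_ne_zero) |>.1 h2
  · obtain ⟨y0, hy0⟩ : ∃ y0 : E n, ∀ i, y0 i = pd i U x0 :=
      ⟨WithLp.toLp 2 (fun i => pd i U x0), fun i => rfl⟩
    obtain ⟨y1, hy1⟩ : ∃ y1 : E n, ∀ i, y1 i = pd i U x1 :=
      ⟨WithLp.toLp 2 (fun i => pd i U x1), fun i => rfl⟩
    have hn0 : ⟪y0, y0⟫_ℝ ≠ 0 := by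
      intro h
      refine h0 ?_
      unfold gr
      rw [← h, RIG_inner]
      refine Finset.sum_congr rfl fun i _ => ?_
      rw [hy0, sq]
    obtain ⟨w, hw⟩ : ∃ w : E n, w = y1 - (⟪y0, y1⟫_ℝ / ⟪y0, y0⟫_ℝ) • y0 := ⟨_, rfl⟩
    have hw0 : ⟪y0, w⟫_ℝ = 0 := by
      rw [hw, inner_sub_right, real_inner_smul_right, div_mul_cancel₀ _ hn0, sub_self]
    have hw1 : ⟪y1, w⟫_ℝ = ⟪w, w⟫_ℝ := by
      have e : y1 = w + (⟪y0, y1⟫_ℝ / ⟪y0, y0⟫_ℝ) • y0 := by
        rw [hw, sub_add_cancel]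
      conv_lhs => rw [e]
      rw [inner_add_left, real_inner_smul_left, hw0, mul_zero, add_zero]
    by_cases hwz : w = 0
    · refine ⟨⟪y0, y1⟫_ℝ / ⟪y0, y0⟫_ℝ, fun i => ?_⟩
      rw [hwz] at hw
      have e : y1 = (⟪y0, y1⟫_ℝ / ⟪y0, y0⟫_ℝ) • y0 := (sub_eq_zero.1 hw.symm)
      have e2 := congrArg (fun v : E n => v i) e
      have e3 : y1 i = (⟪y0, y1⟫_ℝ / ⟪y0, y0⟫_ℝ) * y0 i := e2
      rw [← hy1, ← hy0]
      exact e3
    · exfalso
      have hww : ⟪w, w⟫_ℝ ≠ 0 := fun h => hwz (inner_self_eq_zero.1 h)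
      obtain ⟨s, hs⟩ : ∃ s : ℝ, s = ⟪y1, x1 - x0⟫_ℝ / ⟪w, w⟫_ℝ := ⟨_, rfl⟩
      have ha : ∑ i, (s • w) i * pd i U x0 = 0 := by
        have e : ∑ i, (s • w) i * pd i U x0 = ⟪s • w, y0⟫_ℝ := by
          rw [RIG_inner]
          exact Finset.sum_congr rfl fun i _ => by rw [hy0]
        rw [e, real_inner_smul_left, real_inner_comm, hw0, mul_zero]
      have hb : ∑ i, (x0 + s • w - x1) i * pd i U x1 = 0 := by
        have e : ∑ i, (x0 + s • w - x1) i * pd i U x1 = ⟪x0 + s • w - x1, y1⟫_ℝ := by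
          rw [RIG_inner]
          exact Finset.sum_congr rfl fun i _ => by rw [hy1]
        have e2 : x0 + s • w - x1 = s • w - (x1 - x0) := by abel
        rw [e, e2, inner_sub_left, real_inner_smul_left, real_inner_comm, hw1,
          real_inner_comm y1 (x1 - x0), hs, div_mul_cancel₀ _ hww, sub_self]
      have r0 := rig1 hU hK hc h0 ha
      have r1 := rig1 hU hK hc h1 hb
      have hyy : y1 = y0 := by
        ext i
        rw [hy0, hy1, ← r0 i, ← r1 i]
        congr 1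
        abel
      refine hwz ?_
      rw [hw, hyy, div_self hn0, one_smul, sub_self]

theorem rig {n : ℕ} (hn : 0 < n) {U : E n → ℝ} (hU : ContDiff ℝ 2 U) {K : ℝ}
    (hK : ∀ i j x, |pd i (pd j U) x| ≤ K) (hc : ∀ x, gc U x = 0) :
    ∃ (f : E n) (h : ℝ → ℝ), ‖f‖ = 1 ∧ ∀ x, U x = h ⟪f, x⟫_ℝ := by
  have hdU : Differentiable ℝ U := hU.differentiable (by norm_num)
  obtain ⟨f, hf, hpar⟩ : ∃ f : E n, ‖f‖ = 1 ∧ ∀ v : E n, ⟪f, v⟫_ℝ = 0 →
      ∀ x, fderiv ℝ U x v = 0 := by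
    by_cases h : ∀ x, gr U x = 0
    · refine ⟨EuclideanSpace.single ⟨0, hn⟩ 1, by rw [EuclideanSpace.norm_single, norm_one],
        fun v _ x => ?_⟩
      rw [RIG_fderiv]
      refine Finset.sum_eq_zero fun i _ => ?_
      have h1 := h x
      unfold gr at h1
      have h2 := (Finset.sum_eq_zero_iff_of_nonneg (fun j _ => sq_nonneg (pd j U x))).1 h1 i
        (Finset.mem_univ i)
      rw [pow_eq_zero_iff (two_ne_zero) |>.1 h2, mul_zero]
    · rw [not_forall] at h
      obtain ⟨x0, h0⟩ := h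
      obtain ⟨y0, hy0⟩ : ∃ y0 : E n, ∀ i, y0 i = pd i U x0 :=
        ⟨WithLp.toLp 2 (fun i => pd i U x0), fun i => rfl⟩
      have hn0 : ⟪y0, y0⟫_ℝ ≠ 0 := by
        intro h
        refine h0 ?_
        unfold gr
        rw [← h, RIG_inner]
        refine Finset.sum_congr rfl fun i _ => ?_
        rw [hy0, sq]
      have hy : y0 ≠ 0 := fun h => hn0 (by rw [h, inner_zero_left])
      have hny : ‖y0‖ ≠ 0 := norm_ne_zero_iff.2 hy
      refine ⟨‖y0‖⁻¹ • y0, by rw [norm_smul, norm_inv, norm_norm, inv_mul_cancel₀ hny],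
        fun v hv x => ?_⟩
      rw [real_inner_smul_left] at hv
      have hv2 : ⟪y0, v⟫_ℝ = 0 := by
        rcases mul_eq_zero.1 hv with h | h
        · exact absurd h (inv_ne_zero hny)
        · exact h
      obtain ⟨c, hcc⟩ := RIG_par hU hK hc h0 x
      rw [RIG_fderiv]
      have e : ∑ i, v i * pd i U x = c * ⟪y0, v⟫_ℝ := by
        rw [RIG_inner, Finset.mul_sum]
        refine Finset.sum_congr rfl fun i _ => ?_
        rw [hcc, hy0]
        ring
      rw [e, hv2, mul_zero]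
  refine ⟨f, fun t => U (t • f), hf, fun x => ?_⟩
  obtain ⟨v, hv⟩ : ∃ v : E n, v = ⟪f, x⟫_ℝ • f - x := ⟨_, rfl⟩
  have hfv : ⟪f, v⟫_ℝ = 0 := by
    rw [hv, inner_sub_right, real_inner_smul_right, real_inner_self_eq_norm_sq, hf, one_pow,
      mul_one, sub_self]
  have hd : ∀ t : ℝ, HasDerivAt (fun t : ℝ => U (x + t • v)) 0 t := by
    intro t
    have h1 : HasDerivAt (fun t : ℝ => x + t • v) v t := by
      have := ((hasDerivAt_id t).smul_const v).const_add x
      simpa using this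
    have h2 := (hdU (x + t • v)).hasFDerivAt.comp_hasDerivAt t h1
    rw [hpar v hfv] at h2
    exact h2
  have h3 := is_const_of_deriv_eq_zero (fun t => (hd t).differentiableAt)
    (fun t => (hd t).deriv) 0 1
  simp only [zero_smul, add_zero, one_smul] at h3
  rw [h3]
  show U (x + v) = U (⟪f, x⟫_ℝ • f)
  rw [hv]
  congr 1
  abel

end Vale.Agent.P134
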