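import Vale.Agent.P134.Lin
import Vale.Agent.P134.LimReg

/-! # P134, module STAB: proofs -/

open MeasureTheory Set Filter Topology

namespace Vale.Agent.P134.StabPf

theorem pdc {n : ℕ} {f : E n → ℝ} (hf : ContDiff ℝ 1 f) (i : Fin n) : Continuous (pd i f) :=
  (hf.continuous_fderiv (by norm_num)).clm_apply continuous_const

theorem pds {n : ℕ} {f : E n → ℝ} (hf : HasCompactSupport f) (i : Fin n) :
    HasCompactSupport (pd i f) := hf.fderiv_apply ℝ _

theorem pd_phi {n : ℕ} {ξ w : E n → ℝ} (hξ : ContDiff ℝ 1 ξ) (hw : ContDiff ℝ 1 w) (x : E n)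
    (h0 : w x ≠ 0) (i : Fin n) :
    pd i (fun x => ξ x ^ 2 / w x) x =
      (2 * ξ x * pd i ξ x * w x - ξ x ^ 2 * pd i w x) / w x ^ 2 := by
  have h1 : HasFDerivAt ξ (fderiv ℝ ξ x) x := ((hξ.differentiable (by norm_num)) x).hasFDerivAt
  have h2 : HasFDerivAt w (fderiv ℝ w x) x := ((hw.differentiable (by norm_num)) x).hasFDerivAt
  have hl : HasDerivAt (fun s : ℝ => x + s • (EuclideanSpace.single i (1 : ℝ) : E n))
      (EuclideanSpace.single i (1 : ℝ)) 0 := by
    have := ((hasDerivAt_id (0 : ℝ)).smul_const (EuclideanSpace.single i (1 : ℝ) : E n)).const_add x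
    simpa using this
  have key : ∀ (g : E n → ℝ) (g' : E n →L[ℝ] ℝ), HasFDerivAt g g' x →
      HasDerivAt (fun s : ℝ => g (x + s • (EuclideanSpace.single i (1 : ℝ) : E n)))
        (g' (EuclideanSpace.single i (1 : ℝ))) 0 := by
    intro g g' hg
    have hg' : HasFDerivAt g g' (x + (0 : ℝ) • (EuclideanSpace.single i (1 : ℝ) : E n)) := by
      simpa using hg
    exact hg'.comp_hasDerivAt 0 hl
  have hd : DifferentiableAt ℝ (fun x => ξ x ^ 2 / w x) x :=
    ((hξ.pow 2).contDiffAt.div hw.contDiffAt h0).differentiableAt (by norm_num)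
  have k1 := key ξ _ h1
  have k2 := key w _ h2
  have k3 := key _ _ hd.hasFDerivAt
  have k4 : HasDerivAt (fun s : ℝ => ξ (x + s • (EuclideanSpace.single i (1 : ℝ) : E n)) ^ 2) _ 0 :=
    k1.pow 2
  have k5 := k4.fun_div k2 (by simpa using h0)
  have := k3.unique k5
  unfold pd
  rw [this]
  simp

theorem stab {n : ℕ} {u ξ : E n → ℝ} (hu : IsSol u) {e : E n} (he : ∀ x, 0 < dd e u x)
    (hξ : ContDiff ℝ 1 ξ) (hs : HasCompactSupport ξ) :
    0 ≤ ∫ x, (∑ i, pd i ξ x ^ 2 + (3 * u x ^ 2 - 1) * ξ x ^ 2) := by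
  have cw : ContDiff ℝ 1 (dd e u) := (hu.1.fderiv_right (m := 1) (by norm_num)).clm_apply
    contDiff_const
  have cφ : ContDiff ℝ 1 (fun x => ξ x ^ 2 / dd e u x) := (hξ.pow 2).div cw fun x => (he x).ne'
  have hs2 : HasCompactSupport (fun x => ξ x ^ 2) := by
    have h1 : (fun x => ξ x ^ 2) = fun x => ξ x * ξ x := by funext x; ring
    rw [h1]
    exact hs.mul_left
  have sφ : HasCompactSupport (fun x => ξ x ^ 2 / dd e u x) := by
    have h1 : (fun x => ξ x ^ 2 / dd e u x) = fun x => ξ x ^ 2 * (dd e u x)⁻¹ := by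
      funext x; rw [div_eq_mul_inv]
    rw [h1]
    exact hs2.mul_right
  have hl := lin hu e cφ sφ
  have hR : ∫ x, (3 * u x ^ 2 - 1) * dd e u x * (ξ x ^ 2 / dd e u x) =
      ∫ x, (3 * u x ^ 2 - 1) * ξ x ^ 2 := by
    congr 1
    funext x
    have := (he x).ne'
    field_simp
  rw [hR] at hl
  have hle : ∀ x, ∑ i, pd i (dd e u) x * pd i (fun x => ξ x ^ 2 / dd e u x) x ≤
      ∑ i, pd i ξ x ^ 2 := by
    intro x
    refine Finset.sum_le_sum fun i _ => ?_
    rw [pd_phi hξ cw x (he x).ne' i]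
    have hw := he x
    have : pd i (dd e u) x * ((2 * ξ x * pd i ξ x * dd e u x - ξ x ^ 2 * pd i (dd e u) x) /
        dd e u x ^ 2) = pd i ξ x ^ 2 - (pd i ξ x - ξ x * pd i (dd e u) x / dd e u x) ^ 2 := by
      have := hw.ne'
      field_simp
      ring
    rw [this]
    nlinarith [sq_nonneg (pd i ξ x - ξ x * pd i (dd e u) x / dd e u x)]
  have i1 : Integrable fun x => ∑ i, pd i ξ x ^ 2 := by
    refine integrable_finsetSum _ fun i _ => ?_
    have h1 : (fun x => pd i ξ x ^ 2) = fun x => pd i ξ x * pd i ξ x := by funext x; ring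
    rw [h1]
    exact ((pdc hξ i).mul (pdc hξ i)).integrable_of_hasCompactSupport (pds hs i).mul_left
  have i2 : Integrable fun x => ∑ i, pd i (dd e u) x * pd i (fun x => ξ x ^ 2 / dd e u x) x := by
    refine integrable_finsetSum _ fun i _ => ?_
    exact ((pdc cw i).mul (pdc cφ i)).integrable_of_hasCompactSupport (pds sφ i).mul_left
  have i3 : Integrable fun x => (3 * u x ^ 2 - 1) * ξ x ^ 2 := by
    refine Continuous.integrable_of_hasCompactSupport ?_ hs2.mul_left
    exact ((continuous_const.mul (hu.1.continuous.pow 2)).sub continuous_const).mul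
      (hξ.continuous.pow 2)
  rw [integral_add i1 i3]
  have := integral_mono i2 i1 hle
  linarith

theorem stabU {n : ℕ} {u U ξ : E n → ℝ} (hu : IsSol u) {e : E n} (he : ∀ x, 0 < dd e u x)
    (hU : IsLim u e U) (hξ : ContDiff ℝ 1 ξ) (hs : HasCompactSupport ξ) :
    0 ≤ ∫ x, (∑ i, pd i ξ x ^ 2 + (3 * U x ^ 2 - 1) * ξ x ^ 2) := by
  have hs2 : HasCompactSupport (fun x => ξ x ^ 2) := by
    have h1 : (fun x => ξ x ^ 2) = fun x => ξ x * ξ x := by funext x; ring
    rw [h1]
    exact hs.mul_left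
  have i1 : Integrable fun x => ∑ i, pd i ξ x ^ 2 := by
    refine integrable_finsetSum _ fun i _ => ?_
    have h1 : (fun x => pd i ξ x ^ 2) = fun x => pd i ξ x * pd i ξ x := by funext x; ring
    rw [h1]
    exact ((pdc hξ i).mul (pdc hξ i)).integrable_of_hasCompactSupport (pds hs i).mul_left
  have i3 : Integrable fun x => 2 * ξ x ^ 2 :=
    (continuous_const.mul (hξ.continuous.pow 2)).integrable_of_hasCompactSupport hs2.mul_left
  have hst : ∀ t : ℝ, 0 ≤ ∫ x, (∑ i, pd i ξ x ^ 2 + (3 * u (x + t • e) ^ 2 - 1) * ξ x ^ 2) := by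
    intro t
    refine stab (isSol_shift hu (t • e)) (e := e) (fun x => ?_) hξ hs
    have : dd e (fun x => u (x + t • e)) x = dd e u (x + t • e) := by
      unfold dd
      rw [fderiv_comp_add_right]
    rw [this]
    exact he _
  refine ge_of_tendsto' (x := (atTop : Filter ℝ)) ?_ hst
  refine tendsto_integral_filter_of_dominated_convergence
    (fun x => ∑ i, pd i ξ x ^ 2 + 2 * ξ x ^ 2) ?_ ?_ (i1.add i3) ?_
  · refine Eventually.of_forall fun t => Continuous.aestronglyMeasurable ?_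
    refine Continuous.add (continuous_finsetSum _ fun i _ => (pdc hξ i).pow 2) ?_
    refine Continuous.mul ?_ (hξ.continuous.pow 2)
    exact (continuous_const.mul ((hu.1.continuous.comp
      (continuous_id.add continuous_const)).pow 2)).sub continuous_const
  · refine Eventually.of_forall fun t => Eventually.of_forall fun x => ?_
    have h1 := abs_le.1 (hu.2.2 (x + t • e))
    have h2 : u (x + t • e) ^ 2 ≤ 1 := by nlinarith
    have h3 : 0 ≤ u (x + t • e) ^ 2 := sq_nonneg _
    have h4 : 0 ≤ ∑ i, pd i ξ x ^ 2 := Finset.sum_nonneg fun i _ => sq_nonneg _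
    have h5 : 0 ≤ ξ x ^ 2 := sq_nonneg _
    rw [Real.norm_eq_abs, abs_le]
    constructor <;> nlinarith
  · refine Eventually.of_forall fun x => ?_
    exact tendsto_const_nhds.add
      (((tendsto_const_nhds.mul ((hU x).pow 2)).sub tendsto_const_nhds).mul tendsto_const_nhds)

end Vale.Agent.P134.StabPf
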