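import Vale.Agent.P134.Lin
import Vale.Agent.P134.LimReg
import Vale.Agent.P134.StabPf

/-! # P134, module STAB: stability

`stab`: test `lin` for `e` with `ξ² / w`, `w = dd e u`:
`∫ ∑ i (pd i ξ)² + (3u² - 1) ξ² = ∫ ∑ i (pd i ξ - ξ pd i w / w)² ≥ 0`.
`stabU`: apply `stab` to the translates `u (· + t e)` (`isSol_shift`) and let `t → ∞` by dominated
convergence (`|u| ≤ 1`, `ξ` has compact support). -/

open MeasureTheory Set Filter Topology

namespace Vale.Agent.P134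

theorem stab {n : ℕ} {u ξ : E n → ℝ} (hu : IsSol u) {e : E n} (he : ∀ x, 0 < dd e u x)
    (hξ : ContDiff ℝ 1 ξ) (hs : HasCompactSupport ξ) :
    0 ≤ ∫ x, (∑ i, pd i ξ x ^ 2 + (3 * u x ^ 2 - 1) * ξ x ^ 2) := by
  exact StabPf.stab hu he hξ hs

theorem stabU {n : ℕ} {u U ξ : E n → ℝ} (hu : IsSol u) {e : E n} (he : ∀ x, 0 < dd e u x)
    (hU : IsLim u e U) (hξ : ContDiff ℝ 1 ξ) (hs : HasCompactSupport ξ) :
    0 ≤ ∫ x, (∑ i, pd i ξ x ^ 2 + (3 * U x ^ 2 - 1) * ξ x ^ 2) := by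
  exact StabPf.stabU hu he hU hξ hs

end Vale.Agent.P134
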