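import Vale.Agent.P134.Final
import Vale.Agent.P134.LogS
import Vale.Agent.P134.PerS
import Vale.Agent.P134.FrameS
import Vale.Agent.P134.LimReg
import Vale.Agent.P134.LimInv
import Vale.Agent.P134.Stab
import Vale.Agent.P134.GeoU
import Vale.Agent.P134.Rig
import Vale.Agent.P134.OneD
import Vale.Agent.P134.Mono
import Vale.Agent.P134.En3
import Vale.Agent.P134.En2

/-! # P134, stage 2, assembly: `n - 3` periods -/

open MeasureTheory Set Filter Topology
open scoped InnerProductSpace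

namespace Vale.Agent.P134

theorem f3_dd {n : ℕ} {u : E n → ℝ} (hu : ContDiff ℝ 2 u) (Q : E n ≃ₗᵢ[ℝ] E n) (a x : E n) :
    dd a (fun x => u (Q x)) x = dd (Q a) u (Q x) := by
  unfold dd
  have h1 : HasFDerivAt u (fderiv ℝ u (Q x)) (Q x) :=
    (hu.differentiable (by norm_num)).differentiableAt.hasFDerivAt
  have h2 : HasFDerivAt (fun x => Q x) (Q.toContinuousLinearEquiv : E n →L[ℝ] E n) x :=
    Q.toContinuousLinearEquiv.hasFDerivAt
  have h3 : fderiv ℝ (fun x => u (Q x)) x =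
      (fderiv ℝ u (Q x)).comp (Q.toContinuousLinearEquiv : E n →L[ℝ] E n) :=
    (h1.comp x h2).fderiv
  rw [h3]
  rfl

theorem f3_gr_cont {n : ℕ} {u : E n → ℝ} (hu : ContDiff ℝ 2 u) : Continuous (gr u) := by
  unfold gr
  apply continuous_finsetSum
  intro i _
  apply Continuous.pow
  unfold pd
  exact (hu.continuous_fderiv (by norm_num)).clm_apply continuous_const

theorem f3_gr_nonneg {n : ℕ} (u : E n → ℝ) (x : E n) : 0 ≤ gr u x :=
  Finset.sum_nonneg fun _ _ => sq_nonneg _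

/-- the limit profile is one-dimensional -/
theorem f3_limit {n : ℕ} (hn : 3 ≤ n) {u U : E n → ℝ} (hu : IsSol u) {e : E n}
    (he : ∀ x, 0 < dd e u x) (hU : IsLim u e U) {v : Fin (n - 3 + 1) → E n}
    (hv : LinearIndependent ℝ v) (hper : ∀ j x, U (x + v j) = U x) :
    ∃ (f : E n) (h : ℝ → ℝ), ‖f‖ = 1 ∧ ∀ x, U x = h ⟪f, x⟫_ℝ := by
  obtain ⟨f0, hf0, hf0v⟩ := frame_unit (n := n) (m := n - 3 + 1) (by omega) v
  obtain ⟨S, p, Q, hS, hp, hQS, hQp⟩ := frameS (by omega) hv hf0 hf0v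
  have hS2 : S.card = 2 := by omega
  have hu1 : IsSol (fun x => u (Q x)) := isSol_comp hu Q
  have hU1 : IsLim (fun x => u (Q x)) (Q.symm e) (fun x => U (Q x)) := lim_comp hU Q
  have hUs : IsSol (fun x => U (Q x)) := (lim_reg hu1 hU1).1
  have he1 : ∀ x, 0 < dd (Q.symm e) (fun x => u (Q x)) x := by
    intro x
    rw [f3_dd hu.1, Q.apply_symm_apply]
    exact he _
  obtain ⟨B, hB, hen⟩ := en2 n
  have hgc : ∀ x, gc (fun x => U (Q x)) x = 0 := by
    apply perS (m := n - 3 + 1) (S := S) (v := fun j => Q.symm (v j)) (by omega)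
      (gc_cont hUs.1) (gc_nonneg _) _ hQS
    · intro j x
      apply gc_per
      intro y
      show U (Q (y + Q.symm (v j))) = U (Q y)
      rw [map_add, Q.apply_symm_apply]
      exact hper j _
    · intro ε hε
      have hA : (0 : ℝ) < 4 * (n * ((n : ℝ) + 1) ^ 2 + 1) := by positivity
      exact logS_avg S hA hB (gc_cont hUs.1) (f3_gr_cont hUs.1) (gc_nonneg _) (f3_gr_nonneg _)
        (fun ζ hζ hs => geoU hu1 he1 hU1 hζ hs)
        (fun c N R hR hRN => hen S hS2 _ hUs c N R hR hRN) hε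
    · exact hv.map' Q.symm.toLinearEquiv.toLinearMap Q.symm.toLinearEquiv.ker
  obtain ⟨K, hK, hKb⟩ := reg2 n
  obtain ⟨f, h, hf, hh⟩ := rig (by omega) hUs.1 (fun i j x => hKb _ hUs i j x) hgc
  refine ⟨Q f, h, by rw [Q.norm_map, hf], fun x => ?_⟩
  have h1 := hh (Q.symm x)
  rw [Q.apply_symm_apply] at h1
  rw [h1]
  congr 1
  rw [← Q.inner_map_map, Q.apply_symm_apply]

/-- De Giorgi's conjecture for solutions with `n - 3` periods -/
theorem periodic3 {n : ℕ} (hn : 3 ≤ n) {u : E n → ℝ} (hu : IsSol u) {e : E n}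
    (he : ∀ x, 0 < dd e u x) {v : Fin (n - 3) → E n}
    (hv : LinearIndependent ℝ (Fin.cons e v : Fin (n - 3 + 1) → E n))
    (hper : ∀ j x, u (x + v j) = u x) :
    ∃ (f : E n) (h : ℝ → ℝ), ‖f‖ = 1 ∧ ∀ x, u x = h ⟪f, x⟫_ℝ := by
  obtain ⟨U, hU⟩ := lim_exists hu he
  have hUs : IsSol U := (lim_reg hu hU).1
  have hUper : ∀ j x, U (x + v j) = U x := fun j x => lim_per hU (hper j) x
  have hv0 : LinearIndependent ℝ v := by
    have := hv.comp Fin.succ (Fin.succ_injective _)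
    simpa using this
  -- the profile
  obtain ⟨f, h, hf, hh⟩ := f3_limit hn hu he hU hv (by
    intro j x
    refine Fin.cases ?_ (fun i => ?_) j
    · simpa using lim_inv hU x 1
    · simpa using hUper i x)
  obtain ⟨hh2, -, hb, -, -⟩ := ode hUs hf hh
  have hode := oned (by omega) hUs hf hh (fun ξ hξ hs => stabU hu he hU hξ hs)
  have hfφ : ∃ f' : E n, ‖f'‖ = 1 ∧ (∀ j, ⟪f', v j⟫_ℝ = 0) ∧
      ((f' = f) ∨ ∀ t, deriv h t ^ 2 / 2 + (1 - h t ^ 2) ^ 2 / 4 = 0) := by
    have hinj : Function.Injective h → ∃ f' : E n, ‖f'‖ = 1 ∧ (∀ j, ⟪f', v j⟫_ℝ = 0) ∧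
      ((f' = f) ∨ ∀ t, deriv h t ^ 2 / 2 + (1 - h t ^ 2) ^ 2 / 4 = 0) := by
      intro hi
      refine ⟨f, hf, fun j => ?_, Or.inl rfl⟩
      have h1 := hUper j 0
      rw [hh, hh, zero_add, inner_zero_right] at h1
      exact hi h1
    have hd : Differentiable ℝ h := hh2.differentiable (by norm_num)
    rcases mono hh2 hb hode with h1 | h1 | h1 | h1
    · obtain ⟨f', hf', hf'v⟩ := frame_unit (n := n) (m := n - 3) (by omega) v
      refine ⟨f', hf', hf'v, Or.inr fun t => ?_⟩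
      rw [hode t, h1 t]
      norm_num
    · obtain ⟨f', hf', hf'v⟩ := frame_unit (n := n) (m := n - 3) (by omega) v
      refine ⟨f', hf', hf'v, Or.inr fun t => ?_⟩
      rw [hode t, h1 t]
      norm_num
    · exact hinj (strictMono_of_deriv_pos h1).injective
    · exact hinj (strictAnti_of_deriv_neg h1).injective
  obtain ⟨f', hf', hf'v, hcase⟩ := hfφ
  obtain ⟨S, p, Q, hS, hp, hQS, hQp⟩ := frameS (by omega) hv0 hf' hf'v
  have hS3 : S.card = 3 := by omega
  have hu1 : IsSol (fun x => u (Q x)) := isSol_comp hu Q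
  have hU1 : IsLim (fun x => u (Q x)) (Q.symm e) (fun x => U (Q x)) := lim_comp hU Q
  have hU1s : IsSol (fun x => U (Q x)) := isSol_comp hUs Q
  have he1 : ∀ x, 0 < dd (Q.symm e) (fun x => u (Q x)) x := by
    intro x
    rw [f3_dd hu.1, Q.apply_symm_apply]
    exact he _
  -- energy of the profile
  have hin : ∀ x, ⟪f, Q x⟫_ℝ = ⟪Q.symm f, x⟫_ℝ := by
    intro x
    have h1 := Q.symm.inner_map_map f (Q x)
    rw [Q.symm_apply_apply] at h1
    exact h1.symm
  have hh1 : ∀ x, U (Q x) = h ⟪Q.symm f, x⟫_ℝ := by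
    intro x
    rw [hh, hin]
  obtain ⟨-, -, -, hgr, -⟩ := ode hU1s (f := Q.symm f) (by rw [Q.symm.norm_map, hf]) hh1
  have hen : ∀ x : E n, en (fun x => U (Q x)) x =
      (fun t => deriv h t ^ 2 / 2 + (1 - h t ^ 2) ^ 2 / 4) (x p) := by
    intro x
    have h1 : en (fun x => U (Q x)) x =
        deriv h ⟪Q.symm f, x⟫_ℝ ^ 2 / 2 + (1 - h ⟪Q.symm f, x⟫_ℝ ^ 2) ^ 2 / 4 := by
      show gr (fun x => U (Q x)) x / 2 + (1 - U (Q x) ^ 2) ^ 2 / 4 = _
      rw [hgr, hh1]
    rw [h1]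
    rcases hcase with hc | hc
    · have h2 : ⟪Q.symm f, x⟫_ℝ = x p := by
        rw [← hc, ← hQp, Q.symm_apply_apply, EuclideanSpace.inner_single_left]
        simp
      rw [h2]
    · rw [hc]
      exact (hc _).symm
  have hφc : Continuous fun t => deriv h t ^ 2 / 2 + (1 - h t ^ 2) ^ 2 / 4 := by
    have h1 : Continuous (deriv h) := hh2.continuous_deriv (by norm_num)
    have h2 : Continuous h := hh2.continuous
    fun_prop
  obtain ⟨B, hB, hB3⟩ := en3 n
  have henergy := hB3 S p hS3 hp _ _ _ hu1 he1 hU1 _ hφc (fun t => by positivity) hen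
    (fun a b hab => mono_energy hh2 hb hode hab)
  have hzero : ∀ x, curv (fun x => u (Q x)) x = 0 := by
    apply perS (m := n - 3) (S := S) (v := fun j => Q.symm (v j)) (by omega)
      (curv_cont hu1.1 he1) (curv_nonneg _) _ hQS
    · intro j x
      apply curv_per
      intro y
      show u (Q (y + Q.symm (v j))) = u (Q y)
      rw [map_add, Q.apply_symm_apply]
      exact hper j _
    · intro ε hε
      exact logS_avg S (A := 4) (by norm_num) hB (curv_cont hu1.1 he1) (f3_gr_cont hu1.1)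
        (curv_nonneg _) (f3_gr_nonneg _) (fun ζ hζ hs => geo hu1 he1 hζ hs) henergy hε
    · exact hv0.map' Q.symm.toLinearEquiv.toLinearMap Q.symm.toLinearEquiv.ker
  obtain ⟨g, k, hg, hk⟩ := one_dim hu1.1 he1 hzero
  refine ⟨Q g, k, by rw [Q.norm_map, hg], fun x => ?_⟩
  have h1 := hk (Q.symm x)
  rw [Q.apply_symm_apply] at h1
  rw [h1]
  congr 1
  rw [← Q.inner_map_map, Q.apply_symm_apply]

end Vale.Agent.P134
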