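import Vale.Agent.P134.Defs

/-! # P134, module SPAN: no monotone solution is periodic in directions whose span contains `e`

Write `e = ∑ j, c j • v j`.  The sequence `q ↦ (Int.fract (q * c j))_j` in the compact cube has a
convergent subsequence, so for every `δ > 0` there are natural numbers `q1 < q2` with
`|fract (q2 c j) - fract (q1 c j)| < δ` for all `j`; with `q = q2 - q1 ≥ 1` and integers `k j`
(`= ⌊q2 c j⌋ - ⌊q1 c j⌋`) we get `|q c j - k j| < δ`.  So
`u (q • e) = u (∑ j, (q c j - k j) • v j)` by periodicity, which tends to `u 0` as `δ → 0`, while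
`u (q • e) ≥ u e > u 0` since `t ↦ u (t • e)` is strictly increasing. -/

open MeasureTheory Set Filter Topology

namespace Vale.Agent.P134

theorem SPAN_per {n m : ℕ} {u : E n → ℝ} {v : Fin m → E n} (hper : ∀ j x, u (x + v j) = u x)
    (k : Fin m → ℤ) (s : Finset (Fin m)) : Function.Periodic u (∑ j ∈ s, k j • v j) := by
  classical
  induction s using Finset.induction_on with
  | empty => simp [Function.Periodic]
  | insert a s ha ih =>
    rw [Finset.sum_insert ha]
    exact (Function.Periodic.zsmul (hper a) (k a)).add_period ih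

theorem SPAN_mono {n : ℕ} {u : E n → ℝ} (hu : ContDiff ℝ 2 u) {e : E n}
    (he : ∀ x, 0 < dd e u x) : StrictMono fun t : ℝ => u (t • e) := by
  have hd : ∀ t : ℝ, HasDerivAt (fun t : ℝ => u (t • e)) (dd e u (t • e)) t := by
    intro t
    have h1 : HasFDerivAt u (fderiv ℝ u (t • e)) (t • e) :=
      (hu.differentiable (by norm_num)).differentiableAt.hasFDerivAt
    have h2 : HasDerivAt (fun t : ℝ => t • e) ((1 : ℝ) • e) t := (hasDerivAt_id t).smul_const e
    have h3 := h1.comp_hasDerivAt t h2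
    rw [one_smul] at h3
    exact h3
  refine strictMono_of_deriv_pos fun t => ?_
  rw [(hd t).deriv]
  exact he _

theorem span_contra {n m : ℕ} {u : E n → ℝ} (hu : ContDiff ℝ 2 u) {e : E n}
    (he : ∀ x, 0 < dd e u x) {v : Fin m → E n} (hper : ∀ j x, u (x + v j) = u x)
    (hspan : e ∈ Submodule.span ℝ (Set.range v)) : False := by
  obtain ⟨c, hc⟩ := (Submodule.mem_span_range_iff_exists_fun ℝ).1 hspan
  have hm := SPAN_mono hu he
  have hK : IsCompact (Set.Icc (0 : Fin m → ℝ) 1) := isCompact_Icc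
  obtain ⟨a, -, φ, hφ, hlim⟩ := hK.tendsto_subseq
    (x := fun q : ℕ => fun j => Int.fract ((q : ℝ) * c j)) (fun q =>
      ⟨fun j => Int.fract_nonneg _, fun j => (Int.fract_lt_one _).le⟩)
  have h1 : Tendsto (fun k : ℕ => (fun j => Int.fract ((φ (k + 1) : ℝ) * c j)) -
      (fun j => Int.fract ((φ k : ℝ) * c j))) atTop (𝓝 (a - a)) :=
    (hlim.comp (tendsto_add_atTop_nat 1)).sub hlim
  rw [sub_self] at h1
  have hF : Continuous fun b : Fin m → ℝ => u (∑ j, b j • v j) :=
    hu.continuous.comp (continuous_finsetSum _ fun j _ =>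
      (continuous_apply j).smul continuous_const)
  have h2 := (hF.tendsto 0).comp h1
  have h01 : u 0 < u e := by
    have := hm (show (0 : ℝ) < 1 by norm_num)
    simpa using this
  have h3 : u (∑ j, (0 : Fin m → ℝ) j • v j) < u e := by simpa using h01
  obtain ⟨k, hk⟩ := (h2.eventually (gt_mem_nhds h3)).exists
  simp only [Function.comp] at hk
  have hlt : φ k < φ (k + 1) := hφ (Nat.lt_succ_self k)
  have hq : (1 : ℝ) ≤ (φ (k + 1) : ℝ) - φ k := by
    have : (φ k : ℝ) + 1 ≤ φ (k + 1) := by exact_mod_cast hlt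
    linarith
  have h4 : u e ≤ u (((φ (k + 1) : ℝ) - φ k) • e) := by
    have := hm.monotone hq
    simpa using this
  have h5 : ((φ (k + 1) : ℝ) - φ k) • e =
      ∑ j, ((fun j => Int.fract ((φ (k + 1) : ℝ) * c j)) -
        (fun j => Int.fract ((φ k : ℝ) * c j))) j • v j +
      ∑ j, (⌊(φ (k + 1) : ℝ) * c j⌋ - ⌊(φ k : ℝ) * c j⌋) • v j := by
    rw [← Finset.sum_add_distrib]
    conv_lhs => rw [← hc, Finset.smul_sum]
    refine Finset.sum_congr rfl fun j _ => ?_
    rw [← Int.cast_smul_eq_zsmul ℝ, ← add_smul, smul_smul]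
    congr 1
    simp only [Pi.sub_apply, Int.cast_sub]
    have e1 := Int.fract_add_floor ((φ (k + 1) : ℝ) * c j)
    have e2 := Int.fract_add_floor ((φ k : ℝ) * c j)
    linarith
  rw [h5, SPAN_per hper (fun j => ⌊(φ (k + 1) : ℝ) * c j⌋ - ⌊(φ k : ℝ) * c j⌋) Finset.univ] at h4
  linarith

end Vale.Agent.P134
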