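import Vale.Agent.P134.Final3
import Vale.Agent.P134.Span

/-! # P134, stage 2, final form -/

open MeasureTheory Set Filter Topology
open scoped InnerProductSpace

namespace Vale.Agent.P134

/-- De Giorgi's conjecture for solutions with `n - 3` independent periods -/
theorem periodic4 {n : ℕ} (hn : 3 ≤ n) {u : E n → ℝ} (hu : IsSol u) {e : E n}
    (he : ∀ x, 0 < dd e u x) {v : Fin (n - 3) → E n} (hv : LinearIndependent ℝ v)
    (hper : ∀ j x, u (x + v j) = u x) :
    ∃ (f : E n) (h : ℝ → ℝ), ‖f‖ = 1 ∧ ∀ x, u x = h ⟪f, x⟫_ℝ :=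
  periodic3 hn hu he (linearIndependent_finCons.2 ⟨hv, fun h => span_contra hu.1 he hper h⟩) hper

end Vale.Agent.P134
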