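import Vale.Agent.P134.Ident
import Vale.Agent.P134.CurvReg

/-! # P134, module GEO: sum of `ident` over `a = single j 1`, together with `curv_le`

(`pd j u = dd (single j 1) u` by `rfl`; all integrands are continuous with compact support.) -/

open MeasureTheory Set Filter Topology

namespace Vale.Agent.P134

theorem GEO_dd_cont {n : ℕ} {f : E n → ℝ} (hf : ContDiff ℝ 1 f) (a : E n) :
    Continuous (dd a f) :=
  (hf.continuous_fderiv one_ne_zero).clm_apply continuous_const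

theorem GEO_dd_C1 {n : ℕ} {f : E n → ℝ} (hf : ContDiff ℝ 2 f) (a : E n) :
    ContDiff ℝ 1 (dd a f) :=
  (hf.fderiv_right (m := 1) (by norm_num)).clm_apply contDiff_const

/-- the integrand of `ident` -/
noncomputable def GEO_F {n : ℕ} (u ζ : E n → ℝ) (e a : E n) (x : E n) : ℝ :=
  ζ x ^ 2 * ∑ i, (pd i (dd a u) x - dd a u x / dd e u x * pd i (dd e u) x) ^ 2

theorem GEO_F_int {n : ℕ} {u ζ : E n → ℝ} (hu : ContDiff ℝ 2 u) {e : E n}
    (he : ∀ x, 0 < dd e u x) (a : E n) (hζ : ContDiff ℝ 1 ζ) (hs : HasCompactSupport ζ) :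
    Integrable (GEO_F u ζ e a) := by
  have h1 : ContDiff ℝ 1 u := hu.of_le (by norm_num)
  have hc : Continuous (GEO_F u ζ e a) := by
    unfold GEO_F
    refine (hζ.continuous.pow 2).mul (continuous_finset_sum _ fun i _ => ?_)
    refine ((GEO_dd_cont (GEO_dd_C1 hu a) _).sub ?_).pow 2
    exact ((GEO_dd_cont h1 a).div (GEO_dd_cont h1 e) fun x => (he x).ne').mul
      (GEO_dd_cont (GEO_dd_C1 hu e) _)
  refine hc.integrable_of_hasCompactSupport ?_
  refine hs.mono fun x hx => ?_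
  rw [Function.mem_support] at hx ⊢
  intro h
  apply hx
  unfold GEO_F
  rw [h]
  ring

/-- the integrand of the right-hand side -/
noncomputable def GEO_G {n : ℕ} (u ζ : E n → ℝ) (a : E n) (x : E n) : ℝ :=
  dd a u x ^ 2 * ∑ i, pd i ζ x ^ 2

theorem GEO_G_int {n : ℕ} {u ζ : E n → ℝ} (hu : ContDiff ℝ 2 u) (a : E n)
    (hζ : ContDiff ℝ 1 ζ) (hs : HasCompactSupport ζ) :
    Integrable (GEO_G u ζ a) := by
  have h1 : ContDiff ℝ 1 u := hu.of_le (by norm_num)
  have hc : Continuous (GEO_G u ζ a) := by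
    unfold GEO_G
    exact ((GEO_dd_cont h1 a).pow 2).mul
      (continuous_finset_sum _ fun i _ => (GEO_dd_cont hζ _).pow 2)
  refine hc.integrable_of_hasCompactSupport ?_
  refine (hs.fderiv (𝕜 := ℝ)).mono fun x hx => ?_
  rw [Function.mem_support] at hx ⊢
  intro h
  apply hx
  unfold GEO_G pd
  rw [h]
  simp

theorem geo {n : ℕ} {u ζ : E n → ℝ} (hu : IsSol u) {e : E n} (he : ∀ x, 0 < dd e u x)
    (hζ : ContDiff ℝ 1 ζ) (hs : HasCompactSupport ζ) :
    ∫ x, ζ x ^ 2 * curv u x ≤ 4 * ∫ x, gr u x * ∑ i, pd i ζ x ^ 2 := by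
  have hu2 : ContDiff ℝ 2 u := hu.1
  have hFi : ∀ j : Fin n, Integrable (GEO_F u ζ e (EuclideanSpace.single j 1)) := fun j =>
    GEO_F_int hu2 he _ hζ hs
  have hGi : ∀ j : Fin n, Integrable (GEO_G u ζ (EuclideanSpace.single j 1)) := fun j =>
    GEO_G_int hu2 _ hζ hs
  have h1 : ∫ x, ζ x ^ 2 * curv u x ≤
      ∫ x, ∑ j : Fin n, GEO_F u ζ e (EuclideanSpace.single j 1) x := by
    refine integral_mono_of_nonneg (Filter.Eventually.of_forall fun x =>
      mul_nonneg (sq_nonneg _) (curv_nonneg u x)) (integrable_finset_sum _ fun j _ => hFi j)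
      (Filter.Eventually.of_forall fun x => ?_)
    change ζ x ^ 2 * curv u x ≤ ∑ j : Fin n, GEO_F u ζ e (EuclideanSpace.single j 1) x
    unfold GEO_F
    rw [← Finset.mul_sum]
    exact mul_le_mul_of_nonneg_left (curv_le (he x)) (sq_nonneg _)
  have h2 : ∫ x, ∑ j : Fin n, GEO_F u ζ e (EuclideanSpace.single j 1) x =
      ∑ j : Fin n, ∫ x, GEO_F u ζ e (EuclideanSpace.single j 1) x :=
    integral_finset_sum _ fun j _ => hFi j
  have h3 : ∑ j : Fin n, ∫ x, GEO_F u ζ e (EuclideanSpace.single j 1) x ≤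
      ∑ j : Fin n, 4 * ∫ x, GEO_G u ζ (EuclideanSpace.single j 1) x :=
    Finset.sum_le_sum fun j _ => ident hu he (EuclideanSpace.single j 1) hζ hs
  have h4 : ∑ j : Fin n, 4 * ∫ x, GEO_G u ζ (EuclideanSpace.single j 1) x =
      4 * ∫ x, gr u x * ∑ i, pd i ζ x ^ 2 := by
    rw [← Finset.mul_sum, ← integral_finset_sum _ fun j _ => hGi j]
    congr 1
    refine integral_congr_ae (Filter.Eventually.of_forall fun x => ?_)
    change ∑ j : Fin n, GEO_G u ζ (EuclideanSpace.single j 1) x = gr u x * ∑ i, pd i ζ x ^ 2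
    unfold GEO_G gr
    rw [Finset.sum_mul]
    rfl
  calc ∫ x, ζ x ^ 2 * curv u x ≤ _ := h1
    _ = _ := h2
    _ ≤ _ := h3
    _ = _ := h4

end Vale.Agent.P134
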