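import Vale.Agent.P134.MaxP

/-! # P134, module GRAD: gradient estimate (Gilbarg-Trudinger, section 3.4)

By translation take `x = 0`, `l = i`.  `φ x = (w x - w (x')) / 2` with `x'` the reflection of `x` in
`{x l = 0}`; barrier `ψ x = M (∑_{i ≠ l} (x i)² + x l (n - (n-1) x l)) + F / 2 * x l (1 - x l)`, with
`Δψ = - F` (each of the `n - 1` squares gives `2M`, the term in `x l` gives `-2 (n-1) M - F`).
`g = ± φ - ψ` satisfies the hypotheses of `max_half` (`|Δφ| ≤ F`; `φ = 0 ≤ ψ` on `x l = 0`;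
`|φ| ≤ M ≤ ψ` on the other faces).  So `|φ| ≤ ψ`; divide by `x l` at `x = t e_l`, `t → 0+`:
`|pd l w 0| ≤ n M + F / 2`. -/

open MeasureTheory Set Filter Topology

namespace Vale.Agent.P134

theorem GRAD_comp {n : ℕ} {v : E n → ℝ} (hv : Differentiable ℝ v) (R : E n →L[ℝ] E n) {s : ℝ}
    {j : Fin n} (hR : R (EuclideanSpace.single j 1) = s • EuclideanSpace.single j 1) (x y : E n) :
    pd j (fun z => v (x + R z)) y = s * pd j v (x + R y) := by
  have h : HasFDerivAt (fun z => v (x + R z)) ((fderiv ℝ v (x + R y)).comp R) y :=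
    (hv (x + R y)).hasFDerivAt.comp y (R.hasFDerivAt.const_add x)
  unfold pd
  rw [h.fderiv]
  show fderiv ℝ v (x + R y) (R (EuclideanSpace.single j 1)) = _
  rw [hR, map_smul, smul_eq_mul]

theorem GRAD_mul {n : ℕ} {v : E n → ℝ} (hv : Differentiable ℝ v) (s : ℝ) (j : Fin n) (y : E n) :
    pd j (fun z => s * v z) y = s * pd j v y := by
  have h : HasFDerivAt (fun z => s * v z) (s • fderiv ℝ v y) y := (hv y).hasFDerivAt.const_mul s
  unfold pd
  rw [h.fderiv]
  rfl

theorem GRAD_pdC {n : ℕ} {v : E n → ℝ} (hv : ContDiff ℝ 2 v) (j : Fin n) : ContDiff ℝ 1 (pd j v) :=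
  (hv.fderiv_right (m := 1) (by norm_num)).clm_apply contDiff_const

theorem GRAD_pd2 {n : ℕ} {v : E n → ℝ} (hv : ContDiff ℝ 2 v) (R : E n →L[ℝ] E n) {s : ℝ}
    (hs : s * s = 1) {j : Fin n} (hR : R (EuclideanSpace.single j 1) = s • EuclideanSpace.single j 1)
    (x y : E n) : pd j (pd j (fun z => v (x + R z))) y = pd j (pd j v) (x + R y) := by
  have h1 : pd j (fun z => v (x + R z)) = fun z => s * pd j v (x + R z) :=
    funext fun z => GRAD_comp (hv.differentiable two_ne_zero) R hR x z
  have h2 : Differentiable ℝ (pd j v) := (GRAD_pdC hv j).differentiable one_ne_zero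
  have h3 : Differentiable ℝ (fun z => pd j v (x + R z)) :=
    h2.comp (R.differentiable.const_add x)
  rw [h1, GRAD_mul h3, GRAD_comp h2 R hR, ← mul_assoc, hs, one_mul]

theorem GRAD_lin {n : ℕ} {f h k : E n → ℝ} (hf : Differentiable ℝ f) (hh : Differentiable ℝ h)
    (hk : Differentiable ℝ k) (c d : ℝ) (j : Fin n) (y : E n) :
    pd j (fun z => c * f z + d * h z + k z) y = c * pd j f y + d * pd j h y + pd j k y := by
  have h1 : HasFDerivAt (fun z => c * f z + d * h z + k z)
      (c • fderiv ℝ f y + d • fderiv ℝ h y + fderiv ℝ k y) y :=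
    (((hf y).hasFDerivAt.const_mul c).add ((hh y).hasFDerivAt.const_mul d)).add
      (hk y).hasFDerivAt
  unfold pd
  rw [h1.fderiv]
  rfl

theorem GRAD_quadC {n : ℕ} (a : Fin n → ℝ) (b : ℝ) (l : Fin n) :
    ContDiff ℝ 2 (fun z : E n => ∑ i, a i * z i ^ 2 + b * z l) := by
  refine ContDiff.add (ContDiff.sum fun i _ => contDiff_const.mul ?_) (contDiff_const.mul ?_)
  · exact (EuclideanSpace.proj (𝕜 := ℝ) i).contDiff.pow 2
  · exact (EuclideanSpace.proj (𝕜 := ℝ) l).contDiff

theorem GRAD_single {n : ℕ} (i j : Fin n) :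
    (EuclideanSpace.proj (𝕜 := ℝ) i : E n →L[ℝ] ℝ) (EuclideanSpace.single j 1) =
      if i = j then 1 else 0 := by
  simp

theorem GRAD_quad {n : ℕ} (a : Fin n → ℝ) (b : ℝ) (l j : Fin n) (y : E n) :
    pd j (fun z : E n => ∑ i, a i * z i ^ 2 + b * z l) y =
      2 * a j * y j + b * (if l = j then 1 else 0) := by
  have h1 : ∀ i : Fin n, HasFDerivAt (fun z : E n => a i * z i ^ 2)
      (a i • ((2 * y i) • (EuclideanSpace.proj (𝕜 := ℝ) i : E n →L[ℝ] ℝ))) y := by
    intro i
    have h2 := ((EuclideanSpace.proj (𝕜 := ℝ) i : E n →L[ℝ] ℝ).hasFDerivAt (x := y)).pow 2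
    have h3 := h2.const_mul (a i)
    refine h3.congr_fderiv ?_
    ext z
    simp
  have h4 : HasFDerivAt (fun z : E n => ∑ i, a i * z i ^ 2 + b * z l)
      (∑ i, a i • ((2 * y i) • (EuclideanSpace.proj (𝕜 := ℝ) i : E n →L[ℝ] ℝ)) +
        b • (EuclideanSpace.proj (𝕜 := ℝ) l : E n →L[ℝ] ℝ)) y := by
    refine HasFDerivAt.add ?_ ((EuclideanSpace.proj (𝕜 := ℝ) l : E n →L[ℝ] ℝ).hasFDerivAt.const_mul b)
    exact HasFDerivAt.fun_sum fun i _ => h1 i
  unfold pd
  rw [h4.fderiv, ContinuousLinearMap.add_apply, ContinuousLinearMap.sum_apply]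
  simp only [ContinuousLinearMap.smul_apply, GRAD_single, smul_eq_mul]
  congr 1
  rw [Finset.sum_eq_single j]
  · rw [if_pos rfl]
    ring
  · intro i _ hi
    rw [if_neg hi]
    ring
  · intro h
    exact absurd (Finset.mem_univ j) h

theorem GRAD_quad2 {n : ℕ} (a : Fin n → ℝ) (b : ℝ) (l j : Fin n) (y : E n) :
    pd j (pd j (fun z : E n => ∑ i, a i * z i ^ 2 + b * z l)) y = 2 * a j := by
  have h1 : pd j (fun z : E n => ∑ i, a i * z i ^ 2 + b * z l) =
      fun z => 2 * a j * z j + b * (if l = j then 1 else 0) :=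
    funext fun z => GRAD_quad a b l j z
  rw [h1]
  have h2 : HasFDerivAt (fun z : E n => 2 * a j * z j + b * (if l = j then 1 else 0))
      ((2 * a j) • (EuclideanSpace.proj (𝕜 := ℝ) j : E n →L[ℝ] ℝ)) y :=
    ((EuclideanSpace.proj (𝕜 := ℝ) j : E n →L[ℝ] ℝ).hasFDerivAt.const_mul _).add_const _
  unfold pd
  rw [h2.fderiv, ContinuousLinearMap.smul_apply, GRAD_single, if_pos rfl, smul_eq_mul, mul_one]

/-- the reflection -/
noncomputable def GRAD_R {n : ℕ} (l : Fin n) : E n →L[ℝ] E n :=
  ContinuousLinearMap.id ℝ (E n) -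
    (EuclideanSpace.proj (𝕜 := ℝ) l : E n →L[ℝ] ℝ).smulRight ((2 : ℝ) • EuclideanSpace.single l 1)

theorem GRAD_R_apply {n : ℕ} (l : Fin n) (z : E n) :
    GRAD_R l z = z - z l • ((2 : ℝ) • EuclideanSpace.single l 1) := rfl

theorem GRAD_R_single {n : ℕ} (l j : Fin n) :
    GRAD_R l (EuclideanSpace.single j 1) = (if l = j then (-1 : ℝ) else 1) •
      EuclideanSpace.single j 1 := by
  have h := GRAD_single l j
  have h2 : (EuclideanSpace.single j (1 : ℝ) : E n) l = if l = j then 1 else 0 := h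
  rw [GRAD_R_apply, h2]
  by_cases hlj : l = j
  · subst hlj
    rw [if_pos rfl, if_pos rfl, one_smul, two_smul, neg_one_smul]
    abel
  · rw [if_neg hlj, if_neg hlj, zero_smul, sub_zero, one_smul]

theorem GRAD_side {n : ℕ} {w : E n → ℝ} (hw : ContDiff ℝ 2 w) {M F : ℝ} (hM : ∀ x, |w x| ≤ M)
    (hF : ∀ x, |∑ i, pd i (pd i w) x| ≤ F) (l : Fin n) (x : E n) {s : ℝ} (hs : s = 1 ∨ s = -1)
    {t : ℝ} (ht : 0 ≤ t) (ht1 : t ≤ 1) :
    s * ((w (x + EuclideanSpace.single l t) - w (x - EuclideanSpace.single l t)) / 2) ≤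
      t * (n * M + F / 2) := by
  have hM0 : 0 ≤ M := (abs_nonneg _).trans (hM 0)
  have hF0 : 0 ≤ F := (abs_nonneg _).trans (hF 0)
  have hn : (1 : ℝ) ≤ n := by
    have h : 1 ≤ n := l.pos
    exact_mod_cast h
  have hs1 : |s| = 1 := by
    rcases hs with h | h
    · rw [h, abs_one]
    · rw [h, abs_neg, abs_one]
  obtain ⟨a, ha⟩ : ∃ a : Fin n → ℝ, a = fun i => if i = l then (n - 1) * M + F / 2 else -M :=
    ⟨_, rfl⟩
  obtain ⟨b, hb⟩ : ∃ b : ℝ, b = -(n * M + F / 2) := ⟨_, rfl⟩
  have hsum : ∀ z : E n, ∑ i, a i * z i ^ 2 + b * z l =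
      -(M * ∑ i ∈ Finset.univ.erase l, z i ^ 2) - z l * (M * (n - (n - 1) * z l) +
        F / 2 * (1 - z l)) := by
    intro z
    rw [← Finset.add_sum_erase _ _ (Finset.mem_univ l)]
    have h1 : ∑ i ∈ Finset.univ.erase l, a i * z i ^ 2 =
        -(M * ∑ i ∈ Finset.univ.erase l, z i ^ 2) := by
      rw [Finset.mul_sum, ← Finset.sum_neg_distrib]
      refine Finset.sum_congr rfl fun i hi => ?_
      rw [ha]
      show (if i = l then _ else _) * _ = _
      rw [if_neg (Finset.ne_of_mem_erase hi)]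
      ring
    have h2 : a l = (n - 1) * M + F / 2 := by
      rw [ha]
      show (if l = l then _ else _) = _
      rw [if_pos rfl]
    rw [h1, h2, hb]
    ring
  have hasum : ∑ i, 2 * a i = F := by
    rw [← Finset.mul_sum, ← Finset.add_sum_erase _ _ (Finset.mem_univ l)]
    have h1 : ∑ i ∈ Finset.univ.erase l, a i = -((n - 1) * M) := by
      have h3 : ∑ i ∈ Finset.univ.erase l, a i = ∑ _i ∈ Finset.univ.erase l, -M := by
        refine Finset.sum_congr rfl fun i hi => ?_
        rw [ha]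
        show (if i = l then _ else _) = _
        rw [if_neg (Finset.ne_of_mem_erase hi)]
      rw [h3, Finset.sum_const, Finset.card_erase_of_mem (Finset.mem_univ l), Finset.card_univ,
        Fintype.card_fin, nsmul_eq_mul, Nat.cast_sub l.pos, Nat.cast_one]
      ring
    have h2 : a l = (n - 1) * M + F / 2 := by
      rw [ha]
      show (if l = l then _ else _) = _
      rw [if_pos rfl]
    rw [h1, h2]
    ring
  obtain ⟨k, hk⟩ : ∃ k : E n → ℝ, k = fun z : E n => ∑ i, a i * z i ^ 2 + b * z l := ⟨_, rfl⟩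
  have hkC : ContDiff ℝ 2 k := by
    rw [hk]
    exact GRAD_quadC a b l
  obtain ⟨I, hI⟩ : ∃ I : E n →L[ℝ] E n, I = ContinuousLinearMap.id ℝ (E n) := ⟨_, rfl⟩
  have hC1 : ContDiff ℝ 2 (fun z => w (x + I z)) := hw.comp (contDiff_const.add I.contDiff)
  have hC2 : ContDiff ℝ 2 (fun z => w (x + GRAD_R l z)) :=
    hw.comp (contDiff_const.add (GRAD_R l).contDiff)
  have hg : ContDiff ℝ 2 (fun z => s / 2 * w (x + I z) + -(s / 2) * w (x + GRAD_R l z) + k z) :=
    ((contDiff_const.mul hC1).add (contDiff_const.mul hC2)).add hkC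
  have hI1 : ∀ j : Fin n, I (EuclideanSpace.single j 1) = (1 : ℝ) • EuclideanSpace.single j 1 := by
    intro j
    rw [hI, one_smul]
    rfl
  have hlap : ∀ y : E n, ∑ i, pd i (pd i (fun z => s / 2 * w (x + I z) +
      -(s / 2) * w (x + GRAD_R l z) + k z)) y =
      s / 2 * (∑ i, pd i (pd i w) (x + I y)) - s / 2 * (∑ i, pd i (pd i w) (x + GRAD_R l y)) + F := by
    intro y
    rw [← hasum, Finset.mul_sum, Finset.mul_sum, ← Finset.sum_sub_distrib,
      ← Finset.sum_add_distrib]
    refine Finset.sum_congr rfl fun j _ => ?_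
    have e1 : pd j (fun z => s / 2 * w (x + I z) + -(s / 2) * w (x + GRAD_R l z) + k z) =
        fun y => s / 2 * pd j (fun z => w (x + I z)) y +
          -(s / 2) * pd j (fun z => w (x + GRAD_R l z)) y + pd j k y :=
      funext fun y => GRAD_lin (hC1.differentiable two_ne_zero) (hC2.differentiable two_ne_zero)
        (hkC.differentiable two_ne_zero) _ _ j y
    rw [e1, GRAD_lin ((GRAD_pdC hC1 j).differentiable one_ne_zero)
      ((GRAD_pdC hC2 j).differentiable one_ne_zero)
      ((GRAD_pdC hkC j).differentiable one_ne_zero),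
      GRAD_pd2 hw I (s := 1) (by norm_num) (hI1 j),
      GRAD_pd2 hw (GRAD_R l) (s := if l = j then (-1 : ℝ) else 1) (by split_ifs <;> norm_num)
        (GRAD_R_single l j), hk, GRAD_quad2]
    ring
  have hb0 : ∀ y : E n, |s / 2 * w (x + I y) + -(s / 2) * w (x + GRAD_R l y)| ≤ M := by
    intro y
    have h1 : s / 2 * w (x + I y) + -(s / 2) * w (x + GRAD_R l y) =
        s * ((w (x + I y) - w (x + GRAD_R l y)) / 2) := by ring
    rw [h1, abs_mul, hs1, one_mul, abs_div, abs_two]
    have h2 := abs_sub (w (x + I y)) (w (x + GRAD_R l y))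
    have h3 := hM (x + I y)
    have h4 := hM (x + GRAD_R l y)
    linarith
  have hmax := max_half hg l (fun y _ _ => by
      rw [hlap]
      have h1 := hF (x + I y)
      have h2 := hF (x + GRAD_R l y)
      generalize (∑ i, pd i (pd i w) (x + I y)) = A at h1 ⊢
      generalize (∑ i, pd i (pd i w) (x + GRAD_R l y)) = B at h2 ⊢
      rw [abs_le] at h1 h2
      rcases hs with h | h
      · rw [h]
        linarith
      · rw [h]
        linarith)
    (fun y _ hyl => by
      have h1 : GRAD_R l y = I y := by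
        rw [GRAD_R_apply, hyl, zero_smul, sub_zero, hI]
        rfl
      have h2 : 0 ≤ M * ∑ i ∈ Finset.univ.erase l, y i ^ 2 :=
        mul_nonneg hM0 (Finset.sum_nonneg fun i _ => sq_nonneg _)
      show s / 2 * w (x + I y) + -(s / 2) * w (x + GRAD_R l y) + k y ≤ 0
      rw [h1, hk]
      show s / 2 * w (x + I y) + -(s / 2) * w (x + I y) + (∑ i, a i * y i ^ 2 + b * y l) ≤ 0
      rw [hsum, hyl]
      linarith)
    (fun y hy hyl hyi => by
      have h1 := (abs_le.1 (hb0 y)).2
      show s / 2 * w (x + I y) + -(s / 2) * w (x + GRAD_R l y) + k y ≤ 0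
      have h2 : k y ≤ -M := by
        rw [hk]
        show (∑ i, a i * y i ^ 2 + b * y l) ≤ -M
        rw [hsum]
        have hyl1 : y l ≤ 1 := (le_abs_self _).trans (hy l)
        have h3 : 0 ≤ ∑ i ∈ Finset.univ.erase l, y i ^ 2 :=
          Finset.sum_nonneg fun i _ => sq_nonneg _
        have h4 : 1 ≤ (n : ℝ) - (n - 1) * y l := by nlinarith
        have h5 : 0 ≤ F / 2 * (1 - y l) := mul_nonneg (by linarith) (by linarith)
        obtain ⟨i, hi⟩ := hyi
        by_cases hil : i = l
        · have h6 : y l = 1 := by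
            rw [hil, abs_of_nonneg hyl] at hi
            exact hi
          rw [h6]
          nlinarith
        · have h6 : 1 ≤ ∑ i ∈ Finset.univ.erase l, y i ^ 2 := by
            have h7 : y i ^ 2 ≤ ∑ i ∈ Finset.univ.erase l, y i ^ 2 :=
              Finset.single_le_sum (f := fun i => y i ^ 2) (fun j _ => sq_nonneg _)
                (Finset.mem_erase.2 ⟨hil, Finset.mem_univ i⟩)
            rw [← sq_abs, hi, one_pow] at h7
            exact h7
          have h8 : M * 1 ≤ M * ∑ i ∈ Finset.univ.erase l, y i ^ 2 :=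
            mul_le_mul_of_nonneg_left h6 hM0
          have h9 : 0 ≤ y l * (M * (n - (n - 1) * y l) + F / 2 * (1 - y l)) := by
            refine mul_nonneg hyl (add_nonneg (mul_nonneg hM0 (by linarith)) h5)
          linarith
      linarith)
  have hcoord : ∀ i : Fin n, (EuclideanSpace.single l t : E n) i = if i = l then t else 0 := by
    intro i
    simp
  have hfin := hmax (EuclideanSpace.single l t) (fun i => by
      rw [hcoord]
      split_ifs
      · rw [abs_of_nonneg ht]
        exact ht1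
      · rw [abs_zero]
        exact zero_le_one) (by
      rw [hcoord, if_pos rfl]
      exact ht)
  have h1 : I (EuclideanSpace.single l t) = EuclideanSpace.single l t := by
    rw [hI]
    rfl
  have h2 : x + GRAD_R l (EuclideanSpace.single l t) = x - EuclideanSpace.single l t := by
    have h3 : (EuclideanSpace.single l t : E n) = t • EuclideanSpace.single l 1 := by
      ext i
      simp
    rw [GRAD_R_apply, hcoord, if_pos rfl, h3, smul_smul, sub_eq_add_neg, sub_eq_add_neg,
      ← neg_smul, ← neg_smul, ← add_smul]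
    congr 2
    ring
  have h3 : k (EuclideanSpace.single l t) = -(t * (M * (n - (n - 1) * t) + F / 2 * (1 - t))) := by
    rw [hk]
    show ∑ i, a i * (EuclideanSpace.single l t : E n) i ^ 2 +
      b * (EuclideanSpace.single l t : E n) l = _
    rw [hsum, hcoord l, if_pos rfl, Finset.sum_eq_zero]
    · ring
    · intro i hi
      rw [hcoord, if_neg (Finset.ne_of_mem_erase hi)]
      ring
  have h4 : s / 2 * w (x + I (EuclideanSpace.single l t)) +
      -(s / 2) * w (x + GRAD_R l (EuclideanSpace.single l t)) + k (EuclideanSpace.single l t) ≤ 0 :=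
    hfin
  rw [h1, h2, h3] at h4
  have h5 : t * (M * (n - (n - 1) * t) + F / 2 * (1 - t)) ≤ t * (n * M + F / 2) := by
    refine mul_le_mul_of_nonneg_left ?_ ht
    have h6 : 0 ≤ M * ((n - 1) * t) := mul_nonneg hM0 (mul_nonneg (by linarith) ht)
    have h7 : 0 ≤ F / 2 * t := mul_nonneg (by linarith) ht
    linarith
  linarith

theorem grad_est {n : ℕ} {w : E n → ℝ} (hw : ContDiff ℝ 2 w) {M F : ℝ} (hM : ∀ x, |w x| ≤ M)
    (hF : ∀ x, |∑ i, pd i (pd i w) x| ≤ F) (l : Fin n) (x : E n) :
    |pd l w x| ≤ n * M + F / 2 := by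
  have hd := hw.differentiable two_ne_zero
  have hst : ∀ t : ℝ, (EuclideanSpace.single l t : E n) = t • EuclideanSpace.single l 1 := by
    intro t
    ext i
    simp
  have key : ∀ s : ℝ, s = 1 ∨ s = -1 → s * pd l w x ≤ n * M + F / 2 := by
    intro s hs
    have d1 : HasDerivAt (fun t : ℝ => w (x + t • EuclideanSpace.single l 1)) (pd l w x) 0 := by
      have h1 : HasFDerivAt w (fderiv ℝ w x) (x + (0 : ℝ) • EuclideanSpace.single l 1) := by
        rw [zero_smul, add_zero]
        exact (hd x).hasFDerivAt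
      have h2 : HasDerivAt (fun t : ℝ => x + t • (EuclideanSpace.single l 1 : E n))
          (EuclideanSpace.single l 1) 0 := by
        have h3 := ((hasDerivAt_id (0 : ℝ)).smul_const (EuclideanSpace.single l 1 : E n)).const_add x
        rw [one_smul] at h3
        exact h3
      exact h1.comp_hasDerivAt (0 : ℝ) h2
    have d2 : HasDerivAt (fun t : ℝ => w (x - t • EuclideanSpace.single l 1)) (-pd l w x) 0 := by
      have h1 : HasFDerivAt w (fderiv ℝ w x) (x - (0 : ℝ) • EuclideanSpace.single l 1) := by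
        rw [zero_smul, sub_zero]
        exact (hd x).hasFDerivAt
      have h2 : HasDerivAt (fun t : ℝ => x - t • (EuclideanSpace.single l 1 : E n))
          (-EuclideanSpace.single l 1) 0 := by
        have h3 := ((hasDerivAt_id (0 : ℝ)).smul_const (EuclideanSpace.single l 1 : E n)).const_sub x
        rw [one_smul] at h3
        exact h3
      have h4 := h1.comp_hasDerivAt (0 : ℝ) h2
      rw [map_neg] at h4
      exact h4
    have d3 : HasDerivAt (fun t : ℝ => s * ((w (x + t • EuclideanSpace.single l 1) -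
        w (x - t • EuclideanSpace.single l 1)) / 2) - t * (n * M + F / 2))
        (s * ((pd l w x - -pd l w x) / 2) - 1 * (n * M + F / 2)) 0 :=
      (((d1.sub d2).div_const 2).const_mul s).sub ((hasDerivAt_id (0 : ℝ)).mul_const _)
    have d4 := (hasDerivAt_iff_tendsto_slope.1 d3).mono_left
      (nhdsWithin_mono (0 : ℝ) (fun t ht => ne_of_gt ht : Ioi (0 : ℝ) ⊆ {0}ᶜ))
    have h5 : s * ((pd l w x - -pd l w x) / 2) - 1 * (n * M + F / 2) ≤ 0 := by
      refine le_of_tendsto d4 ?_
      filter_upwards [Ioc_mem_nhdsGT (zero_lt_one' ℝ)] with t ht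
      rw [slope_def_field]
      refine div_nonpos_of_nonpos_of_nonneg ?_ (by linarith [ht.1])
      have h6 := GRAD_side hw hM hF l x hs ht.1.le ht.2
      rw [hst t] at h6
      rw [zero_smul, add_zero, sub_zero, sub_self, zero_div, mul_zero, zero_mul]
      linarith
    linarith
  rw [abs_le]
  have h1 := key 1 (Or.inl rfl)
  have h2 := key (-1) (Or.inr rfl)
  constructor <;> linarith

end Vale.Agent.P134
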