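import Vale.Agent.P134.Lin

/-! # P134, module IDENT: the Liouville inequality

Put `v = dd a u`, `w = dd e u > 0` (both `C^1`), `p i = pd i v - v / w * pd i w`.  Test `lin` for `a`
with `v ζ²` and `lin` for `e` with `v² ζ² / w` (both `C^1`, compact support); the right-hand sides
are equal.  Pointwise
`∑ i, (pd i v * pd i (v ζ²) - pd i w * pd i (v² ζ² / w)) = ∑ i, (ζ² (p i)² + 2 v ζ pd i ζ p i)`, and
`2 v ζ (pd i ζ) (p i) ≥ - ζ² (p i)² / 2 - 2 v² (pd i ζ)²`. -/

open MeasureTheory Set Filter Topology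

namespace Vale.Agent.P134

theorem IDENT_mul {n : ℕ} {f g : E n → ℝ} {x : E n} (hf : DifferentiableAt ℝ f x)
    (hg : DifferentiableAt ℝ g x) (i : Fin n) :
    pd i (fun y => f y * g y) x = f x * pd i g x + pd i f x * g x := by
  unfold pd
  rw [fderiv_fun_mul hf hg]
  simp only [add_apply, smul_apply, smul_eq_mul]
  ring

theorem IDENT_cd {n : ℕ} {u : E n → ℝ} (hu : ContDiff ℝ 2 u) (a : E n) :
    ContDiff ℝ 1 (dd a u) :=
  (hu.fderiv_right (m := 1) (by norm_num)).clm_apply contDiff_const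

theorem IDENT_pdc {n : ℕ} {f : E n → ℝ} (hf : ContDiff ℝ 1 f) (i : Fin n) :
    Continuous (pd i f) :=
  (hf.continuous_fderiv (by norm_num)).clm_apply continuous_const

theorem IDENT_pds {n : ℕ} {f : E n → ℝ} (hf : HasCompactSupport f) (i : Fin n) :
    HasCompactSupport (pd i f) := by
  have h := hf.fderiv (𝕜 := ℝ)
  exact h.comp_left (g := fun L : E n →L[ℝ] ℝ => L (EuclideanSpace.single i 1)) rfl

theorem ident {n : ℕ} {u ζ : E n → ℝ} (hu : IsSol u) {e : E n} (he : ∀ x, 0 < dd e u x) (a : E n)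
    (hζ : ContDiff ℝ 1 ζ) (hs : HasCompactSupport ζ) :
    ∫ x, ζ x ^ 2 * ∑ i, (pd i (dd a u) x - dd a u x / dd e u x * pd i (dd e u) x) ^ 2 ≤
      4 * ∫ x, dd a u x ^ 2 * ∑ i, pd i ζ x ^ 2 := by
  set v := dd a u with hv
  set w := dd e u with hw
  have cv : ContDiff ℝ 1 v := IDENT_cd hu.1 a
  have cw : ContDiff ℝ 1 w := IDENT_cd hu.1 e
  have hw0 : ∀ x, w x ≠ 0 := fun x => (he x).ne'
  set φ1 : E n → ℝ := fun y => v y * (ζ y * ζ y) with hφ1
  set ψ : E n → ℝ := fun y => v y * v y * (ζ y * ζ y) with hψ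
  set φ2 : E n → ℝ := fun y => ψ y / w y with hφ2
  have c1 : ContDiff ℝ 1 φ1 := cv.mul (hζ.mul hζ)
  have cψ : ContDiff ℝ 1 ψ := (cv.mul cv).mul (hζ.mul hζ)
  have c2 : ContDiff ℝ 1 φ2 := cψ.div cw hw0
  have s1 : HasCompactSupport φ1 := by
    have h1 : HasCompactSupport (fun y => ζ y * ζ y) := hs.mul_right
    exact h1.mul_left
  have sψ : HasCompactSupport ψ := by
    have h1 : HasCompactSupport (fun y => ζ y * ζ y) := hs.mul_right
    exact h1.mul_left
  have s2 : HasCompactSupport φ2 := by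
    have h1 : φ2 = fun y => ψ y * (w y)⁻¹ := by
      funext y
      rw [hφ2]
      exact div_eq_mul_inv _ _
    rw [h1]
    exact sψ.mul_right
  have l1 := lin hu a c1 s1
  have l2 := lin hu e c2 s2
  rw [← hv] at l1
  rw [← hw] at l2
  have hrhs : ∀ x, (3 * u x ^ 2 - 1) * v x * φ1 x = (3 * u x ^ 2 - 1) * w x * φ2 x := by
    intro x
    rw [hφ1, hφ2, hψ]
    have := hw0 x
    field_simp
  simp only [hrhs] at l1
  rw [← l2] at l1
  -- integrability
  have i1 : Integrable (fun x => ∑ i, pd i v x * pd i φ1 x) := by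
    refine integrable_finsetSum _ fun i _ => ?_
    refine Continuous.integrable_of_hasCompactSupport
      ((IDENT_pdc cv i).mul (IDENT_pdc c1 i)) ?_
    exact (IDENT_pds s1 i).mul_left
  have i2 : Integrable (fun x => ∑ i, pd i w x * pd i φ2 x) := by
    refine integrable_finsetSum _ fun i _ => ?_
    refine Continuous.integrable_of_hasCompactSupport
      ((IDENT_pdc cw i).mul (IDENT_pdc c2 i)) ?_
    exact (IDENT_pds s2 i).mul_left
  have cp : ∀ i, Continuous (fun x => pd i v x - v x / w x * pd i w x) := fun i =>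
    (IDENT_pdc cv i).sub (((cv.continuous.div cw.continuous hw0)).mul (IDENT_pdc cw i))
  have i3 : Integrable (fun x => ζ x ^ 2 * ∑ i, (pd i v x - v x / w x * pd i w x) ^ 2) := by
    refine Continuous.integrable_of_hasCompactSupport
      ((hζ.continuous.pow 2).mul (continuous_finsetSum _ fun i _ => (cp i).pow 2)) ?_
    have h1 : HasCompactSupport (fun x => ζ x ^ 2) := by
      have h2 : (fun x => ζ x ^ 2) = fun x => ζ x * ζ x := by
        funext x
        exact sq _
      rw [h2]
      exact hs.mul_right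
    exact h1.mul_right
  have i4 : Integrable (fun x => v x ^ 2 * ∑ i, pd i ζ x ^ 2) := by
    have h0 : (fun x => v x ^ 2 * ∑ i, pd i ζ x ^ 2) =
        fun x => ∑ i, v x ^ 2 * (pd i ζ x * pd i ζ x) := by
      funext x
      rw [Finset.mul_sum]
      exact Finset.sum_congr rfl fun i _ => by ring
    rw [h0]
    refine integrable_finsetSum _ fun i _ => ?_
    refine Continuous.integrable_of_hasCompactSupport
      ((cv.continuous.pow 2).mul ((IDENT_pdc hζ i).mul (IDENT_pdc hζ i))) ?_
    have h1 : HasCompactSupport (fun x => pd i ζ x * pd i ζ x) := (IDENT_pds hs i).mul_right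
    exact h1.mul_left
  have hpt : ∀ x, (1 / 2) * (ζ x ^ 2 * ∑ i, (pd i v x - v x / w x * pd i w x) ^ 2) -
      2 * (v x ^ 2 * ∑ i, pd i ζ x ^ 2) ≤
      ∑ i, pd i v x * pd i φ1 x - ∑ i, pd i w x * pd i φ2 x := by
    intro x
    have dv : DifferentiableAt ℝ v x := cv.differentiable (by norm_num) x
    have dw : DifferentiableAt ℝ w x := cw.differentiable (by norm_num) x
    have dζ : DifferentiableAt ℝ ζ x := hζ.differentiable (by norm_num) x
    have dφ2 : DifferentiableAt ℝ φ2 x := c2.differentiable (by norm_num) x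
    have dζζ : DifferentiableAt ℝ (fun y => ζ y * ζ y) x := dζ.mul dζ
    have dvv : DifferentiableAt ℝ (fun y => v y * v y) x := dv.mul dv
    rw [← Finset.sum_sub_distrib, Finset.mul_sum, Finset.mul_sum, Finset.mul_sum, Finset.mul_sum,
      ← Finset.sum_sub_distrib]
    refine Finset.sum_le_sum fun i _ => ?_
    have e1 : pd i φ1 x = v x * (ζ x * pd i ζ x + pd i ζ x * ζ x) + pd i v x * (ζ x * ζ x) := by
      rw [hφ1, IDENT_mul dv dζζ i, IDENT_mul dζ dζ i]
    have eψ : pd i ψ x = v x * v x * (ζ x * pd i ζ x + pd i ζ x * ζ x) +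
        (v x * pd i v x + pd i v x * v x) * (ζ x * ζ x) := by
      rw [hψ, IDENT_mul dvv dζζ i, IDENT_mul dζ dζ i, IDENT_mul dv dv i]
    have eψ' : pd i ψ x = φ2 x * pd i w x + pd i φ2 x * w x := by
      have h1 : ψ = fun y => φ2 y * w y := by
        funext y
        rw [hφ2]
        exact (div_mul_cancel₀ _ (hw0 y)).symm
      conv_lhs => rw [h1]
      exact IDENT_mul dφ2 dw i
    have e2 : pd i φ2 x = (pd i ψ x - φ2 x * pd i w x) / w x := by
      rw [eq_div_iff (hw0 x)]
      linarith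
    have e3 : φ2 x = v x * v x * (ζ x * ζ x) / w x := rfl
    rw [e2, e1, eψ, e3]
    have hwx := hw0 x
    set q := pd i v x - v x / w x * pd i w x with hq
    have e4 : pd i v x * (v x * (ζ x * pd i ζ x + pd i ζ x * ζ x) + pd i v x * (ζ x * ζ x)) -
        pd i w x * ((v x * v x * (ζ x * pd i ζ x + pd i ζ x * ζ x) +
        (v x * pd i v x + pd i v x * v x) * (ζ x * ζ x) -
        v x * v x * (ζ x * ζ x) / w x * pd i w x) / w x) =
        ζ x ^ 2 * q ^ 2 + 2 * v x * ζ x * pd i ζ x * q := by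
      rw [hq]
      field_simp
      ring
    rw [e4]
    nlinarith [sq_nonneg (ζ x * q + 2 * v x * pd i ζ x)]
  have hfin := integral_mono ((i3.const_mul (1 / 2)).sub (i4.const_mul 2)) (i1.sub i2) hpt
  simp only [Pi.sub_apply] at hfin
  rw [integral_sub (i3.const_mul (1 / 2)) (i4.const_mul 2), integral_sub i1 i2, l1, sub_self,
    integral_const_mul, integral_const_mul] at hfin
  linarith

end Vale.Agent.P134
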