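import Vale.Agent.P134.Geo
import Vale.Agent.P134.Energy

/-! # P134, module ISO: `∫_{box c R} curv u ≤ C R^(n-2)`, for `n ≥ 2`

`geo` with the cutoff of `cut` with `r i = R`: `|pd i ζ| ≤ K / R`, supported in the double box;
`energy` on the double box gives `4 n K² / R² * C (2R)^n`.  (`R^n = R^(n-2) R²`.) -/

open MeasureTheory Set Filter Topology

namespace Vale.Agent.P134

theorem iso {n : ℕ} (hn : 2 ≤ n) : ∃ C : ℝ, 0 < C ∧ ∀ u : E n → ℝ, IsSol u →
    ∀ e : E n, (∀ x, 0 < dd e u x) → ∀ (c : E n) (R : ℝ), 1 ≤ R →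
    ∫ x in box c (fun _ => R), curv u x ≤ C * R ^ (n - 2) := by
  obtain ⟨K, hK, hcut⟩ := cut
  obtain ⟨Ce, hCe, hen⟩ := energy n
  refine ⟨4 * (n * K ^ 2) * (Ce * 2 ^ n) + 1, by positivity, fun u hu e he c R hR => ?_⟩
  have hR0 : 0 < R := lt_of_lt_of_le one_pos hR
  obtain ⟨ζ, hζ1, hζc, hζ01, hζb, hζo, hpd, hpdo, -⟩ := hcut n c (fun _ => R) (fun _ => hR0)
  have hgr0 : ∀ x, 0 ≤ gr u x := fun x => Finset.sum_nonneg fun j _ => sq_nonneg _
  have hcv : Continuous (curv u) := curv_cont hu.1 he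
  have hcomp : HasCompactSupport fun x => ζ x ^ 2 * curv u x := by
    refine HasCompactSupport.mul_right ?_
    exact hζc.comp_left (g := fun t : ℝ => t ^ 2) (by norm_num)
  have hint : Integrable fun x => ζ x ^ 2 * curv u x :=
    ((hζ1.continuous.pow 2).mul hcv).integrable_of_hasCompactSupport hcomp
  have h1 : ∫ x in box c (fun _ => R), curv u x ≤ ∫ x, ζ x ^ 2 * curv u x := by
    have h2 : ∫ x in box c (fun _ => R), curv u x
        = ∫ x in box c (fun _ => R), ζ x ^ 2 * curv u x := by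
      refine setIntegral_congr_fun (box_compact c _).measurableSet fun x hx => ?_
      simp only [hζb x hx, one_pow, one_mul]
    rw [h2]
    exact setIntegral_le_integral hint
      (ae_of_all _ fun x => mul_nonneg (sq_nonneg _) (curv_nonneg u x))
  have h3 := geo hu he hζ1 hζc
  -- the right hand side
  have hbm : MeasurableSet (box c (fun _ => 2 * R)) := (box_compact c _).measurableSet
  have hgi : IntegrableOn (gr u) (box c (fun _ => 2 * R)) :=
    (ENERGY_gr_cont hu.1).continuousOn.integrableOn_compact (box_compact c _)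
  have h4 : ∫ x, gr u x * ∑ i, pd i ζ x ^ 2 ≤
      ∫ x, (box c (fun _ => 2 * R)).indicator (fun x => (n * K ^ 2 / R ^ 2) * gr u x) x := by
    refine integral_mono_of_nonneg (ae_of_all _ fun x =>
      mul_nonneg (hgr0 x) (Finset.sum_nonneg fun i _ => sq_nonneg _)) ?_ (ae_of_all _ fun x => ?_)
    · exact (integrable_indicator_iff hbm).2 (hgi.const_mul _)
    · by_cases hx : x ∈ box c (fun _ => 2 * R)
      · rw [indicator_of_mem hx]
        have h5 : ∀ i ∈ Finset.univ, pd i ζ x ^ 2 ≤ (K / R) ^ 2 := by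
          intro i _
          have h6 : |pd i ζ x| ≤ K / R := hpd i x
          exact sq_le_sq' (by linarith [(abs_le.1 h6).1]) (abs_le.1 h6).2
        have h7 : ∑ i, pd i ζ x ^ 2 ≤ n * K ^ 2 / R ^ 2 := by
          calc ∑ i, pd i ζ x ^ 2 ≤ ∑ _i : Fin n, (K / R) ^ 2 := Finset.sum_le_sum h5
            _ = n * K ^ 2 / R ^ 2 := by
                rw [Finset.sum_const, Finset.card_univ, Fintype.card_fin, nsmul_eq_mul, div_pow,
                  mul_div_assoc]
        show gr u x * ∑ i, pd i ζ x ^ 2 ≤ (n * K ^ 2 / R ^ 2) * gr u x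
        rw [mul_comm]
        exact mul_le_mul_of_nonneg_right h7 (hgr0 x)
      · rw [indicator_of_notMem hx]
        have h8 : ∑ i, pd i ζ x ^ 2 = 0 := by
          refine Finset.sum_eq_zero fun i _ => ?_
          rw [hpdo i x hx]
          norm_num
        show gr u x * ∑ i, pd i ζ x ^ 2 ≤ 0
        rw [h8, mul_zero]
  rw [integral_indicator hbm, integral_const_mul] at h4
  have h5 := hen u hu c (fun _ => 2 * R) (fun _ => by linarith)
  rw [Finset.prod_const, Finset.card_univ, Fintype.card_fin] at h5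
  have hpow : (2 * R) ^ n = 2 ^ n * (R ^ (n - 2) * R ^ 2) := by
    rw [mul_pow, ← pow_add, Nat.sub_add_cancel hn]
  have hc0 : 0 ≤ n * K ^ 2 / R ^ 2 := by positivity
  have h6 : (n * K ^ 2 / R ^ 2) * ∫ x in box c (fun _ => 2 * R), gr u x ≤
      (n * K ^ 2) * (Ce * 2 ^ n) * R ^ (n - 2) := by
    refine (mul_le_mul_of_nonneg_left h5 hc0).trans (le_of_eq ?_)
    rw [hpow]
    field_simp
  have h7 : 0 ≤ R ^ (n - 2) := by positivity
  calc ∫ x in box c (fun _ => R), curv u x ≤ ∫ x, ζ x ^ 2 * curv u x := h1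
    _ ≤ 4 * ∫ x, gr u x * ∑ i, pd i ζ x ^ 2 := h3
    _ ≤ 4 * ((n * K ^ 2) * (Ce * 2 ^ n) * R ^ (n - 2)) := by
        refine mul_le_mul_of_nonneg_left (h4.trans h6) (by norm_num)
    _ ≤ (4 * (n * K ^ 2) * (Ce * 2 ^ n) + 1) * R ^ (n - 2) := by nlinarith

end Vale.Agent.P134
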