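import Vale.Agent.P134.Defs

/-! # P134, module LAP: the Laplacian in another orthonormal basis

The trace of a bilinear form does not depend on the orthonormal basis (expand
`b i = ∑ j, (b i) j • single j 1` and use orthonormality of the columns, or
`InnerProductSpace.laplacian_eq_iteratedFDeriv_orthonormalBasis`), applied to the second
derivative: `dd a (dd b u) x = fderiv ℝ (fderiv ℝ u) x a b`. -/

open MeasureTheory Set Filter Topology

namespace Vale.Agent.P134

private theorem LAP_trace {n : ℕ} (B : E n →L[ℝ] (E n →L[ℝ] ℝ))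
    (b e : OrthonormalBasis (Fin n) ℝ (E n)) :
    ∑ i, B (b i) (b i) = ∑ i, B (e i) (e i) := by
  have h1 : ∀ i, B (b i) (b i) = ∑ j, ∑ k, (inner ℝ (e j) (b i) * inner ℝ (b i) (e k)) *
      B (e j) (e k) := by
    intro i
    have hb : b i = ∑ j, inner ℝ (e j) (b i) • e j := by
      rw [e.sum_repr' (b i)]
    have h2 : B (b i) (b i) = B (∑ j, inner ℝ (e j) (b i) • e j) (∑ k, inner ℝ (e k) (b i) • e k) := by
      rw [← hb]
    rw [h2]
    simp only [map_sum, map_smul, smul_eq_mul, _root_.sum_apply,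
      _root_.smul_apply]
    rw [Finset.sum_comm]
    refine Finset.sum_congr rfl fun j _ => ?_
    rw [Finset.mul_sum]
    refine Finset.sum_congr rfl fun k _ => ?_
    rw [real_inner_comm (b i) (e j)]
    ring
  simp only [h1]
  rw [Finset.sum_comm]
  refine Finset.sum_congr rfl fun j _ => ?_
  rw [Finset.sum_comm]
  have h3 : ∀ k, ∑ i, (inner ℝ (e j) (b i) * inner ℝ (b i) (e k)) * B (e j) (e k) =
      inner ℝ (e j) (e k) * B (e j) (e k) := by
    intro k
    rw [← Finset.sum_mul, b.sum_inner_mul_inner]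
  simp only [h3]
  rw [Finset.sum_eq_single j]
  · rw [real_inner_self_eq_norm_sq, e.orthonormal.1 j]
    norm_num
  · intro k _ hk
    rw [e.orthonormal.2 (Ne.symm hk), zero_mul]
  · intro h
    exact absurd (Finset.mem_univ j) h

private theorem LAP_dd {n : ℕ} {u : E n → ℝ} (hu : ContDiff ℝ 2 u) (a b x : E n) :
    dd a (dd b u) x = fderiv ℝ (fderiv ℝ u) x a b := by
  unfold dd
  have h1 : ContDiff ℝ 1 (fderiv ℝ u) := hu.fderiv_right (by norm_num)
  have h2 : DifferentiableAt ℝ (fderiv ℝ u) x := h1.differentiable (by norm_num) x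
  have h3 : HasFDerivAt (fun y => fderiv ℝ u y b)
      ((ContinuousLinearMap.apply ℝ ℝ b).comp (fderiv ℝ (fderiv ℝ u) x)) x :=
    (ContinuousLinearMap.apply ℝ ℝ b).hasFDerivAt.comp x h2.hasFDerivAt
  rw [h3.fderiv]
  rfl

theorem lap_basis {n : ℕ} {u : E n → ℝ} (hu : ContDiff ℝ 2 u)
    (b : OrthonormalBasis (Fin n) ℝ (E n)) (x : E n) :
    ∑ i, dd (b i) (dd (b i) u) x = ∑ i, pd i (pd i u) x := by
  have h1 : ∀ i, pd i (pd i u) x = dd (EuclideanSpace.basisFun (Fin n) ℝ i)
      (dd (EuclideanSpace.basisFun (Fin n) ℝ i) u) x := by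
    intro i
    unfold pd dd
    rw [EuclideanSpace.basisFun_apply]
  simp only [h1, LAP_dd hu]
  exact LAP_trace _ b _

end Vale.Agent.P134
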