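import Vale.Agent.P134.Defs2

/-! # P134, module LIMD: passage to the limit in first derivatives

`f t → F` pointwise as `t → ∞`, `f t` is `C^1`, `pd i (f t)` bounded by `K` and `K`-Lipschitz.
For fixed `x`, `i`: `|f t (x + s e_i) - f t x - s pd i (f t) x| ≤ K s²` for `s > 0`, so
`pd i (f t) x` is Cauchy as `t → ∞` (take `s` small, then `t, t'` large), with limit `g i x`.
Also `|f t y - f t x - ∑ i, pd i (f t) x (y i - x i)| ≤ n K ‖y - x‖²`; let `t → ∞`:
`F` is differentiable with `pd i F = g i`, which is `K`-Lipschitz, so `F` is `C^1`. -/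

open MeasureTheory Set Filter Topology

namespace Vale.Agent.P134

theorem limd_proj_apply {n : ℕ} (i : Fin n) (v : E n) :
    (EuclideanSpace.proj i : E n →L[ℝ] ℝ) v = v i := rfl

theorem limd_fderiv {n : ℕ} (f : E n → ℝ) (x : E n) :
    fderiv ℝ f x = ∑ i, pd i f x • (EuclideanSpace.proj i : E n →L[ℝ] ℝ) := by
  ext v
  have hv : v = ∑ i, v i • (EuclideanSpace.single i (1 : ℝ) : E n) := by
    ext j
    simp [Finset.sum_apply, Pi.single_apply]
  conv_lhs => rw [hv]
  rw [map_sum, _root_.sum_apply]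
  refine Finset.sum_congr rfl fun i _ => ?_
  rw [map_smul]
  simp only [pd, _root_.smul_apply, limd_proj_apply, smul_eq_mul]
  ring

theorem limd_proj {n : ℕ} (i : Fin n) : ‖(EuclideanSpace.proj i : E n →L[ℝ] ℝ)‖ ≤ 1 := by
  refine ContinuousLinearMap.opNorm_le_bound _ zero_le_one fun v => ?_
  rw [one_mul]
  exact PiLp.norm_apply_le v i

theorem limd_taylor {n : ℕ} {f : E n → ℝ} {K : ℝ} (hK : 0 ≤ K)
    (hf : ContDiff ℝ 1 f)
    (hl : ∀ i x y, |pd i f x - pd i f y| ≤ K * ‖x - y‖) (x y : E n) :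
    |f y - f x - ∑ i, pd i f x * (y i - x i)| ≤ n * K * ‖y - x‖ ^ 2 := by
  have h := Convex.norm_image_sub_le_of_norm_fderiv_le' (𝕜 := ℝ) (f := f)
    (C := n * K * ‖y - x‖) (s := Metric.closedBall x ‖y - x‖) (x := x) (y := y)
    (φ := fderiv ℝ f x) (fun z _ => hf.differentiable one_ne_zero z) ?_
    (convex_closedBall _ _) (Metric.mem_closedBall_self (norm_nonneg _))
    (by rw [mem_closedBall_iff_norm])
  · rw [limd_fderiv f x] at h
    simp only [_root_.sum_apply, _root_.smul_apply,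
      limd_proj_apply, smul_eq_mul, Real.norm_eq_abs] at h
    calc _ = |f y - f x - ∑ i, pd i f x * (y - x) i| := by simp
      _ ≤ _ := h
      _ = _ := by ring
  · intro z hz
    rw [mem_closedBall_iff_norm] at hz
    rw [limd_fderiv f z, limd_fderiv f x, ← Finset.sum_sub_distrib]
    calc _ ≤ ∑ i : Fin n, ‖pd i f z • (EuclideanSpace.proj i : E n →L[ℝ] ℝ)
          - pd i f x • (EuclideanSpace.proj i : E n →L[ℝ] ℝ)‖ := norm_sum_le _ _
      _ ≤ ∑ _i : Fin n, K * ‖y - x‖ := by
          refine Finset.sum_le_sum fun i _ => ?_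
          rw [← sub_smul, norm_smul, Real.norm_eq_abs]
          calc _ ≤ |pd i f z - pd i f x| * 1 :=
                mul_le_mul_of_nonneg_left (limd_proj i) (abs_nonneg _)
            _ = |pd i f z - pd i f x| := mul_one _
            _ ≤ K * ‖z - x‖ := hl i z x
            _ ≤ _ := mul_le_mul_of_nonneg_left hz hK
      _ = _ := by
          rw [Finset.sum_const, Finset.card_univ, Fintype.card_fin, nsmul_eq_mul]; ring

theorem limd_one {n : ℕ} {f : E n → ℝ} {K : ℝ} (hK : 0 ≤ K)
    (hf : ContDiff ℝ 1 f)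
    (hl : ∀ i x y, |pd i f x - pd i f y| ≤ K * ‖x - y‖) (x : E n) (i : Fin n) {s : ℝ}
    (hs : 0 < s) :
    |f (x + s • EuclideanSpace.single i (1 : ℝ)) - f x - s * pd i f x| ≤ n * K * s ^ 2 := by
  have h := limd_taylor hK hf hl x (x + s • EuclideanSpace.single i (1 : ℝ))
  have h1 : ∑ j, pd j f x * ((x + s • EuclideanSpace.single i (1 : ℝ)) j - x j)
      = s * pd i f x := by
    rw [Finset.sum_eq_single i]
    · simp [mul_comm]
    · intro j _ hj
      simp [hj]
    · simp
  have h2 : ‖x + s • (EuclideanSpace.single i (1 : ℝ) : E n) - x‖ = s := by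
    rw [add_sub_cancel_left, norm_smul, PiLp.norm_single, Real.norm_eq_abs,
      abs_of_pos hs, norm_one, mul_one]
  rw [h1, h2] at h
  exact h

theorem limd_cauchy {n : ℕ} {f : ℝ → E n → ℝ} {F : E n → ℝ} {K : ℝ} (hK : 0 ≤ K)
    (hf : ∀ t, ContDiff ℝ 1 (f t))
    (hl : ∀ t i x y, |pd i (f t) x - pd i (f t) y| ≤ K * ‖x - y‖)
    (hF : ∀ x, Tendsto (fun t => f t x) atTop (𝓝 (F x))) (i : Fin n) (x : E n) :
    CauchySeq (fun t => pd i (f t) x) := by
  rw [Metric.cauchySeq_iff]
  intro ε hε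
  set M : ℝ := n * K with hM
  have hM0 : 0 ≤ M := by positivity
  set s : ℝ := ε / (4 * (M + 1)) with hs
  have hs0 : 0 < s := by positivity
  have hMs : M * s ≤ ε / 4 := by
    rw [hs, mul_div_assoc', div_le_div_iff₀ (by positivity) (by norm_num)]
    nlinarith
  have c1 := (hF (x + s • EuclideanSpace.single i (1 : ℝ))).cauchySeq
  have c2 := (hF x).cauchySeq
  rw [Metric.cauchySeq_iff] at c1 c2
  obtain ⟨N1, h1⟩ := c1 (ε * s / 8) (by positivity)
  obtain ⟨N2, h2⟩ := c2 (ε * s / 8) (by positivity)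
  refine ⟨max N1 N2, fun t ht t' ht' => ?_⟩
  have a1 := h1 t (le_trans (le_max_left _ _) ht) t' (le_trans (le_max_left _ _) ht')
  have a2 := h2 t (le_trans (le_max_right _ _) ht) t' (le_trans (le_max_right _ _) ht')
  have b1 := limd_one hK (hf t) (hl t) x i hs0
  have b2 := limd_one hK (hf t') (hl t') x i hs0
  rw [← hM] at b1 b2
  rw [Real.dist_eq] at a1 a2 ⊢
  rw [abs_lt] at a1 a2 ⊢
  rw [abs_le] at b1 b2
  have e1 : s * (pd i (f t) x - pd i (f t') x) < s * ε := by
    nlinarith [mul_le_mul_of_nonneg_left hMs hs0.le]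
  have e2 : -(s * ε) < s * (pd i (f t) x - pd i (f t') x) := by
    nlinarith [mul_le_mul_of_nonneg_left hMs hs0.le]
  constructor
  · nlinarith
  · exact lt_of_mul_lt_mul_left e1 hs0.le

theorem lim_deriv {n : ℕ} {f : ℝ → E n → ℝ} {F : E n → ℝ} {K : ℝ} (hK : 0 ≤ K)
    (hf : ∀ t, ContDiff ℝ 1 (f t)) (hb : ∀ t i x, |pd i (f t) x| ≤ K)
    (hl : ∀ t i x y, |pd i (f t) x - pd i (f t) y| ≤ K * ‖x - y‖)
    (hF : ∀ x, Tendsto (fun t => f t x) atTop (𝓝 (F x))) :
    ContDiff ℝ 1 F ∧ ∀ i x, Tendsto (fun t => pd i (f t) x) atTop (𝓝 (pd i F x)) := by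
  have hg : ∀ i x, ∃ g, Tendsto (fun t => pd i (f t) x) atTop (𝓝 g) := fun i x =>
    cauchySeq_tendsto_of_complete (limd_cauchy hK hf hl hF i x)
  choose g hg using hg
  have hT : ∀ x y, |F y - F x - ∑ i, g i x * (y i - x i)| ≤ n * K * ‖y - x‖ ^ 2 := by
    intro x y
    have hlim : Tendsto (fun t => |f t y - f t x - ∑ i, pd i (f t) x * (y i - x i)|) atTop
        (𝓝 |F y - F x - ∑ i, g i x * (y i - x i)|) :=
      (((hF y).sub (hF x)).sub (tendsto_finsetSum _ fun i _ => (hg i x).mul_const _)).abs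
    exact le_of_tendsto hlim (Eventually.of_forall fun t => limd_taylor hK (hf t) (hl t) x y)
  have hgl : ∀ i x y, |g i x - g i y| ≤ K * ‖x - y‖ := fun i x y =>
    le_of_tendsto ((hg i x).sub (hg i y)).abs (Eventually.of_forall fun t => hl t i x y)
  have hD : ∀ x, HasFDerivAt F (∑ i, g i x • (EuclideanSpace.proj i : E n →L[ℝ] ℝ)) x := by
    intro x
    rw [hasFDerivAt_iff_isLittleO_nhds_zero]
    have hO : (fun h : E n => F (x + h) - F x
        - (∑ i, g i x • (EuclideanSpace.proj i : E n →L[ℝ] ℝ)) h) =O[𝓝 0]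
        fun h => ‖h‖ ^ 2 := by
      refine Asymptotics.IsBigO.of_bound (n * K) (Eventually.of_forall fun h => ?_)
      have h1 := hT x (x + h)
      rw [add_sub_cancel_left] at h1
      rw [Real.norm_eq_abs, Real.norm_eq_abs, abs_of_nonneg (by positivity : 0 ≤ ‖h‖ ^ 2)]
      refine le_trans (le_of_eq ?_) h1
      congr 2
      rw [_root_.sum_apply]
      refine Finset.sum_congr rfl fun i _ => ?_
      simp
    refine hO.trans_isLittleO ?_
    have h2 : (fun h : E n => ‖h‖ ^ 2) =o[𝓝 0] fun h : E n => ‖h‖ ^ 1 := by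
      have := Asymptotics.isLittleO_pow_pow (𝕜 := ℝ) (m := 1) (n := 2) (by norm_num)
      exact this.comp_tendsto (tendsto_norm_zero (E := E n))
    exact (h2.congr_right fun h => pow_one _).of_norm_right
  have hpd : ∀ i x, pd i F x = g i x := by
    intro i x
    unfold pd
    rw [(hD x).fderiv, _root_.sum_apply, Finset.sum_eq_single i]
    · simp
    · intro j _ hj
      simp [hj]
    · simp
  refine ⟨?_, fun i x => by rw [hpd]; exact hg i x⟩
  rw [contDiff_one_iff_fderiv]
  refine ⟨fun x => (hD x).differentiableAt, ?_⟩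
  have hgc : ∀ i, Continuous (g i) := by
    intro i
    have : LipschitzWith K.toNNReal (g i) := by
      refine LipschitzWith.of_dist_le_mul fun x y => ?_
      rw [Real.dist_eq, dist_eq_norm, Real.coe_toNNReal _ hK]
      exact hgl i x y
    exact this.continuous
  have he : fderiv ℝ F = fun x => ∑ i, g i x • (EuclideanSpace.proj i : E n →L[ℝ] ℝ) := by
    funext x; exact (hD x).fderiv
  rw [he]
  exact continuous_finsetSum _ fun i _ => (hgc i).smul continuous_const

end Vale.Agent.P134
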