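import Vale.Agent.P134.Defs3
import Vale.Agent.P134.Lin

/-! # P134, module LINQ: test `lin` for `e = single a 1` with `v η²`, `v = pd a u`, using
`pd i v * pd i (v η²) = (pd i (v η))² - v² (pd i η)²`. -/

open MeasureTheory Set Filter Topology

namespace Vale.Agent.P134

private theorem LINQ_pd_zero {n : ℕ} {f : E n → ℝ} {x : E n} (hx : x ∉ tsupport f) (i : Fin n) :
    pd i f x = 0 := by
  unfold pd
  have h1 : fderiv ℝ f x = 0 := by
    by_contra h
    exact hx (support_fderiv_subset ℝ h)
  rw [h1]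
  rfl

private theorem LINQ_pd_mul {n : ℕ} {f g : E n → ℝ} (hf : Differentiable ℝ f)
    (hg : Differentiable ℝ g) (i : Fin n) (x : E n) :
    pd i (fun y => f y * g y) x = f x * pd i g x + g x * pd i f x := by
  unfold pd
  have h := (hf x).hasFDerivAt.mul (hg x).hasFDerivAt
  have h2 : fderiv ℝ (fun y => f y * g y) x = f x • fderiv ℝ g x + g x • fderiv ℝ f x := h.fderiv
  rw [h2]
  rfl

theorem linq {n : ℕ} {u η : E n → ℝ} (hu : IsSol u) (a : Fin n) (hη : ContDiff ℝ 1 η)
    (hs : HasCompactSupport η) :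
    ∫ x, (∑ i, pd i (fun y => pd a u y * η y) x ^ 2 +
        (3 * u x ^ 2 - 1) * (pd a u x * η x) ^ 2) =
      ∫ x, pd a u x ^ 2 * ∑ i, pd i η x ^ 2 := by
  obtain ⟨v, hv⟩ : ∃ v : E n → ℝ, v = pd a u := ⟨_, rfl⟩
  have hvC : ContDiff ℝ 1 v := by
    rw [hv]
    have h1 : ContDiff ℝ 1 (fderiv ℝ u) := hu.1.fderiv_right (by norm_num)
    exact h1.clm_apply contDiff_const
  have hve : dd (EuclideanSpace.single a 1) u = v := by
    rw [hv]
    rfl
  rw [← hv]
  have hvd := hvC.differentiable (by norm_num)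
  have hηd := hη.differentiable (by norm_num)
  have hvη : ContDiff ℝ 1 (fun y => v y * η y) := hvC.mul hη
  have hvηd := hvη.differentiable (by norm_num)
  have hφC : ContDiff ℝ 1 (fun y => (v y * η y) * η y) := hvη.mul hη
  have hφs : HasCompactSupport (fun y => (v y * η y) * η y) := hs.mul_left
  have hlin := lin hu (EuclideanSpace.single a 1) hφC hφs
  rw [hve] at hlin
  have hcont : ∀ {f : E n → ℝ}, ContDiff ℝ 1 f → ∀ i, Continuous (pd i f) := by
    intro f hf i
    exact (hf.continuous_fderiv (by norm_num)).clm_apply continuous_const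
  have hout : ∀ x, x ∉ tsupport η → η x = 0 := fun x hx => image_eq_zero_of_notMem_tsupport hx
  have hout1 : ∀ x, x ∉ tsupport η → ∀ i, pd i η x = 0 := fun x hx i => LINQ_pd_zero hx i
  have hout2 : ∀ x, x ∉ tsupport η → ∀ i, pd i (fun y => v y * η y) x = 0 := by
    intro x hx i
    refine LINQ_pd_zero (fun h => hx ?_) i
    exact tsupport_mul_subset_right h
  have hI1 : Integrable (fun x => ∑ i, pd i (fun y => v y * η y) x ^ 2) := by
    refine Continuous.integrable_of_hasCompactSupport
      (continuous_finsetSum _ fun i _ => (hcont hvη i).pow 2) ?_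
    refine HasCompactSupport.intro hs fun x hx => ?_
    refine Finset.sum_eq_zero fun i _ => ?_
    rw [hout2 x hx i]
    norm_num
  have hI2 : Integrable (fun x => (3 * u x ^ 2 - 1) * (v x * η x) ^ 2) := by
    refine Continuous.integrable_of_hasCompactSupport ?_ ?_
    · exact (((continuous_const.mul (hu.1.continuous.pow 2)).sub continuous_const)).mul
        ((hvC.continuous.mul hη.continuous).pow 2)
    · refine HasCompactSupport.intro hs fun x hx => ?_
      rw [hout x hx]
      ring
  have hI3 : Integrable (fun x => v x ^ 2 * ∑ i, pd i η x ^ 2) := by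
    refine Continuous.integrable_of_hasCompactSupport
      ((hvC.continuous.pow 2).mul (continuous_finsetSum _ fun i _ => (hcont hη i).pow 2)) ?_
    refine HasCompactSupport.intro hs fun x hx => ?_
    have : ∑ i, pd i η x ^ 2 = 0 := by
      refine Finset.sum_eq_zero fun i _ => ?_
      rw [hout1 x hx i]
      norm_num
    rw [this, mul_zero]
  have key : ∀ x, ∑ i, pd i v x * pd i (fun y => (v y * η y) * η y) x =
      (∑ i, pd i (fun y => v y * η y) x ^ 2) - v x ^ 2 * ∑ i, pd i η x ^ 2 := by
    intro x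
    rw [Finset.mul_sum, ← Finset.sum_sub_distrib]
    refine Finset.sum_congr rfl fun i _ => ?_
    rw [LINQ_pd_mul hvηd hηd i x, LINQ_pd_mul hvd hηd i x]
    ring
  have h1 : ∫ x, ∑ i, pd i v x * pd i (fun y => (v y * η y) * η y) x =
      (∫ x, ∑ i, pd i (fun y => v y * η y) x ^ 2) - ∫ x, v x ^ 2 * ∑ i, pd i η x ^ 2 := by
    rw [← integral_sub hI1 hI3]
    exact integral_congr_ae (ae_of_all _ key)
  have h2 : ∫ x, (3 * u x ^ 2 - 1) * v x * ((v x * η x) * η x) =
      ∫ x, (3 * u x ^ 2 - 1) * (v x * η x) ^ 2 := by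
    refine integral_congr_ae (ae_of_all _ fun x => ?_)
    show (3 * u x ^ 2 - 1) * v x * ((v x * η x) * η x) = (3 * u x ^ 2 - 1) * (v x * η x) ^ 2
    ring
  rw [h1, h2] at hlin
  rw [integral_add hI1 hI2]
  linarith

end Vale.Agent.P134
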