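import Vale.Agent.P134.Defs

/-! # P134, module MAXP: weak maximum principle in the half cube

First assume `∑ i, pd i (pd i g) > 0` on the open half cube: the maximum of `g` over the compact
half cube `K = {|x i| ≤ 1, 0 ≤ x l}` cannot be at an interior point, since there
`t ↦ g (x + t e_i)` has a local maximum at `0`, so its second derivative is `≤ 0` (otherwise strict
local minimum).  Then apply to `g + ε |x|²`, `ε → 0`. -/

open MeasureTheory Set Filter Topology

namespace Vale.Agent.P134

theorem maxp_line {n : ℕ} {h : E n → ℝ} (hh : Differentiable ℝ h) (x e : E n) (t : ℝ) :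
    HasDerivAt (fun s : ℝ => h (x + s • e)) (fderiv ℝ h (x + t • e) e) t := by
  have h1 : HasDerivAt (fun s : ℝ => x + s • e) e t := by
    have := ((hasDerivAt_id t).smul_const e).const_add x
    simpa using this
  exact (hh (x + t • e)).hasFDerivAt.comp_hasDerivAt t h1

theorem maxp_one {φ : ℝ → ℝ} (hc : ContinuousAt φ 0) (hm : IsLocalMax φ 0) :
    deriv (deriv φ) 0 ≤ 0 := by
  by_contra hpos
  push Not at hpos
  have h0 : deriv φ 0 = 0 := hm.deriv_eq_zero
  have hmin : IsLocalMin φ 0 := isLocalMin_of_deriv_deriv_pos hpos h0 hc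
  have hconst : φ =ᶠ[𝓝 0] fun _ => φ 0 := by
    filter_upwards [hm, hmin] with t h1 h2
    exact le_antisymm h1 h2
  have h1 : deriv φ =ᶠ[𝓝 0] deriv (fun _ => φ 0) := hconst.deriv
  have h2 : deriv (deriv φ) 0 = deriv (deriv (fun _ : ℝ => φ 0)) 0 := h1.deriv_eq
  rw [h2] at hpos
  simp at hpos

theorem maxp_sq {n : ℕ} (x : E n) (i : Fin n) (t : ℝ) :
    ∑ j, ((x + t • EuclideanSpace.single i (1 : ℝ) : E n) j) ^ 2
      = ∑ j, (x j) ^ 2 + (2 * t * x i + t ^ 2) := by
  have h : ∀ j, ((x + t • EuclideanSpace.single i (1 : ℝ) : E n) j) ^ 2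
      = (x j) ^ 2 + if j = i then 2 * t * x i + t ^ 2 else 0 := by
    intro j
    rw [PiLp.add_apply, PiLp.smul_apply, PiLp.single_apply]
    by_cases hj : j = i
    · subst hj
      simp only [if_true, smul_eq_mul, mul_one]
      ring
    · simp [hj]
  simp only [h, Finset.sum_add_distrib, Finset.sum_ite_eq', Finset.mem_univ, if_true]

theorem max_half {n : ℕ} {g : E n → ℝ} (hg : ContDiff ℝ 2 g) (l : Fin n)
    (hΔ : ∀ x : E n, (∀ i, |x i| < 1) → 0 < x l → 0 ≤ ∑ i, pd i (pd i g) x)
    (hb1 : ∀ x : E n, (∀ i, |x i| ≤ 1) → x l = 0 → g x ≤ 0)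
    (hb2 : ∀ x : E n, (∀ i, |x i| ≤ 1) → 0 ≤ x l → (∃ i, |x i| = 1) → g x ≤ 0) :
    ∀ x : E n, (∀ i, |x i| ≤ 1) → 0 ≤ x l → g x ≤ 0 := by
  intro x0 hx0 hx0l
  have hgd : Differentiable ℝ g := hg.differentiable (by norm_num)
  have hpd : ∀ i, Differentiable ℝ (pd i g) := by
    intro i
    have h1 : ContDiff ℝ 1 (fderiv ℝ g) := hg.fderiv_right (by norm_num)
    have h2 : ContDiff ℝ 1 (fun x => fderiv ℝ g x (EuclideanSpace.single i (1 : ℝ))) :=
      h1.clm_apply contDiff_const
    exact h2.differentiable (by norm_num)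
  -- the compact half cube
  let K : Set (E n) := {x | (∀ i, |x i| ≤ 1) ∧ 0 ≤ x l}
  have hcoord : ∀ i, Continuous fun x : E n => x i := fun i =>
    (EuclideanSpace.proj (𝕜 := ℝ) i).continuous
  have hKc : IsClosed K := by
    have h1 : IsClosed {x : E n | ∀ i, |x i| ≤ 1} := by
      rw [Set.ofPred_forall]
      exact isClosed_iInter fun i => isClosed_le ((hcoord i).abs) continuous_const
    exact h1.inter (isClosed_le continuous_const (hcoord l))
  have hKb : Bornology.IsBounded K := by
    refine (Metric.isBounded_closedBall (x := (0 : E n)) (r := Real.sqrt n)).subset ?_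
    intro x hx
    rw [mem_closedBall_zero_iff, EuclideanSpace.norm_eq]
    refine Real.sqrt_le_sqrt ?_
    calc ∑ i, ‖x i‖ ^ 2 ≤ ∑ _i : Fin n, (1 : ℝ) := by
          refine Finset.sum_le_sum fun i _ => ?_
          have := hx.1 i
          rw [Real.norm_eq_abs]
          nlinarith [abs_nonneg (x i)]
      _ = n := by simp
  have hK : IsCompact K := Metric.isCompact_of_isClosed_isBounded hKc hKb
  have hq : ∀ x ∈ K, ∑ j, (x j) ^ 2 ≤ (n : ℝ) := by
    intro x hx
    calc ∑ j, (x j) ^ 2 ≤ ∑ _j : Fin n, (1 : ℝ) := by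
          refine Finset.sum_le_sum fun j _ => ?_
          have := hx.1 j
          rw [← sq_abs]
          nlinarith [abs_nonneg (x j)]
      _ = n := by simp
  have key : ∀ ε : ℝ, 0 < ε → g x0 ≤ ε * n := by
    intro ε hε
    have hcont : ContinuousOn (fun x : E n => g x + ε * ∑ j, (x j) ^ 2) K := by
      refine Continuous.continuousOn ?_
      refine hgd.continuous.add (continuous_const.mul ?_)
      exact continuous_finsetSum _ fun j _ => (hcoord j).pow 2
    obtain ⟨y, hyK, hymax⟩ := hK.exists_isMaxOn ⟨x0, hx0, hx0l⟩ hcont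
    have hle : g x0 + ε * ∑ j, (x0 j) ^ 2 ≤ g y + ε * ∑ j, (y j) ^ 2 := hymax ⟨hx0, hx0l⟩
    have hx0n : 0 ≤ ∑ j, (x0 j) ^ 2 := Finset.sum_nonneg fun j _ => sq_nonneg _
    have hbd : g y ≤ 0 → g x0 ≤ ε * n := by
      intro hgy
      have h1 := hq y hyK
      nlinarith
    by_cases hyl : y l = 0
    · exact hbd (hb1 y hyK.1 hyl)
    by_cases hy1 : ∃ i, |y i| = 1
    · exact hbd (hb2 y hyK.1 hyK.2 hy1)
    exfalso
    push Not at hy1
    have hyU : ∀ i, |y i| < 1 := fun i => lt_of_le_of_ne (hyK.1 i) (hy1 i)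
    have hyl' : 0 < y l := lt_of_le_of_ne hyK.2 (Ne.symm hyl)
    have hU : IsOpen {x : E n | (∀ i, |x i| < 1) ∧ 0 < x l} := by
      have h1 : IsOpen {x : E n | ∀ i, |x i| < 1} := by
        rw [Set.ofPred_forall]
        exact isOpen_iInter_of_finite fun i => isOpen_lt ((hcoord i).abs) continuous_const
      exact h1.inter (isOpen_lt continuous_const (hcoord l))
    have hsec : ∀ i, pd i (pd i g) y + 2 * ε ≤ 0 := by
      intro i
      let e : E n := EuclideanSpace.single i (1 : ℝ)
      let φ : ℝ → ℝ := fun t => g (y + t • e) + ε * (2 * t * y i + t ^ 2)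
      have hd1 : ∀ t, HasDerivAt φ (pd i g (y + t • e) + ε * (2 * y i + 2 * t)) t := by
        intro t
        refine (maxp_line hgd y e t).add ?_
        have h2 : HasDerivAt (fun t : ℝ => 2 * t * y i + t ^ 2) (2 * y i + 2 * t) t := by
          have h3 : HasDerivAt (fun t : ℝ => 2 * t * y i) (2 * y i) t := by
            have := ((hasDerivAt_id t).const_mul 2).mul_const (y i)
            simpa using this
          have h4 : HasDerivAt (fun t : ℝ => t ^ 2) (2 * t) t := by
            have := hasDerivAt_pow 2 t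
            simpa using this
          exact h3.add h4
        exact h2.const_mul ε
      have hderiv : deriv φ = fun t => pd i g (y + t • e) + ε * (2 * y i + 2 * t) := by
        funext t
        exact (hd1 t).deriv
      have hd2 : HasDerivAt (deriv φ) (pd i (pd i g) y + 2 * ε) 0 := by
        rw [hderiv]
        have h3 := maxp_line (hpd i) y e 0
        rw [zero_smul, add_zero] at h3
        have h4 : HasDerivAt (fun t : ℝ => ε * (2 * y i + 2 * t)) (2 * ε) 0 := by
          have h5 : HasDerivAt (fun t : ℝ => 2 * y i + 2 * t) 2 0 := by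
            have := ((hasDerivAt_id (0 : ℝ)).const_mul 2).const_add (2 * y i)
            simpa using this
          have := h5.const_mul ε
          rwa [mul_comm ε 2] at this
        exact h3.add h4
      have hmax : IsLocalMax φ 0 := by
        have hline : Continuous fun t : ℝ => y + t • e :=
          continuous_const.add (continuous_id.smul continuous_const)
        have hmem : ∀ᶠ t in 𝓝 (0 : ℝ), y + t • e ∈ {x : E n | (∀ i, |x i| < 1) ∧ 0 < x l} := by
          refine (hline.tendsto 0).eventually (hU.mem_nhds ?_)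
          rw [zero_smul, add_zero]
          exact ⟨hyU, hyl'⟩
        filter_upwards [hmem] with t ht
        have hKt : y + t • e ∈ K := ⟨fun i => (ht.1 i).le, ht.2.le⟩
        have h6 : g (y + t • e) + ε * ∑ j, ((y + t • e : E n) j) ^ 2
            ≤ g y + ε * ∑ j, (y j) ^ 2 := hymax hKt
        rw [maxp_sq y i t] at h6
        show g (y + t • e) + ε * (2 * t * y i + t ^ 2)
          ≤ g (y + (0 : ℝ) • e) + ε * (2 * 0 * y i + 0 ^ 2)
        rw [zero_smul, add_zero]
        nlinarith
      have h7 := maxp_one (hd1 0).continuousAt hmax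
      rw [hd2.deriv] at h7
      exact h7
    have hsum : ∑ i, (pd i (pd i g) y + 2 * ε) ≤ 0 := Finset.sum_nonpos fun i _ => hsec i
    rw [Finset.sum_add_distrib, Finset.sum_const, Finset.card_univ, Fintype.card_fin,
      nsmul_eq_mul] at hsum
    have h8 := hΔ y hyU hyl'
    have h9 : 0 < (n : ℝ) := by
      have : 0 < n := Fin.pos l
      exact_mod_cast this
    nlinarith [mul_pos h9 hε]
  refine le_of_forall_pos_le_add fun δ hδ => ?_
  have h9 : 0 < (n : ℝ) := by
    have : 0 < n := Fin.pos l
    exact_mod_cast this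
  have := key (δ / n) (by positivity)
  rw [div_mul_cancel₀ _ h9.ne'] at this
  linarith

end Vale.Agent.P134
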