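import Vale.Agent.P134.Defs3
import Vale.Agent.P134.Reg3

/-! # P134, module QLIP

`qlip`: `pd a u = 0` on `{rr = 0}` because `u (x0 + t e_a) = u (x0 - t e_a)`; with `x0` = `x` with
the coordinates of `Y` replaced by `0`, `‖x - x0‖ = √(rr x)` and
`|pd a u x| = |pd a u x - pd a u x0| ≤ n K ‖x - x0‖` (`reg2`, `lip_of_pd`).
`radIn_lim`: limit of equalities.  The rest: continuity, signs. -/

open MeasureTheory Set Filter Topology

namespace Vale.Agent.P134

theorem QLIP_zero {n : ℕ} {Y : Finset (Fin n)} {u : E n → ℝ} (hu : ContDiff ℝ 2 u)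
    (hR : RadIn Y u) {x₀ : E n} (h0 : ∀ i ∈ Y, x₀ i = 0) {a : Fin n} (ha : a ∈ Y) :
    pd a u x₀ = 0 := by
  have hd : HasFDerivAt u (fderiv ℝ u x₀) x₀ :=
    (hu.differentiable (by norm_num) x₀).hasFDerivAt
  set v : E n := EuclideanSpace.single a 1 with hv
  have hdv : HasDerivAt (fun t : ℝ => u (x₀ + t • v)) (pd a u x₀) 0 := by
    have h1 : HasFDerivAt u (fderiv ℝ u x₀) (x₀ + (0 : ℝ) • v) := by
      rw [zero_smul, add_zero]
      exact hd
    have h2 : HasDerivAt (fun t : ℝ => x₀ + t • v) v 0 := by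
      have h3 := ((hasDerivAt_id (0 : ℝ)).smul_const v).const_add x₀
      rw [one_smul] at h3
      exact h3
    exact h1.comp_hasDerivAt (0 : ℝ) h2
  have heven : ∀ t : ℝ, u (x₀ + (-t) • v) = u (x₀ + t • v) := by
    intro t
    refine hR _ _ (fun i hi => ?_) ?_
    · have hia : i ≠ a := fun h => hi (h ▸ ha)
      simp [hv, hia]
    · refine Finset.sum_congr rfl fun i hi => ?_
      simp only [PiLp.add_apply, PiLp.smul_apply, h0 i hi, zero_add, smul_eq_mul]
      ring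
  have hdv2 : HasDerivAt (fun t : ℝ => u (x₀ + (-t) • v)) (-(pd a u x₀)) 0 := by
    have h1 : HasDerivAt (fun t : ℝ => u (x₀ + t • v)) (pd a u x₀) (-(0 : ℝ)) := by
      rw [neg_zero]
      exact hdv
    have h2 := h1.scomp (0 : ℝ) (hasDerivAt_neg (0 : ℝ))
    rw [neg_one_smul] at h2
    exact h2
  have he : (fun t : ℝ => u (x₀ + (-t) • v)) = fun t : ℝ => u (x₀ + t • v) := funext heven
  rw [he] at hdv2
  have := hdv.unique hdv2
  linarith

theorem rr_nonneg {n : ℕ} (Y : Finset (Fin n)) (x : E n) : 0 ≤ rr Y x :=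
  Finset.sum_nonneg fun _ _ => sq_nonneg _

theorem qlip (n : ℕ) : ∃ C : ℝ, 0 < C ∧ ∀ (Y : Finset (Fin n)) (u : E n → ℝ), IsSol u →
    RadIn Y u → ∀ x, q2 Y u x ≤ C * rr Y x := by
  obtain ⟨K, hK, hreg⟩ := reg2 n
  refine ⟨n * (n * K) ^ 2 + 1, by positivity, ?_⟩
  intro Y u hu hR x
  classical
  set x₀ : E n := WithLp.toLp 2 (fun i => if i ∈ Y then 0 else x i) with hx₀
  have h0 : ∀ i ∈ Y, x₀ i = 0 := by
    intro i hi
    simp [hx₀, hi]
  have hn : ‖x - x₀‖ ^ 2 = rr Y x := by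
    have e : ∀ i, ‖(x - x₀) i‖ ^ 2 = if i ∈ Y then x i ^ 2 else 0 := by
      intro i
      by_cases hi : i ∈ Y
      · simp [hx₀, hi]
      · simp [hx₀, hi]
    rw [EuclideanSpace.norm_sq_eq, Finset.sum_congr rfl fun i _ => e i, Finset.sum_ite_mem,
      Finset.univ_inter]
    rfl
  have hb : ∀ a ∈ Y, pd a u x ^ 2 ≤ (n * K) ^ 2 * rr Y x := by
    intro a ha
    have h1 := lip_of_pd (reg3_pd_contDiff hu.1 (by norm_num) a) (B := K)
      (fun i x => hreg u hu i a x) x x₀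
    rw [QLIP_zero hu.1 hR h0 ha, sub_zero] at h1
    rw [← hn, ← mul_pow, ← sq_abs]
    exact pow_le_pow_left₀ (abs_nonneg _) h1 2
  have hr := rr_nonneg Y x
  calc q2 Y u x ≤ ∑ a ∈ Y, (n * K) ^ 2 * rr Y x := Finset.sum_le_sum hb
    _ = Y.card * ((n * K) ^ 2 * rr Y x) := by rw [Finset.sum_const, nsmul_eq_mul]
    _ ≤ n * ((n * K) ^ 2 * rr Y x) := by
        refine mul_le_mul_of_nonneg_right ?_ (by positivity)
        have := Finset.card_le_univ Y
        rw [Fintype.card_fin] at this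
        exact_mod_cast this
    _ ≤ (n * (n * K) ^ 2 + 1) * rr Y x := by nlinarith

theorem radIn_lim {n : ℕ} {Y : Finset (Fin n)} {u U : E n → ℝ} (hR : RadIn Y u) {l : Fin n}
    (hl : l ∉ Y) (hU : IsLim u (EuclideanSpace.single l 1) U) : RadIn Y U := by
  intro x x' h1 h2
  refine tendsto_nhds_unique (hU x) ?_
  refine (hU x').congr fun t => ?_
  refine (hR _ _ (fun i hi => ?_) ?_).symm
  · simp only [PiLp.add_apply, PiLp.smul_apply, h1 i hi]
  · have h3 : ∀ (z : E n), ∀ i ∈ Y, (z + t • (EuclideanSpace.single l 1 : E n)) i = z i := by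
      intro z i hi
      have hil : i ≠ l := fun h => hl (h ▸ hi)
      simp [hil]
    have e1 : ∑ i ∈ Y, (x + t • (EuclideanSpace.single l 1 : E n)) i ^ 2 = ∑ i ∈ Y, x i ^ 2 :=
      Finset.sum_congr rfl fun i hi => by rw [h3 x i hi]
    have e2 : ∑ i ∈ Y, (x' + t • (EuclideanSpace.single l 1 : E n)) i ^ 2 = ∑ i ∈ Y, x' i ^ 2 :=
      Finset.sum_congr rfl fun i hi => by rw [h3 x' i hi]
    rw [e1, e2]
    exact h2

theorem q2_cont {n : ℕ} (Y : Finset (Fin n)) {u : E n → ℝ} (hu : ContDiff ℝ 2 u) :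
    Continuous (q2 Y u) := by
  unfold q2
  exact continuous_finsetSum _ fun a _ =>
    (reg3_pd_contDiff (m := 0) hu (by norm_num) a).continuous.pow 2

theorem q2_nonneg {n : ℕ} (Y : Finset (Fin n)) (u : E n → ℝ) (x : E n) : 0 ≤ q2 Y u x :=
  Finset.sum_nonneg fun _ _ => sq_nonneg _

theorem q2_le_gr {n : ℕ} (Y : Finset (Fin n)) (u : E n → ℝ) (x : E n) : q2 Y u x ≤ gr u x :=
  Finset.sum_le_univ_sum_of_nonneg fun _ => sq_nonneg _

theorem rr_smooth {n : ℕ} (Y : Finset (Fin n)) : ContDiff ℝ 2 (rr Y : E n → ℝ) := by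
  unfold rr
  refine ContDiff.sum fun i _ => ?_
  exact ((EuclideanSpace.proj i : E n →L[ℝ] ℝ).contDiff).pow 2

theorem wt_cont {n : ℕ} (Y : Finset (Fin n)) (α : ℝ) : Continuous (wt Y α : E n → ℝ) := by
  unfold wt
  refine Continuous.rpow_const (continuous_const.add (rr_smooth Y).continuous) fun x => Or.inl ?_
  have := rr_nonneg Y x
  positivity

theorem wt_pos {n : ℕ} (Y : Finset (Fin n)) (α : ℝ) (x : E n) : 0 < wt Y α x := by
  have := rr_nonneg Y x
  unfold wt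
  positivity

end Vale.Agent.P134
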