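import Vale.Agent.P134.RadA
import Vale.Agent.P134.Linq

/-! # P134, module RAD: sum `linq` over `a ∈ Y`, subtract stability for `ξ = xi Y u η`

`∫ ∑ a ∑ i (pd i (pd a u η))² + (3u²-1) q2 η² = ∫ q2 |∇η|²`; by `xi_ident`, `xi_sq` (both sides
vanish where `rr < δ`) the left side is
`∫ |∇ξ|² + (3u²-1) ξ² + (card Y - 1) ∫ q2 η² / rr ≥ (card Y - 1) ∫ q2 η² / (1 + rr)`.
(Only needed for `card Y ≥ 1`.) -/

open MeasureTheory Set Filter Topology

namespace Vale.Agent.P134

private theorem RAD_pdc {n : ℕ} {u : E n → ℝ} (hu : ContDiff ℝ 2 u) (a : Fin n) :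
    ContDiff ℝ 1 (pd a u) :=
  (hu.fderiv_right (m := 1) (by norm_num)).clm_apply contDiff_const

private theorem RAD_cont {n : ℕ} {f : E n → ℝ} (hf : ContDiff ℝ 1 f) (i : Fin n) :
    Continuous (fun x => pd i f x) :=
  (hf.continuous_fderiv one_ne_zero).clm_apply continuous_const

private theorem RAD_supp {n : ℕ} {f : E n → ℝ} (hf : HasCompactSupport f) (i : Fin n) :
    HasCompactSupport (fun x => pd i f x) :=
  hf.fderiv_apply (𝕜 := ℝ) (EuclideanSpace.single i 1)

/-- the integrand `∑ (pd i f)² + (3u²-1) f²` is integrable -/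
private theorem RAD_int {n : ℕ} {u f : E n → ℝ} (hu : Continuous u) (hf : ContDiff ℝ 1 f)
    (hs : HasCompactSupport f) :
    Integrable (fun x => ∑ i, pd i f x ^ 2 + (3 * u x ^ 2 - 1) * f x ^ 2) volume := by
  have hc : Continuous (fun x => ∑ i, pd i f x ^ 2 + (3 * u x ^ 2 - 1) * f x ^ 2) :=
    (continuous_finsetSum _ fun i _ => (RAD_cont hf i).pow 2).add
      (((continuous_const.mul (hu.pow 2)).sub continuous_const).mul (hf.continuous.pow 2))
  refine hc.integrable_of_hasCompactSupport ?_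
  refine HasCompactSupport.intro hs.isCompact fun x hx => ?_
  have h1 : f x = 0 := image_eq_zero_of_notMem_tsupport hx
  have h2 : ∀ i, pd i f x = 0 := fun i => by
    have h3 : f =ᶠ[𝓝 x] fun _ => (0 : ℝ) := notMem_tsupport_iff_eventuallyEq.1 hx
    unfold pd
    rw [h3.fderiv_eq, fderiv_fun_const]
    rfl
  rw [h1, Finset.sum_eq_zero fun i _ => by rw [h2 i]; norm_num]
  norm_num

theorem rad {n : ℕ} {Y : Finset (Fin n)} (hY : 1 ≤ Y.card) {u η : E n → ℝ} (hu : IsSol u)
    (hR : RadIn Y u) (hst : Stable u) (hη : ContDiff ℝ 1 η) (hs : HasCompactSupport η)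
    {δ : ℝ} (hδ : 0 < δ) (h0 : ∀ x, rr Y x < δ → η x = 0) :
    ((Y.card : ℝ) - 1) * ∫ x, q2 Y u x * η x ^ 2 / (1 + rr Y x) ≤
      ∫ x, q2 Y u x * ∑ i, pd i η x ^ 2 := by
  have hu2 : ContDiff ℝ 2 u := hu.1
  have huc : Continuous u := hu2.continuous
  have hk : (0 : ℝ) ≤ (Y.card : ℝ) - 1 := by
    have : (1 : ℝ) ≤ (Y.card : ℝ) := by exact_mod_cast hY
    linarith
  have hrc : Continuous (rr Y : E n → ℝ) := (rr_smooth Y).continuous
  have hqc : Continuous (q2 Y u) := q2_cont Y hu2
  have hξC : ContDiff ℝ 1 (xi Y u η) := xi_smooth hu2 hη hδ h0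
  have hξs : HasCompactSupport (xi Y u η) := by
    unfold xi
    exact hs.mul_left
  have hPint := RAD_int huc hξC hξs
  have hfC : ∀ a, ContDiff ℝ 1 (fun y => pd a u y * η y) := fun a => (RAD_pdc hu2 a).mul hη
  have hfs : ∀ a, HasCompactSupport (fun y => pd a u y * η y) := fun a => hs.mul_left
  have hFint : ∀ a, Integrable (fun x => ∑ i, pd i (fun y => pd a u y * η y) x ^ 2 +
      (3 * u x ^ 2 - 1) * (pd a u x * η x) ^ 2) volume := fun a => RAD_int huc (hfC a) (hfs a)
  -- the pointwise identity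
  have hpt : ∀ x, ∑ a ∈ Y, (∑ i, pd i (fun y => pd a u y * η y) x ^ 2 +
      (3 * u x ^ 2 - 1) * (pd a u x * η x) ^ 2) =
      (∑ i, pd i (xi Y u η) x ^ 2 + (3 * u x ^ 2 - 1) * xi Y u η x ^ 2) +
        ((Y.card : ℝ) - 1) * (q2 Y u x * η x ^ 2) / rr Y x := by
    intro x
    by_cases hx : rr Y x < δ
    · have hev : ∀ᶠ y in 𝓝 x, η y = 0 :=
        (hrc.continuousAt.eventually (gt_mem_nhds hx)).mono fun y hy => h0 y hy
      have hηx : η x = 0 := h0 x hx
      have h1 : ∀ a i, pd i (fun y => pd a u y * η y) x = 0 := fun a i => by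
        have h3 : (fun y => pd a u y * η y) =ᶠ[𝓝 x] fun _ => (0 : ℝ) :=
          hev.mono fun y hy => by simp only [hy, mul_zero]
        unfold pd at h3 ⊢
        rw [h3.fderiv_eq, fderiv_fun_const]
        rfl
      have h2 : ∀ i, pd i (xi Y u η) x = 0 := fun i => by
        have h3 : (xi Y u η) =ᶠ[𝓝 x] fun _ => (0 : ℝ) :=
          hev.mono fun y hy => by simp only [xi, hy, mul_zero]
        have h4 : pd i (xi Y u η) x = fderiv ℝ (xi Y u η) x (EuclideanSpace.single i 1) := rfl
        rw [h4, h3.fderiv_eq, fderiv_fun_const]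
        rfl
      have h5 : xi Y u η x = 0 := by simp only [xi, hηx, mul_zero]
      simp [h1, h2, h5, hηx]
    · push Not at hx
      have hx0 : 0 < rr Y x := lt_of_lt_of_le hδ hx
      rw [Finset.sum_add_distrib, xi_ident hu2 hR hη hx0, xi_sq hu2 hR hx0, ← Finset.mul_sum]
      have h6 : ∑ a ∈ Y, (pd a u x * η x) ^ 2 = q2 Y u x * η x ^ 2 := by
        unfold q2
        rw [Finset.sum_mul]
        exact Finset.sum_congr rfl fun a _ => by ring
      rw [h6]
      ring
  -- sum of `linq`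
  have hsum : ∫ x, ∑ a ∈ Y, (∑ i, pd i (fun y => pd a u y * η y) x ^ 2 +
      (3 * u x ^ 2 - 1) * (pd a u x * η x) ^ 2) = ∫ x, q2 Y u x * ∑ i, pd i η x ^ 2 := by
    have hGint : ∀ a ∈ Y, Integrable (fun x => pd a u x ^ 2 * ∑ i, pd i η x ^ 2) volume := by
      intro a _
      have hc : Continuous (fun x => pd a u x ^ 2 * ∑ i, pd i η x ^ 2) :=
        ((RAD_pdc hu2 a).continuous.pow 2).mul
          (continuous_finsetSum _ fun i _ => (RAD_cont hη i).pow 2)
      refine hc.integrable_of_hasCompactSupport ?_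
      refine HasCompactSupport.intro hs.isCompact fun x hx => ?_
      have h2 : ∀ i, pd i η x = 0 := fun i => by
        have h3 : η =ᶠ[𝓝 x] fun _ => (0 : ℝ) := notMem_tsupport_iff_eventuallyEq.1 hx
        unfold pd
        rw [h3.fderiv_eq, fderiv_fun_const]
        rfl
      rw [Finset.sum_eq_zero fun i _ => by rw [h2 i]; norm_num, mul_zero]
    rw [integral_finsetSum _ fun a _ => hFint a]
    rw [Finset.sum_congr rfl fun a _ => linq hu a hη hs]
    rw [← integral_finsetSum _ hGint]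
    refine integral_congr_ae (Filter.Eventually.of_forall fun x => ?_)
    simp only [q2, Finset.sum_mul]
  have hDint : Integrable (fun x => ((Y.card : ℝ) - 1) * (q2 Y u x * η x ^ 2) / rr Y x)
      volume := by
    have h1 : Integrable (fun x => ∑ a ∈ Y, (∑ i, pd i (fun y => pd a u y * η y) x ^ 2 +
      (3 * u x ^ 2 - 1) * (pd a u x * η x) ^ 2)) volume :=
      integrable_finsetSum _ fun a _ => hFint a
    refine (h1.sub hPint).congr (Filter.Eventually.of_forall fun x => ?_)
    simp only [Pi.sub_apply]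
    rw [hpt x]
    ring
  have hGc : Continuous (fun x => q2 Y u x * η x ^ 2 / (1 + rr Y x)) :=
    (hqc.mul (hη.continuous.pow 2)).div (continuous_const.add hrc) fun x => by
      have := rr_nonneg Y x
      positivity
  have hGint : Integrable (fun x => q2 Y u x * η x ^ 2 / (1 + rr Y x)) volume := by
    refine hGc.integrable_of_hasCompactSupport ?_
    refine HasCompactSupport.intro hs.isCompact fun x hx => ?_
    rw [image_eq_zero_of_notMem_tsupport hx]
    simp
  have hle : ∫ x, ((Y.card : ℝ) - 1) * (q2 Y u x * η x ^ 2 / (1 + rr Y x)) ≤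
      ∫ x, ((Y.card : ℝ) - 1) * (q2 Y u x * η x ^ 2) / rr Y x := by
    refine integral_mono (hGint.const_mul _) hDint fun x => ?_
    have hq := q2_nonneg Y u x
    have hr := rr_nonneg Y x
    have hnn : 0 ≤ ((Y.card : ℝ) - 1) * (q2 Y u x * η x ^ 2) :=
      mul_nonneg hk (mul_nonneg hq (sq_nonneg _))
    rcases hr.eq_or_lt with h | h
    · have hηx : η x = 0 := h0 x (by rw [← h]; exact hδ)
      simp [hηx]
    · simp only []
      rw [← mul_div_assoc]
      exact div_le_div_of_nonneg_left hnn h (by linarith)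
  rw [integral_const_mul] at hle
  refine hle.trans ?_
  rw [← hsum]
  have e1 : ∫ x, ∑ a ∈ Y, (∑ i, pd i (fun y => pd a u y * η y) x ^ 2 +
      (3 * u x ^ 2 - 1) * (pd a u x * η x) ^ 2) =
      (∫ x, (∑ i, pd i (xi Y u η) x ^ 2 + (3 * u x ^ 2 - 1) * xi Y u η x ^ 2)) +
        ∫ x, ((Y.card : ℝ) - 1) * (q2 Y u x * η x ^ 2) / rr Y x := by
    rw [← integral_add hPint hDint]
    exact integral_congr_ae (Filter.Eventually.of_forall hpt)
  rw [e1]
  have := hst _ hξC hξs
  linarith

end Vale.Agent.P134
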