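import Vale.Agent.P134.Roti
import Vale.Agent.P134.Qlip

/-! # P134, module RADA: pointwise identity away from the axis

At `x` with `rr x > 0` put `c a = x a / √rr` (`a ∈ Y`), `Q = ∑ a ∈ Y, c a * pd a u` near `x`.  By
`roti`, `pd a u = c a * Q` near `x`, so with `ξ = Q η`, `pd a u * η = c a * ξ` and
`∑ a ∈ Y, (pd i (c a ξ))² = ξ² ∑ a (pd i (c a))² + (pd i ξ)²` (as `∑ a (c a)² = 1`, so
`∑ a c a pd i (c a) = 0`), and `∑ i, ∑ a ∈ Y, (pd i (c a))² = (card Y - 1) / rr`
(`pd i (c a) = (δ_{ia} - c i c a) / √rr` for `i ∈ Y`, zero for `i ∉ Y`). -/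

open MeasureTheory Set Filter Topology

namespace Vale.Agent.P134

/-- radial derivative times `η` -/
noncomputable def xi {n : ℕ} (Y : Finset (Fin n)) (u η : E n → ℝ) (x : E n) : ℝ :=
  (∑ a ∈ Y, x a * pd a u x) / Real.sqrt (rr Y x) * η x

theorem XISM_pd {n : ℕ} {u : E n → ℝ} (hu : ContDiff ℝ 2 u) (a : Fin n) :
    ContDiff ℝ 1 (pd a u) :=
  (hu.fderiv_right (m := 1) (by norm_num)).clm_apply contDiff_const

theorem XISM_coord {n : ℕ} (a : Fin n) {k : WithTop ℕ∞} : ContDiff ℝ k (fun x : E n => x a) :=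
  (EuclideanSpace.proj (𝕜 := ℝ) a).contDiff

theorem xi_smooth {n : ℕ} {Y : Finset (Fin n)} {u η : E n → ℝ} (hu : ContDiff ℝ 2 u)
    (hη : ContDiff ℝ 1 η) {δ : ℝ} (hδ : 0 < δ) (h0 : ∀ x, rr Y x < δ → η x = 0) :
    ContDiff ℝ 1 (xi Y u η) := by
  have hrr : ContDiff ℝ 1 (rr Y : E n → ℝ) := by
    unfold rr
    exact ContDiff.sum fun i _ => (XISM_coord i).pow 2
  rw [contDiff_iff_contDiffAt]
  intro x
  by_cases hx : rr Y x < δ
  · have h1 : ∀ᶠ y in 𝓝 x, rr Y y < δ := hrr.continuous.continuousAt.eventually_lt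
      continuousAt_const hx
    refine (contDiffAt_const (c := (0 : ℝ))).congr_of_eventuallyEq ?_
    filter_upwards [h1] with y hy
    unfold xi
    rw [h0 y hy, mul_zero]
  · have hx0 : rr Y x ≠ 0 := (lt_of_lt_of_le hδ (not_lt.1 hx)).ne'
    unfold xi
    refine ContDiffAt.mul (ContDiffAt.div ?_ ?_ ?_) hη.contDiffAt
    · exact (ContDiff.sum fun a _ => (XISM_coord a).mul (XISM_pd hu a)).contDiffAt
    · exact hrr.contDiffAt.sqrt hx0
    · exact (Real.sqrt_pos.2 (lt_of_lt_of_le hδ (not_lt.1 hx))).ne'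

theorem xi_sq {n : ℕ} {Y : Finset (Fin n)} {u η : E n → ℝ} (hu : ContDiff ℝ 2 u)
    (hR : RadIn Y u) {x : E n} (hx : 0 < rr Y x) : xi Y u η x ^ 2 = q2 Y u x * η x ^ 2 := by
  have h1 : (∑ a ∈ Y, x a * pd a u x) ^ 2 = rr Y x * q2 Y u x := by
    unfold rr q2
    rw [sq, Finset.sum_mul_sum, Finset.sum_mul_sum]
    refine Finset.sum_congr rfl fun a ha => Finset.sum_congr rfl fun b hb => ?_
    have h2 := roti hu hR ha hb x
    linear_combination (x a * pd b u x) * (-h2)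
  unfold xi
  rw [mul_pow, div_pow, Real.sq_sqrt hx.le, h1, mul_div_cancel_left₀ _ hx.ne']

theorem XIID_div {n : ℕ} {f g : E n → ℝ} {x : E n} (hf : DifferentiableAt ℝ f x)
    (hg : DifferentiableAt ℝ g x) (h : g x ≠ 0) : DifferentiableAt ℝ (fun y => f y / g y) x := by
  simp only [div_eq_mul_inv]
  exact hf.fun_mul (hg.fun_inv h)

theorem XIID_mul {n : ℕ} {f g : E n → ℝ} {x : E n} (hf : DifferentiableAt ℝ f x)
    (hg : DifferentiableAt ℝ g x) (i : Fin n) :
    pd i (fun y => f y * g y) x = f x * pd i g x + g x * pd i f x := by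
  unfold pd
  rw [fderiv_fun_mul hf hg]
  simp

theorem XIID_coord {n : ℕ} (a i : Fin n) (x : E n) :
    pd i (fun y : E n => y a) x = if a = i then 1 else 0 := by
  unfold pd
  have h : (fun y : E n => y a) = (EuclideanSpace.proj a : E n →L[ℝ] ℝ) := rfl
  rw [h, ContinuousLinearMap.fderiv]
  show (EuclideanSpace.single i (1 : ℝ) : E n) a = _
  rw [PiLp.single_apply]

theorem XIID_coord_diff {n : ℕ} (a : Fin n) (x : E n) :
    DifferentiableAt ℝ (fun y : E n => y a) x := by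
  have h : (fun y : E n => y a) = (EuclideanSpace.proj a : E n →L[ℝ] ℝ) := rfl
  rw [h]
  exact ContinuousLinearMap.differentiableAt _

theorem XIID_rr {n : ℕ} (Y : Finset (Fin n)) (i : Fin n) (x : E n) :
    pd i (rr Y) x = if i ∈ Y then 2 * x i else 0 := by
  have h1 : ∀ a ∈ Y, DifferentiableAt ℝ (fun y : E n => y a ^ 2) x := fun a _ =>
    (XIID_coord_diff a x).pow 2
  have h2 : pd i (rr Y) x = ∑ a ∈ Y, pd i (fun y : E n => y a ^ 2) x := by
    unfold pd rr
    rw [fderiv_fun_sum h1]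
    simp
  rw [h2]
  have h3 : ∀ a ∈ Y, pd i (fun y : E n => y a ^ 2) x = if a = i then 2 * x i else 0 := by
    intro a _
    have e : (fun y : E n => y a ^ 2) = fun y : E n => y a * y a := by
      funext y
      ring
    rw [e, XIID_mul (XIID_coord_diff a x) (XIID_coord_diff a x), XIID_coord]
    split_ifs with h
    · rw [h]
      ring
    · ring
  rw [Finset.sum_congr rfl h3, Finset.sum_ite_eq' Y i]

theorem XIID_rr_diff {n : ℕ} (Y : Finset (Fin n)) (x : E n) : DifferentiableAt ℝ (rr Y) x := by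
  unfold rr
  refine DifferentiableAt.fun_sum fun a _ => ?_
  exact (XIID_coord_diff a x).pow 2

theorem XIID_sqrt {n : ℕ} (Y : Finset (Fin n)) (i : Fin n) {x : E n} (hx : 0 < rr Y x) :
    pd i (fun y => Real.sqrt (rr Y y)) x = (if i ∈ Y then x i else 0) / Real.sqrt (rr Y x) := by
  have hd : DifferentiableAt ℝ (fun y => Real.sqrt (rr Y y)) x :=
    (XIID_rr_diff Y x).sqrt hx.ne'
  have hs : 0 < Real.sqrt (rr Y x) := Real.sqrt_pos.2 hx
  have h1 := XIID_mul hd hd i
  have h2 : (fun y => Real.sqrt (rr Y y) * Real.sqrt (rr Y y)) = rr Y := by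
    funext y
    exact Real.mul_self_sqrt (rr_nonneg Y y)
  rw [h2, XIID_rr] at h1
  rw [eq_div_iff hs.ne']
  have h3 : (if i ∈ Y then 2 * x i else 0) = 2 * (if i ∈ Y then x i else 0) := by
    split_ifs <;> simp
  rw [h3] at h1
  linarith

theorem XIID_c {n : ℕ} (Y : Finset (Fin n)) (a i : Fin n) {x : E n} (hx : 0 < rr Y x) :
    pd i (fun y => y a / Real.sqrt (rr Y y)) x =
      (if a = i then 1 else 0) / Real.sqrt (rr Y x) -
        x a * (if i ∈ Y then x i else 0) / (rr Y x * Real.sqrt (rr Y x)) := by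
  have hd : DifferentiableAt ℝ (fun y => Real.sqrt (rr Y y)) x :=
    (XIID_rr_diff Y x).sqrt hx.ne'
  have hs : 0 < Real.sqrt (rr Y x) := Real.sqrt_pos.2 hx
  have h0 : (fun y : E n => Real.sqrt (rr Y y)) x ≠ 0 := hs.ne'
  have hc : DifferentiableAt ℝ (fun y : E n => y a / Real.sqrt (rr Y y)) x :=
    XIID_div (g := fun y => Real.sqrt (rr Y y)) (XIID_coord_diff a x) hd h0
  have h1 := XIID_mul hc hd i
  have h2 : (fun y : E n => y a / Real.sqrt (rr Y y) * Real.sqrt (rr Y y)) =ᶠ[𝓝 x]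
      fun y => y a := by
    have h3 : ∀ᶠ y in 𝓝 x, 0 < rr Y y :=
      (XIID_rr_diff Y x).continuousAt.eventually (lt_mem_nhds hx)
    filter_upwards [h3] with y hy
    exact div_mul_cancel₀ _ (Real.sqrt_pos.2 hy).ne'
  have h4 : pd i (fun y : E n => y a / Real.sqrt (rr Y y) * Real.sqrt (rr Y y)) x =
      if a = i then 1 else 0 := by
    unfold pd
    rw [h2.fderiv_eq]
    exact XIID_coord a i x
  rw [h4, XIID_sqrt Y i hx] at h1
  have h5 : Real.sqrt (rr Y x) * Real.sqrt (rr Y x) = rr Y x := Real.mul_self_sqrt hx.le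
  have h6 : rr Y x ≠ 0 := hx.ne'
  have h7 : pd i (fun y => y a / Real.sqrt (rr Y y)) x =
      ((if a = i then 1 else 0) - x a / Real.sqrt (rr Y x) *
        ((if i ∈ Y then x i else 0) / Real.sqrt (rr Y x))) / Real.sqrt (rr Y x) := by
    rw [eq_div_iff hs.ne']
    linarith
  rw [h7]
  have h12 : rr Y x * Real.sqrt (rr Y x) =
      Real.sqrt (rr Y x) * Real.sqrt (rr Y x) * Real.sqrt (rr Y x) := by rw [h5]
  rw [h12]
  generalize Real.sqrt (rr Y x) = r at hs
  field_simp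

theorem XIID_alg {n : ℕ} (Y : Finset (Fin n)) (x : Fin n → ℝ) (s X : ℝ) (p : Fin n → ℝ)
    (hs : 0 < s) (hs2 : s * s = ∑ a ∈ Y, x a ^ 2) :
    ∑ a ∈ Y, ∑ i, (x a / s * p i + X * ((if a = i then 1 else 0) / s -
        x a * (if i ∈ Y then x i else 0) / (s * s * s))) ^ 2 =
      ∑ i, p i ^ 2 + ((Y.card : ℝ) - 1) * X ^ 2 / (s * s) := by
  have hs0 : s ≠ 0 := hs.ne'
  set z : Fin n → ℝ := fun i => if i ∈ Y then x i else 0 with hz
  have hz2 : ∑ i, z i ^ 2 = s * s := by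
    rw [hs2, hz]
    simp only [ite_pow, ne_eq, OfNat.ofNat_ne_zero, not_false_eq_true, zero_pow]
    rw [Finset.sum_ite_mem, Finset.univ_inter]
  have e1 : ∀ a ∈ Y, ∑ i, (x a / s * p i + X * ((if a = i then 1 else 0) / s -
      x a * z i / (s * s * s))) ^ 2 =
      x a ^ 2 / (s * s) * ∑ i, p i ^ 2 +
      2 * X * x a * p a / (s * s) - 2 * X * x a ^ 2 / (s * s * (s * s)) * ∑ i, p i * z i +
      X ^ 2 / (s * s) - 2 * X ^ 2 * x a ^ 2 / (s * s * (s * s)) +
      X ^ 2 * x a ^ 2 / (s * s * (s * s) * (s * s)) * (s * s) := by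
    intro a ha
    have hza : z a = x a := by rw [hz]; exact if_pos ha
    have h1 : ∀ i, (x a / s * p i + X * ((if a = i then 1 else 0) / s -
        x a * z i / (s * s * s))) ^ 2 =
        x a ^ 2 / (s * s) * p i ^ 2 + (if a = i then 2 * X * x a * p i / (s * s) else 0) -
        2 * X * x a ^ 2 / (s * s * (s * s)) * (p i * z i) +
        (if a = i then X ^ 2 / (s * s) else 0) -
        (if a = i then 2 * X ^ 2 * x a * z i / (s * s * (s * s)) else 0) +
        X ^ 2 * x a ^ 2 / (s * s * (s * s) * (s * s)) * z i ^ 2 := by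
      intro i
      split_ifs
      · field_simp
        ring
      · field_simp
        ring
    simp only [h1]
    rw [Finset.sum_add_distrib, Finset.sum_sub_distrib, Finset.sum_add_distrib,
      Finset.sum_sub_distrib, Finset.sum_add_distrib, ← Finset.mul_sum, ← Finset.mul_sum,
      ← Finset.mul_sum, Finset.sum_ite_eq, Finset.sum_ite_eq, Finset.sum_ite_eq,
      if_pos (Finset.mem_univ a), if_pos (Finset.mem_univ a), if_pos (Finset.mem_univ a), hz2, hza]
    ring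
  rw [Finset.sum_congr rfl e1]
  have e2 : ∑ i, p i * z i = ∑ a ∈ Y, x a * p a := by
    rw [hz]
    simp only [mul_ite, mul_zero]
    rw [Finset.sum_ite_mem, Finset.univ_inter]
    exact Finset.sum_congr rfl fun i _ => mul_comm _ _
  rw [Finset.sum_add_distrib, Finset.sum_sub_distrib, Finset.sum_add_distrib,
    Finset.sum_sub_distrib, Finset.sum_add_distrib, e2]
  have e3 : ∑ a ∈ Y, x a ^ 2 / (s * s) * ∑ i, p i ^ 2 = ∑ i, p i ^ 2 := by
    rw [← Finset.sum_mul, ← Finset.sum_div, ← hs2, div_self (mul_ne_zero hs0 hs0), one_mul]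
  have e4 : ∑ a ∈ Y, 2 * X * x a * p a / (s * s) = 2 * X / (s * s) * ∑ a ∈ Y, x a * p a := by
    rw [Finset.mul_sum]
    exact Finset.sum_congr rfl fun a _ => by ring
  have e5 : ∑ a ∈ Y, 2 * X * x a ^ 2 / (s * s * (s * s)) * ∑ b ∈ Y, x b * p b =
      2 * X / (s * s) * ∑ a ∈ Y, x a * p a := by
    have h1 : ∀ a ∈ Y, 2 * X * x a ^ 2 / (s * s * (s * s)) * ∑ b ∈ Y, x b * p b =
        x a ^ 2 * (2 * X / (s * s * (s * s)) * ∑ b ∈ Y, x b * p b) := fun a _ => by ring
    rw [Finset.sum_congr rfl h1, ← Finset.sum_mul, ← hs2]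
    field_simp
  have e6 : ∑ _a ∈ Y, X ^ 2 / (s * s) = (Y.card : ℝ) * (X ^ 2 / (s * s)) := by
    rw [Finset.sum_const, nsmul_eq_mul]
  have e7 : ∑ a ∈ Y, 2 * X ^ 2 * x a ^ 2 / (s * s * (s * s)) = 2 * X ^ 2 / (s * s) := by
    have h1 : ∀ a ∈ Y, 2 * X ^ 2 * x a ^ 2 / (s * s * (s * s)) =
        x a ^ 2 * (2 * X ^ 2 / (s * s * (s * s))) := fun a _ => by ring
    rw [Finset.sum_congr rfl h1, ← Finset.sum_mul, ← hs2]
    field_simp
  have e8 : ∑ a ∈ Y, X ^ 2 * x a ^ 2 / (s * s * (s * s) * (s * s)) * (s * s) = X ^ 2 / (s * s) := by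
    have h1 : ∀ a ∈ Y, X ^ 2 * x a ^ 2 / (s * s * (s * s) * (s * s)) * (s * s) =
        x a ^ 2 * (X ^ 2 / (s * s * (s * s) * (s * s)) * (s * s)) := fun a _ => by ring
    rw [Finset.sum_congr rfl h1, ← Finset.sum_mul, ← hs2]
    field_simp
  rw [e3, e4, e5, e6, e7, e8]
  ring

theorem xi_ident {n : ℕ} {Y : Finset (Fin n)} {u η : E n → ℝ} (hu : ContDiff ℝ 2 u)
    (hR : RadIn Y u) (hη : ContDiff ℝ 1 η) {x : E n} (hx : 0 < rr Y x) :
    ∑ a ∈ Y, ∑ i, pd i (fun y => pd a u y * η y) x ^ 2 =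
      ∑ i, pd i (xi Y u η) x ^ 2 + ((Y.card : ℝ) - 1) * (q2 Y u x * η x ^ 2) / rr Y x := by
  have hsd : DifferentiableAt ℝ (fun y => Real.sqrt (rr Y y)) x :=
    (XIID_rr_diff Y x).sqrt hx.ne'
  have hs : 0 < Real.sqrt (rr Y x) := Real.sqrt_pos.2 hx
  have hpd : ∀ a, DifferentiableAt ℝ (pd a u) x := by
    intro a
    have h1 : ContDiff ℝ 1 (fderiv ℝ u) := hu.fderiv_right (by norm_num)
    have h2 : ContDiff ℝ 1 (fun y => fderiv ℝ u y (EuclideanSpace.single a 1)) :=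
      h1.clm_apply contDiff_const
    exact (h2.differentiable (by norm_num)) x
  have hηd : DifferentiableAt ℝ η x := (hη.differentiable (by norm_num)) x
  have h0 : (fun y : E n => Real.sqrt (rr Y y)) x ≠ 0 := hs.ne'
  have hξd : DifferentiableAt ℝ (xi Y u η) x := by
    unfold xi
    refine DifferentiableAt.fun_mul (XIID_div (g := fun y => Real.sqrt (rr Y y)) ?_ hsd h0) hηd
    refine DifferentiableAt.fun_sum fun a _ => ?_
    exact DifferentiableAt.fun_mul (XIID_coord_diff a x) (hpd a)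
  have hev : ∀ᶠ y in 𝓝 x, 0 < rr Y y :=
    (XIID_rr_diff Y x).continuousAt.eventually (lt_mem_nhds hx)
  have hloc : ∀ a ∈ Y, (fun y => pd a u y * η y) =ᶠ[𝓝 x]
      fun y => y a / Real.sqrt (rr Y y) * xi Y u η y := by
    intro a ha
    filter_upwards [hev] with y hy
    have hsy : 0 < Real.sqrt (rr Y y) := Real.sqrt_pos.2 hy
    have h5 : Real.sqrt (rr Y y) * Real.sqrt (rr Y y) = rr Y y := Real.mul_self_sqrt hy.le
    have h6 : y a * ∑ b ∈ Y, y b * pd b u y = rr Y y * pd a u y := by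
      unfold rr
      rw [Finset.mul_sum, Finset.sum_mul]
      refine Finset.sum_congr rfl fun b hb => ?_
      have h7 := roti hu hR ha hb y
      calc y a * (y b * pd b u y) = y b * (y a * pd b u y) := by ring
        _ = y b * (y b * pd a u y) := by rw [h7]
        _ = y b ^ 2 * pd a u y := by ring
    have h8 : pd a u y = y a * (∑ b ∈ Y, y b * pd b u y) / rr Y y := by
      rw [h6]
      field_simp
    unfold xi
    rw [h8]
    have h11 : y a / Real.sqrt (rr Y y) * ((∑ b ∈ Y, y b * pd b u y) / Real.sqrt (rr Y y) * η y) =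
        y a * (∑ b ∈ Y, y b * pd b u y) / (Real.sqrt (rr Y y) * Real.sqrt (rr Y y)) * η y := by
      field_simp
    rw [h11, h5]
  have hpi : ∀ a ∈ Y, ∀ i, pd i (fun y => pd a u y * η y) x =
      x a / Real.sqrt (rr Y x) * pd i (xi Y u η) x + xi Y u η x *
        ((if a = i then 1 else 0) / Real.sqrt (rr Y x) -
        x a * (if i ∈ Y then x i else 0) /
          (Real.sqrt (rr Y x) * Real.sqrt (rr Y x) * Real.sqrt (rr Y x))) := by
    intro a ha i
    have h1 : pd i (fun y => pd a u y * η y) x =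
        pd i (fun y => y a / Real.sqrt (rr Y y) * xi Y u η y) x := by
      show fderiv ℝ (fun y => pd a u y * η y) x _ = fderiv ℝ (fun y => y a / Real.sqrt (rr Y y) *
        xi Y u η y) x _
      rw [(hloc a ha).fderiv_eq]
    have hc : DifferentiableAt ℝ (fun y : E n => y a / Real.sqrt (rr Y y)) x :=
      XIID_div (g := fun y => Real.sqrt (rr Y y)) (XIID_coord_diff a x) hsd h0
    rw [h1, XIID_mul hc hξd, XIID_c Y a i hx, Real.mul_self_sqrt hx.le]
  have h9 : ∑ a ∈ Y, ∑ i, pd i (fun y => pd a u y * η y) x ^ 2 =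
      ∑ a ∈ Y, ∑ i, (x a / Real.sqrt (rr Y x) * pd i (xi Y u η) x + xi Y u η x *
        ((if a = i then 1 else 0) / Real.sqrt (rr Y x) -
        x a * (if i ∈ Y then x i else 0) /
          (Real.sqrt (rr Y x) * Real.sqrt (rr Y x) * Real.sqrt (rr Y x)))) ^ 2 :=
    Finset.sum_congr rfl fun a ha => Finset.sum_congr rfl fun i _ => by rw [hpi a ha i]
  have h10 : Real.sqrt (rr Y x) * Real.sqrt (rr Y x) = ∑ a ∈ Y, x a ^ 2 :=
    Real.mul_self_sqrt hx.le
  rw [h9, XIID_alg Y (fun a => x a) _ (xi Y u η x) (fun i => pd i (xi Y u η) x) hs h10,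
    xi_sq hu hR hx, Real.mul_self_sqrt hx.le]

end Vale.Agent.P134
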