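import Vale.Agent.P134.Defs3
import Vale.Agent.P134.Vol

/-! # P134, module TRIV: integral of the weight over boxes

`(1 + rr)^k ≥ ∏ i ∈ Y, (1 + (x i)²)`, so `wt ≤ ∏ i ∈ Y, (1 + (x i)²)^(-β)`, `β = (k - 1) / (2 k)`,
and the integral over the box is at most a product of one-variable integrals:
`∫_{|t - c i| ≤ R} (1+t²)^(-β) ≤ C_c R^(1/k)` for `i ∈ Y`, `2R` for `p`, `2N` for `l`. -/

open MeasureTheory Set Filter Topology

namespace Vale.Agent.P134

theorem TRIV_prod {n : ℕ} (c : E n) (r : Fin n → ℝ) (F : Fin n → ℝ → ℝ) :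
    ∫ x in box c r, ∏ i, F i (x i) = ∏ i, ∫ t in Icc (c i - r i) (c i + r i), F i t := by
  have he : MeasurableEmbedding (WithLp.ofLp : E n → (Fin n → ℝ)) :=
    (MeasurableEquiv.toLp 2 (Fin n → ℝ)).symm.measurableEmbedding
  have h1 := (PiLp.volume_preserving_ofLp (Fin n)).setIntegral_preimage_emb he
    (fun y : Fin n → ℝ => ∏ i, F i (y i)) (Icc (fun i => c i - r i) (fun i => c i + r i))
  rw [VOL_eq]
  refine Eq.trans h1 ?_
  rw [← Set.pi_univ_Icc, volume_pi, Measure.restrict_pi_pi, integral_fintype_prod_eq_prod]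

theorem TRIV_one {k : ℕ} (hk : 1 ≤ k) (c R : ℝ) (hR : 1 ≤ R) :
    ∫ t in Icc (c - R) (c + R), (1 + t ^ 2) ^ (-(((k : ℝ) - 1) / (2 * k))) ≤
      2 * k * (1 + |c|) * R ^ ((1 : ℝ) / k) := by
  have hk0 : (0 : ℝ) < k := by exact_mod_cast hk
  have hk1 : (1 : ℝ) ≤ k := by exact_mod_cast hk
  obtain ⟨β, hβ⟩ : ∃ β : ℝ, β = ((k : ℝ) - 1) / (2 * k) := ⟨_, rfl⟩
  have hβ0 : 0 ≤ β := by
    rw [hβ]
    exact div_nonneg (by linarith) (by linarith)
  rw [← hβ]
  obtain ⟨M, hM⟩ : ∃ M, M = R + |c| := ⟨_, rfl⟩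
  have hM0 : 0 < M := by
    rw [hM]
    have := abs_nonneg c
    linarith
  have hfc : Continuous fun t : ℝ => (1 + t ^ 2) ^ (-β) := by
    refine Continuous.rpow_const (by fun_prop) fun t => Or.inl ?_
    have := sq_nonneg t
    exact ne_of_gt (by linarith)
  have hf0 : ∀ t : ℝ, 0 ≤ (1 + t ^ 2) ^ (-β) := fun t => by
    have := sq_nonneg t
    exact Real.rpow_nonneg (by linarith) _
  have s1 : ∫ t in Icc (c - R) (c + R), (1 + t ^ 2) ^ (-β) ≤
      ∫ t in Icc (-M) M, (1 + t ^ 2) ^ (-β) := by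
    refine setIntegral_mono_set (hfc.integrableOn_Icc) (Eventually.of_forall hf0) ?_
    refine LE.le.eventuallyLE (Icc_subset_Icc ?_ ?_ : Icc (c - R) (c + R) ⊆ Icc (-M) M)
    · rw [hM]
      have := neg_abs_le c
      linarith
    · rw [hM]
      have := le_abs_self c
      linarith
  have s2 : ∫ t in Icc (-M) M, (1 + t ^ 2) ^ (-β) = 2 * ∫ t in (0:ℝ)..M, (1 + t ^ 2) ^ (-β) := by
    rw [integral_Icc_eq_integral_Ioc, ← intervalIntegral.integral_of_le (by linarith),
      ← intervalIntegral.integral_add_adjacent_intervals (hfc.intervalIntegrable (-M) 0)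
        (hfc.intervalIntegrable 0 M)]
    have e1 : ∫ t in (-M)..0, (1 + t ^ 2) ^ (-β) = ∫ t in (0:ℝ)..M, (1 + t ^ 2) ^ (-β) := by
      have h := intervalIntegral.integral_comp_neg (a := 0) (b := M)
        (fun t : ℝ => (1 + t ^ 2) ^ (-β))
      rw [neg_zero] at h
      rw [← h]
      congr 1
      funext t
      rw [neg_sq]
    rw [e1]
    ring
  have hexp : -1 < (1 : ℝ) / k - 1 := by
    have : (0 : ℝ) < 1 / k := by positivity
    linarith
  have s3 : ∫ t in (0:ℝ)..M, (1 + t ^ 2) ^ (-β) ≤ ∫ t in (0:ℝ)..M, t ^ ((1 : ℝ) / k - 1) := by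
    refine intervalIntegral.integral_mono_on_of_le_Ioo hM0.le (hfc.intervalIntegrable _ _)
      (intervalIntegral.intervalIntegrable_rpow' hexp) fun t ht => ?_
    have ht0 : 0 < t := ht.1
    have e1 : t ^ ((1 : ℝ) / k - 1) = (t ^ 2) ^ (-β) := by
      rw [← Real.rpow_natCast, ← Real.rpow_mul ht0.le]
      congr 1
      rw [hβ]
      push_cast
      field_simp
      ring
    rw [e1]
    exact Real.rpow_le_rpow_of_nonpos (by positivity) (by linarith) (by linarith)
  have s4 : ∫ t in (0:ℝ)..M, t ^ ((1 : ℝ) / k - 1) = k * M ^ ((1 : ℝ) / k) := by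
    rw [integral_rpow (Or.inl hexp), sub_add_cancel, Real.zero_rpow (by positivity), sub_zero]
    field_simp
  have s5 : M ^ ((1 : ℝ) / k) ≤ (1 + |c|) * R ^ ((1 : ℝ) / k) := by
    have ha := abs_nonneg c
    have e1 : M ≤ (1 + |c|) * R := by
      rw [hM]
      nlinarith
    calc M ^ ((1 : ℝ) / k) ≤ ((1 + |c|) * R) ^ ((1 : ℝ) / k) :=
          Real.rpow_le_rpow hM0.le e1 (by positivity)
      _ = (1 + |c|) ^ ((1 : ℝ) / k) * R ^ ((1 : ℝ) / k) :=
          Real.mul_rpow (by linarith) (by linarith)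
      _ ≤ (1 + |c|) * R ^ ((1 : ℝ) / k) := by
          refine mul_le_mul_of_nonneg_right ?_ (Real.rpow_nonneg (by linarith) _)
          have e2 : (1 + |c|) ^ ((1 : ℝ) / k) ≤ (1 + |c|) ^ (1 : ℝ) :=
            Real.rpow_le_rpow_of_exponent_le (by linarith) (by
              rw [div_le_one hk0]
              exact hk1)
          rwa [Real.rpow_one] at e2
  calc ∫ t in Icc (c - R) (c + R), (1 + t ^ 2) ^ (-β) ≤
      2 * ∫ t in (0:ℝ)..M, (1 + t ^ 2) ^ (-β) := s1.trans s2.le
    _ ≤ 2 * (k * M ^ ((1 : ℝ) / k)) := by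
        rw [← s4]
        linarith
    _ ≤ 2 * (k * ((1 + |c|) * R ^ ((1 : ℝ) / k))) := by
        have := mul_le_mul_of_nonneg_left s5 hk0.le
        linarith
    _ = 2 * k * (1 + |c|) * R ^ ((1 : ℝ) / k) := by ring

theorem triv {n k : ℕ} (hk : 1 ≤ k) {Y : Finset (Fin n)} (hY : Y.card = k) {p l : Fin n}
    (hpl : p ≠ l) (hp : p ∉ Y) (hl : l ∉ Y) (hn : n = k + 2) {α : ℝ} (hα0 : 0 ≤ α)
    (hα : 2 * α < k) (hα1 : (k : ℝ) - 1 ≤ 2 * α) (c : E n) :
    ∃ B : ℝ, 0 < B ∧ ∀ N R : ℝ, 1 ≤ R → R ≤ N →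
      ∫ x in box c (sideS (Finset.univ.erase l) N R), wt Y α x ≤ B * (N * R ^ 2) := by
  have hk0 : (0 : ℝ) < k := by exact_mod_cast hk
  have hk1 : (1 : ℝ) ≤ k := by exact_mod_cast hk
  obtain ⟨β, hβ⟩ : ∃ β : ℝ, β = ((k : ℝ) - 1) / (2 * k) := ⟨_, rfl⟩
  have hβ0 : 0 ≤ β := by
    rw [hβ]
    exact div_nonneg (by linarith) (by linarith)
  obtain ⟨A, hA⟩ : ∃ A : ℝ, A = ∏ i ∈ Y, (2 * k * (1 + |c i|)) := ⟨_, rfl⟩
  have hA0 : 0 < A := by
    rw [hA]
    refine Finset.prod_pos fun i _ => ?_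
    have := abs_nonneg (c i)
    positivity
  refine ⟨4 * A, by positivity, fun N R hR hRN => ?_⟩
  have hR0 : 0 < R := by linarith
  obtain ⟨F, hF⟩ : ∃ F : Fin n → ℝ → ℝ,
      F = fun i t => if i ∈ Y then (1 + t ^ 2) ^ (-β) else 1 := ⟨_, rfl⟩
  have hFc : ∀ i, Continuous (F i) := by
    intro i
    rw [hF]
    by_cases hi : i ∈ Y
    · simp only [if_pos hi]
      refine Continuous.rpow_const (by fun_prop) fun t => Or.inl ?_
      have := sq_nonneg t
      exact ne_of_gt (by linarith)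
    · simp only [if_neg hi]
      exact continuous_const
  have hrr : ∀ x : E n, 0 ≤ rr Y x := fun x => Finset.sum_nonneg fun i _ => sq_nonneg _
  have hrc : Continuous fun x : E n => rr Y x := by
    unfold rr
    fun_prop
  have hwc : Continuous fun x : E n => wt Y α x := by
    unfold wt
    refine Continuous.rpow_const (by fun_prop) fun x => Or.inl ?_
    have := hrr x
    exact ne_of_gt (by linarith)
  have hpt : ∀ x : E n, wt Y α x ≤ ∏ i, F i (x i) := by
    intro x
    have h1 := hrr x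
    have e1 : ∏ i, F i (x i) = ∏ i ∈ Y, (1 + x i ^ 2) ^ (-β) := by
      rw [hF]
      simp only
      rw [Finset.prod_ite_mem, Finset.univ_inter]
    have e2 : wt Y α x ≤ (1 + rr Y x) ^ (-(((k : ℝ) - 1) / 2)) := by
      unfold wt
      exact Real.rpow_le_rpow_of_exponent_le (by linarith) (by linarith)
    have e3 : (1 + rr Y x) ^ (-(((k : ℝ) - 1) / 2)) = ∏ _i ∈ Y, (1 + rr Y x) ^ (-β) := by
      rw [Finset.prod_const, hY, ← Real.rpow_natCast, ← Real.rpow_mul (by linarith)]
      congr 1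
      rw [hβ]
      field_simp
    rw [e1]
    refine e2.trans (e3.le.trans (Finset.prod_le_prod (fun i _ => ?_) fun i hi => ?_))
    · exact Real.rpow_nonneg (by linarith) _
    · refine Real.rpow_le_rpow_of_nonpos ?_ ?_ (by linarith)
      · have := sq_nonneg (x i)
        linarith
      · have h2 : x i ^ 2 ≤ rr Y x :=
          Finset.single_le_sum (f := fun i => x i ^ 2) (fun i _ => sq_nonneg _) hi
        linarith
  have hbox := box_compact c (sideS (Finset.univ.erase l) N R)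
  have hPc : Continuous fun x : E n => ∏ i, F i (x i) := by
    refine continuous_finsetProd _ fun i _ => (hFc i).comp ?_
    fun_prop
  have hI : ∫ x in box c (sideS (Finset.univ.erase l) N R), wt Y α x ≤
      ∫ x in box c (sideS (Finset.univ.erase l) N R), ∏ i, F i (x i) :=
    setIntegral_mono (hwc.continuousOn.integrableOn_compact hbox)
      (hPc.continuousOn.integrableOn_compact hbox) hpt
  rw [TRIV_prod] at hI
  refine hI.trans ?_
  -- the factors
  obtain ⟨G, hG⟩ : ∃ G : Fin n → ℝ, G = fun i => ∫ t in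
    Icc (c i - sideS (Finset.univ.erase l) N R i) (c i + sideS (Finset.univ.erase l) N R i), F i t :=
    ⟨_, rfl⟩
  have hGv : ∀ i, G i = ∫ t in
    Icc (c i - sideS (Finset.univ.erase l) N R i) (c i + sideS (Finset.univ.erase l) N R i), F i t :=
    fun i => by rw [hG]
  have hF0 : ∀ i t, 0 ≤ F i t := by
    intro i t
    rw [hF]
    simp only
    split_ifs
    · have := sq_nonneg t
      exact Real.rpow_nonneg (by linarith) _
    · norm_num
  have hG0 : ∀ i, 0 ≤ G i := fun i => by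
    rw [hGv]
    exact integral_nonneg fun t => hF0 i t
  have hsR : ∀ i, i ≠ l → sideS (Finset.univ.erase l) N R i = R := fun i hi => by
    unfold sideS
    rw [if_pos (Finset.mem_erase.2 ⟨hi, Finset.mem_univ i⟩)]
  have hsl : sideS (Finset.univ.erase l) N R l = N := by
    unfold sideS
    rw [if_neg fun h => (Finset.mem_erase.1 h).1 rfl]
  have hGY : ∀ i ∈ Y, G i ≤ 2 * k * (1 + |c i|) * R ^ ((1 : ℝ) / k) := by
    intro i hi
    have hil : i ≠ l := fun h => hl (h ▸ hi)
    rw [hGv, hsR i hil, hF]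
    simp only [if_pos hi]
    rw [hβ]
    exact TRIV_one hk (c i) R hR
  have hGp : G p = 2 * R := by
    rw [hGv, hsR p hpl, hF]
    simp only [if_neg hp]
    rw [setIntegral_const, smul_eq_mul, mul_one, measureReal_def, Real.volume_Icc,
      ENNReal.toReal_ofReal (by linarith)]
    ring
  have hGl : G l = 2 * N := by
    rw [hGv, hsl, hF]
    simp only [if_neg hl]
    rw [setIntegral_const, smul_eq_mul, mul_one, measureReal_def, Real.volume_Icc,
      ENNReal.toReal_ofReal (by linarith)]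
    ring
  have huniv : (Finset.univ : Finset (Fin n)) = insert p (insert l Y) := by
    symm
    rw [← Finset.card_eq_iff_eq_univ, Finset.card_insert_of_notMem, Finset.card_insert_of_notMem hl,
      hY, Fintype.card_fin, hn]
    rw [Finset.mem_insert]
    push Not
    exact ⟨hpl, hp⟩
  have hprod : ∏ i, G i = G p * (G l * ∏ i ∈ Y, G i) := by
    rw [huniv, Finset.prod_insert, Finset.prod_insert hl]
    rw [Finset.mem_insert]
    push Not
    exact ⟨hpl, hp⟩
  have hYprod : ∏ i ∈ Y, G i ≤ A * R := by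
    refine (Finset.prod_le_prod (fun i _ => hG0 i) hGY).trans (le_of_eq ?_)
    rw [Finset.prod_mul_distrib, ← hA, Finset.prod_const, hY, ← Real.rpow_natCast,
      ← Real.rpow_mul hR0.le]
    rw [one_div, inv_mul_cancel₀ hk0.ne', Real.rpow_one]
  have hfin : ∏ i, G i ≤ 4 * A * (N * R ^ 2) := by
    rw [hprod, hGp, hGl]
    have h1 : 0 ≤ 2 * R * (2 * N) := by
      have : 0 < N := by linarith
      positivity
    have h2 := mul_le_mul_of_nonneg_left hYprod h1
    calc 2 * R * (2 * N * ∏ i ∈ Y, G i) = 2 * R * (2 * N) * ∏ i ∈ Y, G i := by ring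
      _ ≤ 2 * R * (2 * N) * (A * R) := h2
      _ = 4 * A * (N * R ^ 2) := by ring
  rw [hG] at hfin
  exact hfin

end Vale.Agent.P134
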