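import Vale.Agent.P134.Defs3
import Vale.Agent.P134.Qlip

/-! # P134, module WRAD: weighted inequality

`η = (1 + rr)^(-α/2) φ`.  `|∇(1+rr)^(-α/2)|² = α² rr (1+rr)^(-α-2) ≤ α² wt / (1 + rr)`, so for
`δ > 0`, `|∇η|² ≤ (1+δ) α² wt φ² / (1+rr) + (1 + 1/δ) wt |∇φ|²`.  Choose `δ` with
`(1+δ) α² < card Y - 1` and absorb. -/

open MeasureTheory Set Filter Topology

namespace Vale.Agent.P134

theorem WRAD_pd_cont {n : ℕ} {f : E n → ℝ} (hf : ContDiff ℝ 1 f) (i : Fin n) :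
    Continuous (pd i f) := by
  have h1 : Continuous (fderiv ℝ f) := hf.continuous_fderiv (by norm_num)
  exact h1.clm_apply continuous_const

theorem WRAD_grad_supp {n : ℕ} {f : E n → ℝ} (hf : HasCompactSupport f) :
    HasCompactSupport (fun x => ∑ i, pd i f x ^ 2) := by
  have h1 := hf.fderiv (𝕜 := ℝ)
  exact h1.comp_left (g := fun L : E n →L[ℝ] ℝ => ∑ i, (L (EuclideanSpace.single i 1)) ^ 2)
    (by simp)

theorem WRAD_rr_deriv {n : ℕ} (Y : Finset (Fin n)) (x : E n) :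
    ∃ L : E n →L[ℝ] ℝ, HasFDerivAt (rr Y) L x ∧
      ∀ i, L (EuclideanSpace.single i 1) = if i ∈ Y then 2 * x i else 0 := by
  classical
  refine ⟨∑ j ∈ Y, (x j • (EuclideanSpace.proj j : E n →L[ℝ] ℝ) +
    x j • (EuclideanSpace.proj j : E n →L[ℝ] ℝ)), ?_, fun i => ?_⟩
  · have h1 : (rr Y : E n → ℝ) = fun y => ∑ j ∈ Y,
        (EuclideanSpace.proj j : E n →L[ℝ] ℝ) y * (EuclideanSpace.proj j : E n →L[ℝ] ℝ) y := by
      funext y
      unfold rr
      exact Finset.sum_congr rfl fun j _ => by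
        rw [pow_two]
        rfl
    rw [h1]
    refine HasFDerivAt.fun_sum fun j _ => ?_
    exact ((EuclideanSpace.proj j : E n →L[ℝ] ℝ).hasFDerivAt).mul
      ((EuclideanSpace.proj j : E n →L[ℝ] ℝ).hasFDerivAt)
  · rw [_root_.sum_apply]
    have h2 : ∀ j, (x j • (EuclideanSpace.proj j : E n →L[ℝ] ℝ) +
        x j • (EuclideanSpace.proj j : E n →L[ℝ] ℝ)) (EuclideanSpace.single i 1) =
        if j = i then 2 * x i else 0 := by
      intro j
      have h3 : (EuclideanSpace.proj j : E n →L[ℝ] ℝ) (EuclideanSpace.single i 1) =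
          if j = i then 1 else 0 := by
        show (EuclideanSpace.single i (1 : ℝ)) j = _
        rw [EuclideanSpace.single_apply]
      show x j * (EuclideanSpace.proj j : E n →L[ℝ] ℝ) (EuclideanSpace.single i 1) +
        x j * (EuclideanSpace.proj j : E n →L[ℝ] ℝ) (EuclideanSpace.single i 1) = _
      rw [h3]
      by_cases hj : j = i
      · subst hj
        rw [if_pos rfl, if_pos rfl]
        ring
      · rw [if_neg hj, if_neg hj]
        ring
    rw [Finset.sum_congr rfl fun j _ => h2 j]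
    rw [Finset.sum_ite_eq']

theorem WRAD_wt {n : ℕ} (Y : Finset (Fin n)) (β : ℝ) (x : E n) :
    ∑ i, pd i (wt Y β) x ^ 2 ≤ (2 * β) ^ 2 * (wt Y (2 * β) x / (1 + rr Y x)) := by
  classical
  obtain ⟨L, hL, hLi⟩ := WRAD_rr_deriv Y x
  have hr := rr_nonneg Y x
  have hs : 0 < 1 + rr Y x := by linarith
  have h1 : HasFDerivAt (wt Y β) ((-β * (1 + rr Y x) ^ (-β - 1)) • L) x :=
    (hL.const_add 1).rpow_const (Or.inl hs.ne')
  have h2 : ∀ i, pd i (wt Y β) x = -β * (1 + rr Y x) ^ (-β - 1) * (if i ∈ Y then 2 * x i else 0) := by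
    intro i
    unfold pd
    rw [h1.fderiv, ← hLi i]
    rfl
  have h3 : ∑ i, pd i (wt Y β) x ^ 2 =
      (-β * (1 + rr Y x) ^ (-β - 1)) ^ 2 * (4 * rr Y x) := by
    rw [Finset.sum_congr rfl fun i _ => by rw [h2 i, mul_pow], ← Finset.mul_sum]
    congr 1
    have h4 : ∀ i, (if i ∈ Y then 2 * x i else 0) ^ 2 = if i ∈ Y then 4 * x i ^ 2 else 0 := by
      intro i
      by_cases hi : i ∈ Y
      · rw [if_pos hi, if_pos hi]
        ring
      · rw [if_neg hi, if_neg hi]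
        ring
    rw [Finset.sum_congr rfl fun i _ => h4 i, ← Finset.sum_filter]
    unfold rr
    rw [Finset.mul_sum]
    refine Finset.sum_congr ?_ fun i _ => rfl
    ext i
    simp
  have h5 : ((1 + rr Y x) ^ (-β - 1)) ^ 2 = wt Y (2 * β) x / (1 + rr Y x) ^ 2 := by
    unfold wt
    rw [Real.rpow_sub hs, Real.rpow_one, div_pow, ← Real.rpow_natCast ((1 + rr Y x) ^ (-β)),
      ← Real.rpow_mul hs.le]
    congr 2
    push_cast
    ring
  rw [h3, mul_pow, h5]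
  have h6 : 0 < wt Y (2 * β) x := wt_pos Y _ x
  have h7 : (-β) ^ 2 * (wt Y (2 * β) x / (1 + rr Y x) ^ 2) * (4 * rr Y x) =
      (2 * β) ^ 2 * (wt Y (2 * β) x / (1 + rr Y x)) * (rr Y x / (1 + rr Y x)) := by
    field_simp
    ring
  rw [h7]
  refine mul_le_of_le_one_right (by positivity) ?_
  rw [div_le_one hs]
  linarith

theorem WRAD_young {δ : ℝ} (hδ : 0 < δ) (a b : ℝ) :
    (a + b) ^ 2 ≤ (1 + δ) * a ^ 2 + (1 + 1 / δ) * b ^ 2 := by
  have h : (1 + δ) * a ^ 2 + (1 + 1 / δ) * b ^ 2 - (a + b) ^ 2 = (δ * a - b) ^ 2 / δ := by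
    field_simp
    ring
  have h2 : 0 ≤ (δ * a - b) ^ 2 / δ := by positivity
  linarith

theorem WRAD_wt_contDiff {n : ℕ} (Y : Finset (Fin n)) (β : ℝ) :
    ContDiff ℝ 1 (wt Y β : E n → ℝ) := by
  unfold wt
  refine ContDiff.rpow_const_of_ne (contDiff_const.add ((rr_smooth Y).of_le (by norm_num))) ?_
  intro x
  have := rr_nonneg Y x
  positivity

theorem WRAD_half {n : ℕ} (Y : Finset (Fin n)) (α : ℝ) (x : E n) :
    wt Y (α / 2) x ^ 2 = wt Y α x := by
  have hr := rr_nonneg Y x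
  have hs : 0 < 1 + rr Y x := by linarith
  unfold wt
  rw [← Real.rpow_natCast ((1 + rr Y x) ^ (-(α / 2))), ← Real.rpow_mul hs.le]
  congr 1
  push_cast
  ring

theorem WRAD_point {n : ℕ} (Y : Finset (Fin n)) (α δ : ℝ) (hδ : 0 < δ) {φ : E n → ℝ}
    (hφ : ContDiff ℝ 1 φ) (x : E n) :
    ∑ i, pd i (fun y => wt Y (α / 2) y * φ y) x ^ 2 ≤
      (1 + δ) * α ^ 2 * (φ x ^ 2 * (wt Y α x / (1 + rr Y x))) +
        (1 + 1 / δ) * (wt Y α x * ∑ i, pd i φ x ^ 2) := by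
  have hw : ContDiff ℝ 1 (wt Y (α / 2) : E n → ℝ) := WRAD_wt_contDiff Y _
  have h1 : ∀ i, pd i (fun y => wt Y (α / 2) y * φ y) x =
      φ x * pd i (wt Y (α / 2)) x + wt Y (α / 2) x * pd i φ x := by
    intro i
    have h2 : HasFDerivAt (fun y => wt Y (α / 2) y * φ y)
        (wt Y (α / 2) x • fderiv ℝ φ x + φ x • fderiv ℝ (wt Y (α / 2)) x) x :=
      ((hw.differentiable (by norm_num) x).hasFDerivAt).mul
        ((hφ.differentiable (by norm_num) x).hasFDerivAt)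
    unfold pd
    rw [h2.fderiv]
    show wt Y (α / 2) x * fderiv ℝ φ x (EuclideanSpace.single i 1) +
      φ x * fderiv ℝ (wt Y (α / 2)) x (EuclideanSpace.single i 1) = _
    ring
  have h3 : ∑ i, pd i (fun y => wt Y (α / 2) y * φ y) x ^ 2 ≤
      ∑ i, ((1 + δ) * (φ x * pd i (wt Y (α / 2)) x) ^ 2 +
        (1 + 1 / δ) * (wt Y (α / 2) x * pd i φ x) ^ 2) :=
    Finset.sum_le_sum fun i _ => by rw [h1 i]; exact WRAD_young hδ _ _
  refine h3.trans ?_
  have h4 : ∑ i, ((1 + δ) * (φ x * pd i (wt Y (α / 2)) x) ^ 2 +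
        (1 + 1 / δ) * (wt Y (α / 2) x * pd i φ x) ^ 2) =
      (1 + δ) * φ x ^ 2 * ∑ i, pd i (wt Y (α / 2)) x ^ 2 +
        (1 + 1 / δ) * (wt Y (α / 2) x ^ 2 * ∑ i, pd i φ x ^ 2) := by
    rw [Finset.sum_add_distrib, Finset.mul_sum, Finset.mul_sum, Finset.mul_sum]
    congr 1
    · exact Finset.sum_congr rfl fun i _ => by ring
    · exact Finset.sum_congr rfl fun i _ => by ring
  rw [h4, WRAD_half]
  have h5 := WRAD_wt Y (α / 2) x
  have h6 : 2 * (α / 2) = α := by ring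
  rw [h6] at h5
  have h7 : (1 + δ) * φ x ^ 2 * ∑ i, pd i (wt Y (α / 2)) x ^ 2 ≤
      (1 + δ) * φ x ^ 2 * (α ^ 2 * (wt Y α x / (1 + rr Y x))) :=
    mul_le_mul_of_nonneg_left h5 (by positivity)
  linarith

theorem wrad {n : ℕ} {Y : Finset (Fin n)} {α : ℝ} (hα : 0 ≤ α) (hα2 : α ^ 2 < (Y.card : ℝ) - 1) :
    ∃ A : ℝ, 0 < A ∧ ∀ u : E n → ℝ, ContDiff ℝ 2 u → AxisIneq Y u →
    ∀ φ : E n → ℝ, ContDiff ℝ 1 φ → HasCompactSupport φ →
    ∫ x, φ x ^ 2 * (q2 Y u x * wt Y α x / (1 + rr Y x)) ≤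
      A * ∫ x, (q2 Y u x * wt Y α x) * ∑ i, pd i φ x ^ 2 := by
  obtain ⟨δ, hδ, hδ2⟩ : ∃ δ : ℝ, 0 < δ ∧ (1 + δ) * α ^ 2 < (Y.card : ℝ) - 1 := by
    refine ⟨((Y.card : ℝ) - 1 - α ^ 2) / (2 * (α ^ 2 + 1)), ?_, ?_⟩
    · have : 0 < (Y.card : ℝ) - 1 - α ^ 2 := by linarith
      positivity
    · have h1 : ((Y.card : ℝ) - 1 - α ^ 2) / (2 * (α ^ 2 + 1)) * α ^ 2 ≤
          ((Y.card : ℝ) - 1 - α ^ 2) / 2 := by
        have h2 : ((Y.card : ℝ) - 1 - α ^ 2) / (2 * (α ^ 2 + 1)) * α ^ 2 =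
            ((Y.card : ℝ) - 1 - α ^ 2) / 2 * (α ^ 2 / (α ^ 2 + 1)) := by
          field_simp
        rw [h2]
        refine mul_le_of_le_one_right (by linarith) ?_
        rw [div_le_one (by positivity)]
        linarith
      rw [add_mul, one_mul]
      linarith
  have hgap : 0 < (Y.card : ℝ) - 1 - (1 + δ) * α ^ 2 := by linarith
  refine ⟨(1 + 1 / δ) / ((Y.card : ℝ) - 1 - (1 + δ) * α ^ 2), by positivity, ?_⟩
  intro u hu hA φ hφ hφc
  have hw : ContDiff ℝ 1 (wt Y (α / 2) : E n → ℝ) := WRAD_wt_contDiff Y _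
  have hη : ContDiff ℝ 1 (fun y => wt Y (α / 2) y * φ y) := hw.mul hφ
  have hηc : HasCompactSupport (fun y => wt Y (α / 2) y * φ y) := hφc.mul_left
  have hs : ∀ x : E n, 0 < 1 + rr Y x := fun x => by
    have := rr_nonneg Y x
    linarith
  have hq := q2_cont Y hu
  have hwt : Continuous (wt Y α : E n → ℝ) := wt_cont Y α
  have hrr : Continuous (rr Y : E n → ℝ) := (rr_smooth Y).continuous
  have iF : Integrable (fun x => φ x ^ 2 * (q2 Y u x * wt Y α x / (1 + rr Y x))) := by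
    refine Continuous.integrable_of_hasCompactSupport ?_ ?_
    · exact (hφ.continuous.pow 2).mul ((hq.mul hwt).div (continuous_const.add hrr)
        fun x => (hs x).ne')
    · have h1 : HasCompactSupport (fun x => φ x ^ 2) :=
        hφc.comp_left (g := fun t : ℝ => t ^ 2) (by norm_num)
      exact h1.mul_right
  have iG : Integrable (fun x => (q2 Y u x * wt Y α x) * ∑ i, pd i φ x ^ 2) := by
    refine Continuous.integrable_of_hasCompactSupport ?_ ?_
    · exact (hq.mul hwt).mul (continuous_finsetSum _ fun i _ => (WRAD_pd_cont hφ i).pow 2)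
    · exact (WRAD_grad_supp hφc).mul_left
  have iH : Integrable (fun x => q2 Y u x * ∑ i, pd i (fun y => wt Y (α / 2) y * φ y) x ^ 2) := by
    refine Continuous.integrable_of_hasCompactSupport ?_ ?_
    · exact hq.mul (continuous_finsetSum _ fun i _ => (WRAD_pd_cont hη i).pow 2)
    · exact (WRAD_grad_supp hηc).mul_left
  have h1 := hA _ hη hηc
  have h2 : ∫ x, q2 Y u x * ∑ i, pd i (fun y => wt Y (α / 2) y * φ y) x ^ 2 ≤
      ∫ x, ((1 + δ) * α ^ 2 * (φ x ^ 2 * (q2 Y u x * wt Y α x / (1 + rr Y x))) +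
        (1 + 1 / δ) * ((q2 Y u x * wt Y α x) * ∑ i, pd i φ x ^ 2)) := by
    refine integral_mono iH ((iF.const_mul _).add (iG.const_mul _)) fun x => ?_
    have h3 := mul_le_mul_of_nonneg_left (WRAD_point Y α δ hδ hφ x) (q2_nonneg Y u x)
    refine h3.trans (le_of_eq ?_)
    ring
  rw [integral_add (iF.const_mul _) (iG.const_mul _), integral_const_mul, integral_const_mul] at h2
  have h4 : (fun x => q2 Y u x * (wt Y (α / 2) x * φ x) ^ 2 / (1 + rr Y x)) =
      fun x => φ x ^ 2 * (q2 Y u x * wt Y α x / (1 + rr Y x)) := by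
    funext x
    rw [mul_pow, WRAD_half]
    ring
  rw [h4] at h1
  rw [div_mul_eq_mul_div, le_div_iff₀ hgap]
  linarith

end Vale.Agent.P134
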