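import Vale.Agent.P134.Defs3

/-! # P134, module ZEROD: functions with vanishing partial derivatives

`zero_one`: `U` is constant along all coordinate directions except `p`, so
`U x = U (single p (x p))`.  `zero_per`: constant along the direction `a`. -/

open MeasureTheory Set Filter Topology

namespace Vale.Agent.P134

theorem ZEROD_line {n : ℕ} {U : E n → ℝ} (hU : ContDiff ℝ 1 U) (d : E n)
    (h : ∀ y, fderiv ℝ U y d = 0) (x : E n) (s : ℝ) : U (x + s • d) = U x := by
  have hd : ∀ t : ℝ, HasDerivAt (fun t : ℝ => U (x + t • d)) 0 t := by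
    intro t
    have h1 : HasFDerivAt U (fderiv ℝ U (x + t • d)) (x + t • d) :=
      ((hU.differentiable one_ne_zero) _).hasFDerivAt
    have h2 : HasDerivAt (fun t : ℝ => x + t • d) d t := by
      have := ((hasDerivAt_id t).smul_const d).const_add x
      simpa using this
    have h3 := h1.comp_hasDerivAt t h2
    rw [h] at h3
    exact h3
  have h4 := is_const_of_deriv_eq_zero (f := fun t : ℝ => U (x + t • d))
    (fun t => (hd t).differentiableAt) (fun t => (hd t).deriv) s 0
  simpa using h4

theorem ZEROD_sum {n : ℕ} (U : E n → ℝ) (y d : E n) :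
    fderiv ℝ U y d = ∑ i, d i * pd i U y := by
  have h1 : d = ∑ i, d i • EuclideanSpace.single i (1 : ℝ) := by
    ext j
    simp [Finset.sum_apply, Pi.single_apply]
  conv_lhs => rw [h1]
  rw [map_sum]
  refine Finset.sum_congr rfl fun i _ => ?_
  rw [map_smul, smul_eq_mul, pd]

theorem zero_per {n : ℕ} {U : E n → ℝ} (hU : ContDiff ℝ 1 U) {a : Fin n}
    (h : ∀ x, pd a U x = 0) (x : E n) (s : ℝ) : U (x + s • EuclideanSpace.single a 1) = U x :=
  ZEROD_line hU _ h x s

theorem zero_one {n : ℕ} {U : E n → ℝ} (hU : ContDiff ℝ 1 U) (p : Fin n)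
    (h : ∀ i, i ≠ p → ∀ x, pd i U x = 0) (x : E n) :
    U x = U (x p • EuclideanSpace.single p 1) := by
  have h1 := ZEROD_line hU (x - x p • EuclideanSpace.single p (1 : ℝ)) ?_
    (x p • EuclideanSpace.single p 1) 1
  · rw [one_smul, add_sub_cancel] at h1
    exact h1
  · intro y
    rw [ZEROD_sum]
    refine Finset.sum_eq_zero fun i _ => ?_
    by_cases hi : i = p
    · rw [hi]
      simp
    · rw [h i hi y, mul_zero]

end Vale.Agent.P134
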