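import Vale.Agent.P134.Final3
import Vale.Agent.P134.Axis
import Vale.Agent.P134.Wrad
import Vale.Agent.P134.Triv
import Vale.Agent.P134.Aniso
import Vale.Agent.P134.Dyad
import Vale.Agent.P134.AtC
import Vale.Agent.P134.ZeroD

/-! # P134, stage 3, assembly: `O(k)`-invariant solutions in `ℝ^(k+2)`, `k = 2, 3, 4` -/

open MeasureTheory Set Filter Topology
open scoped InnerProductSpace

namespace Vale.Agent.P134

theorem rd_alpha {k : ℕ} (h2 : 2 ≤ k) (h4 : k ≤ 4) : ∃ α : ℝ, 0 ≤ α ∧ α ^ 2 < (k : ℝ) - 1 ∧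
    (k : ℝ) - 1 < 2 * α ∧ 2 * α < k := by
  interval_cases k
  · exact ⟨3 / 4, by norm_num, by norm_num, by norm_num, by norm_num⟩
  · exact ⟨7 / 5, by norm_num, by norm_num, by norm_num, by norm_num⟩
  · exact ⟨17 / 10, by norm_num, by norm_num, by norm_num, by norm_num⟩

theorem rd_gr_le {n : ℕ} {u : E n → ℝ} (hu : IsSol u) (x : E n) :
    gr u x ≤ n * ((n : ℝ) + 1) ^ 2 := by
  unfold gr
  calc ∑ j, pd j u x ^ 2 ≤ ∑ _j : Fin n, ((n : ℝ) + 1) ^ 2 := by
        apply Finset.sum_le_sum
        intro j _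
        have h := reg1 n hu j x
        exact sq_le_sq' (neg_le_of_abs_le h) (le_of_abs_le h)
    _ = n * ((n : ℝ) + 1) ^ 2 := by simp

theorem rd_den {n : ℕ} (Y : Finset (Fin n)) (x : E n) : 0 < 1 + rr Y x := by
  have := rr_nonneg Y x
  linarith

/-- from the weighted inequality and quadratic growth of the weighted energy -/
theorem rd_zero {n : ℕ} {Y : Finset (Fin n)} {α : ℝ} {u : E n → ℝ} (hu : IsSol u) {A : ℝ}
    (hA : 0 < A)
    (hw : ∀ φ : E n → ℝ, ContDiff ℝ 1 φ → HasCompactSupport φ →
      ∫ x, φ x ^ 2 * (q2 Y u x * wt Y α x / (1 + rr Y x)) ≤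
        A * ∫ x, (q2 Y u x * wt Y α x) * ∑ i, pd i φ x ^ 2)
    {m : ℕ} {S : Finset (Fin n)} (hm : m = n - S.card) {v : Fin m → E n}
    (hv : LinearIndependent ℝ v) (hvS : ∀ j, ∀ i ∈ S, v j i = 0)
    (hvY : ∀ j, ∀ i ∈ Y, v j i = 0) (hper : ∀ j x, u (x + v j) = u x)
    (hen : ∀ c : E n, ∃ B : ℝ, 0 < B ∧ ∀ (N R : ℝ), 1 ≤ R → R ≤ N →
      ∫ x in box c (sideS S N R), q2 Y u x * wt Y α x ≤ B * (N ^ (n - S.card) * R ^ 2)) :
    ∀ a ∈ Y, ∀ x, pd a u x = 0 := by
  have hq := q2_cont Y hu.1
  have hwc := wt_cont Y α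
  have hrc : Continuous (rr Y : E n → ℝ) := (rr_smooth Y).continuous
  have hGc : Continuous fun x => q2 Y u x * wt Y α x / (1 + rr Y x) :=
    (hq.mul hwc).div (continuous_const.add hrc) fun x => (rd_den Y x).ne'
  have hG0 : ∀ x, 0 ≤ q2 Y u x * wt Y α x / (1 + rr Y x) := fun x =>
    div_nonneg (mul_nonneg (q2_nonneg Y u x) (wt_pos Y α x).le) (rd_den Y x).le
  have hrv : ∀ j x, rr Y (x + v j) = rr Y x := by
    intro j x
    unfold rr
    apply Finset.sum_congr rfl
    intro i hi
    rw [PiLp.add_apply, hvY j i hi, add_zero]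
  have hqv : ∀ j x, q2 Y u (x + v j) = q2 Y u x := by
    intro j x
    unfold q2
    apply Finset.sum_congr rfl
    intro a _
    have h1 : (fun y => u (y + v j)) = u := funext fun y => hper j y
    have h2 := pd_shift u (v j) a x
    rw [h1] at h2
    rw [← h2]
  have hz := perS_at hm hGc hG0 hv hvS (fun j x => by
      show q2 Y u (x + v j) * wt Y α (x + v j) / (1 + rr Y (x + v j)) = _
      unfold wt
      rw [hqv, hrv]) (fun c ε hε => by
      obtain ⟨B, hB, hBc⟩ := hen c
      exact logS_at S hA hB hGc (hq.mul hwc) hG0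
        (fun x => mul_nonneg (q2_nonneg Y u x) (wt_pos Y α x).le) hw c hBc hε)
  intro a ha x
  have h1 := hz x
  have h2 : q2 Y u x = 0 := by
    rcases div_eq_zero_iff.1 h1 with h | h
    · rcases mul_eq_zero.1 h with h | h
      · exact h
      · exact absurd h (wt_pos Y α x).ne'
    · exact absurd h (rd_den Y x).ne'
  unfold q2 at h2
  have h3 := (Finset.sum_eq_zero_iff_of_nonneg fun i _ => sq_nonneg (pd i u x)).1 h2 a ha
  exact pow_eq_zero_iff (by norm_num) |>.1 h3

theorem radial {n k : ℕ} (h2 : 2 ≤ k) (h4 : k ≤ 4) {Y : Finset (Fin n)} (hY : Y.card = k)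
    (hn : n = k + 2) {l : Fin n} (hl : l ∉ Y) {u : E n → ℝ} (hu : IsSol u)
    (hmon : ∀ x, 0 < pd l u x) (hR : RadIn Y u) :
    ∃ (f : E n) (h : ℝ → ℝ), ‖f‖ = 1 ∧ ∀ x, u x = h ⟪f, x⟫_ℝ := by
  have he : ∀ x, 0 < dd (EuclideanSpace.single l 1) u x := hmon
  obtain ⟨α, hα0, hα1, hα2, hα3⟩ := rd_alpha h2 h4
  -- the other coordinate
  obtain ⟨p, hp, hpl, hcov⟩ : ∃ p, p ∉ Y ∧ p ≠ l ∧ ∀ i, i ≠ p → i ≠ l → i ∈ Y := by
    have h1 : (Finset.univ \ (insert l Y)).card = 1 := by
      rw [Finset.card_sdiff_of_subset (Finset.subset_univ _), Finset.card_insert_of_notMem hl,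
        Finset.card_univ, Fintype.card_fin, hY, hn]
      omega
    obtain ⟨p, hp⟩ := Finset.card_eq_one.1 h1
    have h2 : p ∈ Finset.univ \ (insert l Y) := by rw [hp]; simp
    simp only [Finset.mem_sdiff, Finset.mem_univ, Finset.mem_insert, true_and, not_or] at h2
    refine ⟨p, h2.2, h2.1, fun i hip hil => ?_⟩
    by_contra hi
    have h3 : i ∈ Finset.univ \ (insert l Y) := by simp [hil, hi]
    rw [hp] at h3
    exact hip (Finset.mem_singleton.1 h3)
  have hYk : ((Y.card : ℝ) - 1) = (k : ℝ) - 1 := by rw [hY]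
  obtain ⟨A, hA, hw⟩ := wrad (Y := Y) hα0 (by rw [hYk]; exact hα1)
  obtain ⟨U, hU⟩ := lim_exists hu he
  have hUs : IsSol U := (lim_reg hu hU).1
  have hRU : RadIn Y U := radIn_lim hR hl hU
  have hstU : Stable U := fun ξ h1 h2 => stabU hu he hU h1 h2
  have hstu : Stable u := fun ξ h1 h2 => stab hu he h1 h2
  have hY1 : 1 ≤ Y.card := by omega
  have hwU := hw U hUs.1 (axis hY1 hUs hRU hstU)
  have hwu := hw u hu.1 (axis hY1 hu hR hstu)
  have hcard : (Finset.univ.erase l).card = n - 1 := by
    rw [Finset.card_erase_of_mem (Finset.mem_univ _), Finset.card_univ, Fintype.card_fin]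
  have hlY : ∀ i ∈ Y, (EuclideanSpace.single l (1 : ℝ) : E n) i = 0 := by
    intro i hi
    have : i ≠ l := fun h => hl (h ▸ hi)
    simp [this]
  -- the profile does not depend on the coordinates in `Y`
  have hUY : ∀ a ∈ Y, ∀ x, pd a U x = 0 := by
    apply rd_zero (α := α) hUs hA hwU (m := 1) (S := Finset.univ.erase l)
      (v := fun _ => EuclideanSpace.single l 1) (by rw [hcard]; omega)
    · apply LinearIndependent.of_subsingleton 0
      intro h
      have h1 := congrArg (fun z : E n => z l) h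
      simp at h1
    · intro _ i hi
      have : i ≠ l := Finset.ne_of_mem_erase hi
      simp [this]
    · intro _ i hi
      exact hlY i hi
    · intro _ x
      simpa using lim_inv hU x 1
    · intro c
      obtain ⟨B, hB, hBc⟩ := triv (by omega) hY hpl hp hl hn hα0 hα3 hα2.le c
      have hM : (0 : ℝ) < n * ((n : ℝ) + 1) ^ 2 := by
        have : (0 : ℝ) < n := by
          rw [hn]; positivity
        positivity
      refine ⟨n * ((n : ℝ) + 1) ^ 2 * B, by positivity, fun N R hR1 hRN => ?_⟩
      have h5 : n - (Finset.univ.erase l).card = 1 := by rw [hcard]; omega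
      rw [h5, pow_one]
      have hbc : IsCompact (box c (sideS (Finset.univ.erase l) N R)) := box_compact _ _
      calc ∫ x in box c (sideS (Finset.univ.erase l) N R), q2 Y U x * wt Y α x
          ≤ ∫ x in box c (sideS (Finset.univ.erase l) N R),
              (n * ((n : ℝ) + 1) ^ 2) * wt Y α x := by
            apply setIntegral_mono_on
            · exact ((q2_cont Y hUs.1).mul (wt_cont Y α)).continuousOn.integrableOn_compact hbc
            · exact (continuous_const.mul (wt_cont Y α)).continuousOn.integrableOn_compact hbc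
            · exact hbc.measurableSet
            · intro x _
              exact mul_le_mul_of_nonneg_right ((q2_le_gr Y U x).trans (rd_gr_le hUs x))
                (wt_pos Y α x).le
        _ = (n * ((n : ℝ) + 1) ^ 2) * ∫ x in box c (sideS (Finset.univ.erase l) N R),
              wt Y α x := integral_const_mul _ _
        _ ≤ (n * ((n : ℝ) + 1) ^ 2) * (B * (N * R ^ 2)) :=
            mul_le_mul_of_nonneg_left (hBc N R hR1 hRN) hM.le
        _ = _ := by ring
  -- it depends on one coordinate
  have hUl : ∀ x, pd l U x = 0 := by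
    intro x
    have h1 : HasDerivAt (fun s : ℝ => U (x + s • EuclideanSpace.single l 1))
        (fderiv ℝ U (x + (0 : ℝ) • EuclideanSpace.single l 1) (EuclideanSpace.single l 1)) 0 := by
      have hd : HasFDerivAt U (fderiv ℝ U (x + (0 : ℝ) • EuclideanSpace.single l 1))
          (x + (0 : ℝ) • EuclideanSpace.single l 1) :=
        (hUs.1.differentiable (by norm_num)).differentiableAt.hasFDerivAt
      have hl2 : HasDerivAt (fun s : ℝ => x + s • (EuclideanSpace.single l 1 : E n))
          (EuclideanSpace.single l 1) 0 := by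
        simpa using ((hasDerivAt_id (0 : ℝ)).smul_const
          (EuclideanSpace.single l 1 : E n)).const_add x
      exact hd.comp_hasDerivAt 0 hl2
    have h2 : (fun s : ℝ => U (x + s • EuclideanSpace.single l 1)) = fun _ => U x :=
      funext fun s => lim_inv hU x s
    rw [h2] at h1
    have h3 := h1.unique (hasDerivAt_const (0 : ℝ) (U x))
    rw [zero_smul, add_zero] at h3
    exact h3
  have hone := zero_one (hUs.1.of_le (by norm_num)) p (fun i hi x => by
    by_cases hil : i = l
    · rw [hil]; exact hUl x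
    · exact hUY i (hcov i hi hil) x)
  have hin : ∀ x : E n, ⟪(EuclideanSpace.single p 1 : E n), x⟫_ℝ = x p := by
    intro x
    rw [EuclideanSpace.inner_single_left]
    simp
  have hf : ‖(EuclideanSpace.single p 1 : E n)‖ = 1 := by simp
  obtain ⟨h, hh⟩ : ∃ h : ℝ → ℝ, h = fun t => U (t • EuclideanSpace.single p 1) := ⟨_, rfl⟩
  have hhU : ∀ x, U x = h ⟪(EuclideanSpace.single p 1 : E n), x⟫_ℝ := by
    intro x
    rw [hin, hh]
    exact hone x
  obtain ⟨hh2, -, hb, hgr, -⟩ := ode hUs hf hhU
  have hode := oned (by omega) hUs hf hhU hstU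
  have henU : ∀ x : E n, en U x =
      (fun t => deriv h t ^ 2 / 2 + (1 - h t ^ 2) ^ 2 / 4) (x p) := by
    intro x
    show gr U x / 2 + (1 - U x ^ 2) ^ 2 / 4 = _
    rw [hgr, hhU, hin]
  have hφc : Continuous fun t => deriv h t ^ 2 / 2 + (1 - h t ^ 2) ^ 2 / 4 := by
    have h1 : Continuous (deriv h) := hh2.continuous_deriv (by norm_num)
    have h2 : Continuous h := hh2.continuous
    fun_prop
  obtain ⟨B0, hB0, hani⟩ := aniso (n := n) (k := k) (by omega) hY hp hn
  have henergy := hani _ _ _ hu he hU _ hφc (fun t => by positivity) henU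
    (fun a b hab => mono_energy hh2 hb hode hab)
  -- `u` does not depend on the coordinates in `Y`
  have huY : ∀ a ∈ Y, ∀ x, pd a u x = 0 := by
    apply rd_zero (α := α) hu hA hwu (m := 0) (S := Finset.univ)
      (v := fun j => j.elim0) (by simp)
    · exact linearIndependent_empty_type
    · intro j; exact j.elim0
    · intro j; exact j.elim0
    · intro j; exact j.elim0
    · intro c
      obtain ⟨B, hB, hBc⟩ := dyad hα2 (by omega) (f3_gr_cont hu.1) (f3_gr_nonneg u) hB0
        henergy c
      refine ⟨B, hB, fun N R hR1 hRN => ?_⟩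
      have h5 : sideS (Finset.univ : Finset (Fin n)) N R = fun _ => R := by
        funext i
        simp [sideS]
      have h6 : n - (Finset.univ : Finset (Fin n)).card = 0 := by simp
      rw [h5, h6, pow_zero, one_mul]
      refine le_trans ?_ (hBc R hR1)
      have hbc : IsCompact (box c (fun _ => R)) := box_compact _ _
      apply setIntegral_mono_on
      · exact ((q2_cont Y hu.1).mul (wt_cont Y α)).continuousOn.integrableOn_compact hbc
      · exact ((f3_gr_cont hu.1).mul (wt_cont Y α)).continuousOn.integrableOn_compact hbc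
      · exact hbc.measurableSet
      · intro x _
        exact mul_le_mul_of_nonneg_right (q2_le_gr Y u x) (wt_pos Y α x).le
  -- stage 1
  have hnk : n - 2 = k := by omega
  have hYn : Y.card = n - 2 := by omega
  refine periodic (by omega) hu he
    (v := fun j => EuclideanSpace.single ((Y.equivFinOfCardEq hYn).symm j : Fin n) 1) ?_ ?_
  · have h1 : LinearIndependent ℝ (EuclideanSpace.basisFun (Fin n) ℝ) :=
      (EuclideanSpace.basisFun (Fin n) ℝ).toBasis.linearIndependent
    have h3 := h1.comp (fun j : Fin (n - 2) => ((Y.equivFinOfCardEq hYn).symm j : Fin n))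
      (Subtype.val_injective.comp (Y.equivFinOfCardEq hYn).symm.injective)
    convert h3 using 1
    funext j
    simp
  · intro j x
    have h1 := zero_per (hu.1.of_le (by norm_num))
      (huY _ ((Y.equivFinOfCardEq hYn).symm j).2) x 1
    simpa using h1

end Vale.Agent.P134
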