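import Vale.Agent.P134.Grad

/-! # P134, module REG12: uniform bounds for first and second derivatives

`reg1`: `grad_est` with `M = 1`, `F = 1` (`|u³ - u| ≤ 1`).
`reg2`: `grad_est` for the difference quotient `w x = (u (x + h e_j) - u x) / h`, `h ≠ 0`:
`|w| ≤ n + 1` by the mean value theorem and `reg1`, `Δw = (F(u(x + h e_j)) - F(u x)) / h` with
`F s = s³ - s`, `|F'| ≤ 2` on `[-1, 1]`, so `|Δw| ≤ 2 (n + 1)`; let `h → 0` in
`pd i w x = (pd i u (x + h e_j) - pd i u x) / h`.
`lip_of_pd`: mean value inequality on the segment (`|D g y| ≤ ∑ i |y i| |pd i g| ≤ n B ‖y‖`). -/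

open MeasureTheory Set Filter Topology

namespace Vale.Agent.P134

private theorem REG12_opnorm {n : ℕ} (L : E n →L[ℝ] ℝ) {C : ℝ}
    (h : ∀ i : Fin n, |L (EuclideanSpace.single i (1 : ℝ))| ≤ C) : ‖L‖ ≤ n * C := by
  rcases Nat.eq_zero_or_pos n with h0 | h0
  · subst h0
    have : L = 0 := by
      ext v
      have hv : v = 0 := by
        ext i
        exact i.elim0
      rw [hv]
      simp
    rw [this]
    simp
  have hC : 0 ≤ C := (abs_nonneg _).trans (h ⟨0, h0⟩)
  refine ContinuousLinearMap.opNorm_le_bound _ (by positivity) fun v => ?_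
  have hv : v = ∑ i, v i • EuclideanSpace.single i (1 : ℝ) := by
    have := (EuclideanSpace.basisFun (Fin n) ℝ).sum_repr v
    simpa using this.symm
  have h1 : L v = ∑ i, v i • L (EuclideanSpace.single i (1 : ℝ)) := by
    conv_lhs => rw [hv]
    rw [map_sum]
    simp only [map_smul]
  rw [h1]
  refine (norm_sum_le _ _).trans ?_
  have h2 : ∀ i ∈ Finset.univ, ‖v i • L (EuclideanSpace.single i (1 : ℝ))‖ ≤ ‖v‖ * C := by
    intro i _
    rw [norm_smul]
    exact mul_le_mul (PiLp.norm_apply_le v i) (h i) (norm_nonneg _) (norm_nonneg _)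
  refine (Finset.sum_le_sum h2).trans ?_
  rw [Finset.sum_const, Finset.card_univ, Fintype.card_fin, nsmul_eq_mul]
  apply le_of_eq
  ring

theorem lip_of_pd {n : ℕ} {g : E n → ℝ} (hg : ContDiff ℝ 1 g) {B : ℝ}
    (hB : ∀ i x, |pd i g x| ≤ B) (x y : E n) : |g x - g y| ≤ n * B * ‖x - y‖ := by
  have h := Convex.norm_image_sub_le_of_norm_fderiv_le (𝕜 := ℝ) (f := g) (s := (Set.univ : Set (E n)))
    (C := n * B) (x := y) (y := x)
    (fun z _ => (hg.differentiable (by norm_num)) z)
    (fun z _ => REG12_opnorm _ fun i => hB i z) convex_univ (mem_univ _) (mem_univ _)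
  exact h

theorem reg1 (n : ℕ) {u : E n → ℝ} (hu : IsSol u) (i : Fin n) (x : E n) :
    |pd i u x| ≤ n + 1 := by
  have h := grad_est hu.1 (M := 1) (F := 1) hu.2.2 (fun x => by
    rw [hu.2.1 x]
    have h1 := abs_le.1 (hu.2.2 x)
    rw [abs_le]
    constructor <;> nlinarith [sq_nonneg (u x), sq_nonneg (u x - 1), sq_nonneg (u x + 1)]) i x
  linarith

private theorem REG12_pd_diff {n : ℕ} {f : E n → ℝ} (hf : Differentiable ℝ f) (c : ℝ) (a : E n)
    (i : Fin n) : pd i (fun x => c * (f (x + a) - f x)) =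
      fun x => c * (pd i f (x + a) - pd i f x) := by
  funext x
  unfold pd
  have h1 : HasFDerivAt (fun x => f (x + a)) (fderiv ℝ f (x + a)) x := by
    have := ((hf (x + a)).hasFDerivAt).comp x ((hasFDerivAt_id x).add_const a)
    rw [ContinuousLinearMap.comp_id] at this
    exact this
  have h2 := (h1.sub (hf x).hasFDerivAt).const_mul c
  have h3 : fderiv ℝ (fun x => c * (f (x + a) - f x)) x =
      c • (fderiv ℝ f (x + a) - fderiv ℝ f x) := h2.fderiv
  rw [h3]
  rfl

private theorem REG12_deriv {n : ℕ} {f : E n → ℝ} (hf : Differentiable ℝ f) (j : Fin n) (x : E n)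
    (t : ℝ) : HasDerivAt (fun t : ℝ => f (x + t • EuclideanSpace.single j (1 : ℝ)))
      (pd j f (x + t • EuclideanSpace.single j (1 : ℝ))) t := by
  have h1 : HasDerivAt (fun t : ℝ => x + t • EuclideanSpace.single j (1 : ℝ))
      (EuclideanSpace.single j (1 : ℝ)) t := by
    have := ((hasDerivAt_id t).smul_const (EuclideanSpace.single j (1 : ℝ))).const_add x
    rw [one_smul] at this
    exact this
  exact (hf _).hasFDerivAt.comp_hasDerivAt t h1

theorem reg2 (n : ℕ) : ∃ K : ℝ, 0 < K ∧ ∀ u : E n → ℝ, IsSol u → ∀ i j x,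
    |pd i (pd j u) x| ≤ K := by
  refine ⟨((n : ℝ) + 1) ^ 2, by positivity, fun u hu j i x => ?_⟩
  have hud : Differentiable ℝ u := hu.1.differentiable (by norm_num)
  have hpC : ∀ i, ContDiff ℝ 1 (pd i u) := by
    intro i
    have h1 : ContDiff ℝ 1 (fderiv ℝ u) := hu.1.fderiv_right (by norm_num)
    exact h1.clm_apply contDiff_const
  have hpd : ∀ i, Differentiable ℝ (pd i u) := fun i => (hpC i).differentiable (by norm_num)
  -- one dimensional bound
  have hone : ∀ (h : ℝ) (y : E n), |u (y + h • EuclideanSpace.single j (1 : ℝ)) - u y| ≤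
      ((n : ℝ) + 1) * |h| := by
    intro h y
    have h1 := Convex.norm_image_sub_le_of_norm_hasDerivWithin_le
      (f := fun t : ℝ => u (y + t • EuclideanSpace.single j (1 : ℝ)))
      (f' := fun t : ℝ => pd j u (y + t • EuclideanSpace.single j (1 : ℝ)))
      (s := (Set.univ : Set ℝ)) (C := (n : ℝ) + 1) (x := 0) (y := h)
      (fun t _ => (REG12_deriv hud j y t).hasDerivWithinAt)
      (fun t _ => reg1 n hu j _) convex_univ (mem_univ _) (mem_univ _)
    simpa using h1
  have hmain : ∀ h : ℝ, h ≠ 0 → |h⁻¹ * (pd i u (x + h • EuclideanSpace.single j (1 : ℝ)) -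
      pd i u x)| ≤ ((n : ℝ) + 1) ^ 2 := by
    intro h hh
    have hpos : 0 < |h| := abs_pos.2 hh
    set a : E n := h • EuclideanSpace.single j (1 : ℝ) with ha
    have hwC : ContDiff ℝ 2 (fun x => h⁻¹ * (u (x + a) - u x)) :=
      contDiff_const.mul ((hu.1.comp (contDiff_id.add contDiff_const)).sub hu.1)
    have hb : ∀ y, |h⁻¹ * (u (y + a) - u y)| ≤ (n : ℝ) + 1 := by
      intro y
      rw [abs_mul, abs_inv, inv_mul_le_iff₀ hpos, mul_comm |h|]
      exact hone h y
    have hlap : ∀ y, |∑ l, pd l (pd l (fun x => h⁻¹ * (u (x + a) - u x))) y| ≤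
        2 * ((n : ℝ) + 1) := by
      intro y
      have h1 : ∑ l, pd l (pd l (fun x => h⁻¹ * (u (x + a) - u x))) y =
          h⁻¹ * ((u (y + a) ^ 3 - u (y + a)) - (u y ^ 3 - u y)) := by
        rw [← hu.2.1 (y + a), ← hu.2.1 y, ← Finset.sum_sub_distrib, Finset.mul_sum]
        refine Finset.sum_congr rfl fun l _ => ?_
        rw [REG12_pd_diff hud h⁻¹ a l, REG12_pd_diff (hpd l) h⁻¹ a l]
      have h2 : h⁻¹ * ((u (y + a) ^ 3 - u (y + a)) - (u y ^ 3 - u y)) =
          (u (y + a) ^ 2 + u (y + a) * u y + u y ^ 2 - 1) * (h⁻¹ * (u (y + a) - u y)) := by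
        ring
      rw [h1, h2, abs_mul]
      refine mul_le_mul ?_ (hb y) (abs_nonneg _) (by norm_num)
      have h3 := abs_le.1 (hu.2.2 (y + a))
      have h4 := abs_le.1 (hu.2.2 y)
      rw [abs_le]
      constructor <;> nlinarith [sq_nonneg (u (y + a) + u y), sq_nonneg (u (y + a)),
        sq_nonneg (u y), sq_nonneg (u (y + a) - u y)]
    have h5 := grad_est hwC hb hlap i x
    rw [REG12_pd_diff hud h⁻¹ a i] at h5
    refine h5.trans (le_of_eq ?_)
    ring
  have hder := REG12_deriv (hpd i) j x 0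
  rw [zero_smul, add_zero] at hder
  rw [hasDerivAt_iff_tendsto_slope] at hder
  refine le_of_tendsto hder.abs ?_
  filter_upwards [self_mem_nhdsWithin] with h hh
  have h6 := hmain h hh
  rw [slope_def_module]
  simpa using h6

end Vale.Agent.P134
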