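import Vale.Agent.P134.Defs3
import Vale.Agent.P134.Reg3

/-! # P134, module ROTI: symmetry relations

`roti`: `u` is constant along the curve `θ ↦` (rotation by `θ` of the coordinates `a`, `b` of `x`);
differentiate at `θ = 0`.  `qlip`: `pd a u = 0` on `{rr = 0}` because
`u (x0 + t e_a) = u (x0 - t e_a)`; with `x0` = `x` with the coordinates of `Y` replaced by `0`,
`‖x - x0‖ = √(rr x)` and `|pd a u x| = |pd a u x - pd a u x0| ≤ n K ‖x - x0‖` (`reg2`,
`lip_of_pd`).  `radIn_lim`: limit of equalities.  `q2_cont`, `rr_cont`, `wt_cont`: continuity. -/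

open MeasureTheory Set Filter Topology

namespace Vale.Agent.P134

/-- the rotated point -/
noncomputable def ROTI_c {n : ℕ} (a b : Fin n) (x : E n) (θ : ℝ) : E n :=
  x + ((Real.cos θ - 1) • (x a • EuclideanSpace.single a (1 : ℝ) +
      x b • EuclideanSpace.single b (1 : ℝ)) +
    Real.sin θ • (x a • EuclideanSpace.single b (1 : ℝ) - x b • EuclideanSpace.single a (1 : ℝ)))

theorem ROTI_apply {n : ℕ} (a b : Fin n) (x : E n) (θ : ℝ) (i : Fin n) :
    ROTI_c a b x θ i = x i + ((Real.cos θ - 1) * (x a * (if i = a then 1 else 0) +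
      x b * (if i = b then 1 else 0)) + Real.sin θ * (x a * (if i = b then 1 else 0) -
        x b * (if i = a then 1 else 0))) := by
  unfold ROTI_c
  simp only [PiLp.add_apply, PiLp.smul_apply, PiLp.sub_apply, smul_eq_mul,
    PiLp.single_apply]

theorem ROTI_sum {n : ℕ} {Y : Finset (Fin n)} {a b : Fin n} (hab : a ≠ b) (ha : a ∈ Y)
    (hb : b ∈ Y) (x : E n) (θ : ℝ) :
    ∑ i ∈ Y, ROTI_c a b x θ i ^ 2 = ∑ i ∈ Y, x i ^ 2 := by
  have h1 : ∀ i ∈ Y, ROTI_c a b x θ i ^ 2 = x i ^ 2 +
      ((if i = a then (x a * Real.cos θ - x b * Real.sin θ) ^ 2 - x a ^ 2 else 0) +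
      (if i = b then (x b * Real.cos θ + x a * Real.sin θ) ^ 2 - x b ^ 2 else 0)) := by
    intro i _
    rw [ROTI_apply]
    by_cases h1 : i = a
    · subst h1
      rw [if_pos rfl, if_neg hab, if_pos rfl, if_neg hab]
      ring
    · by_cases h2 : i = b
      · subst h2
        rw [if_neg h1, if_pos rfl, if_neg h1, if_pos rfl]
        ring
      · rw [if_neg h1, if_neg h2, if_neg h1, if_neg h2]
        ring
  rw [Finset.sum_congr rfl h1, Finset.sum_add_distrib, Finset.sum_add_distrib,
    Finset.sum_ite_eq', Finset.sum_ite_eq', if_pos ha, if_pos hb]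
  have h2 := Real.sin_sq_add_cos_sq θ
  have h3 : (x a * Real.cos θ - x b * Real.sin θ) ^ 2 - x a ^ 2 +
      ((x b * Real.cos θ + x a * Real.sin θ) ^ 2 - x b ^ 2) =
      (x a ^ 2 + x b ^ 2) * (Real.sin θ ^ 2 + Real.cos θ ^ 2 - 1) := by ring
  rw [h3, h2]
  ring

theorem roti {n : ℕ} {Y : Finset (Fin n)} {u : E n → ℝ} (hu : ContDiff ℝ 2 u) (hR : RadIn Y u)
    {a b : Fin n} (ha : a ∈ Y) (hb : b ∈ Y) (x : E n) : x a * pd b u x = x b * pd a u x := by
  rcases eq_or_ne a b with hab | hab
  · subst hab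
    rfl
  · have h0 : ROTI_c a b x 0 = x := by
      unfold ROTI_c
      rw [Real.cos_zero, Real.sin_zero, sub_self, zero_smul, zero_smul, add_zero, add_zero]
    have hc : HasDerivAt (ROTI_c a b x)
        (x a • EuclideanSpace.single b (1 : ℝ) - x b • EuclideanSpace.single a (1 : ℝ)) 0 := by
      have h1 : HasDerivAt (fun θ : ℝ => (Real.cos θ - 1) •
          (x a • EuclideanSpace.single a (1 : ℝ) + x b • EuclideanSpace.single b (1 : ℝ)))
          ((-Real.sin 0) • (x a • EuclideanSpace.single a (1 : ℝ) +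
            x b • EuclideanSpace.single b (1 : ℝ))) 0 :=
        ((Real.hasDerivAt_cos 0).sub_const 1).smul_const _
      have h2 : HasDerivAt (fun θ : ℝ => Real.sin θ •
          (x a • EuclideanSpace.single b (1 : ℝ) - x b • EuclideanSpace.single a (1 : ℝ)))
          (Real.cos 0 • (x a • EuclideanSpace.single b (1 : ℝ) -
            x b • EuclideanSpace.single a (1 : ℝ))) 0 :=
        (Real.hasDerivAt_sin 0).smul_const _
      have h3 := (h1.add h2).const_add x
      rw [Real.sin_zero, Real.cos_zero, neg_zero, zero_smul, one_smul, zero_add] at h3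
      exact h3
    have hd : HasFDerivAt u (fderiv ℝ u x) (ROTI_c a b x 0) := by
      rw [h0]
      exact (hu.differentiable (by norm_num) x).hasFDerivAt
    have hcomp := hd.comp_hasDerivAt (0 : ℝ) hc
    have hconst : (u ∘ ROTI_c a b x) = fun _ => u x := by
      funext θ
      refine hR _ _ (fun i hi => ?_) (ROTI_sum hab ha hb x θ)
      have hia : i ≠ a := fun h => hi (by rw [h]; exact ha)
      have hib : i ≠ b := fun h => hi (by rw [h]; exact hb)
      rw [ROTI_apply, if_neg hia, if_neg hib]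
      ring
    rw [hconst] at hcomp
    have h4 := hcomp.unique (hasDerivAt_const (0 : ℝ) (u x))
    rw [map_sub, map_smul, map_smul, smul_eq_mul, smul_eq_mul] at h4
    unfold pd
    linarith

end Vale.Agent.P134
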