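import Vale.Agent.P134.Ibp
import Vale.Agent.P134.LimReg
import Vale.Agent.P134.Defs2

/-! # P134, module SLIDE: the sliding argument

`e(t) = ∫ η en (u (· + t e))` has derivative `∫ η (∇u·∇w + (u³ - u) w) = - ∫ w ∇u·∇η` at the
translates (`w = dd e u`; integrate by parts, `dd_pd` symmetry of second derivatives), which is
`≥ - K ∫ w ∑ |pd i η|`, and `∫_0^T w (x + t e) dt = u (x + T e) - u x ≤ 2`.  So
`∫ η en u ≤ ∫ η en (u (· + T e)) + 2 (n + 1) ∫ ∑ |pd i η|`; let `T → ∞` (dominated convergence,
`lim_reg`). -/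

open MeasureTheory Set Filter Topology

namespace Vale.Agent.P134

theorem slide_dd_contDiff {n : ℕ} {F : E n → ℝ} (hF : ContDiff ℝ 2 F) (e : E n) :
    ContDiff ℝ 1 (dd e F) := by
  unfold dd
  exact (hF.fderiv_right (m := 1) (by norm_num)).clm_apply contDiff_const

theorem slide_dd_cont {n : ℕ} {F : E n → ℝ} (hF : ContDiff ℝ 1 F) (e : E n) :
    Continuous (dd e F) :=
  (hF.continuous_fderiv one_ne_zero).clm_apply continuous_const

theorem slide_pd_eq {n : ℕ} (i : Fin n) (F : E n → ℝ) :
    pd i F = dd (EuclideanSpace.single i 1) F := rfl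

theorem slide_symm {n : ℕ} {F : E n → ℝ} (hF : ContDiff ℝ 2 F) (a b : E n) (x : E n) :
    dd a (dd b F) x = dd b (dd a F) x := by
  have h1 : ∀ c d : E n, dd c (dd d F) x = fderiv ℝ (fderiv ℝ F) x c d := by
    intro c d
    have hd : DifferentiableAt ℝ (fderiv ℝ F) x :=
      (hF.fderiv_right (m := 1) (by norm_num)).differentiable one_ne_zero x
    show fderiv ℝ (fun y => fderiv ℝ F y d) x c = _
    rw [fderiv_clm_apply hd (differentiableAt_const d)]
    simp
  rw [h1, h1]
  exact (hF.contDiffAt.isSymmSndFDerivAt (by simp)) a b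

theorem slide_shift {n : ℕ} (F : E n → ℝ) (a e x : E n) :
    dd e (fun y => F (y + a)) x = dd e F (x + a) := by
  unfold dd
  rw [fderiv_comp_add_right]

theorem slide_deriv {n : ℕ} {η F : E n → ℝ} (hη : Continuous η) (hs : HasCompactSupport η)
    (hF : ContDiff ℝ 1 F) (e : E n) (t : ℝ) :
    HasDerivAt (fun t : ℝ => ∫ x, η x * F (x + t • e)) (∫ x, η x * dd e F (x + t • e)) t := by
  have hcd : Continuous (dd e F) := slide_dd_cont hF e
  have hc : Continuous (fun p : ℝ × E n => dd e F (p.2 + p.1 • e)) :=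
    hcd.comp (continuous_snd.add (continuous_fst.smul continuous_const))
  have hK : IsCompact (Metric.closedBall t 1 ×ˢ tsupport η) :=
    (isCompact_closedBall t 1).prod hs
  obtain ⟨C, hC⟩ := hK.exists_bound_of_continuousOn hc.continuousOn
  have hcx : ∀ s : ℝ, Continuous fun x : E n => x + s • e := fun s =>
    continuous_id.add continuous_const
  have hcF : ∀ s : ℝ, Continuous fun x : E n => η x * F (x + s • e) := fun s =>
    hη.mul (hF.continuous.comp (hcx s))
  have hcF' : ∀ s : ℝ, Continuous fun x : E n => η x * dd e F (x + s • e) := fun s =>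
    hη.mul (hcd.comp (hcx s))
  refine (hasDerivAt_integral_of_dominated_loc_of_deriv_le (s := Metric.ball t 1)
    (bound := fun x => ‖η x‖ * C) (F' := fun s x => η x * dd e F (x + s • e))
    (Metric.ball_mem_nhds t one_pos) (Eventually.of_forall fun s => (hcF s).aestronglyMeasurable)
    ((hcF t).integrable_of_hasCompactSupport hs.mul_right) (hcF' t).aestronglyMeasurable
    (Eventually.of_forall fun x s hs' => ?_)
    ((hη.norm.mul continuous_const).integrable_of_hasCompactSupport (hs.norm.mul_right))
    (Eventually.of_forall fun x s _ => ?_)).2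
  · by_cases hx : x ∈ tsupport η
    · rw [norm_mul]
      exact mul_le_mul_of_nonneg_left (hC (s, x) ⟨Metric.ball_subset_closedBall hs', hx⟩)
        (norm_nonneg _)
    · rw [image_eq_zero_of_notMem_tsupport hx]
      simp
  · have h1 : HasDerivAt (fun s : ℝ => x + s • e) e s := by
      have := ((hasDerivAt_id s).smul_const e).const_add x
      simpa using this
    have h2 : HasFDerivAt F (fderiv ℝ F (x + s • e)) (x + s • e) :=
      (hF.differentiable one_ne_zero _).hasFDerivAt
    exact (h2.comp_hasDerivAt s h1).const_mul (η x)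

theorem slide_gr_contDiff {n : ℕ} {v : E n → ℝ} (hv : ContDiff ℝ 2 v) :
    ContDiff ℝ 1 (gr v) := by
  unfold gr
  exact ContDiff.sum fun j _ => (slide_dd_contDiff hv _).pow 2

theorem slide_en_contDiff {n : ℕ} {v : E n → ℝ} (hv : ContDiff ℝ 2 v) :
    ContDiff ℝ 1 (en v) := by
  have h1 : ContDiff ℝ 1 v := hv.of_le (by norm_num)
  unfold en
  exact ((slide_gr_contDiff hv).div_const 2).add
    (((contDiff_const.sub (h1.pow 2)).pow 2).div_const 4)

theorem slide_en_dd {n : ℕ} {v : E n → ℝ} (hv : ContDiff ℝ 2 v) (e x : E n) :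
    dd e (en v) x = ∑ j, pd j v x * pd j (dd e v) x + (v x ^ 3 - v x) * dd e v x := by
  have hd : HasFDerivAt v (fderiv ℝ v x) x :=
    ((hv.differentiable (by norm_num)) x).hasFDerivAt
  have hj : ∀ j, HasFDerivAt (pd j v) (fderiv ℝ (pd j v) x) x := fun j =>
    ((slide_dd_contDiff hv _).differentiable one_ne_zero x).hasFDerivAt
  have h1 : HasFDerivAt (gr v) (∑ j, (2 * pd j v x) • fderiv ℝ (pd j v) x) x := by
    unfold gr
    refine HasFDerivAt.fun_sum fun j _ => ?_
    have := (hj j).pow 2
    simpa using this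
  have h2 : HasFDerivAt (fun y => (1 - v y ^ 2) ^ 2)
      ((2 * (1 - v x ^ 2)) • (-((2 * v x) • fderiv ℝ v x))) x := by
    have h3 : HasFDerivAt (fun y => 1 - v y ^ 2) (-((2 * v x) • fderiv ℝ v x)) x := by
      have := (hd.pow 2).const_sub 1
      simpa using this
    have := h3.pow 2
    simpa using this
  have h4 := (h1.mul_const (1 / 2 : ℝ)).add (h2.mul_const (1 / 4 : ℝ))
  have h5 : en v = (fun y => gr v y * (1 / 2)) + fun y => (1 - v y ^ 2) ^ 2 * (1 / 4) := by
    funext y
    simp only [en, Pi.add_apply]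
    ring
  unfold dd
  rw [h5, h4.fderiv]
  simp only [add_apply, smul_apply, sum_apply, neg_apply, smul_eq_mul]
  rw [Finset.mul_sum]
  have h6 : ∀ j, fderiv ℝ (pd j v) x e = pd j (dd e v) x := fun j =>
    slide_symm hv e (EuclideanSpace.single j 1) x
  simp only [h6]
  have h7 : ∀ j, 1 / 2 * (2 * pd j v x * pd j (dd e v) x) = pd j v x * pd j (dd e v) x :=
    fun j => by ring
  simp only [h7]
  unfold dd
  ring

theorem slide_key {n : ℕ} {v η : E n → ℝ} (hv : IsSol v) (e : E n) (hη : ContDiff ℝ 1 η)
    (hs : HasCompactSupport η) :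
    ∫ x, η x * dd e (en v) x = - ∫ x, dd e v x * ∑ j, pd j η x * pd j v x := by
  obtain ⟨h2, heq, -⟩ := hv
  have hw : ContDiff ℝ 1 (dd e v) := slide_dd_contDiff h2 e
  have hwc := hw.continuous
  have hvj : ∀ j, ContDiff ℝ 1 (pd j v) := fun j => slide_dd_contDiff h2 _
  have hvc : Continuous v := h2.continuous
  have hηj : ∀ j, Continuous (pd j η) := fun j => slide_dd_cont hη _
  have hηs : ∀ j, HasCompactSupport (pd j η) := fun j => hs.fderiv_apply (𝕜 := ℝ) _
  -- integrate by parts in every direction
  have hI : ∀ j, ∫ x, pd j (dd e v) x * (η x * pd j v x) =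
      -((∫ x, dd e v x * (pd j η x * pd j v x)) + ∫ x, η x * (dd e v x * pd j (pd j v) x)) := by
    intro j
    have h := ibp (f := dd e v) (g := fun x => η x * pd j v x) hw (hη.mul (hvj j))
      hs.mul_right (EuclideanSpace.single j 1)
    have hg : ∀ x, dd (EuclideanSpace.single j 1) (fun x => η x * pd j v x) x =
        pd j η x * pd j v x + η x * pd j (pd j v) x := by
      intro x
      show fderiv ℝ (fun x => η x * pd j v x) x (EuclideanSpace.single j 1) = _
      rw [fderiv_fun_mul (hη.differentiable one_ne_zero x) ((hvj j).differentiable one_ne_zero x)]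
      simp only [add_apply, smul_apply, smul_eq_mul]
      unfold pd
      ring
    simp only [hg] at h
    change ∫ x, pd j (dd e v) x * (η x * pd j v x) = _ at h
    rw [h]
    congr 1
    rw [← integral_add]
    · refine integral_congr_ae (Eventually.of_forall fun x => ?_)
      show _ = _
      ring
    · exact (hwc.mul ((hηj j).mul (hvj j).continuous)).integrable_of_hasCompactSupport
        ((hηs j).mul_right).mul_left
    · exact (hη.continuous.mul (hwc.mul (slide_dd_cont (hvj j) _))).integrable_of_hasCompactSupport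
        hs.mul_right
  have e1 : ∀ x, η x * dd e (en v) x = (∑ j, pd j (dd e v) x * (η x * pd j v x)) +
      η x * (dd e v x * (v x ^ 3 - v x)) := by
    intro x
    rw [slide_en_dd h2, mul_add, Finset.mul_sum]
    congr 1
    · exact Finset.sum_congr rfl fun j _ => by ring
    · ring
  have i1 : ∀ j, Integrable fun x => pd j (dd e v) x * (η x * pd j v x) := fun j =>
    ((slide_dd_cont hw _).mul (hη.continuous.mul (hvj j).continuous)).integrable_of_hasCompactSupport
      (hs.mul_right).mul_left
  have i2 : Integrable fun x => η x * (dd e v x * (v x ^ 3 - v x)) :=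
    (hη.continuous.mul (hwc.mul ((hvc.pow 3).sub hvc))).integrable_of_hasCompactSupport hs.mul_right
  simp only [e1]
  rw [integral_add (integrable_finset_sum _ fun j _ => i1 j) i2,
    integral_finset_sum _ fun j _ => i1 j]
  simp only [hI]
  have i3 : ∀ j, Integrable fun x => dd e v x * (pd j η x * pd j v x) := fun j =>
    (hwc.mul ((hηj j).mul (hvj j).continuous)).integrable_of_hasCompactSupport
      ((hηs j).mul_right).mul_left
  have i4 : ∀ j, Integrable fun x => η x * (dd e v x * pd j (pd j v) x) := fun j =>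
    (hη.continuous.mul (hwc.mul (slide_dd_cont (hvj j) _))).integrable_of_hasCompactSupport
      hs.mul_right
  rw [Finset.sum_neg_distrib, Finset.sum_add_distrib, ← integral_finset_sum _ fun j _ => i3 j,
    ← integral_finset_sum _ fun j _ => i4 j]
  have e2 : ∀ x, ∑ j, η x * (dd e v x * pd j (pd j v) x) =
      η x * (dd e v x * (v x ^ 3 - v x)) := by
    intro x
    rw [← heq x, Finset.mul_sum, Finset.mul_sum]
  have e3 : ∀ x, ∑ j, dd e v x * (pd j η x * pd j v x) =
      dd e v x * ∑ j, pd j η x * pd j v x := fun x => by rw [Finset.mul_sum]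
  simp only [e2, e3]
  ring

theorem slide_isSol {n : ℕ} {u : E n → ℝ} (hu : IsSol u) (a : E n) :
    IsSol (fun x => u (x + a)) := by
  obtain ⟨h1, h2, h3⟩ := hu
  refine ⟨h1.comp (contDiff_id.add contDiff_const), fun x => ?_, fun x => h3 _⟩
  have e1 : ∀ i, pd i (fun x => u (x + a)) = fun x => pd i u (x + a) := fun i => by
    funext x
    exact slide_shift u a _ x
  have e2 : ∀ i, pd i (pd i (fun x => u (x + a))) x = pd i (pd i u) (x + a) := fun i => by
    rw [e1]
    exact slide_shift (pd i u) a _ x
  simp only [e2]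
  exact h2 _

theorem slideT {n : ℕ} {u η : E n → ℝ} (hu : IsSol u) {e : E n} (he : ∀ x, 0 < dd e u x)
    (hη : ContDiff ℝ 1 η) (hs : HasCompactSupport η) {T : ℝ} (hT : 0 ≤ T) :
    ∫ x, η x * en u x ≤ (∫ x, η x * en u (x + T • e)) +
      2 * ((n : ℝ) + 1) * ∫ x, ∑ i, |pd i η x| := by
  have h2 := hu.1
  have hηc := hη.continuous
  have hηj : ∀ j, Continuous (pd j η) := fun j => slide_dd_cont hη _
  have hηs : ∀ j, HasCompactSupport (pd j η) := fun j => hs.fderiv_apply (𝕜 := ℝ) _
  set Ψ : E n → ℝ := fun x => ∑ i, |pd i η x| with hΨ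
  have hΨc : Continuous Ψ := continuous_finset_sum _ fun i _ => (hηj i).abs
  have hΨ0 : ∀ x, 0 ≤ Ψ x := fun x => Finset.sum_nonneg fun i _ => abs_nonneg _
  have hΨs : HasCompactSupport Ψ := by
    refine HasCompactSupport.intro hs fun x hx => ?_
    rw [hΨ]
    refine Finset.sum_eq_zero fun i _ => ?_
    have : pd i η x = 0 := by
      unfold pd
      have h := image_eq_zero_of_notMem_tsupport (f := fderiv ℝ η)
        (fun h => hx (tsupport_fderiv_subset ℝ h))
      rw [h]
      rfl
    rw [this, abs_zero]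
  have hu1 : ContDiff ℝ 1 u := h2.of_le (by norm_num)
  set g : ℝ → ℝ := fun t => (∫ x, η x * en u (x + t • e)) +
    ((n : ℝ) + 1) * ∫ x, Ψ x * u (x + t • e) with hg
  have hgd : ∀ t : ℝ, HasDerivAt g ((∫ x, η x * dd e (en u) (x + t • e)) +
      ((n : ℝ) + 1) * ∫ x, Ψ x * dd e u (x + t • e)) t := fun t =>
    (slide_deriv hηc hs (slide_en_contDiff h2) e t).add
      ((slide_deriv hΨc hΨs hu1 e t).const_mul _)
  have hpos : ∀ t : ℝ, 0 ≤ (∫ x, η x * dd e (en u) (x + t • e)) +
      ((n : ℝ) + 1) * ∫ x, Ψ x * dd e u (x + t • e) := by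
    intro t
    set v : E n → ℝ := fun x => u (x + t • e) with hv
    have hvs : IsSol v := slide_isSol hu _
    have e1 : ∀ x, dd e (en u) (x + t • e) = dd e (en v) x := by
      intro x
      have h0 : en v = fun y : E n => en u (y + t • e) := by
        funext y
        have h3 : ∀ j, pd j v y = pd j u (y + t • e) := fun j => slide_shift u (t • e) _ y
        have h4 : gr v y = gr u (y + t • e) := by
          unfold gr
          exact Finset.sum_congr rfl fun j _ => by rw [h3]
        show gr v y / 2 + (1 - v y ^ 2) ^ 2 / 4 = _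
        rw [h4]
        rfl
      rw [h0, slide_shift]
    have e2 : ∀ x, dd e u (x + t • e) = dd e v x := fun x =>
      (slide_shift u (t • e) e x).symm
    simp only [e1, e2]
    rw [slide_key hvs e hη hs]
    have hwc : Continuous (dd e v) := (slide_dd_contDiff hvs.1 e).continuous
    have i1 : Integrable fun x => Ψ x * dd e v x :=
      (hΨc.mul hwc).integrable_of_hasCompactSupport hΨs.mul_right
    have i2 : Integrable fun x => dd e v x * ∑ j, pd j η x * pd j v x := by
      refine Continuous.integrable_of_hasCompactSupport (hwc.mul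
        (continuous_finset_sum _ fun j _ => (hηj j).mul (slide_dd_cont (hvs.1.of_le (by norm_num)) _)))
        ?_
      refine HasCompactSupport.intro hs fun x hx => ?_
      have : ∀ i, pd i η x = 0 := by
        intro i
        unfold pd
        have h := image_eq_zero_of_notMem_tsupport (f := fderiv ℝ η)
          (fun h => hx (tsupport_fderiv_subset ℝ h))
        rw [h]
        rfl
      simp [this]
    rw [← integral_const_mul, ← sub_eq_neg_add, ← integral_sub (i1.const_mul _) i2]
    refine integral_nonneg fun x => ?_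
    show 0 ≤ ((n : ℝ) + 1) * (Ψ x * dd e v x) - dd e v x * ∑ j, pd j η x * pd j v x
    have h5 : ∑ j, pd j η x * pd j v x ≤ ((n : ℝ) + 1) * Ψ x := by
      rw [hΨ, Finset.mul_sum]
      refine Finset.sum_le_sum fun j _ => ?_
      have h6 := reg1 n hvs j x
      calc pd j η x * pd j v x ≤ |pd j η x * pd j v x| := le_abs_self _
        _ = |pd j v x| * |pd j η x| := by rw [abs_mul, mul_comm]
        _ ≤ ((n : ℝ) + 1) * |pd j η x| := mul_le_mul_of_nonneg_right h6 (abs_nonneg _)
    have h7 : 0 ≤ dd e v x := by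
      rw [← e2]
      exact (he _).le
    nlinarith
  have hmono : Monotone g := by
    refine monotone_of_deriv_nonneg (fun t => (hgd t).differentiableAt) fun t => ?_
    rw [(hgd t).deriv]
    exact hpos t
  have h8 := hmono hT
  simp only [hg, zero_smul, add_zero] at h8
  have i3 : ∀ s : ℝ, Integrable fun x => Ψ x * u (x + s • e) := fun s =>
    (hΨc.mul (h2.continuous.comp (continuous_id.add continuous_const))).integrable_of_hasCompactSupport
      hΨs.mul_right
  have i0 : Integrable Ψ := hΨc.integrable_of_hasCompactSupport hΨs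
  have h9 : (∫ x, Ψ x * u (x + T • e)) - ∫ x, Ψ x * u x ≤ 2 * ∫ x, Ψ x := by
    have i4 : Integrable fun x => Ψ x * u x := by
      have := i3 0
      simpa using this
    rw [← integral_sub (i3 T) i4, ← integral_const_mul]
    refine integral_mono ((i3 T).sub i4) (i0.const_mul 2) fun x => ?_
    show Ψ x * u (x + T • e) - Ψ x * u x ≤ 2 * Ψ x
    have h10 := abs_le.1 (hu.2.2 x)
    have h11 := abs_le.1 (hu.2.2 (x + T • e))
    nlinarith [hΨ0 x]
  have hn : (0 : ℝ) ≤ (n : ℝ) + 1 := by positivity
  have h12 := mul_le_mul_of_nonneg_left h9 hn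
  nlinarith

theorem slide {n : ℕ} {u U η : E n → ℝ} (hu : IsSol u) {e : E n} (he : ∀ x, 0 < dd e u x)
    (hU : IsLim u e U) (hη : ContDiff ℝ 1 η) (hs : HasCompactSupport η) :
    ∫ x, η x * en u x ≤ (∫ x, η x * en U x) +
      2 * ((n : ℝ) + 1) * ∫ x, ∑ i, |pd i η x| := by
  obtain ⟨-, hl, -⟩ := lim_reg hu hU
  have hηc := hη.continuous
  have hec : Continuous (en u) := (slide_en_contDiff hu.1).continuous
  have hbd : ∀ y, |en u y| ≤ (n : ℝ) * ((n : ℝ) + 1) ^ 2 + 1 := by
    intro y
    have h1 : gr u y ≤ (n : ℝ) * ((n : ℝ) + 1) ^ 2 := by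
      unfold gr
      calc ∑ j, pd j u y ^ 2 ≤ ∑ _j : Fin n, ((n : ℝ) + 1) ^ 2 := by
            refine Finset.sum_le_sum fun j _ => ?_
            have := reg1 n hu j y
            exact sq_le_sq' (by linarith [(abs_le.1 this).1]) (abs_le.1 this).2
        _ = _ := by simp
    have h0 : 0 ≤ gr u y := Finset.sum_nonneg fun j _ => sq_nonneg _
    have h3 := abs_le.1 (hu.2.2 y)
    have h4 : u y ^ 2 ≤ 1 := by nlinarith
    have h5 : (1 - u y ^ 2) ^ 2 ≤ 1 := by nlinarith [sq_nonneg (u y)]
    have h6 : 0 ≤ (1 - u y ^ 2) ^ 2 := sq_nonneg _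
    unfold en
    rw [abs_of_nonneg (by positivity)]
    linarith
  have hlim : Tendsto (fun T : ℝ => ∫ x, η x * en u (x + T • e)) atTop
      (𝓝 (∫ x, η x * en U x)) := by
    refine tendsto_integral_filter_of_dominated_convergence
      (fun x => ‖η x‖ * ((n : ℝ) * ((n : ℝ) + 1) ^ 2 + 1)) ?_ ?_ ?_ ?_
    · exact Eventually.of_forall fun T =>
        (hηc.mul (hec.comp (continuous_id.add continuous_const))).aestronglyMeasurable
    · refine Eventually.of_forall fun T => Eventually.of_forall fun x => ?_
      rw [norm_mul]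
      exact mul_le_mul_of_nonneg_left (hbd _) (norm_nonneg _)
    · exact (hηc.norm.mul continuous_const).integrable_of_hasCompactSupport hs.norm.mul_right
    · refine Eventually.of_forall fun x => ?_
      refine Tendsto.const_mul _ ?_
      unfold en gr
      refine Tendsto.add (Tendsto.div_const (tendsto_finsetSum _ fun j _ => (hl j x).pow 2) 2) ?_
      exact Tendsto.div_const (((hU x).pow 2).const_sub 1 |>.pow 2) 4
  have h := hlim.add_const (2 * ((n : ℝ) + 1) * ∫ x, ∑ i, |pd i η x|)
  refine ge_of_tendsto h ?_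
  filter_upwards [eventually_ge_atTop (0 : ℝ)] with T hT
  exact slideT hu he hη hs hT

end Vale.Agent.P134
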