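import Vale.Agent.P134.Ibp

/-! # P134, module WEAK: weak form of the equation

Sum over `i` of `ibp` for `f = pd i u` (which is `C^1`), `g = φ`, `e = single i 1`
(`pd i f = dd (single i 1) f` by `rfl`). -/

open MeasureTheory Set Filter Topology

namespace Vale.Agent.P134

theorem weak {n : ℕ} {u φ : E n → ℝ} (hu : IsSol u) (hφ : ContDiff ℝ 1 φ)
    (hs : HasCompactSupport φ) :
    ∫ x, ∑ i, pd i u x * pd i φ x = - ∫ x, (u x ^ 3 - u x) * φ x := by
  have hui : ∀ i : Fin n, ContDiff ℝ 1 (pd i u) := fun i =>
    (hu.1.fderiv_right (m := 1) (by norm_num)).clm_apply contDiff_const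
  have hφi : ∀ i : Fin n, Continuous (pd i φ) := fun i =>
    (hφ.continuous_fderiv one_ne_zero).clm_apply continuous_const
  have hφs : ∀ i : Fin n, HasCompactSupport (pd i φ) := fun i =>
    hs.fderiv_apply ℝ (EuclideanSpace.single i 1)
  have huii : ∀ i : Fin n, Continuous (pd i (pd i u)) := fun i =>
    ((hui i).continuous_fderiv one_ne_zero).clm_apply continuous_const
  have h1 : ∀ i : Fin n, ∫ x, pd i u x * pd i φ x = - ∫ x, pd i (pd i u) x * φ x := by
    intro i
    have h := ibp (hui i) hφ hs (EuclideanSpace.single i (1 : ℝ))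
    have h' : ∫ x, pd i (pd i u) x * φ x = - ∫ x, pd i u x * pd i φ x := h
    rw [h', neg_neg]
  rw [integral_finset_sum]
  · simp only [h1]
    rw [Finset.sum_neg_distrib, ← integral_finset_sum]
    · congr 1
      refine integral_congr_ae (Eventually.of_forall fun x => ?_)
      show ∑ i, pd i (pd i u) x * φ x = (u x ^ 3 - u x) * φ x
      rw [← Finset.sum_mul, hu.2.1 x]
    · intro i _
      exact ((huii i).mul hφ.continuous).integrable_of_hasCompactSupport hs.mul_left
  · intro i _
    exact ((hui i).continuous.mul (hφi i)).integrable_of_hasCompactSupport (hφs i).mul_left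

end Vale.Agent.P134
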